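import Vale.Agent.P146.PG

namespace Vale.Agent.P146

open MeasureTheory ProbabilityTheory Matrix Real Finset Filter Topology
open P150 (gm spin Cfg)

variable {ι : Type} [Fintype ι] [DecidableEq ι] {J : Type} [Fintype J] {n : ℕ} {β : ℝ}

lemma al_pd_add {f g : (ι → ℝ) → ℝ} (hf : Differentiable ℝ f) (hg : Differentiable ℝ g) (e : ι)
    (x : ι → ℝ) : pd e (fun x => f x + g x) x = pd e f x + pd e g x := by
  unfold pd
  rw [fderiv_fun_add (hf x) (hg x)]
  rfl

lemma al_pd_mul {f g : (ι → ℝ) → ℝ} (hf : Differentiable ℝ f) (hg : Differentiable ℝ g) (e : ι)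
    (x : ι → ℝ) : pd e (fun x => f x * g x) x = f x * pd e g x + g x * pd e f x := by
  unfold pd
  rw [fderiv_fun_mul (hf x) (hg x)]
  rfl

lemma al_pd_exp {f : (ι → ℝ) → ℝ} (hf : Differentiable ℝ f) (e : ι)
    (x : ι → ℝ) : pd e (fun x => exp (f x)) x = exp (f x) * pd e f x := by
  unfold pd
  rw [((hf x).hasFDerivAt.exp).fderiv]
  rfl

lemma al_pd_sum {κ : Type} (s : Finset κ) {f : κ → (ι → ℝ) → ℝ}
    (hf : ∀ i, Differentiable ℝ (f i)) (e : ι) (x : ι → ℝ) :
    pd e (fun x => ∑ i ∈ s, f i x) x = ∑ i ∈ s, pd e (f i) x := by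
  unfold pd
  rw [fderiv_fun_sum fun i _ => hf i x, ContinuousLinearMap.sum_apply]

lemma al_pd_const (c : ℝ) (e : ι) (x : ι → ℝ) : pd e (fun _ : ι → ℝ => c) x = 0 := by
  unfold pd
  rw [fderiv_fun_const]
  rfl

lemma al_pd_coord (e' e : ι) (x : ι → ℝ) :
    pd e (fun x : ι → ℝ => x e') x = (Pi.single e 1 : ι → ℝ) e' := by
  unfold pd
  rw [(hasFDerivAt_apply (𝕜 := ℝ) e' x).fderiv]
  rfl

lemma al_hm_diff (v : Fin n → ℝ) : Differentiable ℝ fun x : Om n => Hm β x v := by
  unfold Hm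
  fun_prop

lemma al_pd_hm (v : Fin n → ℝ) (e : Fin n × Fin n) (x : Om n) :
    pd e (fun x : Om n => Hm β x v) x = ep β v v e := by
  unfold Hm
  rw [al_pd_sum univ (f := fun e' (x : Om n) => x e' * ep β v v e') (fun _ => by fun_prop)]
  have : ∀ e', pd e (fun x : Om n => x e' * ep β v v e') x
      = ep β v v e' * (Pi.single e 1 : Om n) e' := fun e' => by
    rw [al_pd_mul (f := fun x : Om n => x e') (g := fun _ => ep β v v e') (by fun_prop)
      (by fun_prop), al_pd_const, al_pd_coord, mul_zero, zero_add]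
  simp only [this]
  rw [Finset.sum_eq_single e (fun e' _ h => by rw [Pi.single_eq_of_ne h, mul_zero]) (by simp)]
  simp

lemma al_Z_pos (x : Om n) : 0 < Zf β x :=
  Finset.sum_pos (fun _ _ => exp_pos _) Finset.univ_nonempty

lemma al_Z_diff : Differentiable ℝ fun x : Om n => Zf β x := by
  unfold Zf
  exact Differentiable.fun_sum fun τ _ => (al_hm_diff _).exp

lemma al_pd_Z (e : Fin n × Fin n) (x : Om n) : pd e (fun x : Om n => Zf β x) x
    = Zf β x * av β x fun τ => ep β (sp τ) (sp τ) e := by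
  have h := al_pd_sum (univ : Finset (Cfg n)) (f := fun τ (x : Om n) => exp (Hm β x (sp τ)))
    (fun τ => (al_hm_diff _).exp) e x
  refine h.trans ?_
  unfold av
  rw [Finset.mul_sum]
  refine Finset.sum_congr rfl fun τ _ => ?_
  rw [al_pd_exp (al_hm_diff _), al_pd_hm, gw]
  have := (al_Z_pos (β := β) x).ne'
  field_simp

theorem gw_pos (x : Om n) (σ : Cfg n) : 0 < gw β x σ := div_pos (exp_pos _) (al_Z_pos x)
theorem gw_sum (x : Om n) : ∑ σ, gw β x σ = 1 := by
  unfold gw
  rw [← Finset.sum_div]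
  exact div_self (al_Z_pos x).ne'
theorem gw_diff (σ : Cfg n) : Differentiable ℝ fun x : Om n => gw β x σ := by
  unfold gw
  simp only [div_eq_mul_inv]
  exact (al_hm_diff _).exp.fun_mul (al_Z_diff.fun_inv fun x => (al_Z_pos x).ne')
theorem pd_gw (σ : Cfg n) (e : Fin n × Fin n) (x : Om n) : pd e (fun x => gw β x σ) x =
    gw β x σ * (ep β (sp σ) (sp σ) e - av β x fun τ => ep β (sp τ) (sp τ) e) := by
  have h0 : ∀ x : Om n, exp (Hm β x (sp σ)) = gw β x σ * Zf β x := fun x =>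
    (div_mul_cancel₀ _ (al_Z_pos x).ne').symm
  have h1 := al_pd_mul (gw_diff (β := β) σ) (al_Z_diff (β := β)) e x
  have h2 := al_pd_exp (al_hm_diff (β := β) (sp σ)) e x
  simp only [h0] at h2
  rw [h1, al_pd_Z, al_pd_hm] at h2
  refine mul_left_cancel₀ (al_Z_pos (β := β) x).ne' ?_
  linear_combination h2
theorem Al.sum {κ : Type} (s : Finset κ) {f : κ → Om n → ℝ} (h : ∀ i ∈ s, Al β (f i)) :
    Al β fun x => ∑ i ∈ s, f i x := by
  classical
  induction s using Finset.induction_on with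
  | empty => simpa using Al.const 0
  | insert a s ha ih =>
    simp only [Finset.sum_insert ha]
    exact (h a (by simp)).add (ih fun i hi => h i (by simp [hi]))
theorem Al.prod {κ : Type} (s : Finset κ) {f : κ → Om n → ℝ} (h : ∀ i ∈ s, Al β (f i)) :
    Al β fun x => ∏ i ∈ s, f i x := by
  classical
  induction s using Finset.induction_on with
  | empty => simpa using Al.const 1
  | insert a s ha ih =>
    simp only [Finset.prod_insert ha]
    exact (h a (by simp)).mul (ih fun i hi => h i (by simp [hi]))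
theorem Al.diff {f : Om n → ℝ} (h : Al β f) : Differentiable ℝ f := by
  induction h with
  | const c => fun_prop
  | coord e => fun_prop
  | wt σ => exact gw_diff σ
  | add _ _ h1 h2 => exact h1.fun_add h2
  | mul _ _ h1 h2 => exact h1.fun_mul h2
theorem Al.pg {f : Om n → ℝ} (h : Al β f) : PG f := by
  induction h with
  | const c => exact PG.const c
  | coord e => exact PG.coord e
  | wt σ =>
    refine ⟨(gw_diff σ).continuous, 1, 0, fun x => ?_⟩
    rw [abs_of_pos (gw_pos x σ), pow_zero, mul_one, ← gw_sum (β := β) x]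
    exact Finset.single_le_sum (f := fun σ => gw β x σ) (fun τ _ => (gw_pos x τ).le)
      (Finset.mem_univ σ)
  | add _ _ h1 h2 => exact h1.add h2
  | mul _ _ h1 h2 => exact h1.mul h2

lemma al_sub {f g : Om n → ℝ} (hf : Al β f) (hg : Al β g) : Al β fun x => f x - g x := by
  have := hf.add ((Al.const (-1)).mul hg)
  simpa only [neg_mul, one_mul, ← sub_eq_add_neg] using this

lemma al_av {f : Om n → Cfg n → ℝ} (hf : ∀ σ, Al β fun x => f x σ) :
    Al β fun x => av β x (f x) :=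
  Al.sum univ fun σ _ => (Al.wt σ).mul (hf σ)

lemma al_dH (A : Mx n) (v : Fin n → ℝ) : Al β fun x => dH β A x v :=
  Al.sum univ fun e _ => (Al.coord e).mul (Al.const _)

theorem Al.pd {f : Om n → ℝ} (h : Al β f) (e : Fin n × Fin n) : Al β (pd e f) := by
  induction h with
  | const c => rw [funext (al_pd_const c e)]; exact Al.const 0
  | coord e' => rw [funext (al_pd_coord e' e)]; exact Al.const _
  | wt σ =>
    rw [funext (pd_gw σ e)]
    exact (Al.wt σ).mul (al_sub (Al.const _) (al_av fun _ => Al.const _))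
  | add hf hg h1 h2 => rw [funext (al_pd_add hf.diff hg.diff e)]; exact h1.add h2
  | mul hf hg h1 h2 =>
    rw [funext (al_pd_mul hf.diff hg.diff e)]
    exact (hf.mul h2).add (hg.mul h1)
theorem Al.c2 {f : Om n → ℝ} (h : Al β f) : C2 f :=
  ⟨h.diff, h.pg, fun e => ⟨(h.pd e).diff, (h.pd e).pg, fun e' => ((h.pd e).pd e').pg⟩⟩
theorem al_dd {F : J → Om n → ℝ} (h : ∀ j, Al β (F j)) (E : Finset (Fin n × Fin n)) :
    ∀ j, Al β (dd E F j) := by
  intro j
  unfold dd
  split_ifs
  · exact (h _).pd _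
  · exact Al.const 0
theorem al_rs {F : J → Om n → ℝ} (h : ∀ j, Al β (F j)) (P : J → Prop) :
    ∀ j, Al β (rs P F j) := by
  intro j
  unfold rs
  split_ifs
  · exact h _
  · exact Al.const 0
theorem al_xi (q : ℕ) (j : Fin q → Fin n) : Al β (xi β q j) :=
  al_av (f := fun _ σ => tn j (sp σ)) fun _ => Al.const _
theorem al_Yg (q : ℕ) (A : Mx n) (j : Fin q → Fin n) : Al β (Yg β q A j) :=
  al_sub ((al_av (f := fun _ σ => dtn j A (sp σ)) fun _ => Al.const _).add
      (al_av (f := fun x σ => tn j (sp σ) * dH β A x (sp σ)) fun _ =>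
        (Al.const _).mul (al_dH A _)))
    ((al_av (f := fun _ σ => tn j (sp σ)) fun _ => Al.const _).mul
      (al_av (f := fun x σ => dH β A x (sp σ)) fun _ => al_dH A _))
theorem Tm.al {A : Mx n} {m a : ℕ} {c : ℝ} {F : J → Om n → ℝ} (h : Tm β A m c a F) (j : J) :
    Al β (F j) := by
  obtain ⟨Φ, u0, u, -, h1, -⟩ := h
  rw [funext (h1 j)]
  exact Al.sum univ fun s _ => (Al.prod univ fun l _ => Al.wt (s l)).mul ((Al.const _).mul
    ((Al.const _).add (Al.sum univ fun l _ => (Al.const _).mul (al_dH A _))))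

lemma al_log_bound : ∃ C : ℝ, ∀ x : Om n, |log (Zf β x)| ≤ C * (1 + ‖x‖) ^ 1 := by
  obtain ⟨K, hK⟩ : ∃ K, K = ∑ σ : Cfg n, ∑ e, |ep β (sp σ) (sp σ) e| := ⟨_, rfl⟩
  have hK0 : 0 ≤ K := hK ▸ Finset.sum_nonneg fun _ _ => Finset.sum_nonneg fun _ _ => abs_nonneg _
  have h1 : ∀ (x : Om n) (σ : Cfg n), |Hm β x (sp σ)| ≤ K * ‖x‖ := by
    intro x σ
    refine (Finset.abs_sum_le_sum_abs _ _).trans ?_
    have a1 : ∑ e, |x e * ep β (sp σ) (sp σ) e| ≤ (∑ e, |ep β (sp σ) (sp σ) e|) * ‖x‖ := by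
      rw [Finset.sum_mul]
      refine Finset.sum_le_sum fun e _ => ?_
      rw [abs_mul, mul_comm]
      exact mul_le_mul_of_nonneg_left (norm_le_pi_norm x e) (abs_nonneg _)
    refine a1.trans (mul_le_mul_of_nonneg_right ?_ (norm_nonneg _))
    rw [hK]
    exact Finset.single_le_sum (f := fun σ : Cfg n => ∑ e, |ep β (sp σ) (sp σ) e|)
      (fun _ _ => Finset.sum_nonneg fun _ _ => abs_nonneg _) (Finset.mem_univ σ)
  obtain ⟨N, hN⟩ : ∃ N : ℝ, N = Fintype.card (Cfg n) := ⟨_, rfl⟩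
  have hN0 : 0 < N := by rw [hN]; exact_mod_cast Fintype.card_pos
  refine ⟨K + N, fun x => ?_⟩
  have hx := norm_nonneg x
  have b1 : -(K * ‖x‖) ≤ log (Zf β x) := by
    rw [Real.le_log_iff_exp_le (al_Z_pos x)]
    obtain ⟨σ⟩ : Nonempty (Cfg n) := inferInstance
    refine (exp_le_exp.2 (abs_le.1 (h1 x σ)).1).trans ?_
    exact Finset.single_le_sum (f := fun τ : Cfg n => exp (Hm β x (sp τ)))
      (fun _ _ => (exp_pos _).le) (Finset.mem_univ σ)
  have b2 : log (Zf β x) ≤ N + K * ‖x‖ := by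
    rw [Real.log_le_iff_le_exp (al_Z_pos x), exp_add]
    have c1 : Zf β x ≤ N * exp (K * ‖x‖) := by
      have := Finset.sum_le_card_nsmul univ (fun τ : Cfg n => exp (Hm β x (sp τ))) _
        fun τ _ => exp_le_exp.2 (abs_le.1 (h1 x τ)).2
      rwa [Finset.card_univ, nsmul_eq_mul, ← hN] at this
    refine c1.trans (mul_le_mul_of_nonneg_right ?_ (exp_pos _).le)
    linarith [Real.add_one_le_exp N]
  rw [pow_one, abs_le]
  constructor <;> nlinarith [mul_nonneg hN0.le hx]

theorem logZ_c2 : C2 (fun x : Om n => log (Zf β x)) ∧ ∀ e x, pd e (fun x : Om n => log (Zf β x)) x =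
    av β x fun σ => ep β (sp σ) (sp σ) e := by
  have hd : Differentiable ℝ fun x : Om n => log (Zf β x) :=
    al_Z_diff.log fun x => (al_Z_pos x).ne'
  have h1 : ∀ e x, pd e (fun x : Om n => log (Zf β x)) x =
      av β x fun σ => ep β (sp σ) (sp σ) e := by
    intro e x
    have h2 := al_pd_exp hd e x
    simp only [exp_log (al_Z_pos _)] at h2
    rw [al_pd_Z] at h2
    exact (mul_left_cancel₀ (al_Z_pos x).ne' h2).symm
  obtain ⟨C, hC⟩ := al_log_bound (β := β) (n := n)
  refine ⟨⟨hd, ⟨hd.continuous, C, 1, hC⟩, fun e => ?_⟩, h1⟩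
  have h3 : Al β (pd e fun x : Om n => log (Zf β x)) := by
    rw [funext (h1 e)]
    exact al_av (f := fun _ σ => ep β (sp σ) (sp σ) e) fun _ => Al.const _
  exact ⟨h3.diff, h3.pg, fun e' => (h3.pd e').pg⟩

end Vale.Agent.P146
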