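import Vale.Agent.P146.Defs

namespace Vale.Agent.P146

open MeasureTheory ProbabilityTheory Matrix Real Finset Filter Topology
open P150 (gm spin Cfg)

variable {ι : Type} [Fintype ι] [DecidableEq ι] {J : Type} [Fintype J] {n : ℕ} {β : ℝ}

theorem Khin_mgf (c : Fin n → ℝ) :
    ∑ σ : Cfg n, exp (∑ i, sp σ i * c i) ≤ 2 ^ n * exp ((∑ i, c i ^ 2) / 2) := by
  have e : ∑ σ : Cfg n, exp (∑ i, sp σ i * c i) = ∏ i, ∑ b : Bool, exp (spin b * c i) := by
    rw [Finset.prod_univ_sum, Fintype.piFinset_univ]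
    exact Finset.sum_congr rfl fun σ _ => Real.exp_sum _ _
  have e2 : (2 : ℝ) ^ n * exp ((∑ i, c i ^ 2) / 2) = ∏ i, 2 * exp (c i ^ 2 / 2) := by
    rw [Finset.prod_mul_distrib, Finset.prod_const, Finset.card_univ, Fintype.card_fin,
      Finset.sum_div, Real.exp_sum]
  rw [e, e2]
  refine Finset.prod_le_prod (fun i _ => Finset.sum_nonneg fun b _ => (exp_pos _).le) fun i _ => ?_
  have h := Real.cosh_le_exp_half_sq (c i)
  rw [Real.cosh_eq] at h
  simp only [Fintype.sum_bool, spin]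
  norm_num
  linarith

theorem Khin_pt (y : ℝ) {p : ℕ} (hp : 0 < p) :
    y ^ (2 * p) ≤ (2 * p : ℝ) ^ (2 * p) * exp (-(2 * p)) * (exp y + exp (-y)) := by
  have p0 : (0 : ℝ) < 2 * p := by positivity
  have h1 : |y| / (2 * p) ≤ exp (|y| / (2 * p) - 1) := by
    have := Real.add_one_le_exp (|y| / (2 * p) - 1)
    linarith
  have h2 := pow_le_pow_left₀ (by positivity) h1 (2 * p)
  rw [← Real.exp_nat_mul, div_pow, div_le_iff₀ (by positivity), (even_two_mul p).pow_abs] at h2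
  have h3 : ((2 * p : ℕ) : ℝ) * (|y| / (2 * p) - 1) = -(2 * p) + |y| := by
    push_cast
    field_simp
    ring
  rw [h3, Real.exp_add] at h2
  have h4 : exp |y| ≤ exp y + exp (-y) := by
    rcases abs_choice y with h | h <;> rw [h] <;> linarith [exp_pos y, exp_pos (-y)]
  refine h2.trans ?_
  rw [mul_comm, mul_assoc]
  exact mul_le_mul_of_nonneg_left (mul_le_mul_of_nonneg_left h4 (exp_pos _).le) (by positivity)

theorem Khin_norm (c : Fin n → ℝ) {p : ℕ} (hp : 0 < p) (hc : ∑ i, c i ^ 2 = 2 * p) :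
    ∑ σ : Cfg n, (∑ i, sp σ i * c i) ^ (2 * p) ≤ 2 ^ n * (2 * p : ℝ) ^ (2 * p) := by
  refine (Finset.sum_le_sum fun σ _ => Khin_pt _ hp).trans ?_
  rw [← Finset.mul_sum, Finset.sum_add_distrib]
  have h1 := Khin_mgf c
  have h2 := Khin_mgf fun i => -c i
  simp only [mul_neg, Finset.sum_neg_distrib, neg_sq] at h2
  rw [hc, show (2 * p : ℝ) / 2 = p by ring] at h1 h2
  have h3 : exp (-(2 * p : ℝ)) * (2 * exp p) ≤ 1 := by
    have p1 : (1 : ℝ) ≤ p := by exact_mod_cast hp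
    have a1 : (2 : ℝ) ≤ exp p := by linarith [Real.add_one_le_exp (p : ℝ)]
    have a2 : exp (-(2 * p : ℝ)) * (exp p * exp p) = 1 := by
      rw [← Real.exp_add, ← Real.exp_add, show -(2 * p : ℝ) + (p + p) = 0 by ring, Real.exp_zero]
    rw [← a2]
    exact mul_le_mul_of_nonneg_left (mul_le_mul_of_nonneg_right a1 (exp_pos _).le) (exp_pos _).le
  calc _ ≤ (2 * p : ℝ) ^ (2 * p) * exp (-(2 * p)) * (2 ^ n * exp p + 2 ^ n * exp p) :=
        mul_le_mul_of_nonneg_left (add_le_add h1 h2) (by positivity)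
    _ = 2 ^ n * (2 * p : ℝ) ^ (2 * p) * (exp (-(2 * p : ℝ)) * (2 * exp p)) := by ring
    _ ≤ 2 ^ n * (2 * p : ℝ) ^ (2 * p) := mul_le_of_le_one_right (by positivity) h3

theorem khin (c : Fin n → ℝ) (p : ℕ) :
    ∑ σ : Cfg n, (∑ i, sp σ i * c i) ^ (2 * p) ≤
      2 ^ n * ((2 * p : ℝ) ^ p * (∑ i, c i ^ 2) ^ p) := by
  rcases Nat.eq_zero_or_pos p with rfl | hp
  · simp
  have s0 : 0 ≤ ∑ i, c i ^ 2 := Finset.sum_nonneg fun i _ => sq_nonneg _
  rcases s0.eq_or_lt with h | h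
  · have hc : ∀ i, c i = 0 := fun i => pow_eq_zero_iff (two_ne_zero) |>.1
      ((Finset.sum_eq_zero_iff_of_nonneg fun i _ => sq_nonneg (c i)).1 h.symm i (mem_univ i))
    simp [hc, hp.ne']
  have p0 : (0 : ℝ) < 2 * p := by positivity
  set l := √(2 * p / ∑ i, c i ^ 2) with hl
  have l2 : l ^ 2 = 2 * p / ∑ i, c i ^ 2 := Real.sq_sqrt (by positivity)
  have k := Khin_norm (fun i => l * c i) hp (by
    simp only [mul_pow]
    rw [← Finset.mul_sum, l2, div_mul_cancel₀ _ h.ne'])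
  have e : ∀ σ : Cfg n, (∑ i, sp σ i * (l * c i)) ^ (2 * p) =
      (2 * p / ∑ i, c i ^ 2) ^ p * (∑ i, sp σ i * c i) ^ (2 * p) := by
    intro σ
    rw [← l2, ← pow_mul, ← mul_pow, Finset.mul_sum]
    exact congrArg (· ^ (2 * p)) (Finset.sum_congr rfl fun i _ => by ring)
  rw [Finset.sum_congr rfl fun σ _ => e σ, ← Finset.mul_sum, div_pow, div_mul_eq_mul_div,
    div_le_iff₀ (by positivity), two_mul p, pow_add] at k
  refine le_of_mul_le_mul_left ?_ (pow_pos p0 p)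
  rw [two_mul p]
  linarith

end Vale.Agent.P146
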