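import Vale.Agent.P146.Al

namespace Vale.Agent.P146

open MeasureTheory ProbabilityTheory Matrix Real Finset Filter Topology
open P150 (gm spin Cfg)

variable {ι : Type} [Fintype ι] [DecidableEq ι] {J : Type} [Fintype J] {n : ℕ} {β : ℝ}

theorem sym_av (φ : Cfg n ≃ Cfg n) {x x' : Om n}
    (h : ∀ σ, Hm β x' (sp (φ σ)) = Hm β x (sp σ)) (f : Cfg n → ℝ) :
    av β x' f = av β x fun σ => f (φ σ) := by
  have hZ : Zf β x' = Zf β x := by
    unfold Zf
    rw [← Equiv.sum_comp φ]
    simp only [h]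
  unfold av
  rw [← Equiv.sum_comp φ]
  simp only [gw, h, hZ]

theorem sym_flip {d : Fin n → ℝ} (hd : ∀ i, d i = 1 ∨ d i = -1) :
    ∃ φ : Cfg n ≃ Cfg n, ∀ σ, sp (φ σ) = d * sp σ := by
  classical
  refine ⟨Function.Involutive.toPerm (fun σ i => if d i = 1 then σ i else !σ i) fun σ => ?_,
    fun σ => ?_⟩
  · funext i
    by_cases h : d i = 1 <;> simp [h]
  · funext i
    have hne : (-1 : ℝ) ≠ 1 := by norm_num
    show spin (if d i = 1 then σ i else !σ i) = d i * spin (σ i)
    rcases hd i with h | h <;> cases hs : σ i <;> simp [spin, h, hne]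

theorem sym_sq {d : Fin n → ℝ} (hd : ∀ i, d i = 1 ∨ d i = -1) (i : Fin n) : d i * d i = 1 := by
  rcases hd i with h | h <;> simp [h]

theorem sym_ep (d u v : Fin n → ℝ) (e : Fin n × Fin n) :
    ep β (d * u) (d * v) e = d e.1 * d e.2 * ep β u v e := by
  simp only [ep, Pi.mul_apply]
  ring

theorem sym_sgn {d : Fin n → ℝ} (hd : ∀ i, d i = 1 ∨ d i = -1) :
    ∃ φ : Cfg n ≃ Cfg n, (∀ σ, sp (φ σ) = d * sp σ) ∧ ∀ (x : Om n) (f : Cfg n → ℝ),
      av β ((fun e => d e.1 * d e.2) * x) f = av β x fun σ => f (φ σ) := by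
  obtain ⟨φ, hφ⟩ := sym_flip hd
  refine ⟨φ, hφ, fun x f => sym_av φ (fun σ => ?_) f⟩
  unfold Hm
  refine Finset.sum_congr rfl fun e _ => ?_
  rw [hφ, sym_ep, Pi.mul_apply]
  linear_combination (x e * ep β (sp σ) (sp σ) e * (d e.2 * d e.2)) * sym_sq hd e.1 +
    (x e * ep β (sp σ) (sp σ) e) * sym_sq hd e.2

theorem sym_sg (c i : Fin n) : sg c i = 1 ∨ sg c i = -1 := by
  unfold sg
  split_ifs <;> simp

theorem sym_tn {q : ℕ} (j : Fin q → Fin n) (d v : Fin n → ℝ) :
    tn j (d * v) = (∏ k, d (j k)) * tn j v := by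
  simp only [tn, Pi.mul_apply, mul_div_assoc, Finset.prod_mul_distrib]

theorem sym_cmul (x : Om n) (c : ℝ) (f : Cfg n → ℝ) :
    av β x (fun σ => c * f σ) = c * av β x f := by
  unfold av
  rw [Finset.mul_sum]
  exact Finset.sum_congr rfl fun σ _ => by ring

theorem sym_add (x : Om n) (f g : Cfg n → ℝ) :
    av β x (fun σ => f σ + g σ) = av β x f + av β x g := by
  simp only [av, mul_add, Finset.sum_add_distrib]

theorem sym_dv (d v : Fin n → ℝ) : diagonal d *ᵥ v = d * v := by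
  funext i
  rw [mulVec_diagonal, Pi.mul_apply]

theorem xi_fl (q : ℕ) (j : Fin q → Fin n) (c : Fin n) (x : Om n) :
    xi β q j (fl c * x) = (∏ k, sg c (j k)) * xi β q j x := by
  obtain ⟨φ, h1, h2⟩ := sym_sgn (β := β) (sym_sg c)
  refine (h2 x _).trans ?_
  simp only [h1, sym_tn, sym_cmul]
  rfl
theorem Yg_fl (q : ℕ) (A : Mx n) (j : Fin q → Fin n) (c : Fin n) (x : Om n) :
    Yg β q A j (fl c * x) =
      (∏ k, sg c (j k)) * Yg β q (diagonal (sg c) * A * diagonal (sg c)) j x := by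
  obtain ⟨φ, h1, h2⟩ := sym_sgn (β := β) (sym_sg c)
  have h3 : ∀ f, av β (fl c * x) f = av β x fun σ => f (φ σ) := h2 x
  obtain ⟨B, hB⟩ : ∃ B, B = diagonal (sg c) * A * diagonal (sg c) := ⟨_, rfl⟩
  have hA : ∀ v, A *ᵥ (sg c * v) = sg c * (B *ᵥ v) := fun v => by
    rw [hB, ← mulVec_mulVec, ← mulVec_mulVec, sym_dv, sym_dv, ← mul_assoc]
    funext i
    simp only [Pi.mul_apply, sym_sq (sym_sg c) i, one_mul]
  have e1 : ∀ v, dtn j A (sg c * v) = (∏ k, sg c (j k)) * dtn j B v := fun v => by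
    unfold dtn
    rw [Finset.mul_sum, hA]
    refine Finset.sum_congr rfl fun k _ => ?_
    rw [← Finset.mul_prod_erase univ (fun k => sg c (j k)) (Finset.mem_univ k)]
    simp only [Pi.mul_apply, mul_div_assoc, Finset.prod_mul_distrib]
    ring
  have e2 : ∀ v, dH β A (fl c * x) (sg c * v) = dH β B x v := fun v => by
    unfold dH lam
    refine Finset.sum_congr rfl fun e _ => ?_
    rw [hA, sym_ep, sym_ep, Pi.mul_apply, fl]
    linear_combination (x e * (ep β (B *ᵥ v) v e + ep β v (B *ᵥ v) e) *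
      (sg c e.2 * sg c e.2)) * sym_sq (sym_sg c) e.1 +
      (x e * (ep β (B *ᵥ v) v e + ep β v (B *ᵥ v) e)) * sym_sq (sym_sg c) e.2
  rw [← hB]
  unfold Yg
  simp only [h3, h1, e1, e2, sym_tn, mul_assoc, sym_cmul]
  ring
theorem Ea_fl {a b : Fin n} (c : Fin n) :
    diagonal (sg c) * Ea a b * diagonal (sg c) = (sg c a * sg c b) • Ea a b := by
  ext i j
  rw [mul_diagonal, diagonal_mul]
  simp only [Ea, Matrix.smul_apply, Matrix.sub_apply, Matrix.single_apply, smul_eq_mul]
  split_ifs with h1 h2 h2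
  · ring
  · rw [h1.1, h1.2]; ring
  · rw [h2.1, h2.2]; ring
  · ring
theorem Yg_smul (c : ℝ) (A : Mx n) (q : ℕ) (j : Fin q → Fin n) (x : Om n) :
    Yg β q (c • A) j x = c * Yg β q A j x := by
  have e1 : ∀ v, dtn j (c • A) v = c * dtn j A v := fun v => by
    unfold dtn
    rw [Finset.mul_sum, smul_mulVec]
    exact Finset.sum_congr rfl fun k _ => by rw [Pi.smul_apply, smul_eq_mul]; ring
  have e2 : ∀ v, dH β (c • A) x v = c * dH β A x v := fun v => by
    unfold dH lam ep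
    rw [Finset.mul_sum, smul_mulVec]
    exact Finset.sum_congr rfl fun k _ => by simp only [Pi.smul_apply, smul_eq_mul]; ring
  unfold Yg
  simp only [e1, e2, mul_left_comm _ c, sym_cmul]
  ring
theorem sym_Yadd (A B : Mx n) (q : ℕ) (j : Fin q → Fin n) (x : Om n) :
    Yg β q (A + B) j x = Yg β q A j x + Yg β q B j x := by
  have e1 : ∀ v, dtn j (A + B) v = dtn j A v + dtn j B v := fun v => by
    unfold dtn
    rw [← Finset.sum_add_distrib, add_mulVec]
    exact Finset.sum_congr rfl fun k _ => by rw [Pi.add_apply]; ring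
  have e2 : ∀ v, dH β (A + B) x v = dH β A x v + dH β B x v := fun v => by
    unfold dH lam ep
    rw [← Finset.sum_add_distrib, add_mulVec]
    exact Finset.sum_congr rfl fun k _ => by simp only [Pi.add_apply]; ring
  unfold Yg
  simp only [e1, e2, mul_add, sym_add]
  ring
theorem Yg_lin {κ : Type} (s : Finset κ) (c : κ → ℝ) (A : κ → Mx n) (q : ℕ) (j : Fin q → Fin n)
    (x : Om n) : Yg β q (∑ i ∈ s, c i • A i) j x = ∑ i ∈ s, c i * Yg β q (A i) j x := by
  classical
  induction s using Finset.induction_on with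
  | empty =>
    have := Yg_smul (β := β) 0 (0 : Mx n) q j x
    simpa using this
  | insert a s ha ih => rw [Finset.sum_insert ha, Finset.sum_insert ha, sym_Yadd, Yg_smul, ih]
theorem xi_sw (q : ℕ) (j : Fin q → Fin n) (a b : Fin n) (x : Om n) :
    xi β q j (sw a b x) = xi β q (fun k => Equiv.swap a b (j k)) x := by
  refine sym_av (Equiv.arrowCongr (Equiv.swap a b) (Equiv.refl Bool)) (fun σ => ?_) _
  exact Equiv.sum_comp (Equiv.prodCongr (Equiv.swap a b) (Equiv.swap a b))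
    fun e => x e * ep β (sp σ) (sp σ) e
theorem xo_diag (q : ℕ) (O : Mx n) {d : Fin n → ℝ} (hd : ∀ i, d i = 1 ∨ d i = -1) :
    xo β q (O * diagonal d) = xo β q O := by
  funext j x
  obtain ⟨φ, h1, h2⟩ := sym_sgn (β := β) hd
  have e : act (O * diagonal d) x = (fun e => d e.1 * d e.2) * act O x := by
    funext e
    unfold act
    rw [transpose_mul, diagonal_transpose, ← Matrix.mul_assoc, mul_diagonal, Matrix.mul_assoc,
      Matrix.mul_assoc, diagonal_mul, ← Matrix.mul_assoc, Pi.mul_apply]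
    ring
  have e2 : ∀ v, (O * diagonal d) *ᵥ (d * v) = O *ᵥ v := fun v => by
    rw [← mulVec_mulVec, sym_dv, ← mul_assoc]
    congr 1
    funext i
    simp only [Pi.mul_apply, sym_sq hd i, one_mul]
  unfold xo
  rw [e, h2]
  simp only [h1, e2]

end Vale.Agent.P146
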