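import Vale.Agent.P146.PG

namespace Vale.Agent.P146

open MeasureTheory ProbabilityTheory Matrix Real Finset Filter Topology
open P150 (gm spin Cfg)

variable {ι : Type} [Fintype ι] [DecidableEq ι] {J : Type} [Fintype J] {n : ℕ} {β : ℝ}

theorem semi_sq {ρ : ι → ℝ} (hρ : U01 ρ) (e : ι) : ρ e ^ 2 + √(1 - ρ e ^ 2) ^ 2 = 1 := by
  rw [Real.sq_sqrt (by nlinarith [(hρ e).1, (hρ e).2])]
  ring

theorem semi_int {X Y : Type} [MeasurableSpace X] [MeasurableSpace Y] {μ : Measure X}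
    {ν : Measure Y} {R : X → Y} (hR : MeasurePreserving R μ ν) {G : Y → ℝ}
    (hG : AEStronglyMeasurable G ν) : ∫ q, G (R q) ∂μ = ∫ y, G y ∂ν := by
  rw [← hR.map_eq] at hG ⊢
  exact (integral_map hR.measurable.aemeasurable hG).symm

theorem mp_rot {c s : ι → ℝ} (h : ∀ e, c e ^ 2 + s e ^ 2 = 1) :
    MeasurePreserving (fun q : (ι → ℝ) × (ι → ℝ) =>
      ((fun e => c e * q.1 e + s e * q.2 e : ι → ℝ), (fun e => c e * q.2 e - s e * q.1 e : ι → ℝ)))
      ((gm ι).prod (gm ι)) ((gm ι).prod (gm ι)) := by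
  let T : (ι ⊕ ι → ℝ) →ₗ[ℝ] (ι ⊕ ι → ℝ) :=
    { toFun := fun ω => Sum.elim (fun e => c e * ω (Sum.inl e) + s e * ω (Sum.inr e))
        fun e => c e * ω (Sum.inr e) - s e * ω (Sum.inl e)
      map_add' := fun x y => by
        funext i
        rcases i with e | e <;> simp <;> ring
      map_smul' := fun r x => by
        funext i
        rcases i with e | e <;> simp <;> ring }
  have hT := P150.mp_iso T fun ω => by
    rw [Fintype.sum_sum_type, Fintype.sum_sum_type, ← sum_add_distrib, ← sum_add_distrib]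
    refine sum_congr rfl fun e _ => ?_
    change (c e * ω (Sum.inl e) + s e * ω (Sum.inr e)) ^ 2 +
      (c e * ω (Sum.inr e) - s e * ω (Sum.inl e)) ^ 2 = _
    linear_combination (ω (Sum.inl e) ^ 2 + ω (Sum.inr e) ^ 2) * h e
  have hS := P150.mp_split (Sum.inl : ι → ι ⊕ ι) (Sum.inr : ι → ι ⊕ ι)
    (by rw [Sum.elim_inl_inr]; exact Function.injective_id)
  exact MeasurePreserving.of_semiconj hS hT (fun ω => rfl) (by fun_prop)
theorem mp_mix {ρ : ι → ℝ} (hρ : U01 ρ) :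
    MeasurePreserving (mix ρ) ((gm ι).prod (gm ι)) (gm ι) :=
  measurePreserving_fst.comp (mp_rot (c := ρ) (s := fun e => √(1 - ρ e ^ 2)) (semi_sq hρ))
theorem bf_symm {f g : (ι → ℝ) → ℝ} (hf : PG f) (hg : PG g) {ρ : ι → ℝ} (hρ : U01 ρ) :
    Bf ρ f g = Bf ρ g f := by
  have hm := (mp_rot (c := fun e => √(1 - ρ e ^ 2)) (s := ρ)
    fun e => (add_comm _ _).trans (semi_sq hρ e)).comp
    (Measure.measurePreserving_swap (μ := gm ι) (ν := gm ι))
  refine Eq.trans ?_ (semi_int hm (hg.int2 hf hρ).aestronglyMeasurable)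
  refine integral_congr_ae (ae_of_all _ fun q => ?_)
  refine (mul_comm _ _).trans (congrArg₂ (· * ·) (congrArg g (funext fun e => ?_))
    (congrArg f (funext fun e => ?_)))
  · exact add_comm _ _
  · change q.1 e = ρ e * (√(1 - ρ e ^ 2) * q.2 e + ρ e * q.1 e) +
      √(1 - ρ e ^ 2) * (√(1 - ρ e ^ 2) * q.1 e - ρ e * q.2 e)
    linear_combination (-q.1 e) * semi_sq hρ e
theorem semi_bf {f g : (ι → ℝ) → ℝ} (hf : PG f) (hg : PG g) {ρ : ι → ℝ} (hρ : U01 ρ) :
    Bf ρ f g = ∫ x, f x * Pt ρ g x ∂gm ι := by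
  unfold Bf Pt
  rw [integral_prod _ (hf.int2 hg hρ)]
  simp only [integral_const_mul]

theorem semi_u {a b : ι → ℝ} (ha : U01 a) (hb : U01 b) : U01 (a * b) := fun e =>
  ⟨mul_nonneg (ha e).1 (hb e).1, mul_le_one₀ (ha e).2 (hb e).1 (hb e).2⟩

theorem semi_slice {g : (ι → ℝ) → ℝ} (hg : PG g) {ρ : ι → ℝ} (hρ : U01 ρ) (x : ι → ℝ) :
    Integrable (fun w => g (mix ρ (x, w))) (gm ι) := by
  refine (hg.comp (T := fun w => mix ρ (x, w)) (C := 1 + ‖x‖) (by unfold mix; fun_prop)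
    fun w => ?_).int
  refine (pi_norm_le_iff_of_nonneg (by positivity)).2 fun e => ?_
  have h1 := norm_le_pi_norm x e
  have h2 := norm_le_pi_norm w e
  have h3 : √(1 - ρ e ^ 2) ≤ 1 := Real.sqrt_le_one.2 (by nlinarith [sq_nonneg (ρ e)])
  have h4 : ‖ρ e * x e‖ ≤ ‖x e‖ := by
    rw [norm_mul, Real.norm_of_nonneg (hρ e).1]
    exact mul_le_of_le_one_left (norm_nonneg _) (hρ e).2
  have h5 : ‖√(1 - ρ e ^ 2) * w e‖ ≤ ‖w e‖ := by
    rw [norm_mul, Real.norm_of_nonneg (Real.sqrt_nonneg _)]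
    exact mul_le_of_le_one_left (norm_nonneg _) h3
  refine (norm_add_le (ρ e * x e) (√(1 - ρ e ^ 2) * w e)).trans ?_
  nlinarith [mul_nonneg (norm_nonneg x) (norm_nonneg w)]

theorem semi_ang {u v σ : ℝ} (h : u ^ 2 + v ^ 2 = σ ^ 2) :
    ∃ c s : ℝ, c ^ 2 + s ^ 2 = 1 ∧ u = σ * c ∧ v = σ * s := by
  by_cases h0 : σ = 0
  · subst h0
    refine ⟨1, 0, by norm_num, ?_, ?_⟩ <;> nlinarith [sq_nonneg u, sq_nonneg v]
  · refine ⟨u / σ, v / σ, ?_, ?_, ?_⟩
    · rw [div_pow, div_pow, ← add_div, h, div_self (pow_ne_zero 2 h0)]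
    · field_simp
    · field_simp

theorem semi_pt {g : (ι → ℝ) → ℝ} (hg : PG g) {a b : ι → ℝ} (ha : U01 a) (hb : U01 b)
    (x : ι → ℝ) : Pt a (Pt b g) x = Pt (a * b) g x := by
  have hab := semi_u ha hb
  have key : ∀ e, ∃ c s : ℝ, c ^ 2 + s ^ 2 = 1 ∧
      b e * √(1 - a e ^ 2) = √(1 - (a * b) e ^ 2) * c ∧
      √(1 - b e ^ 2) = √(1 - (a * b) e ^ 2) * s := fun e => semi_ang (by
    have h1 := semi_sq ha e
    have h2 := semi_sq hb e
    have h3 := semi_sq hab e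
    rw [Pi.mul_apply] at h3 ⊢
    linear_combination b e ^ 2 * h1 + h2 - h3)
  choose c s h1 h2 h3 using key
  have hm := measurePreserving_fst.comp (mp_rot h1)
  have hi := semi_slice hg hab x
  have e1 := semi_int hm hi.aestronglyMeasurable
  refine Eq.trans ?_ ((integral_prod _ (hm.integrable_comp_of_integrable hi)).symm.trans e1)
  unfold Pt
  refine integral_congr_ae (ae_of_all _ fun y => integral_congr_ae (ae_of_all _ fun z => ?_))
  refine congrArg g (funext fun e => ?_)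
  change b e * (a e * x e + √(1 - a e ^ 2) * y e) + √(1 - b e ^ 2) * z e =
    a e * b e * x e + √(1 - (a * b) e ^ 2) * (c e * y e + s e * z e)
  linear_combination y e * h2 e + z e * h3 e

theorem bf_semi {f g : (ι → ℝ) → ℝ} (hf : PG f) (hg : PG g) {a b : ι → ℝ} (ha : U01 a)
    (hb : U01 b) : Bf (a * b) f g = ∫ x, Pt a f x * Pt b g x ∂gm ι := by
  have e1 := semi_bf (hg.pt hb) hf ha
  rw [bf_symm (hg.pt hb) hf ha, semi_bf hf (hg.pt hb) ha] at e1
  rw [semi_bf hf hg (semi_u ha hb)]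
  simp only [semi_pt hg ha hb] at e1
  rw [e1]
  simp only [mul_comm]

end Vale.Agent.P146
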