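import Vale.Agent.P146.Stein
import Vale.Agent.P146.Semi

namespace Vale.Agent.P146

open MeasureTheory ProbabilityTheory Matrix Real Finset Filter Topology
open P150 (gm spin Cfg)

variable {ι : Type} [Fintype ι] [DecidableEq ι] {J : Type} [Fintype J] {n : ℕ} {β : ℝ}

theorem van_pt (E : Finset ι) (g : (ι → ℝ) → ℝ) (x : ι → ℝ) : Pt (rr E 0 1) g x = EE E g x := by
  unfold Pt EE
  congr 1
  funext y
  congr 1
  funext e
  unfold mix rr glue
  split_ifs <;> simp

theorem bf_zero {f g : (ι → ℝ) → ℝ} (hf : PG f) (hg : PG g) (E : Finset ι) {t : ℝ}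
    (ht : t ∈ Set.Icc (0 : ℝ) 1) (h : ∀ x, EE E g x = 0) : Bf (rr E 0 t) f g = 0 := by
  have e : rr E 0 t = (fun _ => t) * rr E 0 1 := by
    funext e
    simp [rr]
  rw [e, bf_semi hf hg (fun _ => ht) (u01_rr E ⟨le_rfl, zero_le_one⟩ ⟨zero_le_one, le_rfl⟩)]
  simp only [van_pt, h, mul_zero, integral_zero]
theorem pg_glue {g : (ι → ℝ) → ℝ} (hg : PG g) (E : Finset ι) (x : ι → ℝ) :
    PG fun y => g (glue E x y) := by
  refine hg.comp (T := glue E x) (C := 1 + ‖x‖) (continuous_pi fun e => ?_) fun y => ?_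
  · unfold glue
    split_ifs
    · exact continuous_apply e
    · exact continuous_const
  · refine (pi_norm_le_iff_of_nonneg (by positivity)).2 fun e => ?_
    have h1 := norm_le_pi_norm x e
    have h2 := norm_le_pi_norm y e
    have h3 := mul_nonneg (norm_nonneg x) (norm_nonneg y)
    have h4 := norm_nonneg x
    have h5 := norm_nonneg y
    unfold glue
    split_ifs <;> nlinarith
theorem ee_sign {g : (ι → ℝ) → ℝ} (hg : PG g) (E : Finset ι) {s : ι → ℝ}
    (h1 : ∀ e, s e = 1 ∨ s e = -1) (h2 : ∀ e ∉ E, s e = 1) (h : ∀ x, g (s * x) = -g x)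
    (x : ι → ℝ) : EE E g x = 0 := by
  have hm := P150.mp_iso (LinearMap.mulLeft ℝ s) fun y => Finset.sum_congr rfl fun e _ => by
    rcases h1 e with h | h <;> simp [h]
  have e1 := semi_int hm (pg_glue hg E x).1.aestronglyMeasurable
  have e2 : ∀ y, g (glue E x (LinearMap.mulLeft ℝ s y)) = -g (glue E x y) := fun y => by
    rw [← h]
    congr 1
    funext e
    by_cases he : e ∈ E
    · simp [glue, he]
    · simp [glue, he, h2 e he]
  simp only [e2, integral_neg] at e1
  unfold EE
  linarith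
theorem pd_sign {g : (ι → ℝ) → ℝ} (hg : Differentiable ℝ g) {s : ι → ℝ}
    (h1 : ∀ e, s e = 1 ∨ s e = -1) {χ : ℝ} (h : ∀ x, g (s * x) = χ * g x) (e : ι) (x : ι → ℝ) :
    pd e g (s * x) = χ * s e * pd e g x := by
  let L : (ι → ℝ) →L[ℝ] (ι → ℝ) := ContinuousLinearMap.mul ℝ (ι → ℝ) s
  have d1 : HasFDerivAt (fun y => g (s * y)) ((fderiv ℝ g (s * x)).comp L) x :=
    (hg (s * x)).hasFDerivAt.comp x L.hasFDerivAt
  have d2 : HasFDerivAt (fun y => g (s * y)) (χ • fderiv ℝ g x) x := by
    simp only [h]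
    exact (hg x).hasFDerivAt.const_mul χ
  have e1 := congrArg (fun T : (ι → ℝ) →L[ℝ] ℝ => T (Pi.single e 1)) (d1.unique d2)
  have e2 : L (Pi.single e 1) = s e • (Pi.single e 1 : ι → ℝ) := by
    funext i
    by_cases hi : i = e
    · subst hi; simp [L]
    · simp [L, hi]
  simp only [ContinuousLinearMap.comp_apply, e2, map_smul, ContinuousLinearMap.smul_apply,
    smul_eq_mul] at e1
  unfold pd
  rcases h1 e with h | h <;> rw [h] at e1 ⊢ <;> linarith
theorem ee_stein {g : (ι → ℝ) → ℝ} {E : Finset ι} {e : ι} (he : e ∈ E) (hd : Differentiable ℝ g)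
    (hg : PG g) (hg' : PG (pd e g)) (x : ι → ℝ) :
    EE E (pd e g) x = EE E (fun y => y e * g y) x := by
  let L : (ι → ℝ) →L[ℝ] (ι → ℝ) :=
    ContinuousLinearMap.mul ℝ (ι → ℝ) fun i => if i ∈ E then 1 else 0
  have e0 : glue E x = fun y => glue E x 0 + L y := by
    funext y i
    by_cases hi : i ∈ E <;> simp [glue, L, hi]
  have d0 : ∀ y, HasFDerivAt (glue E x) L y := fun y => by
    rw [e0]
    exact L.hasFDerivAt.const_add _
  have d1 : ∀ y, HasFDerivAt (fun y => g (glue E x y)) ((fderiv ℝ g (glue E x y)).comp L) y :=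
    fun y => (hd _).hasFDerivAt.comp y (d0 y)
  have e2 : L (Pi.single e 1) = Pi.single e 1 := by
    funext i
    by_cases hi : i = e
    · subst hi; simp [L, he]
    · simp [L, hi]
  have e3 : pd e (fun y => g (glue E x y)) = fun y => pd e g (glue E x y) := by
    funext y
    unfold pd
    rw [(d1 y).fderiv, ContinuousLinearMap.comp_apply, e2]
  have h := stein e (fun y => (d1 y).differentiableAt) (pg_glue hg E x)
    (by rw [e3]; exact pg_glue hg' E x)
  rw [e3] at h
  unfold EE
  rw [← h]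
  simp only [glue, if_pos he]
theorem ee_perm {g : (ι → ℝ) → ℝ} (hg : PG g) (E : Finset ι) (f : Equiv.Perm ι)
    (hf : ∀ e ∉ E, f e = e) (x : ι → ℝ) : EE E (fun y => g fun e => y (f e)) x = EE E g x := by
  have hm := P150.mp_iso (LinearMap.funLeft ℝ ℝ f) fun y => Equiv.sum_comp f fun i => y i ^ 2
  unfold EE
  rw [← semi_int hm (pg_glue hg E x).1.aestronglyMeasurable]
  congr 1
  funext y
  refine congrArg g (funext fun e => ?_)
  by_cases he : e ∈ E
  · have h2 : f e ∈ E := by
      by_contra h3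
      exact h3 (by rw [f.injective (hf _ h3)]; exact he)
    simp [glue, he, h2]
  · simp [glue, he, hf e he]

end Vale.Agent.P146
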