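import Vale.Agent.P146.Ph
import Vale.Agent.P146.Khin
import Vale.Agent.P146.Sym
import Vale.Agent.P146.Van

namespace Vale.Agent.P146

open MeasureTheory ProbabilityTheory Matrix Real Finset Filter Topology
open P150 (gm spin Cfg)

variable {ι : Type} [Fintype ι] [DecidableEq ι] {J : Type} [Fintype J] {n : ℕ} {β : ℝ}

lemma Ph0_sq (σ : Cfg n) (i : Fin n) : sp σ i ^ 2 = 1 := by
  unfold sp spin
  split_ifs <;> norm_num

lemma Ph0_const (σ τ : Cfg n) :
    ∫ x, gw β x σ ∂gm (Fin n × Fin n) = ∫ x, gw β x τ ∂gm (Fin n × Fin n) := by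
  let s : Fin n → ℝ := fun i => sp σ i * sp τ i
  let T : (Fin n × Fin n → ℝ) →ₗ[ℝ] (Fin n × Fin n → ℝ) :=
    { toFun := fun x e => s e.1 * s e.2 * x e
      map_add' := fun x y => funext fun e => by simp only [Pi.add_apply]; ring
      map_smul' := fun c x => funext fun e => by
        simp only [Pi.smul_apply, smul_eq_mul, RingHom.id_apply]; ring }
  have hT : MeasurePreserving T (gm _) (gm _) := P150.mp_iso T fun x =>
    Finset.sum_congr rfl fun e _ => by
      show (s e.1 * s e.2 * x e) ^ 2 = _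
      simp only [s, mul_pow, Ph0_sq, one_mul]
  let g : Cfg n → Cfg n := fun ρ i => xor (xor (σ i) (τ i)) (ρ i)
  have gi : Function.Involutive g := fun ρ => funext fun i => by
    simp only [g]
    cases σ i <;> cases τ i <;> cases ρ i <;> rfl
  have gs : ∀ ρ i, sp (g ρ) i = s i * sp ρ i := fun ρ i => by
    simp only [g, s, sp]
    cases σ i <;> cases τ i <;> cases ρ i <;> simp [spin]
  have gσ : g σ = τ := funext fun i => by
    simp only [g]
    cases σ i <;> cases τ i <;> rfl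
  have hH : ∀ x ρ, Hm β (T x) (sp ρ) = Hm β x (sp (g ρ)) := fun x ρ =>
    Finset.sum_congr rfl fun e _ => by
      show s e.1 * s e.2 * x e * _ = _
      simp only [ep, gs]
      ring
  have hZ : ∀ x, Zf β (T x) = Zf β x := fun x => by
    unfold Zf
    simp only [hH]
    exact gi.bijective.sum_comp fun ρ => exp (Hm β x (sp ρ))
  have hg : ∀ x, gw β (T x) σ = gw β x τ := fun x => by
    unfold gw
    rw [hH, hZ, gσ]
  rw [← hT.map_eq, integral_map hT.measurable.aemeasurable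
    (gw_diff σ).continuous.aestronglyMeasurable, hT.map_eq]
  simp only [hg]

lemma Ph0_val (σ : Cfg n) : ∫ x, gw β x σ ∂gm (Fin n × Fin n) = (2 ^ n : ℝ)⁻¹ := by
  have h : ∑ τ : Cfg n, ∫ x, gw β x τ ∂gm (Fin n × Fin n) = 1 := by
    rw [← integral_finsetSum _ fun τ _ => (Al.wt τ).pg.int]
    simp only [gw_sum]
    simp
  rw [Finset.sum_congr rfl fun τ _ => Ph0_const τ σ, Finset.sum_const, Finset.card_univ,
    nsmul_eq_mul] at h
  have c : (Fintype.card (Cfg n) : ℝ) = 2 ^ n := by simp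
  rw [c] at h
  exact eq_inv_of_mul_eq_one_right h

theorem ph_zero (hn : 1 ≤ n) (p : ℕ) : ph β n p 0 ≤ (2 * p / n : ℝ) ^ p := by
  have n0 : (0 : ℝ) < n := by exact_mod_cast hn
  rw [ph_eq p ⟨le_rfl, zero_le_one⟩]
  unfold E2
  have m0 : ∀ q : (Fin n × Fin n → ℝ) × (Fin n × Fin n → ℝ), mix (fun _ => 0) q = q.2 :=
    fun q => funext fun e => by simp [mix]
  simp only [m0]
  have hi : ∀ σ τ : Cfg n, Integrable (fun q : (Fin n × Fin n → ℝ) × (Fin n × Fin n → ℝ) =>
      gw β q.1 σ * gw β q.2 τ * ov σ τ ^ (2 * p)) ((gm _).prod (gm _)) := fun σ τ =>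
    ((Al.wt σ).pg.int.mul_prod (Al.wt τ).pg.int).mul_const _
  rw [integral_finsetSum _ fun σ _ => integrable_finsetSum _ fun τ _ => hi σ τ]
  have e : ∀ σ : Cfg n, ∫ q : (Fin n × Fin n → ℝ) × (Fin n × Fin n → ℝ),
      ∑ τ, gw β q.1 σ * gw β q.2 τ * ov σ τ ^ (2 * p) ∂((gm _).prod (gm _)) ≤
        (2 ^ n : ℝ)⁻¹ * (2 * p / n : ℝ) ^ p := by
    intro σ
    rw [integral_finsetSum _ fun τ _ => hi σ τ]
    have e1 : ∀ τ : Cfg n, ∫ q : (Fin n × Fin n → ℝ) × (Fin n × Fin n → ℝ),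
        gw β q.1 σ * gw β q.2 τ * ov σ τ ^ (2 * p) ∂((gm _).prod (gm _)) =
        (2 ^ n : ℝ)⁻¹ * ((2 ^ n : ℝ)⁻¹ * (∑ i, sp τ i * (sp σ i / n)) ^ (2 * p)) := by
      intro τ
      rw [integral_mul_const, integral_prod_mul (fun x => gw β x σ) (fun x => gw β x τ), Ph0_val,
        Ph0_val, mul_assoc, ov, Finset.sum_div]
      congr 3
      exact Finset.sum_congr rfl fun i _ => by ring
    rw [Finset.sum_congr rfl fun τ _ => e1 τ, ← Finset.mul_sum, ← Finset.mul_sum]
    refine mul_le_mul_of_nonneg_left ?_ (by positivity)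
    have k := khin (fun i => sp σ i / n) p
    have e2 : ∑ i, (sp σ i / n) ^ 2 = 1 / n := by
      simp only [div_pow, Ph0_sq]
      rw [Finset.sum_const, Finset.card_univ, Fintype.card_fin, nsmul_eq_mul]
      field_simp
    rw [e2, ← mul_pow, mul_one_div] at k
    rw [inv_mul_le_iff₀ (by positivity)]
    exact k
  refine (Finset.sum_le_sum fun σ _ => e σ).trans ?_
  rw [Finset.sum_const, Finset.card_univ, nsmul_eq_mul]
  have c : (Fintype.card (Cfg n) : ℝ) = 2 ^ n := by simp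
  rw [c, ← mul_assoc, mul_inv_cancel₀ (by positivity), one_mul]

end Vale.Agent.P146
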