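import Vale.Agent.P146.PhD
import Vale.Agent.P146.Ph0

namespace Vale.Agent.P146

open MeasureTheory ProbabilityTheory Matrix Real Finset Filter Topology
open P150 (gm spin Cfg)

variable {ι : Type} [Fintype ι] [DecidableEq ι] {J : Type} [Fintype J] {n : ℕ} {β : ℝ}

theorem base_e {p : ℕ} (hp : 1 ≤ p) : ((p : ℝ) + 1) ^ p ≤ 3 * (p : ℝ) ^ p := by
  have p0 : (0 : ℝ) < p := by exact_mod_cast hp
  have h1 : (1 / p + 1 : ℝ) ^ p ≤ 3 := by
    refine (pow_le_pow_left₀ (by positivity) (Real.add_one_le_exp (1 / p)) p).trans ?_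
    rw [← Real.exp_nat_mul, mul_one_div_cancel p0.ne']
    linarith [Real.exp_one_lt_d9]
  have h2 : (p : ℝ) + 1 = (1 / p + 1) * p := by field_simp; ring
  rw [h2, mul_pow]
  exact mul_le_mul_of_nonneg_right h1 (by positivity)

theorem base_ode {N b : ℝ} (hN : 1 ≤ N) (hb : 0 < b) {φ : ℕ → ℝ → ℝ}
    (h1 : ∀ p, ∀ t ∈ Set.Icc (0 : ℝ) 1, φ p t ≤ 1) (hc : ∀ p, ContinuousOn (φ p) (Set.Icc 0 1))
    (hd : ∀ p, ∀ t ∈ Set.Ioo (0 : ℝ) 1, ∃ d, HasDerivAt (φ p) d t ∧ d ≤ b * N * φ (p + 1) t)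
    (h0 : ∀ p, φ p 0 ≤ (2 * p / N) ^ p) {T : ℝ} (hT : 0 < T) (hT1 : T ≤ 1) (hTb : 12 * b * T ≤ 1)
    (p : ℕ) (hp : 1 ≤ p) : φ p (T / 2) ≤ (4 * p / N) ^ p := by
  have N0 : 0 < N := by linarith
  have key : ∀ k p : ℕ, 1 ≤ p → N ≤ 2 * ((p : ℝ) + k) → ∀ t ∈ Set.Icc 0 (T / 2),
      φ p t ≤ (2 * p * T / N / (T - t)) ^ p := by
    intro k
    induction k with
    | zero =>
      intro p hp hk t ht
      refine (h1 p t ⟨ht.1, by linarith [ht.2]⟩).trans (one_le_pow₀ ?_)
      rw [Nat.cast_zero, add_zero] at hk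
      rw [le_div_iff₀ (by linarith [ht.2]), le_div_iff₀ N0]
      nlinarith [ht.1, ht.2]
    | succ k ih =>
      intro p hp hk
      have ih' := ih (p + 1) (by omega) (by push_cast at hk ⊢; linarith)
      have p1 : (1 : ℝ) ≤ p := by exact_mod_cast hp
      set c := 2 * p * T / N with hcd
      have du : ∀ t ∈ Set.Icc 0 (T / 2), HasDerivAt (fun t => (c / (T - t)) ^ p)
          (p * (c / (T - t)) ^ p / (T - t)) t := fun t ht => by
        have ne : T - t ≠ 0 := by linarith [ht.2]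
        have a := (((hasDerivAt_id t).const_sub T).fun_inv ne).const_mul c
        refine (a.fun_pow p).congr_deriv ?_
        obtain ⟨q, rfl⟩ : ∃ q, p = q + 1 := ⟨p - 1, by omega⟩
        simp only [id, Nat.add_sub_cancel, pow_succ, ← div_eq_mul_inv]
        field_simp
      have dg : ∀ t ∈ interior (Set.Icc 0 (T / 2)), ∃ d, 0 ≤ d ∧
          HasDerivAt (fun t => (c / (T - t)) ^ p - φ p t) d t := fun t ht => by
        rw [interior_Icc] at ht
        have ht' : t ∈ Set.Icc 0 (T / 2) := ⟨ht.1.le, ht.2.le⟩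
        obtain ⟨d, d1, d2⟩ := hd p t ⟨ht.1, by linarith [ht.2]⟩
        refine ⟨_, sub_nonneg.2 (d2.trans ?_), (du t ht').sub d1⟩
        refine (mul_le_mul_of_nonneg_left (ih' t ht') (by positivity)).trans ?_
        have pos : 0 < T - t := by linarith [ht.2]
        set y := 2 * T / N / (T - t) with hy
        have y0 : 0 < y := by positivity
        have e1 : 2 * ((p + 1 : ℕ) : ℝ) * T / N / (T - t) = (p + 1) * y := by
          rw [hy]; push_cast; ring
        have e2 : c / (T - t) = p * y := by rw [hy, hcd]; ring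
        have e3 : N * y * (T - t) = 2 * T := by rw [hy]; field_simp
        rw [e1, e2, le_div_iff₀ pos, pow_succ, mul_pow, mul_pow]
        have a1 := mul_le_mul_of_nonneg_right (base_e hp) (pow_pos y0 p).le
        have a2 : b * N * (((p : ℝ) + 1) ^ p * y ^ p * ((p + 1) * y)) * (T - t) =
            (((p : ℝ) + 1) ^ p * y ^ p) * (b * (p + 1) * (N * y * (T - t))) := by ring
        rw [a2, e3]
        refine (mul_le_mul_of_nonneg_right a1 (by positivity)).trans ?_
        have a3 : 3 * (b * (p + 1) * (2 * T)) ≤ p := by nlinarith [mul_pos hb hT]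
        have a4 := mul_le_mul_of_nonneg_left a3 (by positivity : 0 ≤ (p : ℝ) ^ p * y ^ p)
        linarith
      have mono : MonotoneOn (fun t => (c / (T - t)) ^ p - φ p t) (Set.Icc 0 (T / 2)) :=
        monotoneOn_of_deriv_nonneg (convex_Icc _ _)
          (ContinuousOn.sub (fun t ht => (du t ht).continuousAt.continuousWithinAt)
            ((hc p).mono (Set.Icc_subset_Icc_right (by linarith))))
          (fun t ht => by
            obtain ⟨d, -, h⟩ := dg t ht
            exact h.differentiableAt.differentiableWithinAt)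
          (fun t ht => by
            obtain ⟨d, d0, h⟩ := dg t ht
            rw [h.deriv]
            exact d0)
      intro t ht
      have m := mono ⟨le_rfl, by linarith⟩ ht ht.1
      have e : c / (T - 0) = 2 * p / N := by rw [hcd, sub_zero]; field_simp
      simp only [e] at m
      linarith [h0 p]
  obtain ⟨k, hk⟩ := exists_nat_ge N
  have p0 : (0 : ℝ) ≤ p := Nat.cast_nonneg p
  refine (key k p hp (by linarith) (T / 2) ⟨by linarith, le_rfl⟩).trans (le_of_eq ?_)
  congr 1
  rw [show T - T / 2 = T / 2 by ring]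
  field_simp
  ring

theorem base (hβ : 0 < β) : ∃ t₀ ∈ Set.Ioo (0 : ℝ) 1, ∀ n p : ℕ, 1 ≤ n → 1 ≤ p →
    ph β n p t₀ ≤ (4 * p / n : ℝ) ^ p := by
  have hb : 0 < 2 * β ^ 2 := by positivity
  set T := 1 / (1 + 12 * (2 * β ^ 2)) with hT
  have T0 : 0 < T := by positivity
  have T1 : T * (1 + 12 * (2 * β ^ 2)) = 1 := by rw [hT]; field_simp
  have T2 : 0 < T * (2 * β ^ 2) := mul_pos T0 hb
  refine ⟨T / 2, ⟨by linarith, by nlinarith⟩, fun n p hn hp => ?_⟩
  refine base_ode (by exact_mod_cast hn) hb (φ := ph β n) (fun p t ht => (ph_mem p ht).2) ph_cont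
    (fun p t ht => ?_) (ph_zero hn) T0 (by nlinarith) (by nlinarith) p hp
  obtain ⟨d, d1, -, d2⟩ := ph_deriv (β := β) (n := n) p ht
  exact ⟨d, d1, d2⟩

end Vale.Agent.P146
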