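import Vale.Agent.P146.Semi

namespace Vale.Agent.P146

open MeasureTheory ProbabilityTheory Matrix Real Finset Filter Topology
open P150 (gm spin Cfg)

variable {ι : Type} [Fintype ι] [DecidableEq ι] {J : Type} [Fintype J] {n : ℕ} {β : ℝ}

theorem cs_core {u v : J → (ι → ℝ) → ℝ} (hu : ∀ j, PG (u j)) (hv : ∀ j, PG (v j)) :
    (∑ j, ∫ x, u j x * v j x ∂gm ι) ^ 2 ≤
      (∑ j, ∫ x, u j x * u j x ∂gm ι) * ∑ j, ∫ x, v j x * v j x ∂gm ι := by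
  have h : ∀ t : ℝ, 0 ≤ (∑ j, ∫ x, u j x * u j x ∂gm ι) * (t * t) +
      (2 * ∑ j, ∫ x, u j x * v j x ∂gm ι) * t + ∑ j, ∫ x, v j x * v j x ∂gm ι := by
    intro t
    rw [Finset.mul_sum, Finset.sum_mul, Finset.sum_mul, ← Finset.sum_add_distrib,
      ← Finset.sum_add_distrib]
    refine Finset.sum_nonneg fun j _ => ?_
    have i1 := ((hu j).mul (hu j)).int.mul_const (t * t)
    have i2 := (((hu j).mul (hv j)).int.const_mul 2).mul_const t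
    have i3 := ((hv j).mul (hv j)).int
    have i4 : Integrable (fun x => u j x * u j x * (t * t) + 2 * (u j x * v j x) * t) (gm ι) :=
      i1.add i2
    rw [← integral_mul_const, ← integral_const_mul, ← integral_mul_const, ← integral_add i1 i2,
      ← integral_add i4 i3]
    refine integral_nonneg fun x => ?_
    have := sq_nonneg (t * u j x + v j x)
    simp only [Pi.zero_apply]
    nlinarith
  have := discrim_le_zero h
  rw [discrim] at this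
  nlinarith

omit [Fintype ι] [DecidableEq ι] in
theorem cs_sqrt {ρ : ι → ℝ} (hρ : U01 ρ) :
    U01 (fun e => √(ρ e)) ∧ (fun e => √(ρ e)) * (fun e => √(ρ e)) = ρ :=
  ⟨fun e => ⟨Real.sqrt_nonneg _, Real.sqrt_le_one.2 (hρ e).2⟩,
    funext fun e => Real.mul_self_sqrt (hρ e).1⟩

theorem bf_nonneg {f : (ι → ℝ) → ℝ} (hf : PG f) {ρ : ι → ℝ} (hρ : U01 ρ) : 0 ≤ Bf ρ f f := by
  obtain ⟨h1, h2⟩ := cs_sqrt hρ
  rw [← h2, bf_semi hf hf h1 h1]
  exact integral_nonneg fun x => mul_self_nonneg _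
theorem qb_nonneg {F : J → (ι → ℝ) → ℝ} (hF : ∀ j, PG (F j)) {ρ : ι → ℝ} (hρ : U01 ρ) :
    0 ≤ Qb ρ F F := Finset.sum_nonneg fun j _ => bf_nonneg (hF j) hρ
theorem qb_lc {F G : J → (ι → ℝ) → ℝ} (hF : ∀ j, PG (F j)) (hG : ∀ j, PG (G j)) {a b : ι → ℝ}
    (ha : U01 a) (hb : U01 b) : Qb (a * b) F G ^ 2 ≤ Qb (a * a) F F * Qb (b * b) G G := by
  unfold Qb
  simp only [bf_semi (hF _) (hG _) ha hb, bf_semi (hF _) (hF _) ha ha, bf_semi (hG _) (hG _) hb hb]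
  exact cs_core (fun j => (hF j).pt ha) fun j => (hG j).pt hb
theorem qb_cs {F G : J → (ι → ℝ) → ℝ} (hF : ∀ j, PG (F j)) (hG : ∀ j, PG (G j)) {ρ : ι → ℝ}
    (hρ : U01 ρ) : Qb ρ F G ^ 2 ≤ Qb ρ F F * Qb ρ G G := by
  obtain ⟨h1, h2⟩ := cs_sqrt hρ
  have := qb_lc hF hG h1 h1
  rwa [h2] at this
theorem qb_symm {F G : J → (ι → ℝ) → ℝ} (hF : ∀ j, PG (F j)) (hG : ∀ j, PG (G j)) {ρ : ι → ℝ}
    (hρ : U01 ρ) : Qb ρ F G = Qb ρ G F :=
  Finset.sum_congr rfl fun j _ => bf_symm (hF j) (hG j) hρ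
theorem qb_sum_left {κ : Type} (s : Finset κ) (c : κ → ℝ) {F : κ → J → (ι → ℝ) → ℝ}
    {G : J → (ι → ℝ) → ℝ} (hF : ∀ i j, PG (F i j)) (hG : ∀ j, PG (G j)) {ρ : ι → ℝ} (hρ : U01 ρ) :
    Qb ρ (fun j x => ∑ i ∈ s, c i * F i j x) G = ∑ i ∈ s, c i * Qb ρ (F i) G := by
  unfold Qb
  simp only [Finset.mul_sum]
  rw [Finset.sum_comm]
  refine Finset.sum_congr rfl fun j _ => ?_
  unfold Bf
  simp only [Finset.sum_mul, mul_assoc, ← integral_const_mul]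
  exact integral_finset_sum _ fun i _ => ((hF i j).int2 (hG j) hρ).const_mul _
theorem qb_sub_left {F F' G : J → (ι → ℝ) → ℝ} (hF : ∀ j, PG (F j)) (hF' : ∀ j, PG (F' j))
    (hG : ∀ j, PG (G j)) {ρ : ι → ℝ} (hρ : U01 ρ) :
    Qb ρ (F - F') G = Qb ρ F G - Qb ρ F' G := by
  unfold Qb
  rw [← Finset.sum_sub_distrib]
  refine Finset.sum_congr rfl fun j _ => ?_
  unfold Bf
  simp only [Pi.sub_apply, sub_mul]
  exact integral_sub ((hF j).int2 (hG j) hρ) ((hF' j).int2 (hG j) hρ)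
theorem qb_sub_right {F G G' : J → (ι → ℝ) → ℝ} (hF : ∀ j, PG (F j)) (hG : ∀ j, PG (G j))
    (hG' : ∀ j, PG (G' j)) {ρ : ι → ℝ} (hρ : U01 ρ) :
    Qb ρ F (G - G') = Qb ρ F G - Qb ρ F G' := by
  unfold Qb
  rw [← Finset.sum_sub_distrib]
  refine Finset.sum_congr rfl fun j _ => ?_
  unfold Bf
  simp only [Pi.sub_apply, mul_sub]
  exact integral_sub ((hF j).int2 (hG j) hρ) ((hF j).int2 (hG' j) hρ)
theorem qb_tri {k : ℕ} {G : Fin k → J → (ι → ℝ) → ℝ} (hG : ∀ i j, PG (G i j)) {ρ : ι → ℝ}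
    (hρ : U01 ρ) {B : ℝ} (hB : ∀ i, Qb ρ (G i) (G i) ≤ B) :
    Qb ρ (∑ i, G i) (∑ i, G i) ≤ k ^ 2 * B := by
  have e : (∑ i, G i) = fun j x => ∑ i, (1 : ℝ) * G i j x := by
    funext j x
    simp only [Finset.sum_apply, one_mul]
  have hS : ∀ j, PG ((∑ i, G i) j) := fun j => by
    rw [e]
    exact PG.sum _ fun i _ => (PG.const 1).mul (hG i j)
  have key : ∀ H : J → (ι → ℝ) → ℝ, (∀ j, PG (H j)) →
      Qb ρ (∑ i, G i) H = ∑ i, Qb ρ (G i) H := fun H hH => by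
    rw [e, qb_sum_left _ _ hG hH hρ]
    simp only [one_mul]
  have h2 : ∀ i i', Qb ρ (G i') (G i) ≤ B := fun i i' => by
    have h0 := (qb_nonneg (hG i) hρ).trans (hB i)
    refine (abs_le_of_sq_le_sq' ((qb_cs (hG i') (hG i) hρ).trans ?_) h0).2
    rw [sq]
    exact mul_le_mul (hB i') (hB i) (qb_nonneg (hG i) hρ) h0
  rw [key _ hS]
  refine (Finset.sum_le_sum (g := fun _ => ∑ _i' : Fin k, B) fun i _ => ?_).trans (le_of_eq ?_)
  · rw [qb_symm (hG i) hS hρ, key _ (hG i)]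
    exact Finset.sum_le_sum fun i' _ => h2 i i'
  · simp only [Finset.sum_const, Finset.card_univ, Fintype.card_fin, nsmul_eq_mul]
    ring

end Vale.Agent.P146
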