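import Vale.Agent.P146.Cav1a

namespace Vale.Agent.P146

open MeasureTheory ProbabilityTheory Matrix Real Finset Filter Topology
open P150 (gm spin Cfg)

variable {ι : Type} [Fintype ι] [DecidableEq ι] {J : Type} [Fintype J] {n : ℕ} {β : ℝ}

theorem gw_le_cut (a b : Fin n) (x : Om n) (σ : Cfg n) :
    gw β x σ ≤ gw β (cut (ES a b) x) σ * exp (∑ e ∈ ES a b with e.1 ≠ e.2,
      x e * ep β (sp σ) (sp σ) e) := by
  have e : ∑ e ∈ ES a b with e.1 ≠ e.2, x e * ep β (sp σ) (sp σ) e =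
      ∑ e, x e * cavK β a b σ e := by
    simp only [cavK, mul_ite, mul_zero, ← sum_filter]
    refine sum_congr ?_ fun _ _ => rfl
    ext e
    simp
  rw [e, ← cav_gw]
  exact le_mul_of_one_le_right (gw_pos _ _).le (cavA_ge a b x)

theorem Cav1_ea (a b : Fin n) (v : Fin n → ℝ) (i : Fin n) :
    (Ea a b *ᵥ v) i = (if a = i then v b else 0) - if b = i then v a else 0 := by
  simp [Ea, mulVec, dotProduct, Matrix.single_apply, ite_and, sub_mul, sum_sub_distrib]

theorem Cav1_lam (a b : Fin n) (σ : Cfg n) (e : Fin n × Fin n) :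
    |lam β (Ea a b) (sp σ) e| ≤ 4 * (|β| / √(2 * n)) ∧
      (e ∉ ES a b → lam β (Ea a b) (sp σ) e = 0) := by
  have h1 : ∀ i, |(Ea a b *ᵥ sp σ) i| ≤ 2 := fun i => by
    rw [Cav1_ea]
    refine (abs_sub _ _).trans ?_
    split_ifs <;> simp [cav_sp, one_add_one_eq_two]
  refine ⟨(abs_add_le _ _).trans ?_, fun he => ?_⟩
  · have h0 : 0 ≤ |β| / √(2 * n) := by positivity
    simp only [ep, abs_mul, cav_sp, abs_div, abs_of_nonneg (sqrt_nonneg _), mul_one, one_mul]
    nlinarith [h1 e.1, h1 e.2]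
  · simp only [ES, mem_filter, mem_univ, true_and, not_or] at he
    simp [lam, ep, Cav1_ea, Ne.symm he.1, Ne.symm he.2.1, Ne.symm he.2.2.1, Ne.symm he.2.2.2]

theorem Cav1_bd {m : ℕ} (a b : Fin n) (hm : m ≤ 6) {u0 : ℝ} {u : Fin m → ℝ}
    (hu : |u0| + ∑ l, |u l| ≤ 2) (s : Fin m → Cfg n) :
    ∃ B, CavB a b (16 * exp ((20 * |β|) ^ 2)) B ∧ ∀ x, ∃ X : ℝ, X ^ 2 ≤ B x ∧
      pw β x s * |u0 + ∑ l, u l * dH β (Ea a b) x (sp (s l))| ≤
        pw β (cut (ES a b) x) s * X := by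
  let k : Fin n × Fin n → ℝ := fun e => ∑ l, cavK β a b (s l) e
  let j : Fin n × Fin n → ℝ := fun e => ∑ l, u l * lam β (Ea a b) (sp (s l)) e
  have h0 : 0 ≤ |β| / √(2 * n) := by positivity
  have hu0 : 0 ≤ ∑ l, |u l| := sum_nonneg fun _ _ => abs_nonneg _
  have hk : ∀ e, |k e| ≤ 6 * (|β| / √(2 * n)) := fun e => by
    refine (abs_sum_le_sum_abs _ _).trans ((sum_le_card_nsmul _ _ _
      fun l _ => cavK_abs a b (s l) e).trans ?_)
    rw [nsmul_eq_mul, card_univ, Fintype.card_fin]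
    exact mul_le_mul_of_nonneg_right (by exact_mod_cast hm) h0
  have hj : ∀ e, |j e| ≤ 8 * (|β| / √(2 * n)) := fun e => by
    refine (abs_sum_le_sum_abs _ _).trans ((sum_le_sum fun l _ => (abs_mul _ _).le.trans
      (mul_le_mul_of_nonneg_left (Cav1_lam a b (s l) e).1 (abs_nonneg _))).trans ?_)
    rw [← sum_mul]
    nlinarith [abs_nonneg u0]
  have hE : ∀ η : ℝ, |η| ≤ 1 → CavB a b (exp ((20 * |β|) ^ 2))
      fun x => exp (∑ e, x e * (2 * k e + η * j e)) := fun η hη =>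
    cav_exp a b (fun e he => by
      simp only [k, j, cavK_zero a b _ he, (Cav1_lam a b _ e).2 he, mul_zero, sum_const_zero,
        add_zero]) fun e => by
      refine (abs_add_le _ _).trans ?_
      rw [abs_mul, abs_mul, mul_div_assoc, abs_two]
      nlinarith [hk e, hj e, abs_nonneg (j e), abs_nonneg η]
  obtain ⟨a1, a2, a3, a4⟩ := hE 0 (by simp)
  obtain ⟨b1, b2, b3, b4⟩ := hE 1 (by simp)
  obtain ⟨c1, c2, c3, c4⟩ := hE (-1) (by simp)
  refine ⟨fun x => 8 * exp (∑ e, x e * (2 * k e + 0 * j e)) +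
    4 * exp (∑ e, x e * (2 * k e + 1 * j e)) + 4 * exp (∑ e, x e * (2 * k e + -1 * j e)),
    ⟨((a1.const_mul 8).add (b1.const_mul 4)).add (c1.const_mul 4),
      ((a2.const_mul 8).add (b2.const_mul 4)).add (c2.const_mul 4), ?_, fun x x' h => ?_⟩,
    fun x => ⟨exp (∑ e, x e * k e) * |u0 + ∑ e, x e * j e|, ?_, ?_⟩⟩
  · beta_reduce at a3 b3 c3 ⊢
    rw [integral_add _ (c2.const_mul 4),
      integral_add (a2.const_mul 8) (b2.const_mul 4), integral_const_mul, integral_const_mul,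
      integral_const_mul]
    · linarith
    · exact (a2.const_mul 8).add (b2.const_mul 4)
  · have := a4 x x' h
    have := b4 x x' h
    have := c4 x x' h
    simp only at *
    linarith
  · have e : ∀ η : ℝ, exp (∑ e, x e * (2 * k e + η * j e)) =
        exp (∑ e, x e * k e) ^ 2 * exp (η * ∑ e, x e * j e) := fun η => by
      rw [sq, ← exp_add, ← exp_add, mul_sum, ← sum_add_distrib, ← sum_add_distrib]
      exact congrArg _ (sum_congr rfl fun _ _ => by ring)
    beta_reduce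
    rw [e 0, e 1, e (-1)]
    simp only [zero_mul, exp_zero, one_mul, neg_mul, mul_pow, sq_abs]
    generalize ∑ e, x e * j e = y
    have l1 : y ^ 2 ≤ 2 * exp y + 2 * exp (-y) := by
      rcases le_total 0 y with h | h
      · have := quadratic_le_exp_of_nonneg h
        have := add_one_le_exp (-y)
        nlinarith [sq_nonneg y]
      · have := quadratic_le_exp_of_nonneg (neg_nonneg.2 h)
        have := add_one_le_exp y
        nlinarith [sq_nonneg y]
    have l2 : u0 ^ 2 ≤ 4 := by nlinarith [sq_abs u0, abs_nonneg u0]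
    have l3 : (u0 + y) ^ 2 ≤ 8 + 4 * exp y + 4 * exp (-y) := by nlinarith [sq_nonneg (u0 - y)]
    nlinarith [mul_le_mul_of_nonneg_left l3 (sq_nonneg (exp (∑ e, x e * k e)))]
  · have e1 : ∑ l, u l * dH β (Ea a b) x (sp (s l)) = ∑ e, x e * j e := by
      simp only [dH, j, mul_sum]
      rw [sum_comm]
      exact sum_congr rfl fun _ _ => sum_congr rfl fun _ _ => by ring
    have e2 : exp (∑ e, x e * k e) = ∏ l, exp (∑ e, x e * cavK β a b (s l) e) := by
      rw [← exp_sum, sum_comm]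
      simp only [k, mul_sum]
    rw [e1, ← mul_assoc]
    refine mul_le_mul_of_nonneg_right ?_ (abs_nonneg _)
    rw [e2, pw, pw, ← prod_mul_distrib]
    refine prod_le_prod (fun _ _ => (gw_pos _ _).le) fun l _ => ?_
    rw [← cav_gw]
    exact le_mul_of_one_le_right (gw_pos _ _).le (cavA_ge a b x)

theorem cav_up (β : ℝ) : ∃ C, 0 ≤ C ∧ ∀ (n m : ℕ) (a b : Fin n), a ≠ b → m ≤ 6 →
    ∀ (r t : ℝ), r ∈ Set.Icc (0 : ℝ) 1 → t ∈ Set.Icc (0 : ℝ) 1 →
    ∀ (u0 : ℝ) (u : Fin m → ℝ), |u0| + ∑ l, |u l| ≤ 2 → ∀ s s' : Fin m → Cfg n,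
    ∫ q, pw β q.1 s * pw β (mix (rr (ES a b) r t) q) s' *
      (|u0 + ∑ l, u l * dH β (Ea a b) q.1 (sp (s l))| *
        |u0 + ∑ l, u l * dH β (Ea a b) (mix (rr (ES a b) r t) q) (sp (s' l))|)
        ∂(gm _).prod (gm _) ≤
      C * ∫ q, pw β (cut (ES a b) q.1) s * pw β (cut (ES a b) (mix (fun _ => t) q)) s'
        ∂(gm _).prod (gm _) := by
  refine ⟨16 * exp ((20 * |β|) ^ 2), by positivity,
    fun n m a b _ hm r t hr ht u0 u hu s s' => ?_⟩
  obtain ⟨B, hB, h1⟩ := Cav1_bd (β := β) a b hm hu s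
  obtain ⟨B', hB', h2⟩ := Cav1_bd (β := β) a b hm hu s'
  have hm1 := mp_mix (u01_rr (ES a b) hr ht)
  have hm2 := mp_mix (ρ := fun _ : Fin n × Fin n => t) fun _ => ht
  have p0 : ∀ (x : Om n) (s : Fin m → Cfg n), 0 ≤ pw β x s := fun x s =>
    prod_nonneg fun _ _ => (gw_pos _ _).le
  have p1 : ∀ (x : Om n) (s : Fin m → Cfg n), pw β x s ≤ 1 := fun x s =>
    prod_le_one (fun _ _ => (gw_pos _ _).le) fun _ _ => cav_le_one _ _
  have pm : ∀ s : Fin m → Cfg n, Measurable fun x : Om n => pw β (cut (ES a b) x) s := fun s =>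
    Finset.measurable_prod _ fun l _ => cav_meas a b (s l)
  set G : Om n × Om n → ℝ := fun q =>
    pw β (cut (ES a b) q.1) s * pw β (cut (ES a b) (mix (fun _ => t) q)) s' with hG
  have Gm : Measurable G := ((pm s).comp measurable_fst).mul ((pm s').comp hm2.measurable)
  have G0 : ∀ q, 0 ≤ G q := fun q => mul_nonneg (p0 _ _) (p0 _ _)
  have G1 : ∀ q, G q ≤ 1 := fun q => mul_le_one₀ (p1 _ _) (p0 _ _) (p1 _ _)
  have G2 : ∀ q q' : Om n × Om n, (∀ e ∉ ES a b, q.1 e = q'.1 e ∧ q.2 e = q'.2 e) →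
      G q = G q' := fun q q' h => by
    simp only [hG]
    rw [cav_cut fun e he => (h e he).1, cav_cut fun e he => cav_mix _ q q' e (h e he)]
  obtain ⟨i1, j1⟩ := cav_ind hB measurePreserving_fst (fun _ _ _ h => h.1) Gm G0 G1 G2
  obtain ⟨i2, j2⟩ := cav_ind hB' hm1 (cav_mix _) Gm G0 G1 G2
  refine le_trans (integral_mono_of_nonneg (.of_forall fun q => ?_) ((i1.add i2).const_mul (1 / 2))
    (.of_forall fun q => ?_)) ?_
  · exact mul_nonneg (mul_nonneg (p0 _ _) (p0 _ _)) (mul_nonneg (abs_nonneg _) (abs_nonneg _))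
  · obtain ⟨X, x1, x2⟩ := h1 q.1
    obtain ⟨X', y1, y2⟩ := h2 (mix (rr (ES a b) r t) q)
    have e : cut (ES a b) (mix (rr (ES a b) r t) q) = cut (ES a b) (mix (fun _ => t) q) :=
      cav_cut fun e he => by simp only [mix, rr, if_neg he]
    rw [e] at y2
    have k1 := mul_le_mul x2 y2 (mul_nonneg (p0 _ _) (abs_nonneg _))
      ((mul_nonneg (p0 _ _) (abs_nonneg _)).trans x2)
    have k2 : X * X' ≤ 1 / 2 * (B q.1 + B' (mix (rr (ES a b) r t) q)) := by
      nlinarith [sq_nonneg (X - X')]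
    have k3 := mul_le_mul_of_nonneg_left k2 (G0 q)
    simp only [Pi.add_apply, hG] at k3 ⊢
    linarith
  · simp only [Pi.add_apply]
    rw [integral_const_mul, integral_add i1 i2]
    linarith

end Vale.Agent.P146
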