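import Vale.Agent.P146.Ind
import Vale.Agent.P146.Al

namespace Vale.Agent.P146

open MeasureTheory ProbabilityTheory Matrix Real Finset Filter Topology
open P150 (gm spin Cfg)

variable {n : ℕ} {β : ℝ}

/-- coefficients of the off diagonal cavity energy -/
noncomputable def cavK (β : ℝ) (a b : Fin n) (σ : Cfg n) (e : Fin n × Fin n) : ℝ :=
  if e ∈ ES a b ∧ e.1 ≠ e.2 then ep β (sp σ) (sp σ) e else 0

/-- cavity partition function -/
noncomputable def cavA (β : ℝ) (a b : Fin n) (x : Om n) : ℝ :=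
  ∑ σ, gw β (cut (ES a b) x) σ * exp (∑ e, x e * cavK β a b σ e)

theorem cav_sp (σ : Cfg n) (i : Fin n) : |sp σ i| = 1 := by
  unfold sp spin
  split_ifs <;> simp

theorem cav_sq (σ : Cfg n) (i : Fin n) : sp σ i * sp σ i = 1 := by
  rw [← abs_mul_abs_self, cav_sp, one_mul]

theorem cav_ep (σ : Cfg n) (e : Fin n × Fin n) : |ep β (sp σ) (sp σ) e| = |β| / √(2 * n) := by
  rw [ep, abs_mul, abs_mul, cav_sp, cav_sp, abs_div, abs_of_nonneg (sqrt_nonneg _)]
  ring

theorem cavK_abs (a b : Fin n) (σ : Cfg n) (e : Fin n × Fin n) :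
    |cavK β a b σ e| ≤ |β| / √(2 * n) := by
  unfold cavK
  split_ifs
  · exact (cav_ep σ e).le
  · rw [abs_zero]
    positivity

theorem cavK_zero (a b : Fin n) (σ : Cfg n) {e : Fin n × Fin n} (h : e ∉ ES a b) :
    cavK β a b σ e = 0 := if_neg fun h' => h h'.1

theorem cav_Hm (a b : Fin n) (x : Om n) : ∃ d : ℝ, ∀ σ : Cfg n,
    Hm β x (sp σ) = Hm β (cut (ES a b) x) (sp σ) + ∑ e, x e * cavK β a b σ e + d := by
  refine ⟨∑ e, if e ∈ ES a b ∧ e.1 = e.2 then x e * (β / √(2 * n)) else 0, fun σ => ?_⟩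
  simp only [Hm, ← sum_add_distrib]
  refine sum_congr rfl fun e _ => ?_
  by_cases h1 : e ∈ ES a b <;> by_cases h2 : e.1 = e.2 <;> simp [cut, cavK, h1, h2]
  left
  rw [ep, h2, cav_sq, mul_one]
  simp

theorem cav_Zf (x : Om n) : 0 < Zf β x := sum_pos (fun _ _ => exp_pos _) univ_nonempty

theorem cav_gw (a b : Fin n) (x : Om n) (σ : Cfg n) : gw β x σ * cavA β a b x =
    gw β (cut (ES a b) x) σ * exp (∑ e, x e * cavK β a b σ e) := by
  obtain ⟨d, hd⟩ := cav_Hm (β := β) a b x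
  have h1 : Zf β x = Zf β (cut (ES a b) x) * exp d * cavA β a b x := by
    have := (cav_Zf (β := β) (cut (ES a b) x)).ne'
    rw [cavA, mul_sum]
    refine sum_congr rfl fun τ _ => ?_
    rw [hd, exp_add, exp_add, gw]
    field_simp
  have h2 := (cav_Zf (β := β) x).ne'
  have h3 := (cav_Zf (β := β) (cut (ES a b) x)).ne'
  rw [gw, gw, div_mul_eq_mul_div, div_mul_eq_mul_div, div_eq_div_iff h2 h3, h1, hd, exp_add,
    exp_add]
  ring

theorem cav_zero (a b : Fin n) (x : Om n) (e : Fin n × Fin n) :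
    ∑ σ, gw β (cut (ES a b) x) σ * cavK β a b σ e = 0 := by
  by_cases h : e ∈ ES a b ∧ e.1 ≠ e.2
  swap
  · simp only [cavK, if_neg h, mul_zero, sum_const_zero]
  obtain ⟨c, hc, hc'⟩ : ∃ c, (c = a ∨ c = b) ∧ (c = e.1 ∨ c = e.2) := by
    have := (mem_filter.1 h.1).2
    rcases this with h | h | h | h
    exacts [⟨_, .inl h, .inl rfl⟩, ⟨_, .inr h, .inl rfl⟩, ⟨_, .inl h, .inr rfl⟩,
      ⟨_, .inr h, .inr rfl⟩]
  let F : Cfg n ≃ Cfg n :=
    Function.Involutive.toPerm (fun σ => Function.update σ c (!σ c)) fun σ => by simp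
  have hF : ∀ σ i, sp (F σ) i = if i = c then -sp σ i else sp σ i := fun σ i => by
    change spin (Function.update σ c (!σ c) i) = _
    split_ifs with hi
    · subst hi
      rw [Function.update_self, sp]
      cases σ i <;> simp [spin]
    · rw [Function.update_of_ne hi, sp]
  have h1 : ∀ σ, gw β (cut (ES a b) x) (F σ) = gw β (cut (ES a b) x) σ := fun σ => by
    unfold gw Hm
    congr 2
    refine sum_congr rfl fun e' _ => ?_
    by_cases he : e' ∈ ES a b
    · simp [cut, he]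
    · have k : e'.1 ≠ c ∧ e'.2 ≠ c := by
        simp only [ES, mem_filter, mem_univ, true_and, not_or] at he
        rcases hc with rfl | rfl <;> tauto
      simp only [ep, hF, if_neg k.1, if_neg k.2]
  have h2 : ∀ σ, cavK β a b (F σ) e = -cavK β a b σ e := fun σ => by
    simp only [cavK, if_pos h, ep, hF]
    rcases hc' with rfl | rfl
    · rw [if_pos rfl, if_neg h.2.symm]
      ring
    · rw [if_pos rfl, if_neg h.2]
      ring
  have h3 := F.sum_comp fun σ => gw β (cut (ES a b) x) σ * cavK β a b σ e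
  simp only [h1, h2, mul_neg, sum_neg_distrib] at h3
  linarith

theorem cavA_ge (a b : Fin n) (x : Om n) : 1 ≤ cavA β a b x := by
  have h1 : ∑ σ, gw β (cut (ES a b) x) σ * (∑ e, x e * cavK β a b σ e + 1) = 1 := by
    simp only [mul_add, sum_add_distrib, mul_one, gw_sum, mul_sum]
    rw [sum_comm, sum_eq_zero, zero_add]
    intro e _
    simp only [mul_left_comm _ (x e), ← mul_sum, cav_zero, mul_zero]
  rw [← h1]
  exact sum_le_sum fun σ _ => mul_le_mul_of_nonneg_left (add_one_le_exp _) (gw_pos _ _).le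

theorem cav_le_one (x : Om n) (σ : Cfg n) : gw β x σ ≤ 1 := by
  rw [← gw_sum (β := β) x]
  exact single_le_sum (fun τ _ => (gw_pos x τ).le) (mem_univ σ)

theorem cav_card (a b : Fin n) : #(ES a b) ≤ 4 * n := by
  have : ES a b ⊆ (({a, b} : Finset (Fin n)) ×ˢ univ) ∪ (univ ×ˢ ({a, b} : Finset (Fin n))) := by
    intro e he
    simp only [ES, mem_filter, mem_univ, true_and] at he
    simp only [mem_union, mem_product, mem_insert, mem_singleton, mem_univ, and_true, true_and]
    tauto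
  have h1 := (card_le_card this).trans (card_union_le _ _)
  have h2 : #({a, b} : Finset (Fin n)) ≤ 2 := card_le_two
  rw [card_product, card_product, card_univ, Fintype.card_fin] at h1
  nlinarith

/-- bounded cavity observables -/
def CavB (a b : Fin n) (C : ℝ) (B : Om n → ℝ) : Prop :=
  Measurable B ∧ Integrable B (gm _) ∧ ∫ x, B x ∂gm _ ≤ C ∧
    ∀ x x' : Om n, (∀ e ∈ ES a b, x e = x' e) → B x = B x'

theorem cav_exp (a b : Fin n) {K : ℝ} {k : Fin n × Fin n → ℝ} (h0 : ∀ e ∉ ES a b, k e = 0)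
    (h1 : ∀ e, |k e| ≤ K / √(2 * n)) :
    CavB a b (exp (K ^ 2)) fun x => exp (∑ e, x e * k e) := by
  have hn : (0 : ℝ) < n := by exact_mod_cast a.pos
  refine ⟨by fun_prop, (mgf_lin k).1, ?_, fun x x' h => ?_⟩
  · rw [(mgf_lin k).2, exp_le_exp, ← sum_subset (subset_univ (ES a b))
      fun e _ he => by rw [h0 e he]; ring]
    have k1 : ∀ e ∈ ES a b, k e ^ 2 ≤ K ^ 2 / (2 * n) := fun e _ => by
      rw [← sq_abs, ← sq_sqrt (by positivity : (0 : ℝ) ≤ 2 * n), ← div_pow]
      exact pow_le_pow_left₀ (abs_nonneg _) (h1 e) 2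
    have k2 := sum_le_card_nsmul _ _ _ k1
    have k3 : (#(ES a b) : ℝ) ≤ 4 * n := by exact_mod_cast cav_card a b
    have k4 := mul_le_mul_of_nonneg_right k3 (by positivity : 0 ≤ K ^ 2 / (2 * n))
    have k5 : 4 * (n : ℝ) * (K ^ 2 / (2 * n)) = 2 * K ^ 2 := by
      field_simp
      ring
    rw [nsmul_eq_mul] at k2
    linarith
  · refine congrArg exp (sum_congr rfl fun e _ => ?_)
    by_cases he : e ∈ ES a b
    · rw [h e he]
    · rw [h0 e he, mul_zero, mul_zero]

theorem cav_ind {a b : Fin n} {C : ℝ} {B : Om n → ℝ} (hB : CavB a b C B)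
    {T : Om n × Om n → Om n} (hT : MeasurePreserving T ((gm _).prod (gm _)) (gm _))
    (hT' : ∀ q q' e, q.1 e = q'.1 e ∧ q.2 e = q'.2 e → T q e = T q' e)
    {f : Om n × Om n → ℝ} (hf : Measurable f) (h0 : ∀ q, 0 ≤ f q) (h1 : ∀ q, f q ≤ 1)
    (h2 : ∀ q q' : Om n × Om n, (∀ e ∉ ES a b, q.1 e = q'.1 e ∧ q.2 e = q'.2 e) → f q = f q') :
    Integrable (fun q => f q * B (T q)) ((gm _).prod (gm _)) ∧
      ∫ q, f q * B (T q) ∂(gm _).prod (gm _) ≤ C * ∫ q, f q ∂(gm _).prod (gm _) := by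
  have k1 : Integrable (fun q => B (T q)) ((gm _).prod (gm _)) :=
    (hT.integrable_comp hB.1.aestronglyMeasurable).2 hB.2.1
  have k2 := ind (ES a b) hf (hB.1.comp hT.measurable) h2
    fun q q' h => hB.2.2.2 _ _ fun e he => hT' q q' e (h e he)
  refine ⟨k1.bdd_mul (c := 1) hf.aestronglyMeasurable (.of_forall fun q => by
    rw [Real.norm_eq_abs, abs_of_nonneg (h0 q)]
    exact h1 q), ?_⟩
  have k3 := k2.integral_fun_mul_eq_mul_integral hf.aestronglyMeasurable k1.aestronglyMeasurable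
  have k4 : ∫ q, B (T q) ∂(gm _).prod (gm _) = ∫ x, B x ∂gm _ := by
    rw [← integral_map hT.measurable.aemeasurable hB.1.aestronglyMeasurable, hT.map_eq]
  simp only [Function.comp] at k3
  rw [k3, k4, mul_comm]
  exact mul_le_mul_of_nonneg_right hB.2.2.1 (integral_nonneg h0)

theorem cav_meas (a b : Fin n) (σ : Cfg n) : Measurable fun x : Om n =>
    gw β (cut (ES a b) x) σ := by
  refine ((gw_diff σ).continuous.comp (continuous_pi fun e => ?_)).measurable
  unfold cut
  split_ifs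
  · exact continuous_const
  · exact continuous_apply e

theorem cav_cut {a b : Fin n} {x x' : Om n} (h : ∀ e ∉ ES a b, x e = x' e) :
    cut (ES a b) x = cut (ES a b) x' := by
  funext e
  unfold cut
  split_ifs with he
  · rfl
  · exact h e he

theorem cav_mix (ρ : Fin n × Fin n → ℝ) (q q' : Om n × Om n) (e : Fin n × Fin n)
    (h : q.1 e = q'.1 e ∧ q.2 e = q'.2 e) : mix ρ q e = mix ρ q' e := by
  rw [mix, mix, h.1, h.2]

end Vale.Agent.P146
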