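import Vale.Agent.P146.Cav1a

namespace Vale.Agent.P146

open MeasureTheory ProbabilityTheory Matrix Real Finset Filter Topology
open P150 (gm spin Cfg)

variable {ι : Type} [Fintype ι] [DecidableEq ι] {J : Type} [Fintype J] {n : ℕ} {β : ℝ}

theorem cav_low (β : ℝ) : ∃ C, 0 ≤ C ∧ ∀ (n : ℕ) (a b : Fin n) (t : ℝ), t ∈ Set.Icc (0 : ℝ) 1 →
    ∀ σ τ : Cfg n,
    ∫ q, gw β (cut (ES a b) q.1) σ * gw β (cut (ES a b) (mix (fun _ => t) q)) τ
        ∂(gm _).prod (gm _) ≤
      C * ∫ q, gw β q.1 σ * gw β (mix (fun _ => t) q) τ ∂(gm _).prod (gm _) := by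
  obtain ⟨c, hc⟩ : ∃ c, c = exp (|β| ^ 2) := ⟨_, rfl⟩
  refine ⟨exp (4 * c), (exp_pos _).le, fun n a b t ht σ τ => ?_⟩
  have hρ : U01 (fun _ : Fin n × Fin n => t) := fun _ => ht
  have hm := mp_mix hρ
  have hf : MeasurePreserving (Prod.fst : Om n × Om n → Om n) ((gm _).prod (gm _)) (gm _) :=
    measurePreserving_fst
  set G : Om n × Om n → ℝ := fun q =>
    gw β (cut (ES a b) q.1) σ * gw β (cut (ES a b) (mix (fun _ => t) q)) τ with hG
  have Gm : Measurable G :=
    ((cav_meas a b σ).comp measurable_fst).mul ((cav_meas a b τ).comp hm.measurable)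
  have G0 : ∀ q, 0 ≤ G q := fun q => (mul_pos (gw_pos _ _) (gw_pos _ _)).le
  have G1 : ∀ q, G q ≤ 1 := fun q =>
    mul_le_one₀ (cav_le_one _ _) (gw_pos _ _).le (cav_le_one _ _)
  have G2 : ∀ q q' : Om n × Om n, (∀ e ∉ ES a b, q.1 e = q'.1 e ∧ q.2 e = q'.2 e) →
      G q = G q' := fun q q' h => by
    simp only [hG]
    rw [cav_cut fun e he => (h e he).1, cav_cut fun e he => cav_mix _ q q' e (h e he)]
  have Gi : Integrable G ((gm _).prod (gm _)) :=
    Integrable.of_bound Gm.aestronglyMeasurable 1 (.of_forall fun q => by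
      rw [Real.norm_eq_abs, abs_of_nonneg (G0 q)]
      exact G1 q)
  have key : ∀ (T : Om n × Om n → Om n), MeasurePreserving T ((gm _).prod (gm _)) (gm _) →
      (∀ q q' e, q.1 e = q'.1 e ∧ q.2 e = q'.2 e → T q e = T q' e) → ∀ ρ : Cfg n,
      Integrable (fun q => G q * (exp (∑ e, T q e * -cavK β a b ρ e) + cavA β a b (T q)))
        ((gm _).prod (gm _)) ∧
      ∫ q, G q * (exp (∑ e, T q e * -cavK β a b ρ e) + cavA β a b (T q)) ∂(gm _).prod (gm _) ≤
        2 * c * ∫ q, G q ∂(gm _).prod (gm _) := fun T hT hT' ρ => by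
    have k1 := cav_ind (cav_exp a b (K := |β|) (k := fun e => -cavK β a b ρ e)
      (fun e he => by rw [cavK_zero a b ρ he, neg_zero])
      fun e => by rw [abs_neg]; exact cavK_abs a b ρ e) hT hT' Gm G0 G1 G2
    have k2 := fun ρ' : Cfg n => cav_ind (cav_exp a b (K := |β|) (k := cavK β a b ρ')
      (fun e he => cavK_zero a b ρ' he) (cavK_abs a b ρ')) hT hT'
      (f := fun q => G q * gw β (cut (ES a b) (T q)) ρ')
      (Gm.mul ((cav_meas a b ρ').comp hT.measurable))
      (fun q => mul_nonneg (G0 q) (gw_pos _ _).le)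
      (fun q => mul_le_one₀ (G1 q) (gw_pos _ _).le (cav_le_one _ _))
      fun q q' h => by rw [G2 q q' h, cav_cut fun e he => hT' q q' e (h e he)]
    have k3 : ∀ ρ' : Cfg n, Integrable (fun q => G q * gw β (cut (ES a b) (T q)) ρ')
        ((gm _).prod (gm _)) := fun ρ' =>
      Gi.mul_bdd (c := 1) ((cav_meas a b ρ').comp hT.measurable).aestronglyMeasurable
        (.of_forall fun q => by
          rw [Real.norm_eq_abs, abs_of_nonneg (gw_pos _ _).le]
          exact cav_le_one _ _)
    have e : ∀ q, G q * (exp (∑ e, T q e * -cavK β a b ρ e) + cavA β a b (T q)) =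
        G q * exp (∑ e, T q e * -cavK β a b ρ e) + ∑ ρ', G q * gw β (cut (ES a b) (T q)) ρ' *
          exp (∑ e, T q e * cavK β a b ρ' e) := fun q => by
      simp only [cavA, mul_add, mul_sum, mul_assoc]
    have k4 := integrable_finsetSum univ fun ρ' _ => (k2 ρ').1
    simp only [e]
    refine ⟨k1.1.add k4, ?_⟩
    rw [integral_add k1.1 k4, integral_finsetSum _ fun ρ' _ => (k2 ρ').1]
    have k5 := sum_le_sum fun ρ' (_ : ρ' ∈ univ) => (k2 ρ').2
    rw [← mul_sum, ← integral_finsetSum _ fun ρ' _ => k3 ρ'] at k5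
    simp only [← mul_sum, gw_sum, mul_one] at k5
    have k6 := k1.2
    rw [← hc] at k5 k6
    linarith
  obtain ⟨i1, j1⟩ := key _ hf (fun _ _ _ h => h.1) σ
  obtain ⟨i2, j2⟩ := key _ hm (cav_mix _) τ
  have hi : Integrable (fun q : Om n × Om n => gw β q.1 σ * gw β (mix (fun _ => t) q) τ)
      ((gm _).prod (gm _)) := (Al.wt σ).pg.int2 (Al.wt τ).pg hρ
  rw [← integral_const_mul]
  refine le_trans ?_ (integral_mono (((Gi.const_mul (1 + 4 * c)).sub i1).sub i2)
    (hi.const_mul _) fun q => ?_)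
  · simp only [Pi.sub_apply]
    rw [integral_sub _ i2, integral_sub (Gi.const_mul _) i1, integral_const_mul]
    · linarith
    · exact (Gi.const_mul (1 + 4 * c)).sub i1
  · simp only [Pi.sub_apply]
    set x := q.1
    set x' := mix (fun _ => t) q
    have a1 := cavA_ge (β := β) a b x
    have a2 := cavA_ge (β := β) a b x'
    have e1 : ∀ (y : Om n) (ρ : Cfg n), gw β y ρ = gw β (cut (ES a b) y) ρ *
        exp (∑ e, y e * cavK β a b ρ e - log (cavA β a b y)) := fun y ρ => by
      have := cavA_ge (β := β) a b y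
      rw [exp_sub, exp_log (by linarith), ← mul_div_assoc, eq_div_iff (by linarith), cav_gw]
    have e2 : ∀ (y : Om n) (ρ : Cfg n),
        -(exp (∑ e, y e * -cavK β a b ρ e) + cavA β a b y) ≤
          ∑ e, y e * cavK β a b ρ e - log (cavA β a b y) := fun y ρ => by
      have := cavA_ge (β := β) a b y
      have l1 := log_le_sub_one_of_pos (by linarith : 0 < cavA β a b y)
      have l2 := add_one_le_exp (∑ e, y e * -cavK β a b ρ e)
      have l3 : ∑ e, y e * -cavK β a b ρ e = -∑ e, y e * cavK β a b ρ e := by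
        simp only [mul_neg, sum_neg_distrib]
      linarith
    rw [e1 x σ, e1 x' τ]
    have l1 := e2 x σ
    have l2 := e2 x' τ
    generalize ∑ e, x e * cavK β a b σ e - log (cavA β a b x) = y at *
    generalize ∑ e, x' e * cavK β a b τ e - log (cavA β a b x') = y' at *
    have l3 := add_one_le_exp (4 * c + y + y')
    rw [exp_add, exp_add] at l3
    have l4 := G0 q
    have l5 : exp (4 * c) * (gw β (cut (ES a b) x) σ * exp y * (gw β (cut (ES a b) x') τ * exp y')) =
        G q * (exp (4 * c) * exp y * exp y') := by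
      simp only [hG]
      ring
    rw [l5]
    nlinarith

end Vale.Agent.P146
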