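import Vale.Agent.P146.TmD

namespace Vale.Agent.P146

open MeasureTheory ProbabilityTheory Matrix Real Finset Filter Topology
open P150 (gm spin Cfg)

variable {ι : Type} [Fintype ι] [DecidableEq ι] {J : Type} [Fintype J] {n : ℕ} {β : ℝ}

theorem Cl.al {A : Mx n} {m a k : ℕ} {c : ℝ} {F : J → Om n → ℝ} (h : Cl β A m c a k F) (j : J) :
    Al β (F j) := by
  obtain ⟨G, rfl, hG⟩ := h
  have e : (∑ i, G i) j = fun x => ∑ i, G i j x := by
    funext x
    simp only [Finset.sum_apply]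
  rw [e]
  exact Al.sum _ fun i _ => (hG i).al j

theorem Cl.der {A : Mx n} {m a b k : ℕ} {c w : ℝ} {F : J → Om n → ℝ} (hm : 1 ≤ m) (hc : 0 ≤ c)
    (hw : 0 ≤ w) {E : Finset (Fin n × Fin n)} (hE : Pr β A E w b) (h : Cl β A m c a k F) :
    Cl β A (m + 1) (c * ((2 * m + 2) ^ 2 * w)) (a + b) (k + k) (dd E F) := by
  obtain ⟨G, rfl, hG⟩ := h
  choose F₁ F₂ h0 h1 h2 using fun i => (hG i).der hm hc hw hE
  refine ⟨Fin.append F₁ F₂, ?_, fun i => ?_⟩
  · rw [Fin.sum_univ_add]
    simp only [Fin.append_left, Fin.append_right]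
    rw [← sum_add_distrib]
    simp only [← h0]
    funext p x
    simp only [Finset.sum_apply, dd]
    split_ifs with hp
    · simp only [pd]
      rw [fderiv_sum fun i _ => ((hG i).al p.1).diff x, ContinuousLinearMap.sum_apply]
    · simp
  · refine Fin.addCases (fun i => ?_) (fun i => ?_) i
    · rw [Fin.append_left]; exact h1 i
    · rw [Fin.append_right]; exact h2 i

theorem cld_abs (σ : Cfg n) (i : Fin n) : |sp σ i| = 1 := by
  simp only [sp, spin]
  split_ifs <;> simp

theorem cld_k (a : Fin n) : β / √(2 * n) * (β / √(2 * n)) = β ^ 2 / (2 * n) := by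
  rw [div_mul_div_comm, Real.mul_self_sqrt (by positivity), sq]

theorem cld_prod (u v : Fin n → ℝ) : ∑ e : Fin n × Fin n, u e.1 * v e.2 = (∑ i, u i) * ∑ i, v i := by
  rw [Fintype.sum_prod_type, sum_mul_sum]

theorem cld_Ea {a b : Fin n} (v : Fin n → ℝ) :
    Ea a b *ᵥ v = Pi.single a (v b) - Pi.single b (v a) := by
  rw [Ea, sub_mulVec, single_mulVec, single_mulVec]
  ext i
  simp [Pi.single_apply, Function.update_apply]

theorem cld_Ea_dot {a b : Fin n} (v w : Fin n → ℝ) :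
    ∑ i, (Ea a b *ᵥ v) i * w i = v b * w a - v a * w b := by
  simp [cld_Ea, sub_mul, Pi.single_apply]

theorem cld_Ea_abs {a b : Fin n} (hab : a ≠ b) (σ : Cfg n) (i : Fin n) :
    |(Ea a b *ᵥ sp σ) i| ≤ 1 := by
  rw [cld_Ea]
  by_cases h : i = a
  · subst h
    simp [Pi.single_eq_of_ne hab, cld_abs]
  · by_cases h' : i = b
    · subst h'
      simp [Pi.single_eq_of_ne h, cld_abs]
    · simp [Pi.single_eq_of_ne h, Pi.single_eq_of_ne h']

theorem cld_two {x y z w : ℝ} (h1 : |x| ≤ 1) (h2 : |y| ≤ 1) (h3 : |z| ≤ 1) (h4 : |w| ≤ 1) :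
    |x * y - z * w| ≤ 2 ∧ |x * y + z * w| ≤ 2 := by
  have a : |x * y| ≤ 1 := by rw [abs_mul]; exact mul_le_one₀ h1 (abs_nonneg _) h2
  have b : |z * w| ≤ 1 := by rw [abs_mul]; exact mul_le_one₀ h3 (abs_nonneg _) h4
  exact ⟨(abs_sub _ _).trans (by linarith), (abs_add_le _ _).trans (by linarith)⟩

theorem pr_ES {a b : Fin n} (hab : a ≠ b) : Pr β (Ea a b) (ES a b) (2 * β ^ 2) 1 := by
  intro σ τ
  have hn : (0 : ℝ) < n := by exact_mod_cast Fin.pos a
  have hs := fun i => (cld_abs σ i).le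
  have ht := fun i => (cld_abs τ i).le
  set S := ∑ i, sp σ i * sp τ i with hS
  have key : ∀ X : ℝ, |X| ≤ 4 * |S| + 16 → |β ^ 2 / (2 * n) * X| ≤ 2 * β ^ 2 * Mv σ τ ^ 1 := by
    intro X hX
    rw [abs_mul, abs_of_nonneg (by positivity), pow_one, Mv, ov, abs_div, abs_of_pos hn, ← hS]
    refine (mul_le_mul_of_nonneg_left hX (by positivity)).trans (le_of_eq ?_)
    field_simp
    ring
  constructor
  · let u : Fin n → ℝ := fun i => sp σ i * sp τ i
    let u' : Fin n → ℝ := u - Pi.single a (u a) - Pi.single b (u b)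
    have e : ∑ e ∈ ES a b, ep β (sp σ) (sp σ) e * ep β (sp τ) (sp τ) e =
        β ^ 2 / (2 * n) * ∑ e : Fin n × Fin n, (u e.1 * u e.2 - u' e.1 * u' e.2) := by
      rw [ES, sum_filter, mul_sum]
      refine sum_congr rfl fun e _ => ?_
      have z : ∀ i, i = a ∨ i = b → u' i = 0 := by
        rintro i (rfl | rfl)
        · simp [u', Pi.single_eq_of_ne hab]
        · simp [u', Pi.single_eq_of_ne hab.symm]
      split_ifs with h
      · have : u' e.1 * u' e.2 = 0 := by
          rcases h with h | h | h | h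
          · rw [z _ (Or.inl h), zero_mul]
          · rw [z _ (Or.inr h), zero_mul]
          · rw [z _ (Or.inl h), mul_zero]
          · rw [z _ (Or.inr h), mul_zero]
        rw [this, ← cld_k a]
        simp only [ep, u]
        ring
      · simp only [not_or] at h
        simp [u', Pi.single_eq_of_ne h.1, Pi.single_eq_of_ne h.2.1, Pi.single_eq_of_ne h.2.2.1,
          Pi.single_eq_of_ne h.2.2.2]
    rw [e]
    refine key _ ?_
    have e2 : ∑ i, u' i = S - (u a + u b) := by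
      simp only [u', Pi.sub_apply, sum_sub_distrib, sum_pi_single', mem_univ, if_true]
      rw [sub_sub]
    have e3 : |u a + u b| ≤ 2 := (cld_two (hs a) (ht a) (hs b) (ht b)).2
    rw [sum_sub_distrib, cld_prod, cld_prod, e2]
    change |S * S - _| ≤ _
    generalize u a + u b = v at e3
    rw [show S * S - (S - v) * (S - v) = 2 * (v * S) - v * v by ring]
    refine (abs_sub _ _).trans ?_
    rw [abs_mul, abs_mul, abs_mul, abs_two]
    nlinarith [abs_nonneg S, abs_nonneg v]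
  · set p := Ea a b *ᵥ sp σ with hp
    set q := Ea a b *ᵥ sp τ with hq
    have e : ∑ e ∈ ES a b, lam β (Ea a b) (sp σ) e * lam β (Ea a b) (sp τ) e =
        β ^ 2 / (2 * n) * ∑ e : Fin n × Fin n, ((p e.1 * q e.1) * (sp σ e.2 * sp τ e.2) +
          (p e.1 * sp τ e.1) * (q e.2 * sp σ e.2) + (q e.1 * sp σ e.1) * (p e.2 * sp τ e.2) +
          (sp σ e.1 * sp τ e.1) * (p e.2 * q e.2)) := by
      rw [ES, sum_filter, mul_sum]
      refine sum_congr rfl fun e _ => ?_
      split_ifs with h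
      · rw [← cld_k a]
        simp only [lam, ep, ← hp, ← hq]
        ring
      · simp only [not_or] at h
        simp [hp, hq, cld_Ea, Pi.single_eq_of_ne h.1, Pi.single_eq_of_ne h.2.1,
          Pi.single_eq_of_ne h.2.2.1, Pi.single_eq_of_ne h.2.2.2]
    rw [e]
    refine key _ ?_
    have b1 : |∑ i, p i * q i| ≤ 2 := by
      rw [hp, cld_Ea_dot]
      exact (cld_two (hs b) (cld_Ea_abs hab τ a) (hs a) (cld_Ea_abs hab τ b)).1
    have b2 : |∑ i, p i * sp τ i| ≤ 2 := by
      rw [hp, cld_Ea_dot]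
      exact (cld_two (hs b) (ht a) (hs a) (ht b)).1
    have b3 : |∑ i, q i * sp σ i| ≤ 2 := by
      rw [hq, cld_Ea_dot]
      exact (cld_two (ht b) (hs a) (ht a) (hs b)).1
    rw [sum_add_distrib, sum_add_distrib, sum_add_distrib,
      cld_prod (fun i => p i * q i) (fun i => sp σ i * sp τ i),
      cld_prod (fun i => p i * sp τ i) (fun i => q i * sp σ i),
      cld_prod (fun i => q i * sp σ i) (fun i => p i * sp τ i),
      cld_prod (fun i => sp σ i * sp τ i) (fun i => p i * q i), ← hS]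
    generalize ∑ i, p i * q i = x at b1
    generalize ∑ i, p i * sp τ i = y at b2
    generalize ∑ i, q i * sp σ i = z at b3
    rw [show x * S + y * z + z * y + S * x = 2 * (x * S) + 2 * (y * z) by ring]
    refine (abs_add_le _ _).trans ?_
    rw [abs_mul, abs_mul, abs_mul, abs_mul, abs_two]
    nlinarith [abs_nonneg S, abs_nonneg x, abs_nonneg y, abs_nonneg z]

theorem pr_BS {a b : Fin n} (hab : a ≠ b) : Pr β (Ea a b) (BS a b) (8 * β ^ 2 / n) 0 := by
  intro σ τ
  have hn : (0 : ℝ) < n := by exact_mod_cast Fin.pos a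
  have hc : ((BS a b).card : ℝ) ≤ 4 := by
    have h1 : BS a b ⊆ ({a, b} : Finset (Fin n)) ×ˢ ({a, b} : Finset (Fin n)) := fun e he => by
      simpa [BS] using he
    have h2 := card_le_card h1
    rw [card_product, card_pair hab] at h2
    exact_mod_cast h2
  have key : ∀ (f : Fin n × Fin n → ℝ) (X Y : Fin n × Fin n → ℝ), (∀ e, |X e| ≤ 2) →
      (∀ e, |Y e| ≤ 2) → (∀ e, f e = β ^ 2 / (2 * n) * (X e * Y e)) →
      |∑ e ∈ BS a b, f e| ≤ 8 * β ^ 2 / n * Mv σ τ ^ 0 := by
    intro f X Y hX hY hf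
    refine (abs_sum_le_sum_abs _ _).trans ((sum_le_card_nsmul _ _ (β ^ 2 / (2 * n) * (2 * 2))
      fun e _ => ?_).trans ?_)
    · rw [hf, abs_mul, abs_mul, abs_of_nonneg (by positivity)]
      exact mul_le_mul_of_nonneg_left (mul_le_mul (hX e) (hY e) (abs_nonneg _) (by norm_num))
        (by positivity)
    · rw [nsmul_eq_mul, pow_zero, mul_one]
      refine (mul_le_mul_of_nonneg_right hc (by positivity)).trans (le_of_eq ?_)
      field_simp
      ring
  have h1 : ∀ (σ : Cfg n) (e : Fin n × Fin n), |sp σ e.1 * sp σ e.2| ≤ 2 := fun σ e => by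
    rw [abs_mul, cld_abs, cld_abs]; norm_num
  have h2 : ∀ (σ : Cfg n) (e : Fin n × Fin n), |(Ea a b *ᵥ sp σ) e.1 * sp σ e.2 +
      sp σ e.1 * (Ea a b *ᵥ sp σ) e.2| ≤ 2 := fun σ e =>
    (cld_two (cld_Ea_abs hab σ _) (cld_abs σ _).le (cld_abs σ _).le (cld_Ea_abs hab σ _)).2
  refine ⟨key _ _ _ (h1 σ) (h1 τ) fun e => ?_, key _ _ _ (h2 σ) (h2 τ) fun e => ?_⟩
  · rw [← cld_k a]
    simp only [ep]
    ring
  · rw [← cld_k a]
    simp only [lam, ep]
    ring

end Vale.Agent.P146
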