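import Vale.Agent.P146.Al
import Vale.Agent.P146.CS

namespace Vale.Agent.P146

open MeasureTheory ProbabilityTheory Matrix Real Finset Filter Topology
open P150 (gm spin Cfg)

variable {ι : Type} [Fintype ι] [DecidableEq ι] {J : Type} [Fintype J] {n : ℕ} {β : ℝ}

theorem sum_tn {q : ℕ} (v w : Fin n → ℝ) :
    ∑ j : Fin q → Fin n, tn j v * tn j w = (v ⬝ᵥ w / n) ^ q := by
  have h : v ⬝ᵥ w / n = ∑ i, v i / √n * (w i / √n) := by
    rw [dotProduct, Finset.sum_div]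
    refine Finset.sum_congr rfl fun i _ => ?_
    rw [div_mul_div_comm, Real.mul_self_sqrt (Nat.cast_nonneg n)]
  rw [h, Fintype.sum_pow]
  refine Finset.sum_congr rfl fun j _ => ?_
  rw [tn, tn, ← Finset.prod_mul_distrib]
theorem abs_ov (σ τ : Cfg n) : |ov σ τ| ≤ 1 := by
  have h : ∀ i, |sp σ i * sp τ i| ≤ 1 := fun i => by
    unfold sp spin
    split_ifs <;> simp
  rw [ov, abs_div, Nat.abs_cast]
  refine div_le_one_of_le₀ ((Finset.abs_sum_le_sum_abs _ _).trans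
    ((Finset.sum_le_sum fun i _ => h i).trans (by simp))) (Nat.cast_nonneg n)
theorem Ph_int {ρ : Fin n × Fin n → ℝ} (hρ : U01 ρ) (σ τ : Cfg n) (c : ℝ) :
    Integrable (fun q => gw β q.1 σ * gw β (mix ρ q) τ * c)
      ((gm (Fin n × Fin n)).prod (gm (Fin n × Fin n))) :=
  (PG.int2 (Al.wt (β := β) σ).pg (Al.wt (β := β) τ).pg hρ).mul_const c
theorem e2_int {ρ : Fin n × Fin n → ℝ} (hρ : U01 ρ) (K : Cfg n → Cfg n → ℝ) :
    Integrable (fun q => ∑ σ, ∑ τ, gw β q.1 σ * gw β (mix ρ q) τ * K σ τ)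
      ((gm (Fin n × Fin n)).prod (gm (Fin n × Fin n))) :=
  integrable_finsetSum _ fun σ _ => integrable_finsetSum _ fun τ _ => Ph_int hρ σ τ _
theorem Ph_al (f : Cfg n → ℝ) : Al β fun x => av β x f :=
  Al.sum univ (f := fun σ x => gw β x σ * f σ) fun σ _ => (Al.wt σ).mul (Al.const _)
theorem qb_av {ρ : Fin n × Fin n → ℝ} (hρ : U01 ρ) (f g : J → Cfg n → ℝ) :
    Qb ρ (fun j x => av β x (f j)) (fun j x => av β x (g j)) =
      E2 β ρ fun σ τ => ∑ j, f j σ * g j τ := by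
  unfold Qb Bf E2
  rw [← integral_finsetSum _ fun j _ => PG.int2 (Ph_al (f j)).pg (Ph_al (g j)).pg hρ]
  refine integral_congr_ae (Eventually.of_forall fun q => ?_)
  simp only [av, Finset.sum_mul_sum]
  simp only [Finset.mul_sum]
  rw [Finset.sum_comm]
  refine Finset.sum_congr rfl fun σ _ => ?_
  rw [Finset.sum_comm]
  refine Finset.sum_congr rfl fun τ _ => Finset.sum_congr rfl fun j _ => ?_
  ring
theorem ph_eq (p : ℕ) {t : ℝ} (ht : t ∈ Set.Icc (0 : ℝ) 1) :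
    ph β n p t = E2 β (fun _ => t) fun σ τ : Cfg n => ov σ τ ^ (2 * p) := by
  have h := qb_av (β := β) (n := n) (ρ := fun _ => t) (fun _ => ht)
    (fun (j : Fin (2 * p) → Fin n) σ => tn j (sp σ)) (fun j σ => tn j (sp σ))
  simp only [sum_tn] at h
  exact h
theorem e2_mono {ρ : Fin n × Fin n → ℝ} (hρ : U01 ρ) {K K' : Cfg n → Cfg n → ℝ}
    (h : ∀ σ τ, K σ τ ≤ K' σ τ) : E2 β ρ K ≤ E2 β ρ K' :=
  integral_mono (e2_int hρ K) (e2_int hρ K') fun _ => Finset.sum_le_sum fun σ _ =>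
    Finset.sum_le_sum fun τ _ =>
      mul_le_mul_of_nonneg_left (h σ τ) (mul_pos (gw_pos _ _) (gw_pos _ _)).le
theorem e2_lin {ρ : Fin n × Fin n → ℝ} (hρ : U01 ρ) (K K' : Cfg n → Cfg n → ℝ) (a b c : ℝ) :
    E2 β ρ (fun σ τ => a + b * K σ τ + c * K' σ τ) = a + b * E2 β ρ K + c * E2 β ρ K' := by
  have e : ∀ q : Om n × Om n,
      ∑ σ, ∑ τ, gw β q.1 σ * gw β (mix ρ q) τ * (a + b * K σ τ + c * K' σ τ) =
      a + b * (∑ σ, ∑ τ, gw β q.1 σ * gw β (mix ρ q) τ * K σ τ) +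
        c * ∑ σ, ∑ τ, gw β q.1 σ * gw β (mix ρ q) τ * K' σ τ := fun q => by
    have h1 : a = ∑ σ, ∑ τ, gw β q.1 σ * gw β (mix ρ q) τ * a := by
      simp only [← Finset.sum_mul, ← Finset.mul_sum, gw_sum, mul_one, one_mul]
    conv_rhs => rw [h1]
    simp only [Finset.mul_sum, ← Finset.sum_add_distrib]
    refine Finset.sum_congr rfl fun σ _ => Finset.sum_congr rfl fun τ _ => ?_
    ring
  unfold E2
  simp only [e]
  have i1 := (e2_int (β := β) hρ K).const_mul b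
  have i2 := (e2_int (β := β) hρ K').const_mul c
  have i3 : Integrable (fun q : Om n × Om n =>
      a + b * ∑ σ, ∑ τ, gw β q.1 σ * gw β (mix ρ q) τ * K σ τ)
      ((gm (Fin n × Fin n)).prod (gm (Fin n × Fin n))) := (integrable_const a).add i1
  rw [integral_add i3 i2, integral_add (integrable_const a) i1, integral_const_mul,
    integral_const_mul]
  simp
theorem Ph_const {ρ : Fin n × Fin n → ℝ} (hρ : U01 ρ) (a : ℝ) : E2 β ρ (fun _ _ => a) = a := by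
  have := e2_lin (β := β) hρ (fun _ _ => 0) (fun _ _ => 0) a 0 0
  simpa using this
theorem Ph_sq (σ τ : Cfg n) : ov σ τ ^ 2 ≤ 1 := by
  rw [← sq_abs]
  exact pow_le_one₀ (abs_nonneg _) (abs_ov σ τ)
theorem ph_mem (p : ℕ) {t : ℝ} (ht : t ∈ Set.Icc (0 : ℝ) 1) : ph β n p t ∈ Set.Icc (0 : ℝ) 1 := by
  have hρ : U01 (fun _ : Fin n × Fin n => t) := fun _ => ht
  rw [ph_eq p ht]
  constructor
  · rw [← Ph_const (β := β) hρ 0]
    exact e2_mono hρ fun σ τ => by rw [pow_mul]; positivity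
  · rw [← Ph_const (β := β) hρ 1]
    exact e2_mono hρ fun σ τ => by rw [pow_mul]; exact pow_le_one₀ (sq_nonneg _) (Ph_sq σ τ)
theorem ph_anti {p p' : ℕ} (h : p ≤ p') {t : ℝ} (ht : t ∈ Set.Icc (0 : ℝ) 1) :
    ph β n p' t ≤ ph β n p t := by
  rw [ph_eq p ht, ph_eq p' ht]
  exact e2_mono (fun _ => ht) fun σ τ => by
    rw [pow_mul, pow_mul]; exact pow_le_pow_of_le_one (sq_nonneg _) (Ph_sq σ τ) h
theorem Ph_step (p : ℕ) {u : ℝ} (hu : u ∈ Set.Icc (0 : ℝ) 1) (i j : ℕ) :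
    ph β n p (u ^ (i + j)) ^ 2 ≤ ph β n p (u ^ (i + i)) * ph β n p (u ^ (j + j)) := by
  have hk : ∀ k : ℕ, U01 (fun _ : Fin n × Fin n => u ^ k) := fun k _ =>
    ⟨pow_nonneg hu.1 k, pow_le_one₀ hu.1 hu.2⟩
  have h := qb_lc (fun j => (al_xi (β := β) (n := n) (2 * p) j).pg)
    (fun j => (al_xi (β := β) (n := n) (2 * p) j).pg) (hk i) (hk j)
  simp only [pow_add]
  exact h
theorem ph_lc (p : ℕ) {t : ℝ} (ht : t ∈ Set.Icc (0 : ℝ) 1) :
    ph β n p (t ^ (31 / 32 : ℝ)) ≤ ph β n p t ^ (31 / 32 : ℝ) := by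
  have hu : t ^ (1 / 32 : ℝ) ∈ Set.Icc (0 : ℝ) 1 :=
    ⟨Real.rpow_nonneg ht.1 _, Real.rpow_le_one ht.1 ht.2 (by norm_num)⟩
  have e1 : t ^ (31 / 32 : ℝ) = (t ^ (1 / 32 : ℝ)) ^ 31 := by
    rw [← Real.rpow_natCast, ← Real.rpow_mul ht.1]; norm_num
  have e2 : (t ^ (1 / 32 : ℝ)) ^ 32 = t := by
    rw [← Real.rpow_natCast, ← Real.rpow_mul ht.1]; norm_num
  set u := t ^ (1 / 32 : ℝ)
  have hm : ∀ k : ℕ, ph β n p (u ^ k) ∈ Set.Icc (0 : ℝ) 1 := fun k =>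
    ph_mem p ⟨pow_nonneg hu.1 k, pow_le_one₀ hu.1 hu.2⟩
  have s1 : ph β n p (u ^ 31) ^ 2 ≤ ph β n p (u ^ 32) * ph β n p (u ^ 30) := Ph_step p hu 16 15
  have s2 : ph β n p (u ^ 30) ^ 2 ≤ ph β n p (u ^ 32) * ph β n p (u ^ 28) := Ph_step p hu 16 14
  have s3 : ph β n p (u ^ 28) ^ 2 ≤ ph β n p (u ^ 32) * ph β n p (u ^ 24) := Ph_step p hu 16 12
  have s4 : ph β n p (u ^ 24) ^ 2 ≤ ph β n p (u ^ 32) * ph β n p (u ^ 16) := Ph_step p hu 16 8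
  have s5 : ph β n p (u ^ 16) ^ 2 ≤ ph β n p (u ^ 32) :=
    (Ph_step p hu 16 0).trans (mul_le_of_le_one_right (hm _).1 (hm _).2)
  rw [e2] at s1 s2 s3 s4 s5
  have y0 := (ph_mem (β := β) (n := n) p ht).1
  rw [e1]
  set y := ph β n p t
  have t4 : ph β n p (u ^ 24) ^ 4 ≤ y ^ 3 := calc
    _ = (ph β n p (u ^ 24) ^ 2) ^ 2 := by ring
    _ ≤ (y * ph β n p (u ^ 16)) ^ 2 := pow_le_pow_left₀ (sq_nonneg _) s4 2
    _ = y ^ 2 * ph β n p (u ^ 16) ^ 2 := by ring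
    _ ≤ y ^ 2 * y := mul_le_mul_of_nonneg_left s5 (by positivity)
    _ = _ := by ring
  have t3 : ph β n p (u ^ 28) ^ 8 ≤ y ^ 7 := calc
    _ = (ph β n p (u ^ 28) ^ 2) ^ 4 := by ring
    _ ≤ (y * ph β n p (u ^ 24)) ^ 4 := pow_le_pow_left₀ (sq_nonneg _) s3 4
    _ = y ^ 4 * ph β n p (u ^ 24) ^ 4 := by ring
    _ ≤ y ^ 4 * y ^ 3 := mul_le_mul_of_nonneg_left t4 (by positivity)
    _ = _ := by ring
  have t2 : ph β n p (u ^ 30) ^ 16 ≤ y ^ 15 := calc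
    _ = (ph β n p (u ^ 30) ^ 2) ^ 8 := by ring
    _ ≤ (y * ph β n p (u ^ 28)) ^ 8 := pow_le_pow_left₀ (sq_nonneg _) s2 8
    _ = y ^ 8 * ph β n p (u ^ 28) ^ 8 := by ring
    _ ≤ y ^ 8 * y ^ 7 := mul_le_mul_of_nonneg_left t3 (by positivity)
    _ = _ := by ring
  have t1 : ph β n p (u ^ 31) ^ 32 ≤ y ^ 31 := calc
    _ = (ph β n p (u ^ 31) ^ 2) ^ 16 := by ring
    _ ≤ (y * ph β n p (u ^ 30)) ^ 16 := pow_le_pow_left₀ (sq_nonneg _) s1 16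
    _ = y ^ 16 * ph β n p (u ^ 30) ^ 16 := by ring
    _ ≤ y ^ 16 * y ^ 15 := mul_le_mul_of_nonneg_left t2 (by positivity)
    _ = _ := by ring
  have e3 : (y ^ (31 / 32 : ℝ)) ^ 32 = y ^ 31 := by
    rw [← Real.rpow_natCast, ← Real.rpow_mul y0, ← Real.rpow_natCast]; norm_num
  rw [← e3] at t1
  exact (pow_le_pow_iff_left₀ (hm 31).1 (Real.rpow_nonneg y0 _) (by norm_num)).1 t1

end Vale.Agent.P146
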