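import Vale.Agent.P146.Cav1
import Vale.Agent.P146.Cav2
import Vale.Agent.P146.ClD
import Vale.Agent.P146.Ph

namespace Vale.Agent.P146

open MeasureTheory ProbabilityTheory Matrix Real Finset Filter Topology
open P150 (gm spin Cfg)

variable {ι : Type} [Fintype ι] [DecidableEq ι] {J : Type} [Fintype J] {n : ℕ} {β : ℝ}

theorem cb_bf {S S' : Type} [Fintype S] [Fintype S'] {f : S → (ι → ℝ) → ℝ} {g : S' → (ι → ℝ) → ℝ}
    (hf : ∀ s, PG (f s)) (hg : ∀ s, PG (g s)) {ρ : ι → ℝ} (hρ : U01 ρ) (K : S → S' → ℝ) :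
    ∑ s, ∑ s', K s s' * Bf ρ (f s) (g s') =
      ∫ q, ∑ s, ∑ s', K s s' * (f s q.1 * g s' (mix ρ q)) ∂(gm ι).prod (gm ι) := by
  rw [integral_finset_sum _ fun s _ => integrable_finset_sum _ fun s' _ =>
    ((hf s).int2 (hg s') hρ).const_mul _]
  refine sum_congr rfl fun s _ => ?_
  rw [integral_finset_sum _ fun s' _ => ((hf s).int2 (hg s') hρ).const_mul _]
  exact sum_congr rfl fun s' _ => (integral_const_mul _ _).symm

theorem cb_marg {m : ℕ} (x : Om n) (l : Fin m) (f : Cfg n → ℝ) :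
    ∑ s : Fin m → Cfg n, pw β x s * f (s l) = ∑ σ, gw β x σ * f σ := by
  have h := Finset.prod_univ_sum (fun _ : Fin m => (univ : Finset (Cfg n)))
    fun l' σ => gw β x σ * if l' = l then f σ else 1
  rw [Fintype.piFinset_univ] at h
  have h1 : ∀ s : Fin m → Cfg n, ∏ l', (gw β x (s l') * if l' = l then f (s l') else 1) =
      pw β x s * f (s l) := fun s => by
    rw [prod_mul_distrib, prod_ite_eq']; simp [pw]
  simp only [h1] at h
  rw [← h, ← mul_prod_erase univ _ (mem_univ l), prod_eq_one fun l' hl => by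
    simp [(mem_erase.1 hl).1, gw_sum]]
  simp

theorem cb_marg2 {m : ℕ} (x y : Om n) (l l' : Fin m) (K : Cfg n → Cfg n → ℝ) :
    ∑ s : Fin m → Cfg n, ∑ s' : Fin m → Cfg n, K (s l) (s' l') * (pw β x s * pw β y s') =
      ∑ σ, ∑ τ, K σ τ * (gw β x σ * gw β y τ) := by
  have h1 : ∀ s : Fin m → Cfg n, ∑ s' : Fin m → Cfg n, K (s l) (s' l') * (pw β x s * pw β y s') =
      pw β x s * ∑ τ, gw β y τ * K (s l) τ := fun s => by
    rw [← cb_marg y l', mul_sum]; exact sum_congr rfl fun _ _ => by ring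
  simp only [h1]
  rw [cb_marg x l fun σ => ∑ τ, gw β y τ * K σ τ]
  refine sum_congr rfl fun σ _ => ?_
  rw [mul_sum]; exact sum_congr rfl fun _ _ => by ring

theorem cb_cut {f : Om n → ℝ} (hf : PG f) (E : Finset (Fin n × Fin n)) :
    PG fun x => f (cut E x) := by
  refine hf.comp (T := cut E) (C := 1) (continuous_pi fun e => ?_) fun y => ?_
  · unfold cut; split_ifs <;> fun_prop
  · refine (pi_norm_le_iff_of_nonneg (by positivity)).2 fun e => ?_
    have := norm_le_pi_norm y e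
    unfold cut
    split_ifs
    · simp; positivity
    · linarith

theorem cb_mv (σ τ : Cfg n) : 0 ≤ Mv σ τ := by unfold Mv; positivity

theorem cb_e2 {ρ : Fin n × Fin n → ℝ} (K : Cfg n → Cfg n → ℝ) (hK : ∀ σ τ, 0 ≤ K σ τ) :
    0 ≤ E2 β ρ K :=
  integral_nonneg fun _ => sum_nonneg fun σ _ => sum_nonneg fun τ _ =>
    mul_nonneg (mul_nonneg (gw_pos _ _).le (gw_pos _ _).le) (hK σ τ)

theorem cb_tm (β : ℝ) : ∃ C, 0 ≤ C ∧ ∀ (n m e : ℕ) (a b : Fin n) (c r t : ℝ) (J : Type)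
    [Fintype J] (F : J → Om n → ℝ), a ≠ b → 1 ≤ m → m ≤ 6 → 0 ≤ c →
    r ∈ Set.Icc (0 : ℝ) 1 → t ∈ Set.Icc (0 : ℝ) 1 → Tm β (Ea a b) m c e F →
    Qb (rr (ES a b) r t) F F ≤ C * c * E2 β (fun _ => t) fun σ τ : Cfg n => Mv σ τ ^ e := by
  obtain ⟨C1, hC1, h1⟩ := cav_up β
  obtain ⟨C2, hC2, h2⟩ := cav_low β
  refine ⟨36 * C1 * C2, by positivity, ?_⟩
  intro n m e a b c r t J _ F hab hm hm6 hc hr ht ⟨Φ, u0, u, hu, hF, hΦ⟩
  have hρ := u01_rr (ES a b) hr ht
  have hρt : U01 (fun _ : Fin n × Fin n => t) := fun _ => ht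
  set L : (Fin m → Cfg n) → Om n → ℝ := fun s x => u0 + ∑ l, u l * dH β (Ea a b) x (sp (s l))
    with hL
  have aw : ∀ s : Fin m → Cfg n, Al β fun x => pw β x s := fun s =>
    Al.prod univ fun l _ => Al.wt (s l)
  have aL : ∀ s, Al β (L s) := fun s => (Al.const u0).add (Al.sum univ fun l _ =>
    (Al.const _).mul (Al.sum univ fun e _ => (Al.coord e).mul (Al.const _)))
  have hT : ∀ s, PG fun x => pw β x s * L s x := fun s => ((aw s).mul (aL s)).pg
  have hP : ∀ s : Fin m → Cfg n, PG fun x => pw β (cut (ES a b) x) s := fun s => cb_cut (aw s).pg _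
  have hG : ∀ σ : Cfg n, PG fun x => gw β x σ := fun σ => (Al.wt σ).pg
  have hGc : ∀ σ : Cfg n, PG fun x => gw β (cut (ES a b) x) σ := fun σ => cb_cut (hG σ) _
  have e1 : Qb (rr (ES a b) r t) F F = ∑ s, ∑ s', (∑ j, Φ s j * Φ s' j) *
      Bf (rr (ES a b) r t) (fun x => pw β x s * L s x) (fun x => pw β x s' * L s' x) := by
    simp only [sum_mul]
    rw [Qb, sum_congr rfl fun s _ => sum_comm, sum_comm]
    refine sum_congr rfl fun j _ => ?_
    rw [cb_bf hT hT hρ, Bf]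
    congr 1
    funext q
    rw [hF, hF, sum_mul_sum]
    exact sum_congr rfl fun _ _ => sum_congr rfl fun _ _ => by simp only [hL]; ring
  have pw0 : ∀ (x : Om n) (s : Fin m → Cfg n), 0 ≤ pw β x s := fun x s =>
    prod_nonneg fun l _ => (gw_pos _ _).le
  have e2 : ∀ s s', |Bf (rr (ES a b) r t) (fun x => pw β x s * L s x) (fun x => pw β x s' * L s' x)|
      ≤ C1 * Bf (fun _ => t) (fun x => pw β (cut (ES a b) x) s)
        (fun x => pw β (cut (ES a b) x) s') := fun s s' => by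
    refine (abs_integral_le_integral_abs.trans_eq ?_).trans
      (h1 n m a b hab hm6 r t hr ht u0 u hu s s')
    congr 1
    funext q
    simp only [abs_mul, abs_of_nonneg (pw0 _ _), hL]
    ring
  have e3 : ∀ s s' : Fin m → Cfg n, |∑ j, Φ s j * Φ s' j| ≤
      c * ∑ l : Fin m × Fin m, Mv (s l.1) (s' l.2) ^ e := fun s s' => by
    obtain ⟨l0, -, hl⟩ := exists_max_image univ (fun l : Fin m × Fin m => Mv (s l.1) (s' l.2))
      ⟨(⟨0, hm⟩, ⟨0, hm⟩), mem_univ _⟩
    refine (hΦ s s' _ fun l l' => hl (l, l') (mem_univ _)).trans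
      (mul_le_mul_of_nonneg_left ?_ hc)
    exact single_le_sum (f := fun l : Fin m × Fin m => Mv (s l.1) (s' l.2) ^ e)
      (fun l _ => pow_nonneg (cb_mv _ _) _) (mem_univ l0)
  have e4 : ∀ l : Fin m × Fin m, ∑ s : Fin m → Cfg n, ∑ s' : Fin m → Cfg n,
      Mv (s l.1) (s' l.2) ^ e * Bf (fun _ => t) (fun x => pw β (cut (ES a b) x) s)
        (fun x => pw β (cut (ES a b) x) s') ≤
      C2 * E2 β (fun _ => t) fun σ τ : Cfg n => Mv σ τ ^ e := fun l => by
    rw [cb_bf hP hP hρt]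
    simp only [cb_marg2 _ _ l.1 l.2 fun σ τ => Mv σ τ ^ e]
    rw [← cb_bf hGc hGc hρt]
    have : E2 β (fun _ => t) (fun σ τ : Cfg n => Mv σ τ ^ e) = ∑ σ : Cfg n, ∑ τ : Cfg n, Mv σ τ ^ e *
        Bf (fun _ => t) (fun x => gw β x σ) (fun x => gw β x τ) := by
      rw [cb_bf hG hG hρt, E2]
      simp only [mul_comm]
    rw [this, mul_sum]
    refine sum_le_sum fun σ _ => ?_
    rw [mul_sum]
    refine sum_le_sum fun τ _ => ?_
    rw [mul_left_comm]
    exact mul_le_mul_of_nonneg_left (h2 n a b t ht σ τ) (pow_nonneg (cb_mv _ _) _)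
  have hE := cb_e2 (β := β) (ρ := fun _ => t) (fun σ τ : Cfg n => Mv σ τ ^ e)
    fun σ τ => pow_nonneg (cb_mv _ _) _
  calc _ ≤ ∑ s : Fin m → Cfg n, ∑ s' : Fin m → Cfg n, ∑ l : Fin m × Fin m, c * C1 *
        (Mv (s l.1) (s' l.2) ^ e * Bf (fun _ => t) (fun x => pw β (cut (ES a b) x) s)
          (fun x => pw β (cut (ES a b) x) s')) := by
        rw [e1]
        refine sum_le_sum fun s _ => sum_le_sum fun s' _ => (le_abs_self _).trans ?_
        rw [abs_mul]
        refine (mul_le_mul (e3 s s') (e2 s s') (abs_nonneg _)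
          ((abs_nonneg _).trans (e3 s s'))).trans_eq ?_
        rw [mul_sum, sum_mul]
        exact sum_congr rfl fun _ _ => by ring
    _ ≤ ∑ _l : Fin m × Fin m, c * C1 * (C2 * E2 β (fun _ => t) fun σ τ : Cfg n => Mv σ τ ^ e) := by
        rw [sum_congr rfl fun s _ => sum_comm, sum_comm]
        refine sum_le_sum fun l _ => ?_
        simp only [← mul_sum]
        exact mul_le_mul_of_nonneg_left (e4 l) (by positivity)
    _ ≤ _ := by
        have : (m : ℝ) * m ≤ 36 := by exact_mod_cast Nat.mul_le_mul hm6 hm6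
        simp only [sum_const, card_univ, Fintype.card_prod, Fintype.card_fin, nsmul_eq_mul,
          Nat.cast_mul]
        refine (mul_le_mul_of_nonneg_right this (by positivity)).trans_eq (by ring)

theorem cl_bound (β : ℝ) : ∃ C, 0 ≤ C ∧ ∀ (n m k e : ℕ) (a b : Fin n) (c r t : ℝ) (J : Type)
    [Fintype J] (F : J → Om n → ℝ), a ≠ b → 1 ≤ m → m ≤ 6 → k ≤ 32 → 0 ≤ c →
    r ∈ Set.Icc (0 : ℝ) 1 → t ∈ Set.Icc (0 : ℝ) 1 → Cl β (Ea a b) m c e k F →
    Qb (rr (ES a b) r t) F F ≤ C * c * E2 β (fun _ => t) fun σ τ : Cfg n => Mv σ τ ^ e := by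
  obtain ⟨C, hC, h⟩ := cb_tm β
  refine ⟨32 ^ 2 * C, by positivity, ?_⟩
  rintro n m k e a b c r t J _ F hab hm hm6 hk hc hr ht ⟨G, rfl, hG⟩
  have hE := cb_e2 (β := β) (ρ := fun _ => t) (fun σ τ : Cfg n => Mv σ τ ^ e)
    fun σ τ => pow_nonneg (cb_mv _ _) _
  refine (qb_tri (fun i j => ((hG i).al j).pg) (u01_rr _ hr ht)
    fun i => h n m e a b c r t J (G i) hab hm hm6 hc hr ht (hG i)).trans ?_
  have : (k : ℝ) ^ 2 ≤ 32 ^ 2 := by exact_mod_cast Nat.pow_le_pow_left hk 2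
  exact (mul_le_mul_of_nonneg_right this (by positivity)).trans_eq (by ring)

end Vale.Agent.P146
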