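import Vale.Agent.P146.Ker2
import Vale.Agent.P146.CS

namespace Vale.Agent.P146

open MeasureTheory ProbabilityTheory Matrix Real Finset Filter Topology
open P150 (gm spin Cfg)

variable {ι : Type} [Fintype ι] [DecidableEq ι] {J : Type} [Fintype J] {n : ℕ} {β : ℝ}

theorem ClY_two (x : Om n) (f : Cfg n → Cfg n → ℝ) :
    ∑ s : Fin 2 → Cfg n, pw β x s * f (s 0) (s 1) =
      ∑ σ, ∑ τ, gw β x σ * gw β x τ * f σ τ := by
  rw [← (piFinTwoEquiv fun _ => Cfg n).symm.sum_comp, Fintype.sum_prod_type]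
  refine sum_congr rfl fun σ _ => sum_congr rfl fun τ _ => ?_
  simp [pw, Fin.prod_univ_two]

theorem ClY_ker {e : ℕ} (P : J → Prop) [DecidablePred P] {c : ℝ} (hc : 0 ≤ c)
    {f : J → Cfg n → ℝ} (h : ∀ σ τ : Cfg n, |∑ j with P j, f j σ * f j τ| ≤ c * Mv σ τ ^ e)
    (σ τ : Cfg n) {M : ℝ} (hM : Mv σ τ ≤ M) :
    |∑ j, (if P j then f j σ else 0) * if P j then f j τ else 0| ≤ c * M ^ e := by
  have h0 : 0 ≤ Mv σ τ := by unfold Mv; positivity
  have h1 := h σ τ
  rw [sum_filter] at h1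
  have e1 : ∀ j, ((if P j then f j σ else 0) * if P j then f j τ else 0) =
      if P j then f j σ * f j τ else 0 := fun j => by split_ifs <;> simp
  simp only [e1]
  exact h1.trans (by gcongr)

theorem cl_Y {q e : ℕ} (A : Mx n) (P : (Fin q → Fin n) → Prop) [DecidablePred P] {c : ℝ}
    (hc : 0 ≤ c)
    (h1 : ∀ σ τ : Cfg n, |∑ j with P j, tn j (sp σ) * tn j (sp τ)| ≤ c * Mv σ τ ^ e)
    (h2 : ∀ σ τ : Cfg n, |∑ j with P j, dtn j A (sp σ) * dtn j A (sp τ)| ≤ c * Mv σ τ ^ e) :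
    Cl β A 2 c e 2 (rs P (Yg β q A)) := by
  refine ⟨![fun j x => ∑ s : Fin 2 → Cfg n, pw β x s * ((if P j then dtn j A (sp (s 0)) else 0) *
      (1 + ∑ l, (0 : Fin 2 → ℝ) l * dH β A x (sp (s l)))),
    fun j x => ∑ s : Fin 2 → Cfg n, pw β x s * ((if P j then tn j (sp (s 1)) else 0) *
      (0 + ∑ l, (![-1, 1] : Fin 2 → ℝ) l * dH β A x (sp (s l))))], ?_, Fin.forall_fin_two.2
    ⟨⟨fun s j => if P j then dtn j A (sp (s 0)) else 0, 1, 0, by simp, fun _ _ => rfl,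
      fun s s' M hM => ClY_ker P hc (f := fun j σ => dtn j A (sp σ)) h2 _ _ (hM 0 0)⟩,
    ⟨fun s j => if P j then tn j (sp (s 1)) else 0, 0, ![-1, 1], by simp; norm_num,
      fun _ _ => rfl,
      fun s s' M hM => ClY_ker P hc (f := fun j σ => tn j (sp σ)) h1 _ _ (hM 1 1)⟩⟩⟩
  funext j x
  rw [Fin.sum_univ_two]
  simp only [Pi.add_apply, cons_val_zero, cons_val_one, Pi.zero_apply, zero_mul, sum_const_zero,
    add_zero, mul_one, Fin.sum_univ_two, zero_add, rs]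
  by_cases h : P j
  · simp only [if_pos h]
    rw [ClY_two x fun σ _ => dtn j A (sp σ),
      ClY_two x fun σ τ => tn j (sp τ) * (-1 * dH β A x (sp σ) + 1 * dH β A x (sp τ))]
    have e1 : ∑ σ, ∑ τ, gw β x σ * gw β x τ * dtn j A (sp σ) =
        av β x fun σ => dtn j A (sp σ) := by
      refine sum_congr rfl fun σ _ => ?_
      rw [← sum_mul, ← mul_sum, gw_sum, mul_one]
    have e2 : ∑ σ, ∑ τ, gw β x σ * gw β x τ *
        (tn j (sp τ) * (-1 * dH β A x (sp σ) + 1 * dH β A x (sp τ))) =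
        (∑ σ, gw β x σ) * (av β x fun σ => tn j (sp σ) * dH β A x (sp σ)) -
          (av β x fun σ => dH β A x (sp σ)) * av β x fun σ => tn j (sp σ) := by
      simp only [av, sum_mul_sum, ← sum_sub_distrib]
      exact sum_congr rfl fun σ _ => sum_congr rfl fun τ _ => by ring
    rw [e1, e2, gw_sum, Yg]
    ring
  · simp [if_neg h]
theorem qb_split {q : ℕ} (a b : Fin n) (ρ : Fin n × Fin n → ℝ)
    (F : (Fin q → Fin n) → Om n → ℝ) : Qb ρ F F =
      Qb ρ (rs (fun j => cn a b j = 0) F) (rs (fun j => cn a b j = 0) F) +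
      Qb ρ (rs (fun j => cn a b j = 1) F) (rs (fun j => cn a b j = 1) F) +
      Qb ρ (rs (fun j => 2 ≤ cn a b j) F) (rs (fun j => 2 ≤ cn a b j) F) := by
  have h0 : Bf ρ (0 : Om n → ℝ) 0 = 0 := by simp [Bf]
  simp only [Qb, ← sum_add_distrib, rs]
  refine sum_congr rfl fun j _ => ?_
  split_ifs <;> first | omega | simp only [h0, add_zero, zero_add]

end Vale.Agent.P146
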