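import Vale.Agent.P146.Defs

namespace Vale.Agent.P146

open MeasureTheory ProbabilityTheory Matrix Real Finset Filter Topology
open P150 (gm spin Cfg)

variable {ι : Type} [Fintype ι] [DecidableEq ι] {J : Type} [Fintype J] {n : ℕ} {β : ℝ}

theorem res1_tr {W : Mx n} (hW : Wᵀ = W) (z : ℂ) :
    (W.map (fun a => (a : ℂ)) - z • 1)ᵀ = W.map (fun a => (a : ℂ)) - z • 1 := by
  rw [transpose_sub, transpose_smul, transpose_one, ← transpose_map, hW]

theorem res1_im {W : Mx n} (hW : Wᵀ = W) (z : ℂ) (x : Fin n → ℂ) :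
    (star x ⬝ᵥ (W.map (fun a => (a : ℂ)) - z • 1) *ᵥ x).im = -(z.im * ∑ i, ‖x i‖ ^ 2) := by
  have hH : (W.map (fun a => (a : ℂ))).IsHermitian := by
    ext i j
    have := congrFun (congrFun hW i) j
    simp only [transpose_apply] at this
    simp [conjTranspose_apply, this]
  have h1 : (star x ⬝ᵥ W.map (fun a => (a : ℂ)) *ᵥ x).im = 0 :=
    hH.im_star_dotProduct_mulVec_self x
  have h2 : star x ⬝ᵥ x = ((∑ i, ‖x i‖ ^ 2 : ℝ) : ℂ) := by
    simp only [dotProduct, Pi.star_apply, Complex.star_def, Complex.conj_mul', Complex.ofReal_sum,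
      Complex.ofReal_pow]
  rw [sub_mulVec, dotProduct_sub, smul_mulVec, one_mulVec, dotProduct_smul, h2, Complex.sub_im, h1,
    smul_eq_mul, Complex.mul_im, Complex.ofReal_im, Complex.ofReal_re]
  ring

theorem res1_det {W : Mx n} (hW : Wᵀ = W) {z : ℂ} (hz : 0 < z.im) :
    (W.map (fun a => (a : ℂ)) - z • 1).det ≠ 0 := by
  intro h
  obtain ⟨x, hx, h0⟩ := Matrix.exists_mulVec_eq_zero_iff.2 h
  have h1 := res1_im hW z x
  rw [h0, dotProduct_zero, Complex.zero_im, eq_comm, neg_eq_zero, mul_eq_zero] at h1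
  have h2 := (sum_eq_zero_iff_of_nonneg fun i _ => sq_nonneg ‖x i‖).1 (h1.resolve_left hz.ne')
  exact hx (funext fun i => by simpa using h2 i (mem_univ i))

theorem qf_eq (R : Matrix (Fin n) (Fin n) ℂ) (u v : Fin n → ℝ) :
    qf R u v = (fun k => (u k : ℂ)) ⬝ᵥ R *ᵥ fun k => (v k : ℂ) := by
  simp only [qf, dotProduct, mulVec, mul_sum, mul_assoc]

theorem pj_symm (u : Fin n → ℝ) : (pj u)ᵀ = pj u := by
  rw [pj, transpose_sub, transpose_one, transpose_vecMulVec]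

theorem pj_mul {u : Fin n → ℝ} (hu : u ⬝ᵥ u = 1) : pj u * pj u = pj u := by
  rw [pj, Matrix.sub_mul, Matrix.one_mul, Matrix.mul_sub, Matrix.mul_one, vecMulVec_mul_vecMulVec,
    hu, one_smul, sub_self, sub_zero]

theorem pwp_symm {W : Mx n} (hW : Wᵀ = W) (u : Fin n → ℝ) :
    (pj u * W * pj u)ᵀ = pj u * W * pj u := by
  rw [transpose_mul, transpose_mul, pj_symm, hW, Matrix.mul_assoc]

theorem res1_map (A B : Mx n) : (A * B).map (fun a => (a : ℂ)) =
    A.map (fun a => (a : ℂ)) * B.map (fun a => (a : ℂ)) :=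
  Matrix.map_mul (f := Complex.ofRealHom)

theorem res_mul {W : Mx n} (hW : Wᵀ = W) {z : ℂ} (hz : 0 < z.im) :
    (W.map (fun a => (a : ℂ)) - z • 1) * Res W z = 1 ∧
      Res W z * (W.map (fun a => (a : ℂ)) - z • 1) = 1 ∧ (Res W z)ᵀ = Res W z := by
  have h := isUnit_iff_ne_zero.2 (res1_det hW hz)
  refine ⟨mul_nonsing_inv _ h, nonsing_inv_mul _ h, ?_⟩
  rw [Res, transpose_nonsing_inv, res1_tr hW]
theorem qf_im {W : Mx n} (hW : Wᵀ = W) {z : ℂ} (hz : 0 < z.im) (u : Fin n → ℝ) :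
    (qf (Res W z) u u).im = z.im * ∑ i, ‖(Res W z *ᵥ fun k => (u k : ℂ)) i‖ ^ 2 := by
  have h1 := res1_im hW z (Res W z *ᵥ fun k => (u k : ℂ))
  rw [mulVec_mulVec, (res_mul hW hz).1, one_mulVec] at h1
  rw [qf_eq]
  generalize (Res W z *ᵥ fun k => (u k : ℂ)) = x at h1 ⊢
  rw [← neg_inj, ← h1]
  simp [dotProduct, Complex.im_sum, mul_comm]
theorem eig_le {W : Mx n} (hW : Wᵀ = W) {z : ℂ} (hz : 0 < z.im) {v : Fin n → ℝ} {l : ℝ}
    (hv : Eig W v l) (hl : |z.re - l| ≤ z.im) (u : Fin n → ℝ) :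
    (u ⬝ᵥ v) ^ 2 ≤ 2 * z.im * (qf (Res W z) u u).im := by
  rw [qf_im hW hz]
  have h1 : (W.map (fun a => (a : ℂ)) - z • 1) *ᵥ (fun k => (v k : ℂ)) =
      ((l : ℂ) - z) • fun k => (v k : ℂ) := by
    funext i
    have := congrFun hv.2 i
    simp only [mulVec, dotProduct, Pi.smul_apply, smul_eq_mul] at this
    rw [sub_mulVec, smul_mulVec, one_mulVec]
    simp only [mulVec, dotProduct, Pi.sub_apply, Pi.smul_apply, smul_eq_mul, map_apply]
    rw [sub_mul, ← Complex.ofReal_mul, ← this]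
    push_cast
    rfl
  have h2 : ((u ⬝ᵥ v : ℝ) : ℂ) =
      ((l : ℂ) - z) * ((fun k => (v k : ℂ)) ⬝ᵥ (Res W z *ᵥ fun k => (u k : ℂ))) := by
    rw [← smul_eq_mul, ← smul_dotProduct, ← h1, ← vecMul_transpose, res1_tr hW,
      ← dotProduct_mulVec, mulVec_mulVec, (res_mul hW hz).1, one_mulVec]
    simp [dotProduct, mul_comm]
  generalize (Res W z *ᵥ fun k => (u k : ℂ)) = x at h2 ⊢
  have h3 : ‖(fun k => (v k : ℂ)) ⬝ᵥ x‖ ^ 2 ≤ ∑ i, ‖x i‖ ^ 2 := by
    have a1 : ‖(fun k => (v k : ℂ)) ⬝ᵥ x‖ ≤ ∑ i, |v i| * ‖x i‖ :=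
      (norm_sum_le _ _).trans_eq (sum_congr rfl fun i _ => by simp)
    have a2 := sum_mul_sq_le_sq_mul_sq univ (fun i => |v i|) fun i => ‖x i‖
    have a3 : ∑ i, |v i| ^ 2 = 1 := by
      rw [← hv.1]
      exact sum_congr rfl fun i _ => by rw [sq_abs, sq]
    rw [a3, one_mul] at a2
    exact (pow_le_pow_left₀ (norm_nonneg _) a1 2).trans a2
  have h4 : ‖(l : ℂ) - z‖ ^ 2 ≤ 2 * z.im ^ 2 := by
    have a1 := pow_le_pow_left₀ (abs_nonneg _) hl 2
    rw [sq_abs] at a1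
    rw [Complex.sq_norm, Complex.normSq_apply]
    simp only [Complex.sub_re, Complex.sub_im, Complex.ofReal_re, Complex.ofReal_im]
    nlinarith
  have h5 : (u ⬝ᵥ v) ^ 2 = ‖(l : ℂ) - z‖ ^ 2 * ‖(fun k => (v k : ℂ)) ⬝ᵥ x‖ ^ 2 := by
    rw [← mul_pow, ← norm_mul, ← h2, Complex.norm_real, Real.norm_eq_abs, sq_abs]
  rw [h5]
  refine (mul_le_mul h4 h3 (sq_nonneg _) (by positivity)).trans_eq ?_
  ring
theorem ms_avg (W : Mx n) (z : ℂ) :
    ms W z = (∑ i, qf (Res W z) (Pi.single i 1) (Pi.single i 1)) / n := by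
  simp [ms, qf, Matrix.trace, Pi.single_apply, apply_ite]
theorem ms_im {W : Mx n} (hW : Wᵀ = W) {z : ℂ} (hz : 0 < z.im) : 0 ≤ (ms W z).im := by
  rw [ms_avg, Complex.div_natCast_im, Complex.im_sum]
  refine div_nonneg (sum_nonneg fun i _ => ?_) (Nat.cast_nonneg _)
  rw [qf_im hW hz]
  positivity
theorem res1_comm {W : Mx n} (hW : Wᵀ = W) {z : ℂ} (hz : 0 < z.im) {u : Fin n → ℝ}
    (hu : u ⬝ᵥ u = 1) : (pj u).map (fun a => (a : ℂ)) * Res (pj u * W * pj u) z =
      Res (pj u * W * pj u) z * (pj u).map (fun a => (a : ℂ)) := by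
  obtain ⟨h1, h2, -⟩ := res_mul (pwp_symm hW u) hz
  have h3 : (pj u).map (fun a => (a : ℂ)) *
      ((pj u * W * pj u).map (fun a => (a : ℂ)) - z • 1) =
      ((pj u * W * pj u).map (fun a => (a : ℂ)) - z • 1) * (pj u).map (fun a => (a : ℂ)) := by
    rw [Matrix.mul_sub, Matrix.sub_mul, ← res1_map, ← res1_map, Matrix.mul_smul, Matrix.smul_mul,
      Matrix.mul_one, Matrix.one_mul, ← Matrix.mul_assoc, ← Matrix.mul_assoc, pj_mul hu,
      Matrix.mul_assoc (pj u * W), pj_mul hu]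
  generalize (pj u * W * pj u).map (fun a => (a : ℂ)) - z • 1 = M at h1 h2 h3
  generalize Res (pj u * W * pj u) z = R at h1 h2 ⊢
  generalize (pj u).map (fun a => (a : ℂ)) = P at h3 ⊢
  calc P * R = R * (M * P) * R := by rw [← Matrix.mul_assoc, h2, Matrix.one_mul]
    _ = R * P := by rw [← h3, Matrix.mul_assoc, Matrix.mul_assoc, h1, Matrix.mul_one]

theorem ward {W : Mx n} (hW : Wᵀ = W) {z : ℂ} (hz : 0 < z.im) {u : Fin n → ℝ} (hu : u ⬝ᵥ u = 1) :
    Fr (Rp W u z) ^ 2 = (Rp W u z).trace.im / z.im := by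
  have h1 : (Rp W u z).trace =
      ∑ i, qf (Res (pj u * W * pj u) z) (fun k => pj u k i) (fun k => pj u k i) := by
    have : Rp W u z = (pj u).map (fun a => (a : ℂ)) *
        (Res (pj u * W * pj u) z * (pj u).map (fun a => (a : ℂ))) := by
      rw [← res1_comm hW hz hu, ← Matrix.mul_assoc, ← res1_map, pj_mul hu, Rp]
    rw [this, Matrix.trace]
    refine sum_congr rfl fun i _ => ?_
    rw [qf_eq, diag_apply, Matrix.mul_apply]
    refine sum_congr rfl fun k _ => ?_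
    have := congrFun (congrFun (pj_symm u) i) k
    rw [transpose_apply] at this
    rw [map_apply, ← this]
    rfl
  rw [Fr, Real.sq_sqrt (by positivity), h1, Complex.im_sum, eq_div_iff hz.ne', sum_comm, sum_mul]
  refine sum_congr rfl fun i _ => ?_
  rw [qf_im (pwp_symm hW u) hz, mul_comm, Rp, res1_comm hW hz hu]
  rfl
theorem ms_cont {z : ℂ} (hz : 0 < z.im) : Continuous fun x : Om n => ms (Sy x) z := by
  have h1 : Continuous fun x : Om n => (Sy x).map (fun a => (a : ℂ)) - z • 1 := by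
    refine continuous_matrix fun i j => ?_
    simp only [Sy, mat, Matrix.sub_apply, map_apply, Matrix.smul_apply, Matrix.add_apply,
      transpose_apply, of_apply, smul_eq_mul]
    fun_prop
  have h2 : ∀ x : Om n, (Sy x)ᵀ = Sy x := fun x => by
    rw [Sy, transpose_smul, transpose_add, transpose_transpose, add_comm]
  simp only [ms, Res, Matrix.inv_def, Ring.inverse_eq_inv']
  exact ((h1.matrix_det.inv₀ fun x => res1_det (h2 x) hz).smul
    h1.matrix_adjugate).matrix_trace.div_const _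
theorem Sy_symm (x : Om n) : (Sy x)ᵀ = Sy x := by
  rw [Sy, transpose_smul, transpose_add, transpose_transpose, add_comm]
theorem Sy_mix (t : ℝ) (x y : Om n) :
    Sy (mix (fun _ => t) (x, y)) = t • Sy x + √(1 - t ^ 2) • Sy y := by
  ext i j
  simp only [Sy, mat, mix, Matrix.smul_apply, Matrix.add_apply, transpose_apply, of_apply,
    smul_eq_mul]
  ring

end Vale.Agent.P146
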