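import Vale.Agent.P146.HW
import Vale.Agent.P146.Res1

namespace Vale.Agent.P146

open MeasureTheory ProbabilityTheory Matrix Real Finset Filter Topology
open P150 (gm spin Cfg)

variable {ι : Type} [Fintype ι] [DecidableEq ι] {J : Type} [Fintype J] {n : ℕ} {β : ℝ}

lemma Cond_pu {u : Fin n → ℝ} (hu : u ⬝ᵥ u = 1) : pj u *ᵥ u = 0 := by
  rw [pj, sub_mulVec, one_mulVec, vecMulVec_mulVec, hu]
  simp

lemma Cond_pt (u : Fin n → ℝ) : (pj u)ᵀ = pj u := by
  rw [pj, transpose_sub, transpose_one, transpose_vecMulVec]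

lemma Cond_up {u : Fin n → ℝ} (hu : u ⬝ᵥ u = 1) : u ᵥ* pj u = 0 := by
  rw [← mulVec_transpose, Cond_pt, Cond_pu hu]

lemma Cond_pp {u : Fin n → ℝ} (hu : u ⬝ᵥ u = 1) : pj u * pj u = pj u := by
  conv_lhs => enter [2]; rw [pj]
  rw [Matrix.mul_sub, Matrix.mul_one, mul_vecMulVec, Cond_pu hu]
  simp

lemma Cond_T {u : Fin n → ℝ} (hu : u ⬝ᵥ u = 1) :
    ∃ T : Om n × (Fin n → ℝ) → Om n × (Fin n → ℝ),
      MeasurePreserving T ((gm _).prod (gm _)) ((gm _).prod (gm _)) ∧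
      ∀ q, pj u * Sy (T q).1 * pj u = pj u * Sy q.1 * pj u ∧
        pj u *ᵥ Sy q.1 *ᵥ u = (√n)⁻¹ • pj u *ᵥ (T q).2 := by
  set c : ℝ := (√2)⁻¹ with hc
  have hc2 : 2 * c ^ 2 = 1 := by rw [hc, inv_pow, Real.sq_sqrt (by norm_num)]; norm_num
  obtain ⟨D, hD⟩ : ∃ D : ((Fin n × Fin n) ⊕ Fin n → ℝ) →ₗ[ℝ] (Fin n → ℝ), ∀ ω, D ω =
      pj u *ᵥ fun k => ω (.inr k) - c * ∑ l, (ω (.inl (k, l)) + ω (.inl (l, k))) * u l := by
    refine ⟨Matrix.toLin' (pj u) ∘ₗ LinearMap.pi fun k => LinearMap.proj (.inr k) -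
      c • ∑ l, u l • (LinearMap.proj (.inl (k, l)) + LinearMap.proj (.inl (l, k))), fun ω => ?_⟩
    rw [LinearMap.comp_apply, toLin'_apply]
    congr 1
    funext k
    simp [mul_comm, mul_add]
  obtain ⟨T, hT1, hT2⟩ : ∃ T : ((Fin n × Fin n) ⊕ Fin n → ℝ) →ₗ[ℝ] ((Fin n × Fin n) ⊕ Fin n → ℝ),
      (∀ ω e, T ω (.inl e) = ω (.inl e) + c * (D ω e.1 * u e.2 + u e.1 * D ω e.2)) ∧
        ∀ ω i, T ω (.inr i) = ω (.inr i) - D ω i := by
    refine ⟨LinearMap.id + LinearMap.pi (Sum.elim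
      (fun e => c • (u e.2 • LinearMap.proj e.1 ∘ₗ D + u e.1 • LinearMap.proj e.2 ∘ₗ D))
      fun i => -LinearMap.proj i ∘ₗ D), fun ω e => ?_, fun ω i => ?_⟩
    · simp [mul_comm, mul_add]
    · simp [sub_eq_add_neg]
  have hDu : ∀ ω, ∑ k, D ω k * u k = 0 := fun ω => by
    change D ω ⬝ᵥ u = 0
    rw [hD, dotProduct_comm, dotProduct_mulVec, Cond_up hu, zero_dotProduct]
  have hiso : ∀ ω, ∑ i, T ω i ^ 2 = ∑ i, ω i ^ 2 := fun ω => by
    rw [Fintype.sum_sum_type, Fintype.sum_sum_type, Fintype.sum_prod_type, Fintype.sum_prod_type]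
    simp only [hT1, hT2]
    have hu2 : ∑ k, u k ^ 2 = 1 := by simpa [dotProduct, sq] using hu
    obtain ⟨s, hs⟩ : ∃ s, ∀ k, D ω k = ω (.inr k) -
        c * ∑ l, (ω (.inl (k, l)) + ω (.inl (l, k))) * u l - u k * s := by
      refine ⟨u ⬝ᵥ fun k => ω (.inr k) - c * ∑ l, (ω (.inl (k, l)) + ω (.inl (l, k))) * u l,
        fun k => ?_⟩
      rw [hD, pj, sub_mulVec, one_mulVec, vecMulVec_mulVec]
      simp [mul_comm]
    have h0 := hDu ω
    generalize D ω = δ at hs h0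
    have a1 : ∑ i, ∑ j, δ i ^ 2 * u j ^ 2 = ∑ i, δ i ^ 2 := by
      rw [← Finset.sum_mul_sum, hu2, mul_one]
    have a2 : ∑ i, ∑ j, u i ^ 2 * δ j ^ 2 = ∑ i, δ i ^ 2 := by
      rw [← Finset.sum_mul_sum, hu2, one_mul]
    have a3 : ∑ i, ∑ j, δ i * u i * (δ j * u j) = 0 := by
      rw [← Finset.sum_mul_sum, h0, mul_zero]
    have a4 : ∑ k, δ k * ∑ l, (ω (.inl (k, l)) + ω (.inl (l, k))) * u l =
        ∑ i, ∑ j, ω (.inl (i, j)) * (δ i * u j) + ∑ i, ∑ j, ω (.inl (i, j)) * (u i * δ j) := by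
      rw [Finset.sum_comm (f := fun i j => ω (.inl (i, j)) * (u i * δ j)),
        ← Finset.sum_add_distrib]
      refine Finset.sum_congr rfl fun i _ => ?_
      rw [Finset.mul_sum, ← Finset.sum_add_distrib]
      exact Finset.sum_congr rfl fun j _ => by ring
    have a5 : ∑ k, δ k ^ 2 = ∑ k, δ k * ω (.inr k) -
        c * ∑ k, δ k * ∑ l, (ω (.inl (k, l)) + ω (.inl (l, k))) * u l - s * ∑ k, δ k * u k := by
      rw [Finset.mul_sum, Finset.mul_sum, ← Finset.sum_sub_distrib, ← Finset.sum_sub_distrib]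
      refine Finset.sum_congr rfl fun k _ => ?_
      rw [sq]
      nth_rewrite 2 [hs k]
      ring
    have b1 : ∑ i, ∑ j, (ω (.inl (i, j)) + c * (δ i * u j + u i * δ j)) ^ 2 =
        ∑ i, ∑ j, ω (.inl (i, j)) ^ 2 + 2 * c * ∑ i, ∑ j, ω (.inl (i, j)) * (δ i * u j) +
          2 * c * ∑ i, ∑ j, ω (.inl (i, j)) * (u i * δ j) + c ^ 2 * ∑ i, ∑ j, δ i ^ 2 * u j ^ 2 +
          c ^ 2 * ∑ i, ∑ j, u i ^ 2 * δ j ^ 2 + 2 * c ^ 2 * ∑ i, ∑ j, δ i * u i * (δ j * u j) := by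
      simp only [Finset.mul_sum, ← Finset.sum_add_distrib]
      exact Finset.sum_congr rfl fun i _ => Finset.sum_congr rfl fun j _ => by ring
    have b2 : ∑ i, (ω (.inr i) - δ i) ^ 2 =
        ∑ i, ω (.inr i) ^ 2 - 2 * ∑ k, δ k * ω (.inr k) + ∑ k, δ k ^ 2 := by
      simp only [Finset.mul_sum, ← Finset.sum_add_distrib, ← Finset.sum_sub_distrib]
      exact Finset.sum_congr rfl fun i _ => by ring
    rw [b1, b2, a1, a2, a3]
    rw [a4, h0] at a5
    linear_combination (∑ k, δ k ^ 2) * hc2 + 2 * a5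
  let e := MeasurableEquiv.sumPiEquivProdPi fun _ : (Fin n × Fin n) ⊕ Fin n => ℝ
  have he : MeasurePreserving e (gm _) ((gm _).prod (gm _)) :=
    measurePreserving_sumPiEquivProdPi (X := fun _ : (Fin n × Fin n) ⊕ Fin n => ℝ)
      fun _ => gaussianReal 0 1
  refine ⟨e ∘ T ∘ e.symm, he.comp ((P150.mp_iso T hiso).comp he.symm), fun q => ?_⟩
  have e1 : ∀ a, ((e ∘ T ∘ e.symm) q).1 a =
      q.1 a + c * (D (e.symm q) a.1 * u a.2 + u a.1 * D (e.symm q) a.2) := fun a => hT1 _ a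
  have e2 : ((e ∘ T ∘ e.symm) q).2 = q.2 - D (e.symm q) := funext fun i => hT2 _ i
  have e3 : D (e.symm q) =
      pj u *ᵥ fun k => q.2 k - c * ∑ l, (q.1 (k, l) + q.1 (l, k)) * u l := hD _
  generalize (e ∘ T ∘ e.symm) q = q' at e1 e2
  constructor
  · have : Sy q'.1 = Sy q.1 + ((√(2 * n))⁻¹ * (2 * c)) •
        (vecMulVec (D (e.symm q)) u + vecMulVec u (D (e.symm q))) := by
      ext i j
      simp only [Sy, mat, Matrix.smul_apply, Matrix.add_apply, transpose_apply, of_apply, e1,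
        vecMulVec_apply, smul_eq_mul]
      ring
    rw [this, Matrix.mul_add, Matrix.add_mul, Matrix.mul_smul, Matrix.smul_mul, Matrix.mul_add,
      Matrix.add_mul, mul_vecMulVec, mul_vecMulVec, vecMulVec_mul, Cond_pu hu, Cond_up hu]
    simp
  · rw [e2, e3, mulVec_sub, mulVec_mulVec _ (pj u) (pj u), Cond_pp hu, ← mulVec_sub, ← mulVec_smul]
    congr 1
    funext k
    simp only [Sy, mat, mulVec, dotProduct, Matrix.smul_apply, Matrix.add_apply, transpose_apply,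
      of_apply, smul_eq_mul, Pi.smul_apply, Pi.sub_apply, sub_sub_cancel, Finset.mul_sum]
    refine Finset.sum_congr rfl fun l _ => ?_
    rw [Real.sqrt_mul (by norm_num), mul_inv, ← hc]
    ring

lemma Cond_qf {W : Mx n} (hW : Wᵀ = W) {z : ℂ} (hz : 0 < z.im) {u : Fin n → ℝ} (hu : u ⬝ᵥ u = 1)
    (s : ℝ) (x : Fin n → ℝ) :
    qf (Res (pj u * W * pj u) z) (s • pj u *ᵥ x) (s • pj u *ᵥ x) = s ^ 2 * qf (Rp W u z) x x := by
  have hs : (pj u * W * pj u)ᵀ = pj u * W * pj u := by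
    rw [transpose_mul, transpose_mul, Cond_pt, hW, Matrix.mul_assoc]
  obtain ⟨h1, h2, -⟩ := res_mul hs hz
  rw [Rp]
  generalize Res (pj u * W * pj u) z = R at h1 h2
  have hm : ∀ X Y : Mx n, (X * Y).map (fun a => (a : ℂ)) =
      X.map (fun a => (a : ℂ)) * Y.map (fun a => (a : ℂ)) := fun X Y =>
    Matrix.map_mul (f := Complex.ofRealHom)
  set P := (pj u).map (fun a => (a : ℂ)) with hP
  have hPP : P * P = P := by rw [hP, ← hm, Cond_pp hu]
  have hPt : Pᵀ = P := by rw [hP, ← transpose_map, Cond_pt]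
  rw [hm, hm, ← hP] at h1 h2
  set M := P * W.map (fun a => (a : ℂ)) * P - z • 1 with hM
  have hc : P * M = M * P := by
    rw [hM, Matrix.mul_sub, Matrix.sub_mul, ← Matrix.mul_assoc, ← Matrix.mul_assoc, hPP,
      Matrix.mul_assoc _ P P, hPP]
    simp
  have hR : R * P = P * R := by
    calc R * P = R * P * (M * R) := by rw [h1, Matrix.mul_one]
      _ = R * (P * M) * R := by simp only [Matrix.mul_assoc]
      _ = _ := by rw [hc, ← Matrix.mul_assoc, h2, Matrix.one_mul]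
  have hq : ∀ (A : Matrix (Fin n) (Fin n) ℂ) (v w : Fin n → ℝ),
      qf A v w = (fun i => (v i : ℂ)) ⬝ᵥ A *ᵥ fun i => (w i : ℂ) := fun A v w => by
    simp only [qf, dotProduct, mulVec, Finset.mul_sum, mul_assoc]
  have hv : (fun i => (((s • pj u *ᵥ x) i : ℝ) : ℂ)) = (s : ℂ) • P *ᵥ fun i => (x i : ℂ) := by
    funext i
    simp [hP, mulVec, dotProduct]
  rw [hq, hq, hv, mulVec_smul, smul_dotProduct, dotProduct_smul, mulVec_mulVec, hR,
    ← mulVec_mulVec, dotProduct_mulVec (P *ᵥ _), ← mulVec_transpose, hPt, mulVec_mulVec, hPP,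
    dotProduct_mulVec _ P, ← mulVec_transpose, hPt]
  simp only [smul_eq_mul]
  ring

lemma Cond_meas (B : Mx n) (a : ℝ) (u : Fin n → ℝ) (z : ℂ) (i j : Fin n) :
    Measurable fun y : Om n => Rp (B + a • Sy y) u z i j := by
  have h0 : Continuous fun y : Om n => mat y := continuous_matrix fun i j => continuous_apply _
  have h2 : Continuous fun y : Om n => Sy y := by
    unfold Sy
    exact (h0.add h0.matrix_transpose).const_smul (√(2 * n) : ℝ)⁻¹
  have h3 : Continuous fun y : Om n => B + a • Sy y := continuous_const.add (h2.const_smul a)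
  have h4 : Continuous fun y : Om n => pj u * (B + a • Sy y) * pj u :=
    (continuous_const.matrix_mul h3).matrix_mul continuous_const
  have h1 : Continuous fun y : Om n =>
      (pj u * (B + a • Sy y) * pj u).map (fun a => (a : ℂ)) - z • 1 :=
    (h4.matrix_map Complex.continuous_ofReal).sub continuous_const
  simp only [Rp, Res, mul_apply, Matrix.inv_def, Ring.inverse_eq_inv', Matrix.smul_apply,
    smul_eq_mul]
  exact Finset.measurable_sum _ fun k _ => (h1.matrix_det.measurable.inv.mul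
    (h1.matrix_adjugate.matrix_elem k j).measurable).const_mul _

theorem cond {B : Mx n} (hB : Bᵀ = B) {u : Fin n → ℝ} {d a L : ℝ} (hu : Eig B u d)
    (ha : a ∈ Set.Icc (0 : ℝ) 1) {z : ℂ} (hz : 0 < z.im) (hL : 0 < L) :
    (gm _).real {y : Om n | 8 * L * Fr (Rp (B + a • Sy y) u z) / n <
      ‖Xu (B + a • Sy y) u z - a ^ 2 * (Rp (B + a • Sy y) u z).trace / n‖} ≤ 5 * exp (-L) := by
  obtain ⟨T, hT, hq⟩ := Cond_T hu.1
  have hn : (0 : ℝ) < n := by
    rcases Nat.eq_zero_or_pos n with rfl | h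
    · simpa [dotProduct] using hu.1
    · exact_mod_cast h
  let E : Set (Om n × (Fin n → ℝ)) := {q | 8 * L * Fr (Rp (B + a • Sy q.1) u z) <
    ‖qf (Rp (B + a • Sy q.1) u z) q.2 q.2 - (Rp (B + a • Sy q.1) u z).trace‖}
  have hE : MeasurableSet E := by
    have h1 : ∀ i j, Measurable fun q : Om n × (Fin n → ℝ) => Rp (B + a • Sy q.1) u z i j :=
      fun i j => (Cond_meas B a u z i j).comp measurable_fst
    have h2 : ∀ i, Measurable fun q : Om n × (Fin n → ℝ) => (q.2 i : ℂ) := fun i =>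
      Complex.measurable_ofReal.comp ((measurable_pi_apply i).comp measurable_snd)
    refine measurableSet_lt (Measurable.const_mul (Measurable.sqrt ?_) _) (Measurable.norm ?_)
    · exact Finset.measurable_sum _ fun i _ => Finset.measurable_sum _ fun j _ =>
        (h1 i j).norm.pow_const 2
    · exact (Finset.measurable_sum _ fun i _ => Finset.measurable_sum _ fun j _ =>
        ((h2 i).mul (h1 i j)).mul (h2 j)).sub (Finset.measurable_sum _ fun i _ => h1 i i)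
  refine ENNReal.toReal_le_of_le_ofReal (by positivity) ?_
  have hb : ((gm _).prod (gm _)) E ≤ ENNReal.ofReal (5 * exp (-L)) := by
    rw [Measure.prod_apply hE]
    refine (lintegral_mono (g := fun _ => ENNReal.ofReal (5 * exp (-L))) fun y => ?_).trans
      (le_of_eq (by rw [lintegral_const, measure_univ, mul_one]))
    exact (ENNReal.le_ofReal_iff_toReal_le (measure_ne_top _ _) (by positivity)).2
      (hw (Rp (B + a • Sy y) u z) hL)
  refine le_trans ?_ hb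
  rw [← hT.measure_preimage hE.nullMeasurableSet, ← mul_one (gm _ _),
    ← measure_univ (μ := gm (Fin n)), ← Measure.prod_prod]
  refine measure_mono ?_
  rintro q ⟨h, -⟩
  obtain ⟨h1, h2⟩ := hq q
  have hR : Rp (B + a • Sy (T q).1) u z = Rp (B + a • Sy q.1) u z := by
    simp only [Rp, Matrix.mul_add, Matrix.add_mul, Matrix.mul_smul, Matrix.smul_mul, h1]
  have hW : (B + a • Sy q.1)ᵀ = B + a • Sy q.1 := by
    rw [transpose_add, transpose_smul, hB, Sy_symm]
  have hv : pj u *ᵥ (B + a • Sy q.1) *ᵥ u = (a * (√n)⁻¹) • pj u *ᵥ (T q).2 := by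
    rw [add_mulVec, mulVec_add, hu.2, mulVec_smul, Cond_pu hu.1, smul_zero, zero_add,
      smul_mulVec, mulVec_smul, h2, smul_smul]
  change 8 * L * Fr (Rp (B + a • Sy (T q).1) u z) < ‖qf (Rp (B + a • Sy (T q).1) u z) (T q).2 (T q).2
    - (Rp (B + a • Sy (T q).1) u z).trace‖
  rw [hR]
  rw [Set.mem_setOf_eq, Xu, hv, Cond_qf hW hz hu.1] at h
  generalize Rp (B + a • Sy q.1) u z = A at h ⊢
  have e : (((a * (√n)⁻¹ : ℝ) : ℂ)) ^ 2 * qf A (T q).2 (T q).2 - a ^ 2 * A.trace / n =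
      ((a ^ 2 / n : ℝ) : ℂ) * (qf A (T q).2 (T q).2 - A.trace) := by
    rw [← Complex.ofReal_pow, mul_pow, inv_pow, Real.sq_sqrt hn.le]
    push_cast
    ring
  rw [e, norm_mul, Complex.norm_real, Real.norm_of_nonneg (by positivity), div_mul_eq_mul_div,
    div_lt_div_iff_of_pos_right hn] at h
  have := norm_nonneg (qf A (T q).2 (T q).2 - A.trace)
  have h3 : a ^ 2 ≤ 1 := pow_le_one₀ ha.1 ha.2
  nlinarith

end Vale.Agent.P146
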