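import Mathlib
import Vale.Agent.P150.GOE

/-! Definitions for P146. -/

namespace Vale.Agent.P146

open MeasureTheory ProbabilityTheory Matrix Real Finset
open P150 (gm spin Cfg)

noncomputable section

section Gauss

variable {ι : Type} [Fintype ι] [DecidableEq ι] {J : Type} [Fintype J]

def mix (ρ : ι → ℝ) (q : (ι → ℝ) × (ι → ℝ)) : ι → ℝ :=
  fun e => ρ e * q.1 e + √(1 - ρ e ^ 2) * q.2 e

def Bf (ρ : ι → ℝ) (f g : (ι → ℝ) → ℝ) : ℝ :=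
  ∫ q, f q.1 * g (mix ρ q) ∂((gm ι).prod (gm ι))

def Qb (ρ : ι → ℝ) (F G : J → (ι → ℝ) → ℝ) : ℝ := ∑ j, Bf ρ (F j) (G j)

/-- continuous of polynomial growth -/
def PG (f : (ι → ℝ) → ℝ) : Prop := Continuous f ∧ ∃ (C : ℝ) (k : ℕ), ∀ x, |f x| ≤ C * (1 + ‖x‖) ^ k

def pd (e : ι) (f : (ι → ℝ) → ℝ) : (ι → ℝ) → ℝ := fun x => fderiv ℝ f x (Pi.single e 1)

def C2 (f : (ι → ℝ) → ℝ) : Prop :=
  Differentiable ℝ f ∧ PG f ∧
    ∀ e, Differentiable ℝ (pd e f) ∧ PG (pd e f) ∧ ∀ e', PG (pd e' (pd e f))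

def U01 (ρ : ι → ℝ) : Prop := ∀ e, 0 ≤ ρ e ∧ ρ e ≤ 1

def rr (E : Finset ι) (r t : ℝ) : ι → ℝ := fun e => if e ∈ E then r else t

def dd (E : Finset ι) (F : J → (ι → ℝ) → ℝ) : J × ι → (ι → ℝ) → ℝ :=
  fun p => if p.2 ∈ E then pd p.2 (F p.1) else 0

def glue (E : Finset ι) (x y : ι → ℝ) : ι → ℝ := fun e => if e ∈ E then y e else x e

def EE (E : Finset ι) (f : (ι → ℝ) → ℝ) (x : ι → ℝ) : ℝ := ∫ y, f (glue E x y) ∂gm ι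

def Pt (ρ : ι → ℝ) (f : (ι → ℝ) → ℝ) (x : ι → ℝ) : ℝ := ∫ y, f (mix ρ (x, y)) ∂gm ι

open Classical in
def rs (P : J → Prop) (F : J → (ι → ℝ) → ℝ) : J → (ι → ℝ) → ℝ := fun j => if P j then F j else 0

end Gauss

abbrev Om (n : ℕ) := Fin n × Fin n → ℝ

abbrev Mx (n : ℕ) := Matrix (Fin n) (Fin n) ℝ

variable {n : ℕ}

def sp (σ : Cfg n) : Fin n → ℝ := fun i => spin (σ i)

def ep (β : ℝ) (v w : Fin n → ℝ) (e : Fin n × Fin n) : ℝ := β / √(2 * n) * (v e.1 * w e.2)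

def Hm (β : ℝ) (x : Om n) (v : Fin n → ℝ) : ℝ := ∑ e, x e * ep β v v e

def Zf (β : ℝ) (x : Om n) : ℝ := ∑ τ : Cfg n, exp (Hm β x (sp τ))

def gw (β : ℝ) (x : Om n) (σ : Cfg n) : ℝ := exp (Hm β x (sp σ)) / Zf β x

def av (β : ℝ) (x : Om n) (f : Cfg n → ℝ) : ℝ := ∑ σ, gw β x σ * f σ

def ov (σ τ : Cfg n) : ℝ := (∑ i, sp σ i * sp τ i) / n

def Mv (σ τ : Cfg n) : ℝ := |ov σ τ| + 4 / n

def tn {q : ℕ} (j : Fin q → Fin n) (v : Fin n → ℝ) : ℝ := ∏ k, v (j k) / √n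

def mat (x : Om n) : Mx n := Matrix.of fun i j => x (i, j)

def act (O : Mx n) (x : Om n) : Om n := fun e => (Oᵀ * mat x * O) e.1 e.2

def xi (β : ℝ) (q : ℕ) (j : Fin q → Fin n) (x : Om n) : ℝ := av β x fun σ => tn j (sp σ)

def xo (β : ℝ) (q : ℕ) (O : Mx n) (j : Fin q → Fin n) (x : Om n) : ℝ :=
  av β (act O x) fun σ => tn j (O *ᵥ sp σ)

def To {q : ℕ} (O : Mx n) (F : (Fin q → Fin n) → Om n → ℝ) (j : Fin q → Fin n) (x : Om n) : ℝ :=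
  ∑ j' : Fin q → Fin n, (∏ k, O (j k) (j' k)) * F j' (act O x)

/-- the overlap moment of two correlated systems -/
def ph (β : ℝ) (n p : ℕ) (t : ℝ) : ℝ :=
  Qb (fun _ => t) (xi (n := n) β (2 * p)) (xi (n := n) β (2 * p))

def E2 (β : ℝ) (ρ : Fin n × Fin n → ℝ) (K : Cfg n → Cfg n → ℝ) : ℝ :=
  ∫ q, ∑ σ, ∑ τ, gw β q.1 σ * gw β (mix ρ q) τ * K σ τ ∂((gm _).prod (gm _))

def lam (β : ℝ) (A : Mx n) (v : Fin n → ℝ) (e : Fin n × Fin n) : ℝ :=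
  ep β (A *ᵥ v) v e + ep β v (A *ᵥ v) e

def dH (β : ℝ) (A : Mx n) (x : Om n) (v : Fin n → ℝ) : ℝ := ∑ e, x e * lam β A v e

def dtn {q : ℕ} (j : Fin q → Fin n) (A : Mx n) (v : Fin n → ℝ) : ℝ :=
  ∑ k, (A *ᵥ v) (j k) / √n * ∏ k' ∈ univ.erase k, v (j k') / √n

/-- the generator of rotations applied to `xi` -/
def Yg (β : ℝ) (q : ℕ) (A : Mx n) (j : Fin q → Fin n) (x : Om n) : ℝ :=
  av β x (fun σ => dtn j A (sp σ)) + av β x (fun σ => tn j (sp σ) * dH β A x (sp σ)) -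
    av β x (fun σ => tn j (sp σ)) * av β x (fun σ => dH β A x (sp σ))

def Ea (a b : Fin n) : Mx n := Matrix.single a b 1 - Matrix.single b a 1

def Gv (a b : Fin n) (θ : ℝ) : Mx n :=
  1 + sin θ • Ea a b + (cos θ - 1) • (Matrix.single a a 1 + Matrix.single b b 1)

def ES (a b : Fin n) : Finset (Fin n × Fin n) :=
  univ.filter fun e => e.1 = a ∨ e.1 = b ∨ e.2 = a ∨ e.2 = b

def BS (a b : Fin n) : Finset (Fin n × Fin n) :=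
  univ.filter fun e => (e.1 = a ∨ e.1 = b) ∧ (e.2 = a ∨ e.2 = b)

def cn {q : ℕ} (a b : Fin n) (j : Fin q → Fin n) : ℕ := #{k | j k = a ∨ j k = b}

def sg (c : Fin n) : Fin n → ℝ := fun i => if i = c then -1 else 1

/-- gauge flip of the site `c` -/
def fl (c : Fin n) : Om n := fun e => sg c e.1 * sg c e.2

def sw (a b : Fin n) (x : Om n) : Om n := fun e => x (Equiv.swap a b e.1, Equiv.swap a b e.2)

/-- the algebra generated by coordinates and Gibbs weights -/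
inductive Al (β : ℝ) : (Om n → ℝ) → Prop
  | const (c : ℝ) : Al β fun _ => c
  | coord (e : Fin n × Fin n) : Al β fun x => x e
  | wt (σ : Cfg n) : Al β fun x => gw β x σ
  | add {f g : Om n → ℝ} : Al β f → Al β g → Al β fun x => f x + g x
  | mul {f g : Om n → ℝ} : Al β f → Al β g → Al β fun x => f x * g x

def pw (β : ℝ) {m : ℕ} (x : Om n) (s : Fin m → Cfg n) : ℝ := ∏ l, gw β x (s l)

/-- one replica term with kernel at most `c * M ^ a` -/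
def Tm (β : ℝ) (A : Mx n) (m : ℕ) (c : ℝ) (a : ℕ) {J : Type} [Fintype J]
    (F : J → Om n → ℝ) : Prop :=
  ∃ (Φ : (Fin m → Cfg n) → J → ℝ) (u0 : ℝ) (u : Fin m → ℝ), |u0| + ∑ l, |u l| ≤ 2 ∧
    (∀ j x, F j x = ∑ s, pw β x s * (Φ s j * (u0 + ∑ l, u l * dH β A x (sp (s l))))) ∧
    ∀ s s' (M : ℝ), (∀ l l', Mv (s l) (s' l') ≤ M) → |∑ j, Φ s j * Φ s' j| ≤ c * M ^ a

def Cl (β : ℝ) (A : Mx n) (m : ℕ) (c : ℝ) (a k : ℕ) {J : Type} [Fintype J]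
    (F : J → Om n → ℝ) : Prop :=
  ∃ G : Fin k → J → Om n → ℝ, F = ∑ i, G i ∧ ∀ i, Tm β A m c a (G i)

def Pr (β : ℝ) (A : Mx n) (E : Finset (Fin n × Fin n)) (w : ℝ) (b : ℕ) : Prop :=
  ∀ σ τ : Cfg n, |∑ e ∈ E, ep β (sp σ) (sp σ) e * ep β (sp τ) (sp τ) e| ≤ w * Mv σ τ ^ b ∧
    |∑ e ∈ E, lam β A (sp σ) e * lam β A (sp τ) e| ≤ w * Mv σ τ ^ b

/-- the cavity disorder -/
def cut (E : Finset (Fin n × Fin n)) (x : Om n) : Om n := fun e => if e ∈ E then 0 else x e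

def Sy (x : Om n) : Mx n := (√(2 * n))⁻¹ • (mat x + (mat x)ᵀ)

def Eig (W : Mx n) (v : Fin n → ℝ) (l : ℝ) : Prop := v ⬝ᵥ v = 1 ∧ W *ᵥ v = l • v

def Del (x x' : Om n) (D : ℝ) : Prop :=
  ∃ (U : Mx n) (d : Fin n → ℝ), Uᵀ * U = 1 ∧ Sy x * U = U * diagonal d ∧
    ∀ b v l, Eig (Sy x') v l → ((fun i => U i b) ⬝ᵥ v) ^ 2 ≤ D

def Hr (ν : Measure (Om n)) : Prop :=
  IsProbabilityMeasure ν ∧ (∀ᵐ o ∂ν, (mat o)ᵀ * mat o = 1) ∧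
    ∀ S : Mx n, Sᵀ * S = 1 → MeasurePreserving (fun (o : Om n) e => (S * mat o) e.1 e.2) ν ν

def Kr (β : ℝ) (p : ℕ) (x x' o o' : Om n) : ℝ :=
  ∑ σ, ∑ τ, gw β (act (mat o) x) σ * gw β (act (mat o') x') τ *
    ((mat o *ᵥ sp σ) ⬝ᵥ (mat o' *ᵥ sp τ) / n) ^ (2 * p)

def Res (W : Mx n) (z : ℂ) : Matrix (Fin n) (Fin n) ℂ := (W.map (fun a => (a : ℂ)) - z • 1)⁻¹

def qf (R : Matrix (Fin n) (Fin n) ℂ) (u v : Fin n → ℝ) : ℂ := ∑ i, ∑ j, u i * R i j * v j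

def ms (W : Mx n) (z : ℂ) : ℂ := (Res W z).trace / n

def pj (u : Fin n → ℝ) : Mx n := 1 - vecMulVec u u

def Xu (W : Mx n) (u : Fin n → ℝ) (z : ℂ) : ℂ :=
  qf (Res (pj u * W * pj u) z) (pj u *ᵥ W *ᵥ u) (pj u *ᵥ W *ᵥ u)

def Rp (W : Mx n) (u : Fin n → ℝ) (z : ℂ) : Matrix (Fin n) (Fin n) ℂ :=
  (pj u).map (fun a => (a : ℂ)) * Res (pj u * W * pj u) z

def Fr (R : Matrix (Fin n) (Fin n) ℂ) : ℝ := √(∑ i, ∑ j, ‖R i j‖ ^ 2)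

/-- the free energy of the SK model -/
def FE (β : ℝ) (n : ℕ) (g : P150.Pair n → ℝ) : ℝ :=
  log (∑ σ : Cfg n, exp (P150.energy β g σ))

end

end Vale.Agent.P146
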