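import Vale.Agent.P146.Defs

namespace Vale.Agent.P146

open MeasureTheory ProbabilityTheory Matrix Real Finset Filter Topology
open P150 (gm spin Cfg)

variable {ι : Type} [Fintype ι] [DecidableEq ι] {J : Type} [Fintype J] {n : ℕ} {β : ℝ}

theorem SC_avg_norm (hn : 1 ≤ n) {f : Fin n → ℂ} {c : ℝ} (h : ∀ i, ‖f i‖ ≤ c) :
    ‖(∑ i, f i) / (n : ℂ)‖ ≤ c := by
  have hn' : (0 : ℝ) < n := by exact_mod_cast hn
  rw [norm_div, Complex.norm_natCast, div_le_iff₀ hn']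
  calc ‖∑ i, f i‖ ≤ ∑ i, ‖f i‖ := norm_sum_le _ _
    _ ≤ ∑ _i : Fin n, c := Finset.sum_le_sum fun i _ => h i
    _ = c * n := by simp [mul_comm]

theorem SC_avg_im (hn : 1 ≤ n) {f : Fin n → ℂ} {c : ℝ} (h : ∀ i, c ≤ (f i).im) :
    c ≤ ((∑ i, f i) / (n : ℂ)).im := by
  have hn' : (0 : ℝ) < n := by exact_mod_cast hn
  have e : ((∑ i, f i) / (n : ℂ)).im = (∑ i, (f i).im) / n := by
    rw [Complex.div_natCast_im, Complex.im_sum]
  rw [e, le_div_iff₀ hn']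
  calc c * n = ∑ _i : Fin n, c := by simp [mul_comm]
    _ ≤ ∑ i, (f i).im := Finset.sum_le_sum fun i _ => h i

theorem SC_im_lower {r D : ℂ} {B c : ℝ} (h : r * D = 1) (hB : ‖D‖ ≤ B) (hc : 0 ≤ c)
    (hcD : c * B ^ 2 ≤ -D.im) : c ≤ r.im := by
  have hD : D ≠ 0 := by
    rintro rfl
    simp at h
  have hr : r = D⁻¹ := eq_inv_of_mul_eq_one_left h
  have hpos : 0 < Complex.normSq D := Complex.normSq_pos.2 hD
  rw [hr, Complex.inv_im, le_div_iff₀ hpos, Complex.normSq_eq_norm_sq]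
  have h2 : ‖D‖ ^ 2 ≤ B ^ 2 := pow_le_pow_left₀ (norm_nonneg _) hB 2
  nlinarith [mul_le_mul_of_nonneg_left h2 hc]

theorem sc1 (hn : 1 ≤ n) {z m : ℂ} {r X : Fin n → ℂ} {w : Fin n → ℝ} {α θ : ℝ} (hz : 0 < z.im)
    (hm : m = (∑ i, r i) / n) (hm0 : 0 ≤ m.im) (h1 : ∀ i, r i * (w i - z - X i) = 1)
    (h2 : ∀ i, 0 ≤ (X i).im) (h3 : ∀ i, ‖X i - m‖ ≤ α * √m.im + α ^ 2) (h4 : ∀ i, |w i| ≤ α ^ 2)
    (hα : 0 < α) (hθ : 6 * α ≤ θ) (hθ1 : θ ≤ 1 / 3) (hη : 100 * α ^ 2 * θ ^ 2 ≤ z.im) :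
    ‖m * (z + m) + 1‖ ≤ 6 * α / θ := by
  have hθ0 : 0 < θ := by linarith
  have hn' : (n : ℂ) ≠ 0 := by
    have : n ≠ 0 := by omega
    exact_mod_cast this
  have hα1 : α ≤ 1 / 18 := by linarith
  have hms : m.im ≤ ‖z + m‖ := by
    have h := Complex.im_le_norm (z + m)
    rw [Complex.add_im] at h
    linarith
  have he : ∀ i, ‖(w i : ℂ) - (X i - m)‖ ≤ α * √m.im + 2 * α ^ 2 := fun i => by
    have h := norm_sub_le (w i : ℂ) (X i - m)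
    rw [Complex.norm_real, Real.norm_eq_abs] at h
    linarith [h3 i, h4 i]
  have hD : ∀ i, (w i : ℂ) - z - X i = ((w i : ℂ) - (X i - m)) - (z + m) := fun i => by ring
  rcases le_or_gt θ ‖z + m‖ with hs | hs
  · set s := ‖z + m‖ with hsdef
    have hs0 : 0 < s := by linarith
    have hsq : √m.im ≤ s / θ := by
      apply Real.sqrt_le_iff.2
      refine ⟨by positivity, ?_⟩
      rw [div_pow, le_div_iff₀ (by positivity)]
      have : θ ^ 2 ≤ s := by nlinarith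
      nlinarith
    have hq : α / θ ≤ 1 / 6 := by
      rw [div_le_iff₀ hθ0]; linarith
    have hq0 : 0 < α / θ := by positivity
    have hst : 1 ≤ s / θ := by
      rw [le_div_iff₀ hθ0]; linarith
    have he' : ∀ i, ‖(w i : ℂ) - (X i - m)‖ ≤ 2 * (α / θ) * s := fun i => by
      have a1 : α * √m.im ≤ α * (s / θ) := mul_le_mul_of_nonneg_left hsq hα.le
      have a2 : 2 * α ^ 2 ≤ α * (s / θ) := by nlinarith
      have a3 : α * (s / θ) = α / θ * s := by ring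
      linarith [he i]
    have key : m * (z + m) + 1 = (∑ i, r i * ((w i : ℂ) - (X i - m))) / n := by
      have e : ∀ i, r i * ((w i : ℂ) - (X i - m)) = r i * (z + m) + 1 := fun i => by
        rw [← h1 i]; ring
      simp_rw [e]
      rw [Finset.sum_add_distrib, ← Finset.sum_mul, add_div, mul_div_right_comm, ← hm]
      simp [hn']
    rw [key]
    apply SC_avg_norm hn
    intro i
    have b1 : s - ‖(w i : ℂ) - (X i - m)‖ ≤ ‖(w i : ℂ) - z - X i‖ := by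
      rw [hD i, norm_sub_rev ((w i : ℂ) - (X i - m)) (z + m)]
      exact norm_sub_norm_le _ _
    have b2 : ‖r i‖ * ‖(w i : ℂ) - z - X i‖ = 1 := by
      rw [← norm_mul, h1 i, norm_one]
    have b3 : s / 2 ≤ ‖(w i : ℂ) - z - X i‖ := by nlinarith [he' i]
    have b4 : ‖r i‖ * s ≤ 2 := by nlinarith [norm_nonneg (r i)]
    rw [norm_mul]
    have b5 : ‖r i‖ * ‖(w i : ℂ) - (X i - m)‖ ≤ ‖r i‖ * (2 * (α / θ) * s) :=
      mul_le_mul_of_nonneg_left (he' i) (norm_nonneg _)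
    have b6 : 6 * α / θ = 6 * (α / θ) := by ring
    rw [b6]
    nlinarith
  · exfalso
    have hsq1 : √m.im ≤ 1 := by
      apply Real.sqrt_le_iff.2
      refine ⟨by norm_num, ?_⟩
      linarith
    have hDn : ∀ i, ‖(w i : ℂ) - z - X i‖ ≤ 3 / 2 * θ := fun i => by
      rw [hD i]
      have a0 := norm_sub_le ((w i : ℂ) - (X i - m)) (z + m)
      have a1 : α * √m.im ≤ α := by nlinarith
      have a2 : 2 * α ^ 2 ≤ α := by nlinarith
      linarith [he i]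
    have hDi : ∀ i, -((w i : ℂ) - z - X i).im = z.im + (X i).im := fun i => by
      simp
      ring
    have s1 : 36 * α ^ 2 ≤ m.im := by
      rw [hm]
      apply SC_avg_im hn
      intro i
      apply SC_im_lower (h1 i) (hDn i) (by positivity)
      rw [hDi i]
      have : 0 ≤ α ^ 2 * θ ^ 2 := by positivity
      nlinarith [h2 i]
    have hy : 0 < m.im := by
      have : 0 < α ^ 2 := by positivity
      linarith
    have s2 : 6 * α ≤ √m.im := by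
      apply Real.le_sqrt_of_sq_le
      linarith [show (6 * α) ^ 2 = 36 * α ^ 2 by ring]
    have s3 : √m.im * √m.im = m.im := Real.mul_self_sqrt hm0
    have s4 : ∀ i, m.im / 2 ≤ (X i).im := fun i => by
      have a0 := Complex.abs_im_le_norm (X i - m)
      rw [Complex.sub_im] at a0
      have a1 := neg_abs_le ((X i).im - m.im)
      have a2 : 6 * (α * √m.im) ≤ m.im := by nlinarith [Real.sqrt_nonneg m.im]
      linarith [h3 i]
    have s5 : 2 * m.im ≤ m.im := by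
      have : 2 * m.im ≤ ((∑ i, r i) / (n : ℂ)).im := by
        apply SC_avg_im hn
        intro i
        apply SC_im_lower (h1 i) (hDn i) (by positivity)
        rw [hDi i]
        have a1 : (3 / 2 * θ) ^ 2 ≤ 1 / 4 := by nlinarith
        nlinarith [s4 i]
      rwa [← hm] at this
    linarith

theorem SC_real {s δ ρ : ℝ} (h0 : 0 < ρ) (h1 : ρ ≤ 1) (hδ : 12 * δ < ρ ^ 3) (hsρ : ρ < s)
    (c2 : s ^ 3 * (s + 2) ≤ δ * (s ^ 3 + 5 * s ^ 2 + 6 * s + 2)) : False := by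
  have hs0 : 0 < s := by linarith
  have r0 : ρ ^ 2 ≤ 1 := pow_le_one₀ h0.le h1
  have r1 : ρ ^ 3 ≤ 1 := pow_le_one₀ h0.le h1
  have r2 : ρ ^ 3 ≤ s := by
    have := mul_le_mul_of_nonneg_left r0 h0.le
    linarith [show ρ ^ 3 = ρ * ρ ^ 2 by ring]
  have r3 : ρ ^ 3 ≤ s ^ 2 := by
    have a : ρ ^ 2 ≤ s ^ 2 := pow_le_pow_left₀ h0.le hsρ.le 2
    have b := mul_le_mul_of_nonneg_left h1 (sq_nonneg ρ)
    linarith [show ρ ^ 3 = ρ ^ 2 * ρ by ring]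
  have r4 : ρ ^ 3 ≤ s ^ 3 := pow_le_pow_left₀ h0.le hsρ.le 3
  have q1 := mul_le_mul_of_nonneg_right r1 (pow_pos hs0 3).le
  have q2 := mul_le_mul_of_nonneg_right r2 (pow_pos hs0 2).le
  have q3 := mul_le_mul_of_nonneg_right r3 hs0.le
  have q4 : 0 < s ^ 3 + 5 * s ^ 2 + 6 * s + 2 := by positivity
  have q5 := mul_lt_mul_of_pos_right hδ q4
  have q6 : 0 < s ^ 3 * s := by positivity
  have q7 : 0 < s ^ 3 := by positivity
  nlinarith

theorem SC_real2 {R a b δ : ℝ} (hR1 : 1 < R) (b1 : a * (R ^ 2 + 1) ≤ δ * R + R ^ 2 * (2 + δ))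
    (b2 : b * (R ^ 2 - 1) ≤ δ * R) (b3 : R ≤ a + b) :
    (R - 1) ^ 3 * ((R - 1) + 2) ≤ δ * ((R - 1) ^ 3 + 5 * (R - 1) ^ 2 + 6 * (R - 1) + 2) := by
  have p1 : 0 < R ^ 2 - 1 := by nlinarith
  have p2 : 0 < R ^ 2 + 1 := by positivity
  have d1 := mul_le_mul_of_nonneg_right b3 (mul_pos p2 p1).le
  have d2 := mul_le_mul_of_nonneg_right b1 p1.le
  have d3 := mul_le_mul_of_nonneg_right b2 p2.le
  have hR0 : 0 < R := by linarith
  apply le_of_mul_le_mul_left _ hR0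
  linarith

theorem sc2 {z m : ℂ} {δ ρ : ℝ} (h : ‖m * (z + m) + 1‖ ≤ δ) (hm : 0 ≤ m.im) (hz : 0 ≤ z.im)
    (hr : |z.re| ≤ 2 + δ) (h0 : 0 < ρ) (h1 : ρ ≤ 1) (hδ : 12 * δ < ρ ^ 3) : ‖m‖ ≤ 1 + ρ := by
  by_contra hc
  have hc : 1 + ρ < ‖m‖ := not_le.1 hc
  have hR2 : ‖m‖ ^ 2 = m.re ^ 2 + m.im ^ 2 := by
    rw [← Complex.normSq_eq_norm_sq, Complex.normSq_apply]; ring
  have hE : ‖(m * (z + m) + 1) * (starRingEnd ℂ) m‖ ≤ δ * ‖m‖ := by
    rw [norm_mul, Complex.norm_conj]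
    exact mul_le_mul_of_nonneg_right h (norm_nonneg _)
  have hre : ((m * (z + m) + 1) * (starRingEnd ℂ) m).re =
      ‖m‖ ^ 2 * z.re + m.re * (‖m‖ ^ 2 + 1) := by
    rw [hR2]; simp; ring
  have him : ((m * (z + m) + 1) * (starRingEnd ℂ) m).im =
      ‖m‖ ^ 2 * z.im + m.im * (‖m‖ ^ 2 - 1) := by
    rw [hR2]; simp; ring
  have a1 : |‖m‖ ^ 2 * z.re + m.re * (‖m‖ ^ 2 + 1)| ≤ δ * ‖m‖ := by
    rw [← hre]; exact (Complex.abs_re_le_norm _).trans hE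
  have a2 : ‖m‖ ^ 2 * z.im + m.im * (‖m‖ ^ 2 - 1) ≤ δ * ‖m‖ := by
    rw [← him]; exact (Complex.im_le_norm _).trans hE
  have b3 : ‖m‖ ≤ |m.re| + m.im := by
    have := Complex.norm_le_abs_re_add_abs_im m
    rwa [abs_of_nonneg hm] at this
  generalize ‖m‖ = R at *
  have hR1 : 1 < R := by linarith
  have hRR : 0 ≤ R ^ 2 := by positivity
  have b2 : m.im * (R ^ 2 - 1) ≤ δ * R := by linarith [mul_nonneg hRR hz]
  have b1 : |m.re| * (R ^ 2 + 1) ≤ δ * R + R ^ 2 * (2 + δ) := by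
    have e : m.re * (R ^ 2 + 1) = (R ^ 2 * z.re + m.re * (R ^ 2 + 1)) - R ^ 2 * z.re := by ring
    have c1 : |m.re * (R ^ 2 + 1)| ≤ |R ^ 2 * z.re + m.re * (R ^ 2 + 1)| + |R ^ 2 * z.re| := by
      conv_lhs => rw [e]
      exact abs_sub _ _
    rw [abs_mul, abs_of_pos (show 0 < R ^ 2 + 1 by positivity), abs_mul (R ^ 2), abs_of_nonneg hRR]
      at c1
    linarith [mul_le_mul_of_nonneg_left hr hRR]
  exact SC_real h0 h1 hδ (by linarith) (SC_real2 hR1 b1 b2 b3)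

theorem SC_quad {u : ℂ} {d : ℝ} (hd : |d| ≤ 2) (hu : ‖u‖ ≤ 1) :
    (1 - ‖u‖) ^ 2 ≤ ‖1 + d * u + u ^ 2‖ := by
  have hd2 : d ^ 2 ≤ 4 := by
    have := sq_le_sq' (abs_le.1 hd).1 (abs_le.1 hd).2
    linarith
  have hq : 0 ≤ 1 - (d / 2) ^ 2 := by nlinarith
  set s : ℝ := √(1 - (d / 2) ^ 2) with hs
  have hss : s ^ 2 = 1 - (d / 2) ^ 2 := Real.sq_sqrt hq
  have hn : ∀ e : ℝ, e ^ 2 = s ^ 2 → ‖((d / 2 : ℝ) : ℂ) + (e : ℂ) * Complex.I‖ = 1 := by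
    intro e he
    rw [Complex.norm_add_mul_I, he, hss]
    simp
  have hf : 1 + d * u + u ^ 2 = (((d / 2 : ℝ) : ℂ) + (s : ℂ) * Complex.I + u) *
      (((d / 2 : ℝ) : ℂ) + ((-s : ℝ) : ℂ) * Complex.I + u) := by
    have h1 : (s : ℂ) ^ 2 = 1 - ((d : ℂ) / 2) ^ 2 := by exact_mod_cast hss
    push_cast
    linear_combination (-1 : ℂ) * h1 + (s : ℂ) ^ 2 * Complex.I_sq
  have hb : ∀ a : ℂ, ‖a‖ = 1 → 1 - ‖u‖ ≤ ‖a + u‖ := fun a ha => by
    have := norm_sub_norm_le a (-u)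
    rwa [ha, norm_neg, sub_neg_eq_add] at this
  rw [hf, norm_mul, sq]
  have h0 : 0 ≤ 1 - ‖u‖ := by linarith
  exact mul_le_mul (hb _ (hn s rfl)) (hb _ (hn (-s) (by ring))) h0 (norm_nonneg _)

theorem sc3 {z m X r : ℂ} {t d w δ : ℝ} (ht : t ∈ Set.Ico (0 : ℝ) 1)
    (h : ‖m * (z + m) + 1‖ ≤ δ) (hm : ‖m‖ ≤ 1 + (1 - t) / 2) (hd : |d| ≤ 2 + δ) (hw : |w| ≤ δ)
    (hX : ‖X - (1 - t ^ 2) * m‖ ≤ δ) (hr : r * (t * d + w - z - X) = 1) (hz : z.im ≤ 1)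
    (hz0 : 0 ≤ z.im) (hδ : δ ≤ (1 - t) ^ 2 / 100) : r.im ≤ 400 / (1 - t) ^ 4 := by
  obtain ⟨ht0, ht1⟩ := ht
  have hδ0 : 0 ≤ δ := le_trans (norm_nonneg _) h
  obtain ⟨d', hd', hdd⟩ : ∃ d' : ℝ, |d'| ≤ 2 ∧ |d - d'| ≤ δ := by
    obtain ⟨l1, l2⟩ := abs_le.1 hd
    rcases le_total d 2 with a | a
    · rcases le_total (-2) d with b | b
      · exact ⟨d, abs_le.2 ⟨b, a⟩, by simpa using hδ0⟩
      · exact ⟨-2, by norm_num, abs_le.2 ⟨by linarith, by linarith⟩⟩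
    · exact ⟨2, by norm_num, abs_le.2 ⟨by linarith, by linarith⟩⟩
  have hm2 : ‖m‖ ≤ 3 / 2 := by linarith
  have hu : ‖(t : ℂ) * m‖ ≤ 1 - (1 - t) / 2 := by
    rw [norm_mul, Complex.norm_real, Real.norm_of_nonneg ht0]
    nlinarith [mul_le_mul_of_nonneg_left hm ht0]
  have hq := SC_quad (u := (t : ℂ) * m) hd' (by linarith)
  have hq2 : (1 - t) ^ 2 / 4 ≤ ‖1 + d' * ((t : ℂ) * m) + ((t : ℂ) * m) ^ 2‖ := by
    have : ((1 - t) / 2) ^ 2 ≤ (1 - ‖(t : ℂ) * m‖) ^ 2 :=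
      pow_le_pow_left₀ (by linarith) (by linarith) 2
    nlinarith
  have e : 1 + d' * ((t : ℂ) * m) + ((t : ℂ) * m) ^ 2 =
      m * (t * d + w - z - X) + (m * (z + m) + 1) + m * (X - (1 - t ^ 2) * m) - m * w -
        ((d - d' : ℝ) : ℂ) * (t * m) := by
    push_cast
    ring
  have n1 : ‖m * (X - (1 - t ^ 2) * m)‖ ≤ 3 / 2 * δ := by
    rw [norm_mul]
    exact mul_le_mul hm2 hX (norm_nonneg _) (by norm_num)
  have n2 : ‖m * (w : ℂ)‖ ≤ 3 / 2 * δ := by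
    rw [norm_mul, Complex.norm_real, Real.norm_eq_abs]
    exact mul_le_mul hm2 hw (abs_nonneg _) (by norm_num)
  have n3 : ‖((d - d' : ℝ) : ℂ) * (t * m)‖ ≤ δ * 1 := by
    rw [norm_mul, Complex.norm_real, Real.norm_eq_abs]
    exact mul_le_mul hdd (by linarith) (norm_nonneg _) hδ0
  have n4 : ‖m * (t * d + w - z - X)‖ ≤ 3 / 2 * ‖(t * d + w - z - X : ℂ)‖ := by
    rw [norm_mul]
    exact mul_le_mul_of_nonneg_right hm2 (norm_nonneg _)
  have n5 : ‖1 + d' * ((t : ℂ) * m) + ((t : ℂ) * m) ^ 2‖ ≤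
      3 / 2 * ‖(t * d + w - z - X : ℂ)‖ + 5 * δ := by
    rw [e]
    have k1 := norm_sub_le (m * (t * d + w - z - X) + (m * (z + m) + 1) +
      m * (X - (1 - t ^ 2) * m) - m * w) (((d - d' : ℝ) : ℂ) * (t * m))
    have k2 := norm_sub_le (m * (t * d + w - z - X) + (m * (z + m) + 1) +
      m * (X - (1 - t ^ 2) * m)) (m * w)
    have k3 := norm_add_le (m * (t * d + w - z - X) + (m * (z + m) + 1))
      (m * (X - (1 - t ^ 2) * m))
    have k4 := norm_add_le (m * (t * d + w - z - X)) (m * (z + m) + 1)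
    linarith
  have n6 : (1 - t) ^ 2 / 10 ≤ ‖(t * d + w - z - X : ℂ)‖ := by
    have : 0 ≤ (1 - t) ^ 2 := sq_nonneg _
    linarith
  have n7 : ‖r‖ * ‖(t * d + w - z - X : ℂ)‖ = 1 := by
    rw [← norm_mul, hr, norm_one]
  have h1t : 0 < 1 - t := by linarith
  have n8 : ‖r‖ * (1 - t) ^ 2 ≤ 10 := by nlinarith [norm_nonneg r]
  have n9 : (1 - t) ^ 2 ≤ 1 := by nlinarith
  refine (Complex.im_le_norm r).trans ?_
  rw [le_div_iff₀ (by positivity)]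
  have n10 : 0 ≤ ‖r‖ * (1 - t) ^ 2 := by positivity
  have e2 : ‖r‖ * (1 - t) ^ 4 = ‖r‖ * (1 - t) ^ 2 * (1 - t) ^ 2 := by ring
  rw [e2]
  nlinarith

end Vale.Agent.P146
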