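import Vale.Agent.P146.GoodU
import Vale.Agent.P146.SC

namespace Vale.Agent.P146

open MeasureTheory ProbabilityTheory Matrix Real Finset Filter Topology
open P150 (gm spin Cfg)

variable {ι : Type} [Fintype ι] [DecidableEq ι] {J : Type} [Fintype J] {n : ℕ} {β : ℝ}

theorem ll_pow (x : ℝ) (hx : 0 ≤ x) (k : ℕ) (c : ℝ) (h : c = -(0.01 * k)) :
    x ^ c = ((x ^ (0.01 : ℝ)) ^ k)⁻¹ := by
  rw [h, Real.rpow_neg hx, Real.rpow_mul hx, Real.rpow_natCast]

theorem ll : ∀ᶠ n : ℕ in atTop, ∀ z : ℂ, z.im = (n : ℝ) ^ (-0.58 : ℝ) →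
    (gm _).real {x : Om n | (n : ℝ) ^ (-0.09 : ℝ) < ‖ms (Sy x) z * (z + ms (Sy x) z) + 1‖} ≤
      7 * n * exp (-(n : ℝ) ^ (0.01 : ℝ)) := by
  have ht : Tendsto (fun n : ℕ => (n : ℝ) ^ (0.01 : ℝ)) atTop atTop :=
    (tendsto_rpow_atTop (by norm_num)).comp tendsto_natCast_atTop_atTop
  filter_upwards [ht.eventually_ge_atTop 90, eventually_ge_atTop 1] with n hs hn z hz
  have n0 : (0 : ℝ) ≤ n := Nat.cast_nonneg n
  rw [ll_pow n n0 58 _ (by norm_num)] at hz
  rw [ll_pow n n0 9 _ (by norm_num)]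
  have hN : (n : ℝ) = ((n : ℝ) ^ (0.01 : ℝ)) ^ 100 := by
    rw [← Real.rpow_natCast, ← Real.rpow_mul n0]
    norm_num
  generalize (n : ℝ) ^ (0.01 : ℝ) = s at hs hz hN ⊢
  have s0 : 0 < s := by linarith
  have s1 : 1 ≤ s := by linarith
  have hz0 : 0 < z.im := by rw [hz]; positivity
  have hz' : z.im ^ 2 * n ≤ 1 := by
    rw [hz, hN, inv_pow, ← pow_mul, inv_mul_le_iff₀ (by positivity), mul_one]
    exact pow_le_pow_right₀ s1 (by norm_num)
  have hsq : √(n * z.im) = s ^ 21 := by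
    rw [hz, hN, Real.sqrt_eq_iff_mul_self_eq (by positivity) (by positivity)]
    field_simp
  set α := (8 * s + 1) / √(n * z.im) with hα
  have a0 : 0 < α := by rw [hα, hsq]; positivity
  have a1 : α ≤ 9 / s ^ 20 := by
    rw [hα, hsq, div_le_div_iff₀ (by positivity) (by positivity), pow_succ s 20]
    nlinarith [pow_pos s0 20]
  have p10 : s ≤ s ^ 10 := le_self_pow₀ s1 (by norm_num)
  have c3 : 6 * α / (s ^ 10)⁻¹ ≤ (s ^ 9)⁻¹ := by
    rw [div_inv_eq_mul]
    refine (mul_le_mul_of_nonneg_right (mul_le_mul_of_nonneg_left a1 (by norm_num))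
      (by positivity)).trans ?_
    have : 6 * (9 / s ^ 20) * s ^ 10 = 54 / s * (s ^ 9)⁻¹ := by field_simp; norm_num
    rw [this]
    exact mul_le_of_le_one_left (by positivity) ((div_le_one s0).2 (by linarith))
  have c1 : 6 * α ≤ (s ^ 10)⁻¹ := by
    have h1 : (s ^ 9)⁻¹ ≤ 1 := inv_le_one_of_one_le₀ (one_le_pow₀ s1)
    have := c3.trans h1
    rwa [div_le_one (by positivity)] at this
  have c2 : (s ^ 10)⁻¹ ≤ 1 / 3 := by
    rw [inv_le_comm₀ (by positivity) (by norm_num)]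
    norm_num
    linarith
  have c4 : 100 * α ^ 2 * (s ^ 10)⁻¹ ^ 2 ≤ z.im := by
    rw [hz]
    refine (mul_le_mul_of_nonneg_right (mul_le_mul_of_nonneg_left
      (pow_le_pow_left₀ a0.le a1 2) (by norm_num)) (by positivity)).trans ?_
    have : 100 * (9 / s ^ 20) ^ 2 * (s ^ 10)⁻¹ ^ 2 = 8100 / s ^ 2 * (s ^ 58)⁻¹ := by
      field_simp; norm_num
    rw [this]
    exact mul_le_of_le_one_left (by positivity) ((div_le_one (by positivity)).2 (by nlinarith))
  have hu : ∀ i : Fin n, (Pi.single i 1 : Fin n → ℝ) ⬝ᵥ Pi.single i 1 = 1 := fun i => by simp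
  have g := fun i : Fin n => good_u (B := (0 : Mx n)) (u := Pi.single i 1) (d := 0) (a := 1)
    (L := s) (α := α) (by simp) ⟨hu i, by rw [zero_mulVec, zero_smul]⟩ ⟨zero_le_one, le_rfl⟩ hz0 hz' s1 hα
  simp only [zero_add, one_smul, Complex.ofReal_one, one_pow, one_mul] at g
  refine le_trans (measureReal_mono (fun x hx => ?_) (measure_ne_top _ _))
    (((measureReal_iUnion_fintype_le _).trans (sum_le_sum fun i _ => g i)).trans (le_of_eq ?_))
  · by_contra hc
    simp only [Set.mem_iUnion, Set.mem_setOf_eq, not_exists, not_not] at hc hx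
    have := sc1 hn hz0 (ms_avg (Sy x) z) (ms_im (Sy_symm x) hz0)
      (fun i => (sch1 (Sy_symm x) hz0 (hu i)).1) (fun i => (sch1 (Sy_symm x) hz0 (hu i)).2)
      (fun i => (hc i).1) (fun i => (hc i).2) a0 c1 c2 c4
    linarith
  · rw [sum_const, card_univ, Fintype.card_fin, nsmul_eq_mul]
    ring

end Vale.Agent.P146
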