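import Vale.Agent.P146.Semi

namespace Vale.Agent.P146

open MeasureTheory ProbabilityTheory Matrix Real Finset Filter Topology
open P150 (gm spin Cfg)

variable {ι : Type} [Fintype ι] [DecidableEq ι] {J : Type} [Fintype J] {n : ℕ} {β : ℝ}

def indExt (S : Finset (ι ⊕ ι)) (y : S → ℝ) : (ι → ℝ) × (ι → ℝ) :=
  (fun e => if h : Sum.inl e ∈ S then y ⟨_, h⟩ else 0,
    fun e => if h : Sum.inr e ∈ S then y ⟨_, h⟩ else 0)

theorem ind_meas (S : Finset (ι ⊕ ι)) : Measurable (indExt S) := by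
  refine Measurable.prodMk (measurable_pi_lambda _ fun e => ?_) (measurable_pi_lambda _ fun e => ?_)
  · by_cases h : Sum.inl e ∈ S
    · simp only [h, dif_pos]; exact measurable_pi_apply _
    · simp only [h, dif_neg, not_false_iff]; exact measurable_const
  · by_cases h : Sum.inr e ∈ S
    · simp only [h, dif_pos]; exact measurable_pi_apply _
    · simp only [h, dif_neg, not_false_iff]; exact measurable_const

theorem ind (E : Finset ι) {f g : (ι → ℝ) × (ι → ℝ) → ℝ} (hf : Measurable f) (hg : Measurable g)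
    (h1 : ∀ q q' : (ι → ℝ) × (ι → ℝ), (∀ e ∉ E, q.1 e = q'.1 e ∧ q.2 e = q'.2 e) → f q = f q')
    (h2 : ∀ q q' : (ι → ℝ) × (ι → ℝ), (∀ e ∈ E, q.1 e = q'.1 e ∧ q.2 e = q'.2 e) → g q = g q') :
    IndepFun f g ((gm ι).prod (gm ι)) := by
  have hT := P150.mp_split (I := ι ⊕ ι) Sum.inl Sum.inr
    (by rw [Sum.elim_inl_inr]; exact Function.injective_id)
  have hi : iIndepFun (fun i (ω : ι ⊕ ι → ℝ) => ω i) (gm (ι ⊕ ι)) :=
    iIndepFun_pi (X := fun _ => id) fun _ => aemeasurable_id
  let S : Finset (ι ⊕ ι) := univ.filter fun k => Sum.elim id id k ∉ E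
  let S' : Finset (ι ⊕ ι) := univ.filter fun k => Sum.elim id id k ∈ E
  have hd : Disjoint S S' := by
    rw [Finset.disjoint_left]
    intro k hk hk'
    exact (Finset.mem_filter.1 hk).2 (Finset.mem_filter.1 hk').2
  have h3 := (hi.indepFun_finset S S' hd fun i => measurable_pi_apply i).comp
    (hf.comp (ind_meas S)) (hg.comp (ind_meas S'))
  have e1 : ((f ∘ indExt S) ∘ fun (a : ι ⊕ ι → ℝ) (i : S) => a i) =
      f ∘ fun ω : ι ⊕ ι → ℝ => (fun a => ω (Sum.inl a), fun b => ω (Sum.inr b)) := by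
    funext ω
    refine h1 _ _ fun e he => ?_
    have a1 : Sum.inl e ∈ S := Finset.mem_filter.2 ⟨Finset.mem_univ _, he⟩
    have a2 : Sum.inr e ∈ S := Finset.mem_filter.2 ⟨Finset.mem_univ _, he⟩
    simp only [indExt, a1, a2, dif_pos, and_self]
  have e2 : ((g ∘ indExt S') ∘ fun (a : ι ⊕ ι → ℝ) (i : S') => a i) =
      g ∘ fun ω : ι ⊕ ι → ℝ => (fun a => ω (Sum.inl a), fun b => ω (Sum.inr b)) := by
    funext ω
    refine h2 _ _ fun e he => ?_
    have a1 : Sum.inl e ∈ S' := Finset.mem_filter.2 ⟨Finset.mem_univ _, he⟩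
    have a2 : Sum.inr e ∈ S' := Finset.mem_filter.2 ⟨Finset.mem_univ _, he⟩
    simp only [indExt, a1, a2, dif_pos, and_self]
  rw [e1, e2, indepFun_iff_measure_inter_preimage_eq_mul] at h3
  rw [indepFun_iff_measure_inter_preimage_eq_mul]
  intro s t hs ht
  have h4 := h3 s t hs ht
  rw [Set.preimage_comp, Set.preimage_comp, ← Set.preimage_inter,
    hT.measure_preimage ((hf hs).inter (hg ht)).nullMeasurableSet,
    hT.measure_preimage (hf hs).nullMeasurableSet,
    hT.measure_preimage (hg ht).nullMeasurableSet] at h4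
  exact h4

theorem mgf_lin (c : ι → ℝ) : Integrable (fun x : ι → ℝ => exp (∑ e, x e * c e)) (gm ι) ∧
    ∫ x, exp (∑ e, x e * c e) ∂gm ι = exp ((∑ e, c e ^ 2) / 2) := by
  have e : (fun x : ι → ℝ => exp (∑ e, x e * c e)) = fun x => ∏ e, exp (c e * x e) := by
    funext x
    rw [Real.exp_sum]
    exact Finset.prod_congr rfl fun e _ => by rw [mul_comm]
  rw [e]
  refine ⟨Integrable.fintype_prod (f := fun e a => exp (c e * a))
    fun e => integrable_exp_mul_gaussianReal (c e), ?_⟩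
  rw [integral_fintype_prod_eq_prod (f := fun e a => exp (c e * a)), Finset.sum_div, Real.exp_sum]
  refine Finset.prod_congr rfl fun e _ => ?_
  have := congrFun (mgf_id_gaussianReal (μ := 0) (v := 1)) (c e)
  simpa [mgf] using this

end Vale.Agent.P146
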