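import Vale.Agent.P146.HW
import Vale.Agent.P146.Ind

namespace Vale.Agent.P146

open MeasureTheory ProbabilityTheory Matrix Real Finset Filter Topology
open P150 (gm spin Cfg)

variable {ι : Type} [Fintype ι] [DecidableEq ι] {J : Type} [Fintype J] {n : ℕ} {β : ℝ}

open P150 in
lemma Nrm_prob {l T R δ : ℝ} (hT : 0 < T) (hl : δ + T + R / T ≤ l) {τ τ' : ℝ} {N : ℕ}
    (hτ' : (gm Unit).real {ω | δ ≤ √2 * ω ()} ≤ τ')
    (hτ : ∀ n ≤ N, (gm (Fin n)).real {b | R ≤ ∑ i, b i ^ 2} ≤ τ) (n : ℕ) (hn : n ≤ N)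
    (b : Fin n → ℝ) (hb : ∑ i, b i ^ 2 ≤ R) :
    (gm _).real {Y | Bad l T b Y} ≤ n * (τ + τ') := by
  induction n with
  | zero =>
    have : {Y | Bad l T b Y} = ∅ := by
      ext Y; simp [Bad]
    simp [this]
  | succ n ih =>
    obtain ⟨O, h1, h2, h3⟩ := householder b
    have a1 : (gm _).real {Y | Bad l T b Y} ≤ (gm _).real {Y | Bad l T (O *ᵥ b) Y} :=
      ENNReal.toReal_mono (measure_ne_top _ _) (Bad_rot l T h1 h2 b)
    refine a1.trans ?_
    rw [h3]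
    set A : Set (Fin (n + 1) × Fin (n + 1) → ℝ) := (fun Y (_ : Unit) => Y (0, 0)) ⁻¹'
      {ω | δ ≤ √2 * ω ()} with hA
    set B : Set (Fin (n + 1) × Fin (n + 1) → ℝ) := (fun Y (j : Fin n) => Y (0, j.succ)) ⁻¹'
      {b | R ≤ ∑ i, b i ^ 2} with hB
    set S : Set ((Fin n → ℝ) × (Fin n × Fin n → ℝ)) :=
      {p | ∑ i, p.1 i ^ 2 ≤ R} ∩ {p | Bad l T p.1 p.2} with hS
    have mS : MeasurableSet S :=
      (measurableSet_le (by fun_prop) measurable_const).inter (meas_Bad l T)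
    set C : Set (Fin (n + 1) × Fin (n + 1) → ℝ) := (fun Y => (fun j : Fin n => Y (0, j.succ),
      fun p : Fin n × Fin n => Y (p.1.succ, p.2.succ))) ⁻¹' S with hC
    have sub : {Y | Bad l T (Pi.single 0 √(∑ i, b i ^ 2)) Y} ⊆ A ∪ B ∪ C := by
      intro Y hY
      by_cases c1 : √2 * Y (0, 0) ≤ δ
      · by_cases c2 : ∑ j : Fin n, Y (0, j.succ) ^ 2 ≤ R
        · exact Or.inr ⟨c2, Bad_step hT hl
            (by rwa [sq_sqrt (sum_nonneg fun _ _ => sq_nonneg _)]) hY c1⟩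
        · exact Or.inl (Or.inr (not_le.1 c2).le)
      · exact Or.inl (Or.inl (not_le.1 c1).le)
    have bA : (gm _).real A ≤ τ' := by
      rw [hA, (mp_inj (fun _ : Unit => ((0, 0) : Fin (n + 1) × Fin (n + 1)))
        fun _ _ _ => rfl).measureReal_preimage
        (measurableSet_le measurable_const (by fun_prop)).nullMeasurableSet]
      exact hτ'
    have bB : (gm _).real B ≤ τ := by
      rw [hB, (mp_inj (fun j : Fin n => ((0, j.succ) : Fin (n + 1) × Fin (n + 1)))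
        fun _ _ h => by simpa using h).measureReal_preimage
        (measurableSet_le measurable_const (by fun_prop)).nullMeasurableSet]
      exact hτ n (by omega)
    have bC : (gm _).real C ≤ n * (τ + τ') := by
      have hp : 0 ≤ n * (τ + τ') :=
        mul_nonneg (Nat.cast_nonneg _) (add_nonneg (measureReal_nonneg.trans bB)
          (measureReal_nonneg.trans bA))
      rw [hC, (mp_split (fun j : Fin n => ((0, j.succ) : Fin (n + 1) × Fin (n + 1)))
        (fun p : Fin n × Fin n => (p.1.succ, p.2.succ)) ?_).measureReal_preimage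
        mS.nullMeasurableSet]
      · refine ENNReal.toReal_le_of_le_ofReal hp ?_
        rw [Measure.prod_apply mS]
        refine (lintegral_mono (g := fun _ => ENNReal.ofReal (n * (τ + τ')))
          fun b' => ?_).trans (by simp)
        by_cases c : ∑ i, b' i ^ 2 ≤ R
        · refine le_trans (measure_mono fun Y hY => hY.2) ?_
          exact (ENNReal.le_ofReal_iff_toReal_le (measure_ne_top _ _) hp).2 (ih (by omega) b' c)
        · have : Prod.mk b' ⁻¹' S = ∅ := by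
            ext Y; simp [hS, c]
          simp [this]
      · rintro (a | a) (b | b) h
        · simpa using h
        · exact absurd (congrArg Prod.fst h).symm (Fin.succ_ne_zero _)
        · exact absurd (congrArg Prod.fst h) (Fin.succ_ne_zero _)
        · simp only [Sum.elim_inr, Prod.mk.injEq, Fin.succ_inj] at h
          rw [Prod.ext h.1 h.2]
    refine (measureReal_mono sub).trans ((measureReal_union_le _ _).trans ?_)
    have := measureReal_union_le (μ := gm _) A B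
    push_cast
    linarith

lemma Nrm_tail {δ : ℝ} (hδ : 0 ≤ δ) :
    (gm Unit).real {ω | δ ≤ √2 * ω ()} ≤ exp (-(δ ^ 2 / 4)) := by
  have h := mgf_lin (ι := Unit) fun _ => δ / 2 * √2
  have e : (fun x : Unit → ℝ => exp (∑ e, x e * (δ / 2 * √2))) =
      fun x => exp (δ / 2 * (√2 * x ())) := by
    funext x
    simp only [univ_unique, sum_singleton]
    congr 1
    ring
  rw [e] at h
  refine (measure_ge_le_exp_mul_mgf (X := fun x : Unit → ℝ => √2 * x ()) δ (t := δ / 2)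
    (by positivity) h.1).trans (le_of_eq ?_)
  rw [mgf, h.2, ← exp_add]
  congr 1
  simp only [univ_unique, sum_singleton, mul_pow, sq_sqrt (show (0 : ℝ) ≤ 2 by norm_num)]
  ring

lemma Nrm_chi {N m : ℕ} (hm : m ≤ N) {L R : ℝ} (hL : 0 < L) (hR : N + 8 * L * √N < R) :
    (gm (Fin m)).real {b | R ≤ ∑ i, b i ^ 2} ≤ 5 * exp (-L) := by
  refine le_trans (measureReal_mono fun b hb => ?_) (hw (1 : Matrix (Fin m) (Fin m) ℂ) hL)
  have e1 : Fr (1 : Matrix (Fin m) (Fin m) ℂ) = √m := by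
    simp [Fr, one_apply, apply_ite]
  have e2 : qf (1 : Matrix (Fin m) (Fin m) ℂ) b b - (1 : Matrix (Fin m) (Fin m) ℂ).trace =
      ((∑ i, b i ^ 2 - m : ℝ) : ℂ) := by
    simp [qf, one_apply, sq]
  have h1 : (m : ℝ) ≤ N := by exact_mod_cast hm
  have h2 : √m ≤ √N := sqrt_le_sqrt h1
  have h3 : R ≤ ∑ i, b i ^ 2 := hb
  rw [Set.mem_setOf_eq, e1, e2, Complex.norm_real, norm_eq_abs]
  refine lt_of_lt_of_le ?_ (le_abs_self _)
  nlinarith

lemma Nrm_eig {x : Om n} {v : Fin n → ℝ} {l : ℝ} (hn : 0 < n) (h : Eig (Sy x) v l) :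
    √2 * (v ⬝ᵥ mat x *ᵥ v) = √n * l := by
  have h1 : v ⬝ᵥ Sy x *ᵥ v = l := by rw [h.2, dotProduct_smul, h.1, smul_eq_mul, mul_one]
  have h2 : v ⬝ᵥ (mat x)ᵀ *ᵥ v = v ⬝ᵥ mat x *ᵥ v := by
    rw [mulVec_transpose, dotProduct_comm, ← dotProduct_mulVec]
  have h3 : (0 : ℝ) < √n := sqrt_pos.mpr (by exact_mod_cast hn)
  have h4 : √2 * √2 = 2 := mul_self_sqrt (by norm_num)
  rw [Sy, smul_mulVec, dotProduct_smul, add_mulVec, dotProduct_add, h2, smul_eq_mul,
    sqrt_mul (by norm_num)] at h1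
  rw [← h1]
  field_simp
  rw [sq, h4]
  ring

lemma Nrm_num : ∀ᶠ n : ℕ in atTop, 2 ≤ (n : ℝ) ^ (0.41 : ℝ) ∧
    12 * n * exp (-((n : ℝ) ^ (0.41 : ℝ) / 33)) ≤ exp (-(n : ℝ) ^ (0.3 : ℝ)) := by
  have ht : Tendsto (fun n : ℕ => (n : ℝ) ^ (0.1 : ℝ)) atTop atTop :=
    (tendsto_rpow_atTop (by norm_num)).comp tendsto_natCast_atTop_atTop
  filter_upwards [ht.eventually_ge_atTop 66, eventually_ge_atTop 1] with n h1 h2
  have h3 : (1 : ℝ) ≤ n := by exact_mod_cast h2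
  have h0 : (0 : ℝ) ≤ n := by linarith
  have e : ∀ k : ℕ, ((n : ℝ) ^ (0.1 : ℝ)) ^ k = (n : ℝ) ^ (0.1 * k : ℝ) := fun k =>
    (rpow_mul_natCast h0 _ k).symm
  have e3 : ((n : ℝ) ^ (0.1 : ℝ)) ^ 3 = (n : ℝ) ^ (0.3 : ℝ) := by rw [e]; norm_num
  have e10 : ((n : ℝ) ^ (0.1 : ℝ)) ^ 10 = n := by rw [e]; norm_num
  have e4 : ((n : ℝ) ^ (0.1 : ℝ)) ^ 4 ≤ (n : ℝ) ^ (0.41 : ℝ) := by
    rw [e]
    exact rpow_le_rpow_of_exponent_le h3 (by norm_num)
  rw [← e3]
  nth_rewrite 2 [← e10]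
  generalize (n : ℝ) ^ (0.41 : ℝ) = s at e4 ⊢
  generalize (n : ℝ) ^ (0.1 : ℝ) = u at h1 e4 ⊢
  have a1 : 66 * u ^ 3 ≤ u ^ 4 := by
    rw [pow_succ u 3, mul_comm]
    gcongr
  have a2 : (1 : ℝ) ≤ u ^ 3 := one_le_pow₀ (by linarith)
  refine ⟨by linarith, ?_⟩
  have a3 := pow_div_factorial_le_exp (u ^ 3) (by linarith) 4
  have a4 : 12 * u ^ 10 ≤ (u ^ 3) ^ 4 / (Nat.factorial 4 : ℕ) := by
    have : 288 ≤ u ^ 2 := by nlinarith
    have h5 : 0 ≤ u ^ 10 := by positivity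
    rw [show (u ^ 3) ^ 4 = u ^ 2 * u ^ 10 by ring, show Nat.factorial 4 = 24 from rfl]
    push_cast
    nlinarith
  calc 12 * u ^ 10 * exp (-(s / 33)) ≤ exp (u ^ 3) * exp (-(s / 33)) := by
        gcongr
        exact a4.trans a3
    _ ≤ _ := by
        rw [← exp_add, exp_le_exp]
        linarith

theorem nrm : ∀ᶠ n : ℕ in atTop, (gm _).real {x : Om n | ∃ v l, Eig (Sy x) v l ∧
    2 + (n : ℝ) ^ (-0.09 : ℝ) / 2 < |l|} ≤ exp (-(n : ℝ) ^ (0.3 : ℝ)) := by
  filter_upwards [Nrm_num, eventually_ge_atTop 1] with n ⟨h1, h2⟩ hn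
  have h0 : (0 : ℝ) < n := by exact_mod_cast hn
  have ha : (0 : ℝ) < √n := sqrt_pos.mpr h0
  have ha2 : √n * √n = n := mul_self_sqrt h0.le
  have hs : (n : ℝ) ^ (0.41 : ℝ) = √n * (n : ℝ) ^ (-0.09 : ℝ) := by
    rw [sqrt_eq_rpow, ← rpow_add h0]
    norm_num
  rw [hs] at h1 h2
  generalize (n : ℝ) ^ (-0.09 : ℝ) = ε at h1 h2 ⊢
  refine le_trans ?_ h2
  have hp := Nrm_prob (l := √n * (2 + ε / 2)) (T := √n) (R := n + √n * (√n * ε) / 4)
    (δ := √n * ε / 4) ha (le_of_eq (by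
      rw [show n + √n * (√n * ε) / 4 = √n * (√n + √n * ε / 4) by rw [mul_add, ha2]; ring,
        mul_div_cancel_left₀ _ ha.ne']
      ring))
    (τ := 5 * exp (-(√n * ε / 33))) (τ' := exp (-(√n * ε / 33))) (N := n)
    ((Nrm_tail (by linarith)).trans (exp_le_exp.mpr (by nlinarith)))
    (fun m hm => Nrm_chi hm (by linarith) (by nlinarith)) n le_rfl 0 (by
      simp only [Pi.zero_apply, ne_eq, OfNat.ofNat_ne_zero, not_false_eq_true, zero_pow,
        sum_const_zero]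
      nlinarith)
  have m1 := P150.mp_iso (P150.Sig n) P150.Sig_iso
  have m2 := P150.mp_iso (-P150.Sig n) fun x => by simpa using P150.Sig_iso x
  have q1 := m1.measureReal_preimage (P150.meas_Bad' (√n * (2 + ε / 2)) √n 0).nullMeasurableSet
  have q2 := m2.measureReal_preimage (P150.meas_Bad' (√n * (2 + ε / 2)) √n 0).nullMeasurableSet
  have sub : {x : Om n | ∃ v l, Eig (Sy x) v l ∧ 2 + ε / 2 < |l|} ⊆
      P150.Sig n ⁻¹' {Y | P150.Bad (√n * (2 + ε / 2)) √n 0 Y} ∪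
        (-P150.Sig n) ⁻¹' {Y | P150.Bad (√n * (2 + ε / 2)) √n 0 Y} := by
    rintro x ⟨v, l, hv, hl⟩
    have e1 := Nrm_eig hn hv
    have e2 : ∑ i, v i ^ 2 = 1 := by simpa [dotProduct, sq] using hv.1
    rcases lt_abs.mp hl with h | h
    · refine Or.inl ⟨v, ?_⟩
      rw [P150.Sm_Sig, e2, show (Matrix.of fun i j => x (i, j)) = mat x from rfl, e1]
      simpa using mul_lt_mul_of_pos_left h ha
    · refine Or.inr ⟨v, ?_⟩
      rw [LinearMap.neg_apply, ← map_neg, P150.Sm_Sig, e2,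
        show (Matrix.of fun i j => (-x) (i, j)) = -mat x from rfl, neg_mulVec, dotProduct_neg,
        mul_neg, e1]
      simpa using mul_lt_mul_of_pos_left h ha
  refine (measureReal_mono sub).trans ((measureReal_union_le _ _).trans ?_)
  rw [q1, q2]
  linarith

end Vale.Agent.P146
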