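import Vale.Agent.P146.Del1
import Vale.Agent.P146.LL
import Vale.Agent.P146.Nrm
import Vale.Agent.P146.Semi

namespace Vale.Agent.P146

open MeasureTheory ProbabilityTheory Matrix Real Finset Filter Topology
open P150 (gm spin Cfg)

variable {ι : Type} [Fintype ι] [DecidableEq ι] {J : Type} [Fintype J] {n : ℕ} {β : ℝ}

theorem bd_small : ∀ᶠ n : ℕ in atTop,
    (gm _).real (Bd n) ≤ 50 * n ^ 2 * exp (-(n : ℝ) ^ (0.01 : ℝ)) := by
  filter_upwards [nrm, ll, eventually_ge_atTop 1] with n h1 h2 h3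
  have hn : (1 : ℝ) ≤ n := by exact_mod_cast h3
  let z : ℤ → ℂ := fun k => ⟨k * (n : ℝ) ^ (-0.58 : ℝ), (n : ℝ) ^ (-0.58 : ℝ)⟩
  have hs : Bd n ⊆ {x : Om n | ∃ v l, Eig (Sy x) v l ∧ 2 + (n : ℝ) ^ (-0.09 : ℝ) / 2 < |l|} ∪
      ⋃ k ∈ Finset.Icc (-(3 * n : ℤ)) (3 * n), {x : Om n | (n : ℝ) ^ (-0.09 : ℝ) <
        ‖ms (Sy x) (z k) * (z k + ms (Sy x) (z k)) + 1‖} := by
    rintro x (h | ⟨k, hk, z', e1, e2, h⟩)
    · exact Or.inl h
    · have e : z' = z k := Complex.ext e1 e2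
      rw [e] at h
      exact Or.inr (Set.mem_biUnion (Finset.mem_coe.2 (Finset.mem_Icc.2 (abs_le.1 hk))) h)
  refine (measureReal_mono hs).trans ((measureReal_union_le _ _).trans ?_)
  have h4 := (measureReal_biUnion_finset_le (μ := gm (Fin n × Fin n))
    (Finset.Icc (-(3 * n : ℤ)) (3 * n)) fun k => {x : Om n | (n : ℝ) ^ (-0.09 : ℝ) <
      ‖ms (Sy x) (z k) * (z k + ms (Sy x) (z k)) + 1‖}).trans
    (sum_le_card_nsmul _ _ _ fun k _ => h2 (z k) rfl)
  have h5 : #(Finset.Icc (-(3 * n : ℤ)) (3 * n)) = 6 * n + 1 := by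
    rw [Int.card_Icc]
    omega
  rw [h5, nsmul_eq_mul] at h4
  push_cast at h4
  have h6 : exp (-(n : ℝ) ^ (0.3 : ℝ)) ≤ exp (-(n : ℝ) ^ (0.01 : ℝ)) :=
    exp_le_exp.2 (neg_le_neg (rpow_le_rpow_of_exponent_le hn (by norm_num)))
  have h7 := exp_pos (-(n : ℝ) ^ (0.01 : ℝ))
  have h8 : 1 + (6 * n + 1) * (7 * n) ≤ 50 * (n : ℝ) ^ 2 := by nlinarith
  have h9 := mul_le_mul_of_nonneg_right h8 h7.le
  linarith

theorem Del2_asym : ∀ᶠ n : ℕ in atTop,
    149 * n ^ 2 * exp (-(n : ℝ) ^ (0.01 : ℝ)) ≤ exp (-(n : ℝ) ^ (0.005 : ℝ)) := by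
  have h0 : Tendsto (fun n : ℕ => (n : ℝ) ^ (0.005 : ℝ)) atTop atTop :=
    (tendsto_rpow_atTop (by norm_num)).comp tendsto_natCast_atTop_atTop
  filter_upwards [h0.eventually ((tendsto_pow_mul_exp_neg_atTop_nhds_zero 400).eventually
    (eventually_le_nhds (show (0 : ℝ) < 1 / 149 by norm_num))), h0.eventually_ge_atTop 2]
    with n h1 h2
  have hn : (0 : ℝ) ≤ n := Nat.cast_nonneg n
  have e1 : (n : ℝ) ^ (0.01 : ℝ) = ((n : ℝ) ^ (0.005 : ℝ)) ^ 2 := by
    rw [← rpow_natCast, ← rpow_mul hn]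
    norm_num
  have e2 : (n : ℝ) ^ 2 = ((n : ℝ) ^ (0.005 : ℝ)) ^ 400 := by
    rw [← rpow_natCast _ 400, ← rpow_mul hn, ← rpow_natCast]
    norm_num
  rw [e1, e2]
  generalize (n : ℝ) ^ (0.005 : ℝ) = s at h1 h2
  have h3 : exp (-s ^ 2) ≤ exp (-s) * exp (-s) := by
    rw [← exp_add]
    exact exp_le_exp.2 (by nlinarith)
  have h4 : 0 ≤ s ^ 400 := by positivity
  have h5 := exp_pos (-s)
  calc 149 * s ^ 400 * exp (-s ^ 2) ≤ 149 * s ^ 400 * (exp (-s) * exp (-s)) := by gcongr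
    _ = 149 * (s ^ 400 * exp (-s)) * exp (-s) := by ring
    _ ≤ 149 * (1 / 149) * exp (-s) := by gcongr
    _ = _ := by ring

theorem del2 : ∀ᶠ n : ℕ in atTop, ∀ t ∈ Set.Icc (0 : ℝ) 1, (n : ℝ) ^ (-0.005 : ℝ) ≤ 1 - t →
    ∃ w : Om n → ℝ, Integrable w (gm _) ∧ ∫ x, w x ∂gm _ ≤ exp (-(n : ℝ) ^ (0.005 : ℝ)) ∧
      ∀ x, (gm _).real {y | ¬Del x (mix (fun _ => t) (x, y)) ((n : ℝ) ^ (-0.55 : ℝ))} ≤ w x := by
  filter_upwards [bd_small, del1, Del2_asym] with n h1 h2 h3 t ht ht'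
  have hT := measurableSet_toMeasurable (gm (Fin n × Fin n)) (Bd n)
  have hB := subset_toMeasurable (gm (Fin n × Fin n)) (Bd n)
  have hm : (gm _).real (toMeasurable (gm (Fin n × Fin n)) (Bd n)) = (gm _).real (Bd n) := by
    rw [measureReal_def, measure_toMeasurable, measureReal_def]
  generalize toMeasurable (gm (Fin n × Fin n)) (Bd n) = T at hT hB hm
  have hp := mp_mix (ι := Fin n × Fin n) (ρ := fun _ => t) fun _ => ht
  have hS := hp.measurable hT
  have i1 : Integrable (T.indicator fun _ => (1 : ℝ)) (gm _) := (integrable_const 1).indicator hT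
  have i2 := Measure.integrable_measure_prodMk_left (μ := gm (Fin n × Fin n))
    (ν := gm (Fin n × Fin n)) hS (measure_ne_top _ _)
  have e2 : ∫ x, (gm _).real (Prod.mk x ⁻¹' (mix (fun _ => t) ⁻¹' T)) ∂gm _ = (gm _).real T := by
    rw [← hp.measureReal_preimage hT.nullMeasurableSet, measureReal_def (μ := Measure.prod _ _),
      Measure.prod_apply hS]
    exact integral_toReal (measurable_measure_prodMk_left hS).aemeasurable
      (Eventually.of_forall fun _ => measure_lt_top _ _)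
  have hc : 0 ≤ 49 * n ^ 2 * exp (-(n : ℝ) ^ (0.01 : ℝ)) := by positivity
  refine ⟨fun x => T.indicator (fun _ => (1 : ℝ)) x + 49 * n ^ 2 * exp (-(n : ℝ) ^ (0.01 : ℝ)) +
    (gm _).real (Prod.mk x ⁻¹' (mix (fun _ => t) ⁻¹' T)),
    (i1.add (integrable_const _)).add i2, ?_, fun x => ?_⟩
  · rw [integral_add (i1.fun_add (integrable_const _)) i2, integral_add i1 (integrable_const _),
      e2, integral_indicator_const _ hT, integral_const, probReal_univ, hm]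
    simp only [smul_eq_mul, mul_one, one_mul]
    linarith
  · have h0 := measureReal_nonneg (μ := gm (Fin n × Fin n))
      (s := Prod.mk x ⁻¹' (mix (fun _ => t) ⁻¹' T))
    by_cases hx : x ∈ T
    · have h4 := measureReal_le_one (μ := gm (Fin n × Fin n))
        (s := {y | ¬Del x (mix (fun _ => t) (x, y)) ((n : ℝ) ^ (-0.55 : ℝ))})
      simp only [Set.indicator_of_mem hx]
      linarith
    · have h4 := h2 t ht ht' x fun h => hx (hB h)
      have h5 : {y | ¬Del x (mix (fun _ => t) (x, y)) ((n : ℝ) ^ (-0.55 : ℝ))} ⊆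
          {y | ¬Del x (mix (fun _ => t) (x, y)) ((n : ℝ) ^ (-0.55 : ℝ)) ∧
            mix (fun _ => t) (x, y) ∉ Bd n} ∪ Prod.mk x ⁻¹' (mix (fun _ => t) ⁻¹' T) :=
        fun y hy => (em (mix (fun _ => t) (x, y) ∈ Bd n)).elim (fun h => Or.inr (hB h))
          fun h => Or.inl ⟨hy, h⟩
      have h6 := (measureReal_mono (μ := gm (Fin n × Fin n)) h5).trans (measureReal_union_le _ _)
      simp only [Set.indicator_of_notMem hx]
      linarith

end Vale.Agent.P146
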