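import Vale.Agent.P146.Iso
import Vale.Agent.P146.Van

namespace Vale.Agent.P146

open MeasureTheory ProbabilityTheory Matrix Real Finset Filter Topology
open P150 (gm spin Cfg)

variable {ι : Type} [Fintype ι] [DecidableEq ι] {J : Type} [Fintype J] {n : ℕ} {β : ℝ}

theorem er_mv {a b : Fin n} (hab : a ≠ b) (θ : ℝ) (v : Fin n → ℝ) (i : Fin n) :
    (Gv a b θ *ᵥ v) i = if i = a then cos θ * v a + sin θ * v b
      else if i = b then cos θ * v b - sin θ * v a else v i := by
  simp only [Gv, Ea, add_mulVec, smul_mulVec, one_mulVec, sub_mulVec, single_mulVec, Pi.add_apply,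
    Pi.smul_apply, Pi.sub_apply, Function.update_apply, smul_eq_mul, Pi.zero_apply]
  by_cases h1 : i = a
  · subst h1; simp [hab]; ring
  · by_cases h2 : i = b
    · subst h2; simp [h1]; ring
    · simp [h1, h2]

theorem er_ent {a b : Fin n} (hab : a ≠ b) (θ : ℝ) (i k : Fin n) :
    Gv a b θ i k = if i = a then (if k = a then cos θ else if k = b then sin θ else 0)
      else if i = b then (if k = a then -sin θ else if k = b then cos θ else 0)
      else if i = k then 1 else 0 := by
  have := er_mv hab θ (Pi.single k 1) i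
  rw [mulVec_single_one] at this
  rw [show Gv a b θ i k = (Gv a b θ).col k i from rfl, this]
  have hba := hab.symm
  by_cases h1 : k = a
  · subst h1; simp [Pi.single_apply, hba]
  · by_cases h2 : k = b
    · subst h2; simp [Pi.single_apply, hab, h1]
    · simp [Pi.single_apply, h1, h2, Ne.symm h1, Ne.symm h2]

theorem er_alg {a b : Fin n} (hab : a ≠ b) :
    (Ea a b)ᵀ = -Ea a b ∧
    Ea a b * Ea a b = -(Matrix.single a a 1 + Matrix.single b b 1) ∧
    Ea a b * (Matrix.single a a 1 + Matrix.single b b 1) = Ea a b ∧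
    (Matrix.single a a 1 + Matrix.single b b 1) * Ea a b = Ea a b ∧
    (Matrix.single a a 1 + Matrix.single b b 1 : Mx n) * (Matrix.single a a 1 + Matrix.single b b 1) =
      Matrix.single a a 1 + Matrix.single b b 1 := by
  have hba := hab.symm
  refine ⟨?_, ?_, ?_, ?_, ?_⟩ <;>
    simp [Ea, mul_add, add_mul, mul_sub, sub_mul, single_mul_single_same, single_mul_single_of_ne, hab, hba, transpose_sub] <;> abel

theorem Gv_orth {a b : Fin n} (hab : a ≠ b) (θ : ℝ) : (Gv a b θ)ᵀ * Gv a b θ = 1 := by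
  obtain ⟨h1, h2, h3, h4, h5⟩ := er_alg hab
  have h6 : (Matrix.single a a 1 + Matrix.single b b 1 : Mx n)ᵀ =
      Matrix.single a a 1 + Matrix.single b b 1 := by simp
  unfold Gv
  generalize (Matrix.single a a 1 + Matrix.single b b 1 : Mx n) = D at *
  generalize Ea a b = E at *
  simp only [transpose_add, transpose_smul, transpose_one, h1, h6, mul_add, add_mul, one_mul,
    mul_one, smul_mul_assoc, mul_smul_comm, neg_mul, smul_neg, h2, h3, h4, h5, neg_neg]
  have := sin_sq_add_cos_sq θ
  have e : (1 : Mx n) = 1 + (sin θ ^ 2 + cos θ ^ 2 - 1) • D := by rw [this]; simp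
  conv_rhs => rw [e]
  module

theorem Gv_deriv {a b : Fin n} (hab : a ≠ b) (θ : ℝ) (i k : Fin n) :
    HasDerivAt (fun s => Gv a b s i k) ((Gv a b θ * Ea a b) i k) θ := by
  obtain ⟨h1, h2, h3, h4, h5⟩ := er_alg hab
  unfold Gv
  generalize (Matrix.single a a 1 + Matrix.single b b 1 : Mx n) = D at *
  generalize Ea a b = E at *
  simp only [add_mul, one_mul, smul_mul_assoc, h2, h4, Matrix.add_apply, Matrix.smul_apply,
    smul_eq_mul, Matrix.neg_apply]
  have := (((hasDerivAt_sin θ).mul_const (E i k)).const_add ((1 : Mx n) i k)).add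
    (((hasDerivAt_cos θ).sub_const 1).mul_const (D i k))
  refine (this.congr_deriv ?_).congr_of_eventuallyEq (Eventually.of_forall fun s => rfl)
  ring

theorem er_zero (a b : Fin n) : Gv a b 0 = 1 := by simp [Gv]

theorem er_act (O : Mx n) (z : Om n) (e : Fin n × Fin n) :
    act O z e = ∑ m, (∑ l, O l e.1 * z (l, m)) * O m e.2 := by
  simp [act, mul_apply, mat]

theorem er_glue {a b : Fin n} (hab : a ≠ b) (θ : ℝ) (x y : Om n) :
    act (Gv a b θ) (glue (ES a b) x y) = glue (ES a b) x (act (Gv a b θ) y) := by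
  funext e
  have hout : ∀ l i, i ≠ a → i ≠ b → Gv a b θ l i = if l = i then 1 else 0 := by
    intro l i h1 h2
    rw [er_ent hab]
    by_cases h3 : l = a
    · simp [h3, h1, h2, Ne.symm h1]
    · by_cases h4 : l = b
      · simp [h4, h1, h2, Ne.symm h2, hab.symm]
      · simp [h3, h4]
  have hin : ∀ l i, (i = a ∨ i = b) → l ≠ a → l ≠ b → Gv a b θ l i = 0 := by
    intro l i h h1 h2
    rw [er_ent hab]
    rcases h with rfl | rfl <;> simp [h1, h2]
  by_cases he : e ∈ ES a b
  · simp only [glue, he, if_true, er_act]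
    refine sum_congr rfl fun m _ => ?_
    rw [sum_mul, sum_mul]
    refine sum_congr rfl fun l _ => ?_
    by_cases h : (l, m) ∈ ES a b
    · simp [h]
    · simp only [ES, mem_filter, mem_univ, true_and, not_or] at h he
      rcases he with he | he | he | he
      · rw [hin l _ (Or.inl he) h.1 h.2.1]; simp
      · rw [hin l _ (Or.inr he) h.1 h.2.1]; simp
      · rw [hin m _ (Or.inl he) h.2.2.1 h.2.2.2]; simp
      · rw [hin m _ (Or.inr he) h.2.2.1 h.2.2.2]; simp
  · have he' := he
    simp only [ES, mem_filter, mem_univ, true_and, not_or] at he'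
    simp only [er_act, hout _ _ he'.1 he'.2.1, hout _ _ he'.2.2.1 he'.2.2.2]
    simp only [ite_mul, one_mul, zero_mul, mul_ite, mul_one, mul_zero, sum_ite_eq', mem_univ, if_true]
    simp [glue, he]

theorem ee_act {a b : Fin n} (hab : a ≠ b) (θ : ℝ) {g : Om n → ℝ} (hg : PG g) (x : Om n) :
    EE (ES a b) (fun y => g (act (Gv a b θ) y)) x = EE (ES a b) g x := by
  unfold EE
  simp only [er_glue hab]
  have hm := mp_act (Gv_orth hab θ)
  have := integral_map (μ := gm (Fin n × Fin n)) hm.measurable.aemeasurable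
    (f := fun y => g (glue (ES a b) x y)) (pg_glue hg _ x).1.aestronglyMeasurable
  rw [hm.map_eq] at this
  exact this.symm

theorem ee_rot {a b : Fin n} (hab : a ≠ b) (q : ℕ) (j : Fin q → Fin n) {h : Om n → ℝ} (hh : PG h)
    (x : Om n) : HasDerivAt (fun θ => EE (ES a b) (fun y => h y * xo β q (Gv a b θ) j y) x)
      (EE (ES a b) (fun y => h y * Yg β q (Ea a b) j y) x) 0 := by
  have hY : ∀ j, PG (Yg β q (Ea a b) j) := fun j => (al_Yg q _ j).pg
  obtain ⟨C, k, hC⟩ := to_bound hY
  have hw : PG fun z : Om n => C * (1 + ‖z‖) ^ k := by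
    refine ⟨by fun_prop, |C|, k, fun z => ?_⟩
    rw [abs_mul, abs_of_nonneg (by positivity : (0 : ℝ) ≤ (1 + ‖z‖) ^ k)]
  have hF : ∀ θ, PG fun y => h (glue (ES a b) x y) * xo β q (Gv a b θ) j (glue (ES a b) x y) :=
    fun θ => pg_glue (hh.mul (pg_xo q (Gv_orth hab θ) j)) _ x
  have := hasDerivAt_integral_of_dominated_loc_of_deriv_le (μ := gm (Fin n × Fin n))
    (F := fun θ y => h (glue (ES a b) x y) * xo β q (Gv a b θ) j (glue (ES a b) x y))
    (F' := fun θ y => h (glue (ES a b) x y) *
      To (Gv a b θ) (Yg β q (Ea a b)) j (glue (ES a b) x y)) (x₀ := (0 : ℝ)) (s := Set.univ)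
    (bound := fun y => |h (glue (ES a b) x y) * (C * (1 + ‖glue (ES a b) x y‖) ^ k)|) univ_mem
    (Eventually.of_forall fun θ => (hF θ).1.aestronglyMeasurable) (hF 0).int
    (pg_glue (hh.mul (pg_To (Gv_orth hab 0) hY j)) _ x).1.aestronglyMeasurable
    (Eventually.of_forall fun y θ _ => by
      rw [Real.norm_eq_abs, abs_mul, abs_mul]
      exact mul_le_mul_of_nonneg_left ((hC _ (Gv_orth hab θ) j _).trans (le_abs_self _))
        (abs_nonneg _))
    (pg_glue (hh.mul hw) _ x).int.abs
    (Eventually.of_forall fun y θ _ =>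
      (xo_deriv q (P := Gv a b) (Gv_deriv hab θ) j _).const_mul _)
  have h2 := this.2
  rw [er_zero, To_one] at h2
  exact h2

theorem er_key {a b : Fin n} (hab : a ≠ b) (q : ℕ) (j : Fin q → Fin n) {h p r t : Om n → ℝ}
    (hh : PG h) (hp : PG p) (hr : PG r) (ht : PG t) (k : ℕ)
    (H : ∀ θ y, h y * xo β q (Gv a b θ) j y = cos θ ^ k * p (act (Gv a b θ) y) +
      cos θ * sin θ * r (act (Gv a b θ) y) + sin θ ^ 2 * t (act (Gv a b θ) y)) (x : Om n) :
    EE (ES a b) (fun y => h y * Yg β q (Ea a b) j y) x = EE (ES a b) r x := by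
  have h1 := ee_rot (β := β) hab q j hh x
  have h2 : (fun θ => EE (ES a b) (fun y => h y * xo β q (Gv a b θ) j y) x) = fun θ =>
      cos θ ^ k * EE (ES a b) p x + cos θ * sin θ * EE (ES a b) r x +
        sin θ ^ 2 * EE (ES a b) t x := by
    funext θ
    simp only [H]
    have := ee_act hab θ (g := fun z => cos θ ^ k * p z + cos θ * sin θ * r z + sin θ ^ 2 * t z)
      ((((PG.const _).mul hp).add ((PG.const _).mul hr)).add ((PG.const _).mul ht)) x
    rw [this]
    unfold EE
    rw [integral_add, integral_add, integral_const_mul, integral_const_mul, integral_const_mul]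
    · exact (pg_glue hp _ x).int.const_mul _
    · exact (pg_glue hr _ x).int.const_mul _
    · exact ((pg_glue hp _ x).int.const_mul _).add ((pg_glue hr _ x).int.const_mul _)
    · exact (pg_glue ht _ x).int.const_mul _
  rw [h2] at h1
  have h3 := ((((hasDerivAt_cos 0).pow k).mul_const (EE (ES a b) p x)).add
    (((hasDerivAt_cos 0).mul (hasDerivAt_sin 0)).mul_const (EE (ES a b) r x))).add
    (((hasDerivAt_sin 0).pow 2).mul_const (EE (ES a b) t x))
  have := h1.unique h3
  simpa using this

theorem er_inv {a b : Fin n} (hab : a ≠ b) (θ : ℝ) (y : Om n) (e : Fin n × Fin n) :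
    y e = (Gv a b θ *ᵥ fun m => (Gv a b θ *ᵥ fun l => act (Gv a b θ) y (l, m)) e.1) e.2 := by
  have h1 : act (Gv a b θ)ᵀ (act (Gv a b θ) y) = y := by
    rw [← act_mul, mul_eq_one_comm.1 (Gv_orth hab θ)]
    funext e
    simp [act, mat]
  conv_lhs => rw [← h1, er_act]
  simp only [mulVec, dotProduct, transpose_apply]
  exact sum_congr rfl fun m _ => mul_comm _ _

theorem er_sw {a b : Fin n} {g : Om n → ℝ} (hg : PG g) (x : Om n) :
    EE (ES a b) (fun y => g (sw a b y)) x = EE (ES a b) g x := by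
  refine ee_perm hg (ES a b) ((Equiv.swap a b).prodCongr (Equiv.swap a b)) (fun e he => ?_) x
  simp only [ES, mem_filter, mem_univ, true_and, not_or] at he
  ext
  · simp [Equiv.swap_apply_of_ne_of_ne he.1 he.2.1]
  · simp [Equiv.swap_apply_of_ne_of_ne he.2.2.1 he.2.2.2]

theorem er_fl {a b c : Fin n} (hc : c = a ∨ c = b) {g : Om n → ℝ} (hg : PG g)
    (h : ∀ x, g (fl c * x) = -g x) (x : Om n) : EE (ES a b) g x = 0 := by
  refine ee_sign hg _ (s := fl c) (fun e => ?_) (fun e he => ?_) h x
  · simp only [fl, sg]; split_ifs <;> simp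
  · simp only [ES, mem_filter, mem_univ, true_and, not_or] at he
    rcases hc with rfl | rfl <;> simp [fl, sg, he]

end Vale.Agent.P146
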