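import Vale.Agent.P146.Defs

namespace Vale.Agent.P146

open MeasureTheory ProbabilityTheory Matrix Real Finset Filter Topology
open P150 (gm spin Cfg)

variable {ι : Type} [Fintype ι] [DecidableEq ι] {J : Type} [Fintype J] {n : ℕ} {β : ℝ}

theorem round {N : ℝ} (hN : 3 ≤ N ^ (0.06 : ℝ)) (hN' : 4 ≤ N ^ (0.1 : ℝ)) (h1 : 1 ≤ N) {φ : ℕ → ℝ}
    {P : ℕ} (hP : 200 ≤ P) (ha : ∀ p p', p ≤ p' → φ p' ≤ φ p)
    (ht : φ P ≤ (N ^ (-(0.54 * P : ℝ))) ^ (31 / 32 : ℝ))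
    (hr : ∀ p, 1 ≤ p → p ≤ P → φ p ≤ N ^ (-(0.54 * p : ℝ)) / 2 + N ^ (1.02 : ℝ) * φ (p + 2))
    (j : ℕ) (hj : 1 ≤ j) (hj' : 3 * j ≤ P) : φ j ≤ N ^ (-(0.54 * j : ℝ)) := by
  have h0 : 0 < N := by linarith
  set g := (N ^ (-(0.54 * P : ℝ))) ^ (31 / 32 : ℝ) with hg
  have hg0 : 0 ≤ g := by positivity
  have key : ∀ k j : ℕ, j + k = P + 1 → 1 ≤ j →
      φ j ≤ 3 / 4 * N ^ (-(0.54 * j : ℝ)) + N ^ (0.51 * k : ℝ) * g := fun k => by
    induction k using Nat.twoStepInduction with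
    | zero =>
      intro j e _
      have := ha P j (by omega)
      have : 0 ≤ N ^ (-(0.54 * j : ℝ)) := by positivity
      simp only [Nat.cast_zero, mul_zero, rpow_zero]
      linarith
    | one =>
      intro j e _
      have := ha P j (by omega)
      have : 0 ≤ N ^ (-(0.54 * j : ℝ)) := by positivity
      have := mul_le_mul_of_nonneg_right
        (one_le_rpow h1 (by positivity : (0 : ℝ) ≤ 0.51 * (1 : ℕ))) hg0
      linarith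
    | more k ih _ =>
      intro j e hj
      have a1 := hr j hj (by omega)
      have a2 := mul_le_mul_of_nonneg_left (ih (j + 2) (by omega) (by omega))
        (by positivity : 0 ≤ N ^ (1.02 : ℝ))
      have a3 : N ^ (1.02 : ℝ) * N ^ (0.51 * k : ℝ) = N ^ (0.51 * (k + 2 : ℕ) : ℝ) := by
        rw [← rpow_add h0]
        congr 1
        push_cast
        ring
      have a4 : N ^ (1.02 : ℝ) * N ^ (-(0.54 * (j + 2 : ℕ) : ℝ)) * N ^ (0.06 : ℝ) =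
          N ^ (-(0.54 * j : ℝ)) := by
        rw [← rpow_add h0, ← rpow_add h0]
        congr 1
        push_cast
        ring
      have a5 := mul_le_mul_of_nonneg_left hN
        (by positivity : 0 ≤ N ^ (1.02 : ℝ) * N ^ (-(0.54 * (j + 2 : ℕ) : ℝ)))
      rw [← a3]
      linarith
  obtain ⟨k, hk⟩ : ∃ k, j + k = P + 1 := ⟨P + 1 - j, by omega⟩
  have a1 := key k j hk hj
  have a2 : N ^ (0.51 * k : ℝ) * g * N ^ (0.1 : ℝ) ≤ N ^ (-(0.54 * j : ℝ)) := by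
    rw [hg, ← rpow_mul h0.le, ← rpow_add h0, ← rpow_add h0]
    refine rpow_le_rpow_of_exponent_le h1 ?_
    have b1 : (j : ℝ) + k = P + 1 := by exact_mod_cast hk
    have b2 : (200 : ℝ) ≤ P := by exact_mod_cast hP
    have b3 : (3 : ℝ) * j ≤ P := by exact_mod_cast hj'
    linarith
  have a3 := mul_le_mul_of_nonneg_left hN' (by positivity : 0 ≤ N ^ (0.51 * k : ℝ) * g)
  linarith
theorem fin1 {t₀ : ℝ} (h0 : t₀ ∈ Set.Ioo (0 : ℝ) 1) : ∃ C : ℝ, ∀ᶠ n : ℕ in atTop,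
    ∀ φ : ℕ → ℝ → ℝ, (∀ p, ∀ t ∈ Set.Icc (0 : ℝ) 1, 0 ≤ φ p t) →
    (∀ p p', p ≤ p' → ∀ t ∈ Set.Icc (0 : ℝ) 1, φ p' t ≤ φ p t) →
    (∀ p, ∀ t ∈ Set.Icc (0 : ℝ) 1, φ p (t ^ (31 / 32 : ℝ)) ≤ φ p t ^ (31 / 32 : ℝ)) →
    (∀ p, 1 ≤ p → φ p t₀ ≤ (4 * p / n : ℝ) ^ p) →
    (∀ t ∈ Set.Icc (0 : ℝ) 1, (n : ℝ) ^ (-0.005 : ℝ) ≤ 1 - t → ∀ p : ℕ, 1 ≤ p →
      (p : ℝ) ≤ (n : ℝ) ^ (0.001 : ℝ) →
      φ p t ≤ (n : ℝ) ^ (-(0.54 * p : ℝ)) / 2 + (n : ℝ) ^ (1.02 : ℝ) * φ (p + 2) t) →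
    ∃ t ∈ Set.Icc (0 : ℝ) 1, φ 1 t + (1 - t) ≤ C * (n : ℝ) ^ (-(0.001 / 35 : ℝ)) := by
  have ev : ∀ {a : ℝ}, 0 < a → ∀ b : ℝ, ∀ᶠ n : ℕ in atTop, b ≤ (n : ℝ) ^ a := fun ha b =>
    ((tendsto_rpow_atTop ha).comp tendsto_natCast_atTop_atTop).eventually_ge_atTop b
  refine ⟨1 + 2 * -log t₀, ?_⟩
  filter_upwards [ev (a := 0.06) (by norm_num) 3, ev (a := 0.1) (by norm_num) 4,
    ev (a := 0.001) (by norm_num) 200, ev (a := 0.004) (by norm_num) (1 / (1 - t₀)),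
    eventually_ge_atTop 1] with n e1 e2 e3 e4 e5 φ hp hanti hlc hbase hrec
  have h1 : (1 : ℝ) ≤ n := by exact_mod_cast e5
  have hn : (0 : ℝ) < n := by linarith
  have ht1 : 0 < 1 - t₀ := sub_pos.2 h0.2
  obtain ⟨K, hK1, hK2⟩ := exists_nat_pow_near (x := (n : ℝ) ^ (0.001 : ℝ) / 200) (y := 3)
    (by linarith) (by norm_num)
  have hI : ∀ k : ℕ, t₀ ^ ((31 / 32 : ℝ) ^ k) ∈ Set.Icc (0 : ℝ) 1 := fun k =>
    ⟨rpow_nonneg h0.1.le _, rpow_le_one h0.1.le h0.2.le (by positivity)⟩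
  have hP : ∀ m ≤ K, ((200 * 3 ^ m : ℕ) : ℝ) ≤ (n : ℝ) ^ (0.001 : ℝ) := fun m hm => by
    have := pow_le_pow_right₀ (by norm_num : (1 : ℝ) ≤ 3) hm
    push_cast
    linarith
  have hgap : ∀ k ≤ K, (n : ℝ) ^ (-0.005 : ℝ) ≤ 1 - t₀ ^ ((31 / 32 : ℝ) ^ k) := fun k hk => by
    have b1 := rpow_one_add_le_one_add_mul_self (s := t₀ - 1) (by linarith [h0.1])
      (p := (31 / 32 : ℝ) ^ k) (by positivity) (pow_le_one₀ (by norm_num) (by norm_num))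
    rw [add_sub_cancel] at b1
    have b2 : 1 ≤ (31 / 32 : ℝ) ^ k * (n : ℝ) ^ (0.001 : ℝ) := by
      have c1 := hP k hk
      have c2 : 1 ≤ (31 / 32 : ℝ) ^ k * 3 ^ k := by
        rw [← mul_pow]
        exact one_le_pow₀ (by norm_num)
      push_cast at c1
      refine c2.trans (mul_le_mul_of_nonneg_left ?_ (by positivity))
      linarith [pow_pos (by norm_num : (0 : ℝ) < 3) k]
    rw [div_le_iff₀ ht1] at e4
    have b3 : (n : ℝ) ^ (-0.005 : ℝ) * ((n : ℝ) ^ (0.001 : ℝ) * (n : ℝ) ^ (0.004 : ℝ)) = 1 := by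
      rw [← rpow_add hn, ← rpow_add hn]
      norm_num
    have b4 := mul_le_mul_of_nonneg_left (mul_le_mul b2 e4 zero_le_one (by positivity))
      (by positivity : 0 ≤ (n : ℝ) ^ (-0.005 : ℝ))
    have b5 : (n : ℝ) ^ (-0.005 : ℝ) * ((31 / 32 : ℝ) ^ k * (n : ℝ) ^ (0.001 : ℝ) *
        ((n : ℝ) ^ (0.004 : ℝ) * (1 - t₀))) = (31 / 32 : ℝ) ^ k * (1 - t₀) := by
      linear_combination (31 / 32 : ℝ) ^ k * (1 - t₀) * b3
    linarith
  have key : ∀ k m : ℕ, k + m = K → ∀ j : ℕ, 1 ≤ j → j ≤ 200 * 3 ^ m →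
      φ j (t₀ ^ ((31 / 32 : ℝ) ^ k)) ≤ (n : ℝ) ^ (-(0.54 * j : ℝ)) := fun k => by
    induction k with
    | zero =>
      intro m hm j hj hj'
      rw [pow_zero, rpow_one, neg_mul_eq_neg_mul, rpow_mul hn.le, rpow_natCast]
      refine (hbase j hj).trans (pow_le_pow_left₀ (by positivity) ?_ _)
      have b1 : (j : ℝ) ≤ (n : ℝ) ^ (0.001 : ℝ) :=
        le_trans (by exact_mod_cast hj') (hP m (by omega))
      have b2 : (n : ℝ) ^ (0.1 : ℝ) * (n : ℝ) ^ (0.001 : ℝ) ≤ (n : ℝ) ^ (-0.54 : ℝ) * n := by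
        rw [← rpow_add hn, ← rpow_add_one hn.ne']
        exact rpow_le_rpow_of_exponent_le h1 (by norm_num)
      rw [div_le_iff₀ hn]
      exact (mul_le_mul e2 b1 (by positivity) (by positivity)).trans b2
    | succ k ih =>
      intro m hm j hj hj'
      have b0 : 1 ≤ 3 ^ (m + 1) := Nat.one_le_pow _ _ (by norm_num)
      refine round (φ := fun p => φ p (t₀ ^ ((31 / 32 : ℝ) ^ (k + 1)))) (P := 200 * 3 ^ (m + 1))
        e1 e2 h1 (by omega) (fun p p' h => hanti p p' h _ (hI _)) ?_ (fun p b1 b2 =>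
          hrec _ (hI _) (hgap _ (by omega)) p b1
            (le_trans (by exact_mod_cast b2) (hP (m + 1) (by omega)))) j hj (by omega)
      rw [pow_succ (31 / 32 : ℝ), rpow_mul h0.1.le]
      exact (hlc _ _ (hI k)).trans (rpow_le_rpow (hp _ _ (hI k))
        (ih (m + 1) (by omega) _ (by omega) le_rfl) (by norm_num))
  refine ⟨_, hI K, ?_⟩
  have a1 := (key K 0 rfl 1 le_rfl (by norm_num)).trans
    (rpow_le_rpow_of_exponent_le (z := -(0.001 / 35)) h1 (by norm_num))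
  have a2 : 1 - t₀ ^ ((31 / 32 : ℝ) ^ K) ≤ (31 / 32 : ℝ) ^ K * -log t₀ := by
    rw [rpow_def_of_pos h0.1]
    linarith [add_one_le_exp (log t₀ * (31 / 32 : ℝ) ^ K)]
  have a3 : (31 / 32 : ℝ) ^ K ≤ 2 * (n : ℝ) ^ (-(0.001 / 35) : ℝ) := by
    refine le_of_pow_le_pow_left₀ (n := 35) (by norm_num) (by positivity) ?_
    rw [mul_pow, ← rpow_natCast ((n : ℝ) ^ (-(0.001 / 35) : ℝ)), ← rpow_mul hn.le, ← pow_mul,
      mul_comm K, pow_mul, show -(0.001 / 35 : ℝ) * (35 : ℕ) = -0.001 by norm_num, rpow_neg hn.le,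
      ← div_eq_mul_inv, le_div_iff₀ (by positivity)]
    have b1 : (((31 / 32 : ℝ) ^ 35) ^ K) * 3 ^ K ≤ 1 := by
      rw [← mul_pow]
      exact pow_le_one₀ (by positivity) (by norm_num)
    have b2 : (n : ℝ) ^ (0.001 : ℝ) ≤ 600 * 3 ^ K := by
      rw [pow_succ] at hK2
      linarith
    have b3 := mul_le_mul_of_nonneg_left b2 (by positivity : 0 ≤ ((31 / 32 : ℝ) ^ 35) ^ K)
    generalize ((31 / 32 : ℝ) ^ 35) ^ K = u at b1 b3 ⊢
    linarith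
  have a4 := mul_le_mul_of_nonneg_right a3 (neg_nonneg.2 (log_nonpos h0.1.le h0.2.le))
  linarith

end Vale.Agent.P146
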