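import Vale.Agent.P146.Iso

namespace Vale.Agent.P146

open MeasureTheory ProbabilityTheory Matrix Real Finset Filter Topology
open P150 (gm spin Cfg)

variable {ι : Type} [Fintype ι] [DecidableEq ι] {J : Type} [Fintype J] {n : ℕ} {β : ℝ}

theorem Gen_deriv (q : ℕ) {P : ℝ → Mx n} {A : Mx n} (hO : ∀ s, (P s)ᵀ * P s = 1)
    (hP : ∀ s a b, HasDerivAt (fun s => P s a b) ((P s * A) a b) s) {ρ : Fin n × Fin n → ℝ}
    (hρ : U01 ρ) {f : Om n → ℝ} (hf : PG f) (j : Fin q → Fin n) (s : ℝ) :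
    HasDerivAt (fun s => Bf ρ f (xo β q (P s) j)) (Bf ρ f (To (P s) (Yg β q A) j)) s := by
  have hY : ∀ j, PG (Yg β q A j) := fun j => (al_Yg q A j).pg
  obtain ⟨C, k, hC⟩ := to_bound hY
  have h1 : PG fun x : Om n => |f x| := by
    obtain ⟨hc, C, k, h⟩ := hf
    exact ⟨hc.abs, C, k, fun x => by rw [abs_abs]; exact h x⟩
  have h2 : PG fun x : Om n => C * (1 + ‖x‖) ^ k :=
    ⟨by fun_prop, |C|, k, fun x => by rw [abs_mul, abs_of_nonneg (a := (1 + ‖x‖) ^ k) (by positivity)]⟩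
  refine (hasDerivAt_integral_of_dominated_loc_of_deriv_le (s := Set.univ)
    (F := fun s (w : Om n × Om n) => f w.1 * xo β q (P s) j (mix ρ w))
    (F' := fun s (w : Om n × Om n) => f w.1 * To (P s) (Yg β q A) j (mix ρ w))
    (bound := fun w : Om n × Om n => |f w.1| * (C * (1 + ‖mix ρ w‖) ^ k)) univ_mem
    (Eventually.of_forall fun s => (hf.int2 (pg_xo q (hO s) j) hρ).1)
    (hf.int2 (pg_xo q (hO s) j) hρ) (hf.int2 (pg_To (hO s) hY j) hρ).1
    (Eventually.of_forall fun w s _ => ?_) (h1.int2 h2 hρ)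
    (Eventually.of_forall fun w s _ => (xo_deriv q (hP s) j _).const_mul _)).2
  rw [Real.norm_eq_abs, abs_mul]
  exact mul_le_mul_of_nonneg_left (hC _ (hO s) j _) (abs_nonneg _)

theorem gen_bound (q : ℕ) {P : ℝ → Mx n} {A : Mx n} (h0 : P 0 = 1) (hO : ∀ s, (P s)ᵀ * P s = 1)
    (hP : ∀ s a b, HasDerivAt (fun s => P s a b) ((P s * A) a b) s) {t : ℝ}
    (ht : t ∈ Set.Icc (0 : ℝ) 1) :
    Qb (fun _ => t) (xo β q (P 1) - xi β q) (xo β q (P 1) - xi β q) ≤
      Qb (fun _ => t) (Yg β q A) (Yg β q A) := by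
  have hρ : U01 (fun _ : Fin n × Fin n => t) := fun _ => ht
  have hY : ∀ j, PG (Yg β q A j) := fun j => (al_Yg q A j).pg
  have hxi : ∀ j, PG (xi (n := n) β q j) := fun j => (al_xi q j).pg
  have hη : ∀ j, PG ((xo β q (P 1) - xi β q : (Fin q → Fin n) → Om n → ℝ) j) := fun j =>
    (pg_xo (β := β) q (hO 1) j).sub (hxi j)
  have hd : ∀ s, HasDerivAt (fun s => Qb (fun _ => t) (xo β q (P 1) - xi β q) (xo β q (P s)))
      (Qb (fun _ => t) (xo β q (P 1) - xi β q) (To (P s) (Yg β q A))) s := fun s =>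
    HasDerivAt.fun_sum fun j _ => Gen_deriv q hO hP hρ (hη j) j s
  obtain ⟨c, -, e⟩ := exists_hasDerivAt_eq_slope _ _ zero_lt_one
    (fun s _ => (hd s).continuousAt.continuousWithinAt) fun s _ => hd s
  rw [sub_zero, div_one, h0, xo_one, ← qb_sub_right hη (pg_xo q (hO 1)) hxi hρ] at e
  have h1 := qb_cs hη (pg_To (hO c) hY) hρ
  rw [e, qb_To (hO c) hY hY ht] at h1
  have h2 := qb_nonneg hη hρ
  have h3 := qb_nonneg hY hρ
  rcases h2.eq_or_lt with h4 | h4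
  · rw [← h4]; exact h3
  · rw [sq] at h1
    exact le_of_mul_le_mul_left h1 h4

end Vale.Agent.P146
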