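import Vale.Agent.P146.Res1

namespace Vale.Agent.P146

open MeasureTheory ProbabilityTheory Matrix Real Finset Filter Topology
open P150 (gm spin Cfg)

variable {ι : Type} [Fintype ι] [DecidableEq ι] {J : Type} [Fintype J] {n : ℕ} {β : ℝ}

theorem sch_alg {W P R R1 : Matrix (Fin n) (Fin n) ℂ} {u γ : Fin n → ℂ} {z : ℂ} (hW : Wᵀ = W)
    (hu : u ⬝ᵥ u = 1) (hP : P = 1 - vecMulVec u u) (hγ : γ = P *ᵥ W *ᵥ u)
    (h1 : (P * W * P - z • 1) * R1 = 1) (h2 : R1ᵀ = R1) (h3 : P * R1 = R1 * P)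
    (h4 : R * (W - z • 1) = 1) :
    u ⬝ᵥ R *ᵥ u * (u ⬝ᵥ W *ᵥ u - z - γ ⬝ᵥ R1 *ᵥ γ) = 1 ∧
      R.trace - (P * R1).trace = u ⬝ᵥ R *ᵥ u * (1 + (R1 *ᵥ γ) ⬝ᵥ (R1 *ᵥ γ)) := by
  have vv : ∀ a b c : Fin n → ℂ, vecMulVec a b *ᵥ c = (b ⬝ᵥ c) • a := fun a b c => by
    rw [vecMulVec_mulVec, op_smul_eq_smul]
  have Pt : Pᵀ = P := by rw [hP, transpose_sub, transpose_one, transpose_vecMulVec]
  have Pu : P *ᵥ u = 0 := by rw [hP, sub_mulVec, one_mulVec, vv, hu, one_smul, sub_self]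
  have uP : ∀ v, u ⬝ᵥ P *ᵥ v = 0 := fun v => by
    rw [dotProduct_mulVec, ← mulVec_transpose, Pt, Pu, zero_dotProduct]
  have PP : P * P = P := by
    conv_lhs => rw [show P * P = P * (1 - vecMulVec u u) by rw [← hP]]
    rw [Matrix.mul_sub, Matrix.mul_one, mul_vecMulVec, Pu, zero_vecMulVec, sub_zero]
  have yP : R1 *ᵥ γ = P *ᵥ R1 *ᵥ W *ᵥ u := by
    rw [hγ, mulVec_mulVec, ← h3, ← mulVec_mulVec]
  have uy : u ⬝ᵥ R1 *ᵥ γ = 0 := by rw [yP, uP]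
  have Py : P *ᵥ R1 *ᵥ γ = R1 *ᵥ γ := by rw [yP, mulVec_mulVec, PP]
  have MP : (W - z • 1) * P = (P * W * P - z • 1) * P + vecMulVec u γ := by
    have a1 : u ᵥ* (W * P) = γ := by
      rw [← mulVec_transpose, transpose_mul, Pt, hW, hγ, mulVec_mulVec]
    have a2 : P * (W * P) = W * P - vecMulVec u γ := by
      conv_lhs => rw [show P * (W * P) = (1 - vecMulVec u u) * (W * P) by rw [← hP]]
      rw [Matrix.sub_mul, Matrix.one_mul, vecMulVec_mul, a1]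
    rw [Matrix.sub_mul, Matrix.sub_mul, Matrix.mul_assoc (P * W), PP, Matrix.mul_assoc, a2]
    abel
  have My : (W - z • 1) *ᵥ R1 *ᵥ γ = γ + (γ ⬝ᵥ R1 *ᵥ γ) • u := by
    conv_lhs => rw [← Py]
    rw [mulVec_mulVec, MP, add_mulVec, vv, ← mulVec_mulVec, Py, mulVec_mulVec, h1, one_mulVec]
  have Mu : (W - z • 1) *ᵥ u = γ + (u ⬝ᵥ W *ᵥ u - z) • u := by
    rw [sub_mulVec, smul_mulVec, one_mulVec, hγ, hP, sub_mulVec, one_mulVec, vv, sub_smul]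
    abel
  have Mψ : (W - z • 1) *ᵥ (u - R1 *ᵥ γ) = (u ⬝ᵥ W *ᵥ u - z - γ ⬝ᵥ R1 *ᵥ γ) • u := by
    rw [mulVec_sub, My, Mu, sub_smul _ (γ ⬝ᵥ R1 *ᵥ γ)]
    abel
  have MR : (W - z • 1) * (P * R1) = P + vecMulVec u (R1 *ᵥ γ) := by
    rw [← Matrix.mul_assoc, MP, Matrix.add_mul, Matrix.mul_assoc, h3, ← Matrix.mul_assoc, h1,
      Matrix.one_mul, vecMulVec_mul, ← mulVec_transpose, h2]
  generalize R1 *ᵥ γ = y at *
  generalize u ⬝ᵥ W *ᵥ u - z - γ ⬝ᵥ y = D at *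
  have Rψ : u - y = D • R *ᵥ u := by
    rw [← mulVec_smul, ← Mψ, mulVec_mulVec, h4, one_mulVec]
  have r1 : u ⬝ᵥ R *ᵥ u * D = 1 := by
    have := congrArg (u ⬝ᵥ ·) Rψ
    simp only [dotProduct_sub, hu, uy, dotProduct_smul, smul_eq_mul, sub_zero] at this
    rw [mul_comm, ← this]
  refine ⟨r1, ?_⟩
  have Ru : R *ᵥ u = (u ⬝ᵥ R *ᵥ u) • (u - y) := by
    rw [Rψ, smul_smul, r1, one_smul]
  have e1 : R = P * R1 + vecMulVec (R *ᵥ u) (u - y) := by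
    have a1 : P * R1 = R * (P + vecMulVec u y) := by
      rw [← MR, ← Matrix.mul_assoc, h4, Matrix.one_mul]
    rw [a1, ← mul_vecMulVec, ← Matrix.mul_add, vecMulVec_sub, hP]
    simp
  have e2 := congrArg Matrix.trace e1
  rw [trace_add, trace_vecMulVec, Ru, smul_dotProduct, sub_dotProduct, dotProduct_sub,
    dotProduct_sub, hu, uy, dotProduct_comm y u, uy, smul_eq_mul] at e2
  rw [e2]
  ring

theorem sch_main {W : Mx n} (hW : Wᵀ = W) {z : ℂ} (hz : 0 < z.im) {u : Fin n → ℝ}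
    (hu : u ⬝ᵥ u = 1) : ∃ y : Fin n → ℂ,
    qf (Res W z) u u * ((u ⬝ᵥ W *ᵥ u : ℝ) - z - Xu W u z) = 1 ∧
      (Res W z).trace - (Rp W u z).trace = qf (Res W z) u u * (1 + y ⬝ᵥ y) ∧
      (Xu W u z).im = z.im * ∑ i, ‖y i‖ ^ 2 := by
  obtain ⟨h1, -, h2⟩ := res_mul (pwp_symm hW u) hz
  rw [res1_map, res1_map] at h1
  have mv : ∀ (A : Mx n) (v : Fin n → ℝ), (fun k => ((A *ᵥ v) k : ℂ)) =
      A.map (fun a => (a : ℂ)) *ᵥ fun k => (v k : ℂ) := fun A v => by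
    funext i
    simp [mulVec, dotProduct]
  have key := sch_alg (u := fun k => (u k : ℂ)) (γ := fun k => ((pj u *ᵥ W *ᵥ u) k : ℂ))
    (W := W.map fun a => (a : ℂ)) (by rw [← transpose_map, hW])
    (by simpa [dotProduct] using congrArg (fun a : ℝ => (a : ℂ)) hu)
    (by
      ext i j
      simp [pj, vecMulVec_apply, Matrix.one_apply, apply_ite])
    (by rw [mv, mv]) h1 h2 (res1_comm hW hz hu) (res_mul hW hz).2.1
  refine ⟨_, ?_, ?_, qf_im (pwp_symm hW u) hz _⟩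
  · rw [Xu, qf_eq, qf_eq, ← key.1, ← mv]
    simp [dotProduct]
  · rw [qf_eq]
    exact key.2

theorem sch1 {W : Mx n} (hW : Wᵀ = W) {z : ℂ} (hz : 0 < z.im) {u : Fin n → ℝ} (hu : u ⬝ᵥ u = 1) :
    qf (Res W z) u u * ((u ⬝ᵥ W *ᵥ u : ℝ) - z - Xu W u z) = 1 ∧ 0 ≤ (Xu W u z).im := by
  obtain ⟨y, h1, -, h3⟩ := sch_main hW hz hu
  exact ⟨h1, by rw [h3]; positivity⟩
theorem sch2 {W : Mx n} (hW : Wᵀ = W) {z : ℂ} (hz : 0 < z.im) {u : Fin n → ℝ} (hu : u ⬝ᵥ u = 1) :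
    ‖(Res W z).trace - (Rp W u z).trace‖ ≤ 1 / z.im := by
  obtain ⟨y, h1, h2, h3⟩ := sch_main hW hz hu
  have s0 : 0 ≤ ∑ i, ‖y i‖ ^ 2 := by positivity
  have a1 : ‖1 + y ⬝ᵥ y‖ ≤ 1 + ∑ i, ‖y i‖ ^ 2 := by
    refine (norm_add_le _ _).trans (add_le_add norm_one.le ?_)
    exact (norm_sum_le _ _).trans_eq (sum_congr rfl fun i _ => by rw [norm_mul, sq])
  have a2 : z.im * (1 + ∑ i, ‖y i‖ ^ 2) ≤ ‖((u ⬝ᵥ W *ᵥ u : ℝ) : ℂ) - z - Xu W u z‖ := by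
    refine le_trans ?_ ((neg_le_abs _).trans (Complex.abs_im_le_norm _))
    rw [Complex.sub_im, Complex.sub_im, h3, Complex.ofReal_im]
    linarith
  have a3 := congrArg norm h1
  rw [norm_mul, norm_one] at a3
  rw [h2, norm_mul, le_div_iff₀ hz, ← a3, mul_assoc]
  refine mul_le_mul_of_nonneg_left (le_trans ?_ a2) (norm_nonneg _)
  rw [mul_comm]
  exact mul_le_mul_of_nonneg_left a1 hz.le

end Vale.Agent.P146
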