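import Vale.Agent.P146.Cond
import Vale.Agent.P146.Sch
import Vale.Agent.P146.Ind

namespace Vale.Agent.P146

open MeasureTheory ProbabilityTheory Matrix Real Finset Filter Topology
open P150 (gm spin Cfg)

variable {ι : Type} [Fintype ι] [DecidableEq ι] {J : Type} [Fintype J] {n : ℕ} {β : ℝ}

theorem goodU_pos {u : Fin n → ℝ} (hu : u ⬝ᵥ u = 1) : (0 : ℝ) < n := by
  rcases Nat.eq_zero_or_pos n with rfl | h
  · simp [dotProduct] at hu
  · exact_mod_cast h

theorem goodU_lin (u : Fin n → ℝ) (y : Om n) :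
    u ⬝ᵥ Sy y *ᵥ u = ∑ e : Fin n × Fin n, y e * (2 / √(2 * n) * (u e.1 * u e.2)) := by
  have e : u ⬝ᵥ (mat y)ᵀ *ᵥ u = u ⬝ᵥ mat y *ᵥ u := by
    rw [mulVec_transpose, dotProduct_comm, dotProduct_mulVec]
  rw [Sy, smul_mulVec, add_mulVec, dotProduct_smul, dotProduct_add, e, Fintype.sum_prod_type]
  simp only [dotProduct, mulVec, mat, of_apply, smul_eq_mul, mul_add, mul_sum, ← sum_add_distrib]
  refine sum_congr rfl fun i _ => sum_congr rfl fun j _ => ?_
  ring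

theorem goodU_tail {u : Fin n → ℝ} (hu : u ⬝ᵥ u = 1) {L : ℝ} (hL : 1 ≤ L) {s : ℝ}
    (hs : s ^ 2 = 1) :
    (gm _).real {y : Om n | 2 * L / √n ≤ s * (u ⬝ᵥ Sy y *ᵥ u)} ≤ exp (-L) := by
  have hn := goodU_pos hu
  have r0 : 0 < √(n : ℝ) := sqrt_pos.2 hn
  obtain ⟨h1, h2⟩ := mgf_lin (fun e : Fin n × Fin n => √n * s * (2 / √(2 * n) * (u e.1 * u e.2)))
  have e : ∀ y : Om n, √n * (s * (u ⬝ᵥ Sy y *ᵥ u)) =
      ∑ e, y e * (√n * s * (2 / √(2 * n) * (u e.1 * u e.2))) := fun y => by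
    rw [goodU_lin, mul_sum, mul_sum]
    exact sum_congr rfl fun e _ => by ring
  have v : ∑ e : Fin n × Fin n, (√n * s * (2 / √(2 * n) * (u e.1 * u e.2))) ^ 2 = 2 := by
    have c : ∀ e : Fin n × Fin n, (√n * s * (2 / √(2 * n) * (u e.1 * u e.2))) ^ 2 =
        2 * (u e.1 * u e.1 * (u e.2 * u e.2)) := fun e => by
      rw [mul_pow, mul_pow, mul_pow, div_pow, sq_sqrt hn.le, sq_sqrt (by positivity), hs]
      field_simp
    simp only [c]
    rw [← mul_sum, Fintype.sum_prod_type]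
    dsimp only
    rw [← sum_mul_sum]
    rw [show ∑ i, u i * u i = 1 from hu]
    norm_num
  refine (measure_ge_le_exp_mul_mgf (X := fun y : Om n => s * (u ⬝ᵥ Sy y *ᵥ u)) _ r0.le
    (by simpa only [e] using h1)).trans ?_
  rw [mgf]
  simp only [e]
  rw [h2, v, ← exp_add, exp_le_exp]
  have : √n * (2 * L / √n) = 2 * L := by field_simp
  linarith

theorem goodU_un {S A B : Set (Om n)} {a b : ℝ} (ha : (gm _).real A ≤ a) (hb : (gm _).real B ≤ b)
    (h : S ⊆ A ∪ B) : (gm _).real S ≤ a + b :=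
  (measureReal_mono h (measure_ne_top _ _)).trans
    ((measureReal_union_le _ _).trans (add_le_add ha hb))

theorem gt_diag {u : Fin n → ℝ} (hu : u ⬝ᵥ u = 1) {L : ℝ} (hL : 1 ≤ L) :
    (gm _).real {y : Om n | 2 * L / √n < |u ⬝ᵥ Sy y *ᵥ u|} ≤ 2 * exp (-L) := by
  have a := goodU_tail hu hL (s := 1) (by norm_num)
  have b := goodU_tail hu hL (s := -1) (by norm_num)
  rw [two_mul (exp (-L))]
  refine goodU_un a b fun y hy => ?_
  rw [Set.mem_setOf_eq] at hy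
  rcases lt_abs.1 hy with h | h
  · exact Or.inl (by simpa using h.le)
  · exact Or.inr (by simpa using h.le)

theorem good_u {B : Mx n} (hB : Bᵀ = B) {u : Fin n → ℝ} {d a L α : ℝ} (hu : Eig B u d)
    (ha : a ∈ Set.Icc (0 : ℝ) 1) {z : ℂ} (hz : 0 < z.im) (hz' : z.im ^ 2 * n ≤ 1) (hL : 1 ≤ L)
    (hα : α = (8 * L + 1) / √(n * z.im)) :
    (gm _).real {y : Om n | ¬(‖Xu (B + a • Sy y) u z - a ^ 2 * ms (B + a • Sy y) z‖ ≤
      α * √(ms (B + a • Sy y) z).im + α ^ 2 ∧ |u ⬝ᵥ Sy y *ᵥ u| ≤ α ^ 2)} ≤ 7 * exp (-L) := by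
  have a1 := cond hB hu ha hz (L := L) (by linarith)
  have a2 := gt_diag hu.1 hL
  have hn := goodU_pos hu.1
  refine (goodU_un a1 a2 fun y hy => ?_).trans (by linarith)
  by_contra hc
  rw [Set.mem_union, not_or, Set.mem_setOf_eq, Set.mem_setOf_eq, not_lt, not_lt] at hc
  refine hy ?_
  have hW : (B + a • Sy y)ᵀ = B + a • Sy y := by rw [transpose_add, transpose_smul, hB, Sy_symm]
  obtain ⟨W, hWd⟩ : ∃ W, W = B + a • Sy y := ⟨_, rfl⟩
  rw [← hWd] at hc hW ⊢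
  obtain ⟨s, hs⟩ : ∃ s, s = √(n * z.im) := ⟨_, rfl⟩
  have p : 0 < n * z.im := by positivity
  have s0 : 0 < s := hs ▸ sqrt_pos.2 p
  have s2 : s ^ 2 = n * z.im := hs ▸ sq_sqrt p.le
  rw [← hs] at hα
  have α2 : (8 * L + 1) / s ^ 2 ≤ α ^ 2 := by
    rw [hα, div_pow]
    gcongr
    nlinarith
  refine ⟨?_, hc.2.trans (le_trans ?_ α2)⟩
  · have b1 := sch2 hW hz hu.1
    have b2 := ward hW hz hu.1
    have m0 := ms_im hW hz
    obtain ⟨m, hm⟩ : ∃ m, m = √(ms W z).im := ⟨_, rfl⟩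
    have m1 : 0 ≤ m := hm ▸ sqrt_nonneg _
    have m2 : m ^ 2 * n = (Res W z).trace.im := by
      rw [hm, sq_sqrt m0, ms, Complex.div_natCast_im]
      field_simp
    have b3 : (Rp W u z).trace.im ≤ m ^ 2 * n + 1 / z.im := by
      have := (abs_le.1 ((Complex.abs_im_le_norm _).trans b1)).1
      rw [Complex.sub_im] at this
      linarith
    have b4 : Fr (Rp W u z) / n ≤ m / s + 1 / s ^ 2 := by
      have f0 : 0 ≤ Fr (Rp W u z) := sqrt_nonneg _
      refine (pow_le_pow_iff_left₀ (div_nonneg f0 hn.le) (by positivity) two_ne_zero).1 ?_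
      have e : (m ^ 2 * n + 1 / z.im) / z.im / n ^ 2 = (m / s) ^ 2 + (1 / s ^ 2) ^ 2 := by
        rw [div_pow, s2]
        field_simp
      have : (Rp W u z).trace.im / z.im / n ^ 2 ≤ (m ^ 2 * n + 1 / z.im) / z.im / n ^ 2 := by
        gcongr
      rw [div_pow, b2]
      nlinarith [show 0 ≤ m / s * (1 / s ^ 2) by positivity]
    have b5 : ‖(a : ℂ) ^ 2 * (Rp W u z).trace / n - a ^ 2 * ms W z‖ ≤ 1 / s ^ 2 := by
      rw [ms, ← mul_div_assoc, ← sub_div, ← mul_sub, norm_div, norm_mul, norm_pow, norm_sub_rev,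
        Complex.norm_real, Complex.norm_natCast, Real.norm_of_nonneg ha.1, s2,
        div_le_iff₀ hn]
      have : 1 / (n * z.im) * n = 1 / z.im := by field_simp
      rw [this]
      exact (mul_le_of_le_one_left (norm_nonneg _) (pow_le_one₀ ha.1 ha.2)).trans b1
    have b6 := norm_sub_le_norm_sub_add_norm_sub (Xu W u z)
      ((a : ℂ) ^ 2 * (Rp W u z).trace / n) (a ^ 2 * ms W z)
    have b7 : 8 * L * Fr (Rp W u z) / n ≤ 8 * L * (m / s + 1 / s ^ 2) := by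
      rw [mul_div_assoc]
      gcongr
    have b8 : 8 * L * (m / s) ≤ α * m := by
      rw [hα, div_mul_eq_mul_div, ← mul_div_assoc]
      gcongr
      linarith
    have b9 : (8 * L + 1) / s ^ 2 = 8 * L * (1 / s ^ 2) + 1 / s ^ 2 := by ring
    rw [← hm]
    linarith [hc.1]
  · have r : s ^ 2 ≤ √n := by
      rw [s2]
      refine le_sqrt_of_sq_le ?_
      nlinarith
    exact div_le_div₀ (by linarith) (by linarith) (by positivity) r

end Vale.Agent.P146
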