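import Vale.Agent.P146.Defs

namespace Vale.Agent.P146

open MeasureTheory ProbabilityTheory Matrix Real Finset Filter Topology
open P150 (gm spin Cfg)

variable {ι : Type} [Fintype ι] [DecidableEq ι] {J : Type} [Fintype J] {n : ℕ} {β : ℝ}

theorem hw_one {θ : ℝ} (h : |θ| ≤ 1 / 4) : (√(1 - 2 * θ))⁻¹ ≤ exp (θ + 2 * θ ^ 2) := by
  obtain ⟨h1, h2⟩ := abs_le.1 h
  have hs : 0 < √(1 - 2 * θ) := sqrt_pos.2 (by linarith)
  rw [inv_le_comm₀ hs (exp_pos _), ← Real.exp_neg]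
  apply Real.le_sqrt_of_sq_le
  rw [← Real.exp_nat_mul, Nat.cast_ofNat, mul_neg, Real.exp_neg, inv_le_iff_one_le_mul₀ (exp_pos _)]
  rcases le_total θ 0 with h0 | h0
  · have a := Real.add_one_le_exp (2 * (θ + 2 * θ ^ 2))
    have b := mul_le_mul_of_nonneg_left a (by linarith : 0 ≤ 1 - 2 * θ)
    have c : 0 ≤ -θ * θ ^ 2 := mul_nonneg (by linarith) (sq_nonneg _)
    nlinarith
  · have a := Real.quadratic_le_exp_of_nonneg (x := 2 * (θ + 2 * θ ^ 2)) (by positivity)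
    have b := mul_le_mul_of_nonneg_left a (by linarith : 0 ≤ 1 - 2 * θ)
    have c : 0 ≤ θ ^ 2 * (1 - 2 * θ - 4 * θ ^ 2 - 8 * θ ^ 3) :=
      mul_nonneg (sq_nonneg _) (by nlinarith [mul_nonneg h0 h0])
    nlinarith

theorem hw_diag (d : Fin n → ℝ) {F L : ℝ} (hF : 0 < F) (hd : ∑ i, d i ^ 2 ≤ F ^ 2) :
    (gm (Fin n)).real {ξ | 4 * L * F < ∑ i, d i * ξ i ^ 2 - ∑ i, d i} ≤ 5 / 4 * exp (-L) := by
  set θ : Fin n → ℝ := fun i => d i / (4 * F) with hθ
  have h1 : ∀ i, |θ i| ≤ 1 / 4 := fun i => by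
    have a : d i ^ 2 ≤ F ^ 2 :=
      (single_le_sum (f := fun i => d i ^ 2) (fun _ _ => sq_nonneg _) (mem_univ i)).trans hd
    have b := abs_le_of_sq_le_sq' a hF.le
    rw [hθ, abs_div, abs_of_pos (by positivity : 0 < 4 * F), div_le_iff₀ (by positivity)]
    linarith [abs_le.2 b]
  have h2 := fun i => P150.mgf_sq (θ := θ i) (by linarith [(abs_le.1 (h1 i)).2])
  have i1 : Integrable (fun b : Fin n → ℝ => ∏ i, exp (θ i * b i ^ 2)) (gm (Fin n)) :=
    Integrable.fintype_prod (f := fun i (a : ℝ) => exp (θ i * a ^ 2)) fun i => (h2 i).1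
  have h := mul_meas_ge_le_integral_of_nonneg
    (ae_of_all _ fun b => prod_nonneg fun i _ => (exp_pos _).le) i1 (exp (L + ∑ i, θ i))
  rw [integral_fintype_prod_eq_prod (fun i (a : ℝ) => exp (θ i * a ^ 2))] at h
  have h3 : ∏ i, ∫ a, exp (θ i * a ^ 2) ∂gaussianReal 0 1 ≤ exp (∑ i, θ i + 1 / 8) := by
    refine (prod_le_prod (fun i _ => integral_nonneg fun _ => (exp_pos _).le)
      fun i _ => (h2 i).2.le.trans (hw_one (h1 i))).trans ?_
    rw [← Real.exp_sum, sum_add_distrib, ← mul_sum]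
    refine Real.exp_le_exp.2 (add_le_add le_rfl ?_)
    simp only [hθ, div_pow]
    rw [← sum_div, ← mul_div_assoc, div_le_iff₀ (by positivity)]
    nlinarith
  have h4 : (gm (Fin n)).real {ξ | 4 * L * F < ∑ i, d i * ξ i ^ 2 - ∑ i, d i} ≤
      (gm (Fin n)).real {b | exp (L + ∑ i, θ i) ≤ ∏ i, exp (θ i * b i ^ 2)} := by
    refine measureReal_mono fun b hb => ?_
    simp only [Set.mem_setOf_eq] at hb ⊢
    rw [← Real.exp_sum]
    apply Real.exp_le_exp.2
    simp only [hθ, div_mul_eq_mul_div]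
    rw [← sum_div, ← sum_div, ← le_sub_iff_add_le, ← sub_div, le_div_iff₀ (by positivity)]
    linarith
  have h5 : exp (1 / 8 : ℝ) ≤ 5 / 4 := by
    have a := Real.add_one_le_exp (-(1 / 8 : ℝ))
    rw [Real.exp_neg, le_inv_comm₀ (by norm_num) (exp_pos _)] at a
    linarith [show (-(1 / 8) + 1 : ℝ)⁻¹ ≤ 5 / 4 by norm_num]
  have h6 : exp (∑ i, θ i + 1 / 8) = exp (L + ∑ i, θ i) * (exp (1 / 8) * exp (-L)) := by
    rw [← Real.exp_add, ← Real.exp_add]
    congr 1
    ring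
  refine h4.trans ((le_of_mul_le_mul_left ((h.trans h3).trans h6.le) (exp_pos _)).trans ?_)
  exact mul_le_mul_of_nonneg_right h5 (exp_pos _).le

theorem hw_real (B : Mx n) {F L : ℝ} (hF : 0 < F) (hB : ∑ i, ∑ j, B i j ^ 2 ≤ F ^ 2) :
    (gm (Fin n)).real {ξ | 4 * L * F < ∑ i, ∑ j, ξ i * B i j * ξ j - B.trace} ≤
      5 / 4 * exp (-L) := by
  set S : Mx n := (1 / 2 : ℝ) • (B + Bᵀ) with hS
  have hH : S.IsHermitian := by
    rw [IsHermitian, conjTranspose_eq_transpose_of_trivial, hS, transpose_smul, transpose_add,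
      transpose_transpose, add_comm]
  obtain ⟨U, hU⟩ : ∃ U : Mx n, U = hH.eigenvectorUnitary := ⟨_, rfl⟩
  have h1 : Uᵀ * U = 1 := by
    rw [← conjTranspose_eq_transpose_of_trivial, hU]
    exact hH.eigenvectorUnitary.2.1
  have h2 : U * Uᵀ = 1 := by
    rw [← conjTranspose_eq_transpose_of_trivial, hU]
    exact hH.eigenvectorUnitary.2.2
  have h3 : S = U * diagonal hH.eigenvalues * Uᵀ := by
    rw [← conjTranspose_eq_transpose_of_trivial, hU]
    exact hH.spectral_theorem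
  generalize hH.eigenvalues = d at h3
  have t1 : B.trace = ∑ i, d i := by
    have : S.trace = B.trace := by
      rw [hS, trace_smul, trace_add, trace_transpose, smul_eq_mul]
      ring
    rw [← this, h3, trace_mul_cycle, h1, one_mul, trace_diagonal]
  have t2 : ∑ i, d i ^ 2 ≤ F ^ 2 := by
    have a : (S * S).trace = ∑ i, d i ^ 2 := by
      have : S * S = U * diagonal (fun i => d i ^ 2) * Uᵀ := by
        rw [h3]
        simp only [Matrix.mul_assoc]
        rw [← Matrix.mul_assoc Uᵀ U, h1, Matrix.one_mul, ← Matrix.mul_assoc (diagonal d),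
          diagonal_mul_diagonal]
        simp only [sq]
      rw [this, trace_mul_cycle, h1, one_mul, trace_diagonal]
    have b : (S * S).trace ≤ ∑ i, ∑ j, (B i j ^ 2 / 2 + B j i ^ 2 / 2) := by
      simp only [trace, diag_apply, mul_apply]
      refine sum_le_sum fun i _ => sum_le_sum fun j _ => ?_
      simp only [hS, Matrix.smul_apply, Matrix.add_apply, transpose_apply, smul_eq_mul]
      nlinarith [sq_nonneg (B i j - B j i)]
    simp only [sum_add_distrib, ← sum_div] at b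
    rw [sum_comm (f := fun i j => B j i ^ 2)] at b
    linarith
  have t3 : ∀ ξ : Fin n → ℝ, ∑ i, ∑ j, ξ i * B i j * ξ j = ∑ i, d i * (Uᵀ *ᵥ ξ) i ^ 2 := by
    intro ξ
    have a : ξ ⬝ᵥ B *ᵥ ξ = ∑ i, ∑ j, ξ i * B i j * ξ j := by
      simp only [dotProduct, mulVec, mul_sum, mul_assoc]
    have b : ξ ⬝ᵥ S *ᵥ ξ = ξ ⬝ᵥ B *ᵥ ξ := by
      rw [hS, smul_mulVec, add_mulVec, dotProduct_smul, dotProduct_add, mulVec_transpose,
        dotProduct_comm ξ (ξ ᵥ* B), ← dotProduct_mulVec, smul_eq_mul]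
      ring
    rw [← a, ← b, h3, ← mulVec_mulVec, ← mulVec_mulVec, dotProduct_mulVec, ← mulVec_transpose,
      dotProduct]
    refine sum_congr rfl fun i _ => ?_
    rw [mulVec_diagonal]
    ring
  have mp := P150.mp_iso (Matrix.mulVecLin Uᵀ) fun x => by
    have a : (Uᵀ *ᵥ x) ⬝ᵥ (Uᵀ *ᵥ x) = x ⬝ᵥ x := by
      rw [dotProduct_mulVec, vecMul_transpose, mulVec_mulVec, h2, one_mulVec]
    simpa only [dotProduct, ← sq, mulVecLin_apply] using a
  have ms : MeasurableSet {ξ : Fin n → ℝ | 4 * L * F < ∑ i, d i * ξ i ^ 2 - ∑ i, d i} :=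
    measurableSet_lt measurable_const (by fun_prop)
  refine le_trans (le_of_eq ?_) (hw_diag d hF t2 (L := L))
  rw [← mp.measureReal_preimage ms.nullMeasurableSet]
  congr 1
  ext ξ
  simp only [Set.mem_setOf_eq, Set.mem_preimage, t1, t3, mulVecLin_apply]

theorem hw (A : Matrix (Fin n) (Fin n) ℂ) {L : ℝ} (hL : 0 < L) :
    (gm (Fin n)).real {ξ | 8 * L * Fr A < ‖qf A ξ ξ - A.trace‖} ≤ 5 * exp (-L) := by
  have h0 : 0 ≤ ∑ i, ∑ j, ‖A i j‖ ^ 2 := sum_nonneg fun _ _ => sum_nonneg fun _ _ => sq_nonneg _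
  have hF : Fr A ^ 2 = ∑ i, ∑ j, ‖A i j‖ ^ 2 := sq_sqrt h0
  have hF0 : 0 ≤ Fr A := sqrt_nonneg _
  rcases hF0.eq_or_lt with hz | hz
  · have hA : A = 0 := by
      ext i j
      rw [← hz] at hF
      have a := (sum_eq_zero_iff_of_nonneg fun _ _ => sum_nonneg fun _ _ => sq_nonneg _).1
        (hF.symm.trans (by norm_num)) i (mem_univ _)
      have b := (sum_eq_zero_iff_of_nonneg fun _ _ => sq_nonneg _).1 a j (mem_univ _)
      simpa using b
    subst hA
    simp only [← hz, qf, Matrix.zero_apply, mul_zero, zero_mul, sum_const_zero, trace_zero,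
      sub_zero, norm_zero, lt_self_iff_false, Set.setOf_false, measureReal_empty]
    positivity
  have k : ∀ f : ℂ → ℝ, (∀ z, |f z| ≤ ‖z‖) → (gm (Fin n)).real {ξ | 4 * L * Fr A <
      ∑ i, ∑ j, ξ i * f (A i j) * ξ j - ∑ i, f (A i i)} ≤ 5 / 4 * exp (-L) := fun f hf =>
    hw_real (Matrix.of fun i j => f (A i j)) hz (hF ▸ sum_le_sum fun i _ => sum_le_sum fun j _ =>
      sq_le_sq' (abs_le.1 (hf _)).1 (abs_le.1 (hf _)).2)
  have k1 := k Complex.re Complex.abs_re_le_norm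
  have k2 := k (fun z => -z.re) fun z => by rw [abs_neg]; exact Complex.abs_re_le_norm z
  have k3 := k Complex.im Complex.abs_im_le_norm
  have k4 := k (fun z => -z.im) fun z => by rw [abs_neg]; exact Complex.abs_im_le_norm z
  refine le_trans (measureReal_mono (fun ξ hξ => ?_)) (((measureReal_union_le _ _).trans
    (add_le_add ((measureReal_union_le _ _).trans (add_le_add k1 k2))
      ((measureReal_union_le _ _).trans (add_le_add k3 k4)))).trans (by linarith))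
  have e1 : (qf A ξ ξ - A.trace).re = ∑ i, ∑ j, ξ i * (A i j).re * ξ j - ∑ i, (A i i).re := by
    simp [qf, trace]
  have e2 : (qf A ξ ξ - A.trace).im = ∑ i, ∑ j, ξ i * (A i j).im * ξ j - ∑ i, (A i i).im := by
    simp [qf, trace]
  have e3 := Complex.norm_le_abs_re_add_abs_im (qf A ξ ξ - A.trace)
  rw [e1, e2] at e3
  simp only [Set.mem_union, Set.mem_setOf_eq, mul_neg, neg_mul, sum_neg_distrib] at hξ ⊢
  by_contra hc
  simp only [not_or, not_lt] at hc
  obtain ⟨⟨c1, c2⟩, c3, c4⟩ := hc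
  have a1 : |∑ i, ∑ j, ξ i * (A i j).re * ξ j - ∑ i, (A i i).re| ≤ 4 * L * Fr A :=
    abs_le.2 ⟨by linarith, c1⟩
  have a2 : |∑ i, ∑ j, ξ i * (A i j).im * ξ j - ∑ i, (A i i).im| ≤ 4 * L * Fr A :=
    abs_le.2 ⟨by linarith, c3⟩
  linarith

end Vale.Agent.P146
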