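import Vale.Agent.P146.Defs

namespace Vale.Agent.P146

open MeasureTheory ProbabilityTheory Matrix Real Finset Filter Topology
open P150 (gm spin Cfg)

variable {ι : Type} [Fintype ι] [DecidableEq ι] {J : Type} [Fintype J] {n : ℕ} {β : ℝ}

theorem haar_compact (n : ℕ) : CompactSpace (unitary (Mx n)) := by
  refine isCompact_iff_compactSpace.mp (IsCompact.of_isClosed_subset
    (isCompact_univ_pi fun _ => isCompact_univ_pi fun _ => isCompact_closedBall (0 : ℝ) 1)
    isClosed_unitary ?_)
  intro u hu i _ j _
  simpa using entry_norm_bound_of_unitary (𝕜 := ℝ) hu i j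

theorem haar (n : ℕ) : ∃ ν : Measure (Om n), Hr ν := by
  have := haar_compact n
  borelize ↥(unitary (Mx n))
  let μ : Measure (unitary (Mx n)) := Measure.haarMeasure ⊤
  have hμ : IsProbabilityMeasure μ := ⟨by
    rw [← TopologicalSpace.PositiveCompacts.coe_top]
    exact Measure.haarMeasure_self⟩
  let f : unitary (Mx n) → Om n := fun u e => (u : Mx n) e.1 e.2
  have hf : Measurable f := Continuous.measurable (continuous_pi fun e =>
    continuous_subtype_val.matrix_elem e.1 e.2)
  have C : IsClosed {o : Om n | (mat o)ᵀ * mat o = 1} :=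
    isClosed_eq (by unfold mat; fun_prop) continuous_const
  refine ⟨μ.map f, Measure.isProbabilityMeasure_map hf.aemeasurable,
    (ae_map_iff hf.aemeasurable C.measurableSet).2 (ae_of_all _ fun u => u.2.1), fun S hS => ?_⟩
  have hg : Measurable fun (o : Om n) (e : Fin n × Fin n) => (S * mat o) e.1 e.2 :=
    Continuous.measurable (by unfold mat; fun_prop)
  let s : unitary (Mx n) := ⟨S, hS, mul_eq_one_comm.1 hS⟩
  refine ⟨hg, ?_⟩
  rw [Measure.map_map hg hf]
  conv_rhs => rw [← map_mul_left_eq_self μ s, Measure.map_map hf (measurable_const_mul s)]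
  rfl

end Vale.Agent.P146
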