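import Vale.Agent.P146.Rot
import Vale.Agent.P146.CS

namespace Vale.Agent.P146

open MeasureTheory ProbabilityTheory Matrix Real Finset Filter Topology
open P150 (gm spin Cfg)

variable {ι : Type} [Fintype ι] [DecidableEq ι] {J : Type} [Fintype J] {n : ℕ} {β : ℝ}

theorem Iso_ent {O : Mx n} (hO : Oᵀ * O = 1) (i j : Fin n) : |O i j| ≤ 1 := by
  have h := congrFun (congrFun hO j) j
  rw [mul_apply, one_apply_eq] at h
  have h2 := single_le_sum (f := fun k => Oᵀ j k * O k j) (fun k _ => mul_self_nonneg (O k j))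
    (mem_univ i)
  rw [h] at h2
  exact abs_le_one_iff_mul_self_le_one.2 h2

theorem act_norm {O : Mx n} (hO : Oᵀ * O = 1) (x : Om n) : ‖act O x‖ ≤ n ^ 2 * (1 + ‖x‖) := by
  refine (pi_norm_le_iff_of_nonneg (by positivity)).2 fun e => ?_
  have h : ∀ k, |(Oᵀ * mat x) e.1 k * O k e.2| ≤ n * (1 + ‖x‖) := fun k => by
    rw [abs_mul, mul_apply]
    refine (mul_le_of_le_one_right (abs_nonneg _) (Iso_ent hO _ _)).trans
      ((abs_sum_le_sum_abs _ _).trans ((sum_le_card_nsmul _ _ (1 + ‖x‖) fun l _ => ?_).trans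
        (by simp [mul_add])))
    rw [abs_mul]
    refine (mul_le_of_le_one_left (abs_nonneg _) (Iso_ent hO _ _)).trans ?_
    have := norm_le_pi_norm x (l, k)
    rw [Real.norm_eq_abs] at this
    simp only [mat, of_apply]
    linarith
  rw [Real.norm_eq_abs, act, mul_apply]
  refine (abs_sum_le_sum_abs _ _).trans ((sum_le_card_nsmul _ _ _ fun k _ => h k).trans ?_)
  simp [pow_two, mul_assoc]

def IsoL (O : Mx n) : Om n →ₗ[ℝ] Om n where
  toFun := act O
  map_add' x y := by
    funext e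
    have : mat (x + y) = mat x + mat y := rfl
    simp [act, this, Matrix.mul_add, Matrix.add_mul]
  map_smul' c x := by
    funext e
    have : mat (c • x) = c • mat x := rfl
    simp [act, this]

theorem Iso_sq (X : Mx n) : ∑ e : Fin n × Fin n, X e.1 e.2 ^ 2 = trace (X * Xᵀ) := by
  simp [Fintype.sum_prod_type, trace, mul_apply, pow_two]

theorem mp_act {O : Mx n} (hO : Oᵀ * O = 1) : MeasurePreserving (act O) (gm _) (gm _) := by
  refine P150.mp_iso (IsoL O) fun x => ?_
  have h := mul_eq_one_comm.1 hO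
  refine (Iso_sq (Oᵀ * mat x * O)).trans (Eq.trans ?_ (Iso_sq (mat x)).symm)
  rw [transpose_mul, transpose_mul, transpose_transpose, Matrix.mul_assoc, Matrix.mul_assoc,
    trace_mul_comm, ← Matrix.mul_assoc O, h, Matrix.one_mul, Matrix.mul_assoc, Matrix.mul_assoc, h,
    Matrix.mul_one]

theorem Iso_cont (O : Mx n) : Continuous (act O) := (IsoL O).continuous_of_finiteDimensional

theorem pg_To {q : ℕ} {O : Mx n} (hO : Oᵀ * O = 1) {F : (Fin q → Fin n) → Om n → ℝ}
    (hF : ∀ j, PG (F j)) (j : Fin q → Fin n) : PG (To O F j) :=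
  PG.sum _ fun j' _ => (PG.const _).mul ((hF j').comp (Iso_cont O) (act_norm hO))

theorem pg_xo (q : ℕ) {O : Mx n} (hO : Oᵀ * O = 1) (j : Fin q → Fin n) : PG (xo β q O j) := by
  rw [xo_eq]
  exact pg_To hO (fun j => (al_xi q j).pg) j

theorem to_bound {q : ℕ} {F : (Fin q → Fin n) → Om n → ℝ} (hF : ∀ j, PG (F j)) :
    ∃ (C : ℝ) (k : ℕ), ∀ O : Mx n, Oᵀ * O = 1 → ∀ j x, |To O F j x| ≤ C * (1 + ‖x‖) ^ k := by
  choose C k h using fun j => (hF j).2
  refine ⟨∑ j, |C j| * (1 + n ^ 2) ^ k j, ∑ j, k j, fun O hO j x => ?_⟩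
  rw [To, sum_mul]
  refine (abs_sum_le_sum_abs _ _).trans (sum_le_sum fun j' _ => ?_)
  have h0 := norm_nonneg x
  have h1 : 1 + ‖act O x‖ ≤ (1 + n ^ 2) * (1 + ‖x‖) := by nlinarith [act_norm hO x]
  rw [abs_mul, abs_prod]
  refine (mul_le_of_le_one_left (abs_nonneg _)
    (prod_le_one (fun _ _ => abs_nonneg _) fun _ _ => Iso_ent hO _ _)).trans ((h j' _).trans ?_)
  calc _ ≤ |C j'| * ((1 + n ^ 2) * (1 + ‖x‖)) ^ k j' := by
        gcongr
        exact le_abs_self _
    _ ≤ _ := by
        rw [mul_pow, ← mul_assoc]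
        gcongr
        · linarith
        · exact single_le_sum (fun _ _ => Nat.zero_le _) (mem_univ j')

theorem Iso_orth {q : ℕ} {O : Mx n} (hO : Oᵀ * O = 1) (a b : Fin q → Fin n) :
    ∑ j : Fin q → Fin n, (∏ k, O (j k) (a k)) * ∏ k, O (j k) (b k) = if a = b then 1 else 0 := by
  simp only [← prod_mul_distrib]
  rw [← Fintype.piFinset_univ, ← prod_univ_sum (fun _ => univ) fun k i => O i (a k) * O i (b k),
    prod_congr rfl fun k _ => show ∑ i, O i (a k) * O i (b k) = if a k = b k then 1 else 0 from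
      (congrFun (congrFun hO (a k)) (b k)).trans one_apply]
  simp [prod_ite_zero, funext_iff]

theorem qb_To {q : ℕ} {O : Mx n} (hO : Oᵀ * O = 1) {F G : (Fin q → Fin n) → Om n → ℝ}
    (hF : ∀ j, PG (F j)) (hG : ∀ j, PG (G j)) {t : ℝ} (ht : t ∈ Set.Icc (0 : ℝ) 1) :
    Qb (fun _ => t) (To O F) (To O G) = Qb (fun _ => t) F G := by
  have hρ : U01 fun _ : Fin n × Fin n => t := fun _ => ht
  have e1 : ∀ x y, ∑ j, To O F j x * To O G j y = ∑ j, F j (act O x) * G j (act O y) := fun x y => by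
    simp only [To, sum_mul_sum]
    rw [sum_comm]
    refine sum_congr rfl fun a _ => ?_
    rw [sum_comm, sum_congr rfl fun b _ => show ∑ j : Fin q → Fin n,
      (∏ k, O (j k) (a k)) * F a (act O x) * ((∏ k, O (j k) (b k)) * G b (act O y)) =
        (if a = b then 1 else 0) * (F a (act O x) * G b (act O y)) by
      rw [← Iso_orth hO, sum_mul]
      exact sum_congr rfl fun j _ => by ring]
    simp
  have e2 : ∀ z : Om n × Om n, act O (mix (fun _ => t) z) =
      mix (fun _ => t) (Prod.map (act O) (act O) z) := fun z => by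
    have : mix (fun _ => t) z = t • z.1 + √(1 - t ^ 2) • z.2 := rfl
    change IsoL O _ = _
    rw [this, map_add, map_smul, map_smul]
    rfl
  have mp := (mp_act hO).prod (mp_act hO)
  unfold Qb Bf
  rw [← integral_finsetSum _ fun j _ => (pg_To hO hF j).int2 (pg_To hO hG j) hρ,
    ← integral_finsetSum _ fun j _ => (hF j).int2 (hG j) hρ]
  simp only [e1, e2]
  have hi := integrable_finsetSum univ fun j _ => (hF j).int2 (hG j) hρ
  rw [← mp.map_eq] at hi
  conv_rhs => rw [← mp.map_eq]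
  rw [integral_map mp.measurable.aemeasurable hi.aestronglyMeasurable]
  rfl

end Vale.Agent.P146
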