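import Vale.Agent.P146.Kb
import Vale.Agent.P146.Haar
import Vale.Agent.P146.Ph
import Vale.Agent.P146.Iso

namespace Vale.Agent.P146

open MeasureTheory ProbabilityTheory Matrix Real Finset Filter Topology
open P150 (gm spin Cfg)

variable {ι : Type} [Fintype ι] [DecidableEq ι] {J : Type} [Fintype J] {n : ℕ} {β : ℝ}

theorem inv_abs {X O : Type} [MeasurableSpace X] [MeasurableSpace O] (γ : Measure X)
    [IsProbabilityMeasure γ] (N : Measure O) [IsProbabilityMeasure N] (F : (X × X) × O → ℝ)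
    (hFm : AEStronglyMeasurable F ((γ.prod γ).prod N)) (P : O → Prop) (hN : ∀ᵐ o ∂N, P o)
    (hF : ∀ q o, P o → F (q, o) ∈ Set.Icc (0 : ℝ) 1) (Dl : X → X → Prop) {c ε : ℝ} (hc0 : 0 ≤ c)
    (hk : ∀ x y, Dl x y → ∫ o, F ((x, y), o) ∂N ≤ c) {w : X → ℝ} (hw : Integrable w γ)
    (hε : ∫ x, w x ∂γ ≤ ε) (h : ∀ x, γ.real {y | ¬Dl x y} ≤ w x) :
    ∃ o, P o ∧ ∫ q, F (q, o) ∂γ.prod γ ≤ c + ε := by
  have hFi : Integrable F ((γ.prod γ).prod N) := by
    refine (integrable_const (1 : ℝ)).mono' hFm ?_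
    filter_upwards [Measure.quasiMeasurePreserving_snd.ae hN] with z hz
    obtain ⟨a1, a2⟩ := hF z.1 z.2 hz
    rw [Real.norm_eq_abs, abs_of_nonneg a1]
    exact a2
  have g0 : ∀ q, 0 ≤ ∫ o, F (q, o) ∂N := fun q => by
    refine integral_nonneg_of_ae ?_
    filter_upwards [hN] with o ho using (hF q o ho).1
  have g1 : ∀ q, ∫ o, F (q, o) ∂N ≤ 1 := fun q => by
    have : ∫ o, F (q, o) ∂N ≤ ∫ _o, (1 : ℝ) ∂N := by
      refine integral_mono_of_nonneg ?_ (integrable_const _) ?_
      · filter_upwards [hN] with o ho using (hF q o ho).1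
      · filter_upwards [hN] with o ho using (hF q o ho).2
    simpa using this
  have inner : ∀ x : X, ∫ y, ∫ o, F ((x, y), o) ∂N ∂γ ≤ c + w x := by
    intro x
    set B := toMeasurable γ {y | ¬Dl x y} with hB
    have hBm : MeasurableSet B := measurableSet_toMeasurable _ _
    have hi : Integrable (B.indicator fun _ => (1 : ℝ)) γ := (integrable_const _).indicator hBm
    have a1 : ∫ y, ∫ o, F ((x, y), o) ∂N ∂γ ≤ ∫ y, (c + B.indicator (fun _ => (1 : ℝ)) y) ∂γ := by
      refine integral_mono_of_nonneg (ae_of_all _ fun y => g0 _) ((integrable_const c).add hi)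
        (ae_of_all _ fun y => ?_)
      by_cases hy : y ∈ B
      · have := g1 (x, y)
        simp only [Set.indicator_of_mem hy]
        linarith
      · have hd : Dl x y := by
          by_contra hd
          exact hy (subset_toMeasurable _ _ hd)
        simp only [Set.indicator_of_notMem hy, add_zero]
        exact hk x y hd
    rw [integral_add (integrable_const c) hi, integral_indicator_const _ hBm] at a1
    have a2 : γ.real B = γ.real {y | ¬Dl x y} := by
      simp only [Measure.real, hB, measure_toMeasurable]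
    have a3 := h x
    simp only [integral_const, probReal_univ, smul_eq_mul, one_mul, mul_one] at a1
    linarith
  obtain ⟨o, ho, hle⟩ := exists_notMem_null_le_integral hFi.integral_prod_right hN
  refine ⟨o, not_not.1 ho, hle.trans ?_⟩
  rw [← integral_prod_symm _ hFi, integral_prod _ hFi, integral_prod _ hFi.integral_prod_left]
  refine (integral_mono hFi.integral_prod_left.integral_prod_left
    ((integrable_const c).add hw) inner).trans ?_
  simp only [Pi.add_apply]
  rw [integral_add (integrable_const c) hw]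
  simp only [integral_const, probReal_univ, smul_eq_mul, one_mul]
  linarith

theorem qb_xo (p : ℕ) {o o' : Om n} (h : (mat o)ᵀ * mat o = 1) (h' : (mat o')ᵀ * mat o' = 1)
    {t : ℝ} (ht : t ∈ Set.Icc (0 : ℝ) 1) :
    Qb (fun _ => t) (xo β (2 * p) (mat o)) (xo β (2 * p) (mat o')) =
      ∫ q, Kr β p q.1 (mix (fun _ => t) q) o o' ∂(gm _).prod (gm _) := by
  have hρ : U01 (fun _ : Fin n × Fin n => t) := fun _ => ht
  unfold Qb Bf
  rw [← integral_finsetSum _ fun j _ => (pg_xo _ h j).int2 (pg_xo _ h' j) hρ]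
  refine integral_congr_ae (ae_of_all _ fun q => ?_)
  simp only [xo, av, Kr, ← sum_tn, Finset.sum_mul_sum]
  simp only [Finset.mul_sum]
  rw [Finset.sum_comm]
  refine Finset.sum_congr rfl fun σ _ => ?_
  rw [Finset.sum_comm]
  exact Finset.sum_congr rfl fun τ _ => Finset.sum_congr rfl fun j _ => by ring

theorem inv_cont (p : ℕ) (t : ℝ) : Continuous fun z : (Om n × Om n) × (Om n × Om n) =>
    Kr β p z.1.1 (mix (fun _ => t) z.1) z.2.1 z.2.2 := by
  have hmix : Continuous (mix (fun _ : Fin n × Fin n => t)) := by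
    unfold mix
    fun_prop
  have h1 : Continuous fun z : (Om n × Om n) × (Om n × Om n) =>
      (((z.1.1, mix (fun _ => t) z.1), z.2) : (Om n × Om n) × (Om n × Om n)) :=
    (continuous_fst.fst.prodMk (hmix.comp continuous_fst)).prodMk continuous_snd
  have h2 := (kr_cont (β := β) p).comp h1
  simpa only [Function.comp_def] using h2

theorem inv_bound (p : ℕ) {t D ε : ℝ} (ht : t ∈ Set.Icc (0 : ℝ) 1) (hD : 0 ≤ D) {w : Om n → ℝ}
    (hw : Integrable w (gm _)) (hε : ∫ x, w x ∂gm _ ≤ ε)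
    (h : ∀ x, (gm _).real {y | ¬Del x (mix (fun _ => t) (x, y)) D} ≤ w x) :
    ∃ O O' : Mx n, Oᵀ * O = 1 ∧ O'ᵀ * O' = 1 ∧
      Qb (fun _ => t) (xo β (2 * p) O) (xo β (2 * p) O') ≤ (2 * p : ℝ) ^ (2 * p) * D ^ p + ε := by
  obtain ⟨ν, hν⟩ := haar n
  have := hν.1
  have hN : ∀ᵐ o ∂ν.prod ν, (mat o.1)ᵀ * mat o.1 = 1 ∧ (mat o.2)ᵀ * mat o.2 = 1 :=
    (Measure.quasiMeasurePreserving_fst.ae hν.2.1).and
      (Measure.quasiMeasurePreserving_snd.ae hν.2.1)
  have hm : AEStronglyMeasurable (fun z : (Om n × Om n) × (Om n × Om n) =>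
      Kr β p z.1.1 (mix (fun _ => t) z.1) z.2.1 z.2.2)
      (((gm (Fin n × Fin n)).prod (gm (Fin n × Fin n))).prod (ν.prod ν)) :=
    (inv_cont (β := β) p t).aestronglyMeasurable
  have key := inv_abs (gm (Fin n × Fin n)) (ν.prod ν)
    (fun z : (Om n × Om n) × (Om n × Om n) => Kr β p z.1.1 (mix (fun _ => t) z.1) z.2.1 z.2.2) hm
    (fun o : Om n × Om n => (mat o.1)ᵀ * mat o.1 = 1 ∧ (mat o.2)ᵀ * mat o.2 = 1) hN
    (fun q o ho => by
      have h3 := kr_mem (β := β) p q.1 (mix (fun _ => t) q) ho.1 ho.2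
      dsimp only
      exact h3)
    (fun x y => Del x (mix (fun _ => t) (x, y)) D)
    (c := (2 * p : ℝ) ^ (2 * p) * D ^ p) (ε := ε) (by positivity)
    (fun x y hd => by
      have h3 := kb_bound (β := β) hν p hD hd
      dsimp only
      exact h3) hw hε h
  obtain ⟨o, ho, hle⟩ := key
  refine ⟨mat o.1, mat o.2, ho.1, ho.2, ?_⟩
  rw [qb_xo p ho.1 ho.2 ht]
  dsimp only at hle
  exact hle

end Vale.Agent.P146
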