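import Vale.Agent.P146.Rot
import Vale.Agent.P146.Khin

namespace Vale.Agent.P146

open MeasureTheory ProbabilityTheory Matrix Real Finset Filter Topology
open P150 (gm spin Cfg)

variable {ι : Type} [Fintype ι] [DecidableEq ι] {J : Type} [Fintype J] {n : ℕ} {β : ℝ}

theorem Kb_spec {A : Mx n} (hA : A.IsHermitian) :
    ∃ (U : Mx n) (l : Fin n → ℝ), Uᵀ * U = 1 ∧ A * U = U * diagonal l := by
  have h1 : (hA.eigenvectorUnitary : Mx n)ᵀ * hA.eigenvectorUnitary = 1 := by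
    simpa [star_eq_conjTranspose] using (Unitary.coe_star_mul_self hA.eigenvectorUnitary)
  have h2 : A = (hA.eigenvectorUnitary : Mx n) * diagonal hA.eigenvalues *
      (hA.eigenvectorUnitary : Mx n)ᵀ := by
    have := hA.spectral_theorem
    rw [Unitary.conjStarAlgAut_apply] at this
    simpa [star_eq_conjTranspose] using this
  refine ⟨hA.eigenvectorUnitary, hA.eigenvalues, h1, ?_⟩
  generalize (hA.eigenvectorUnitary : Mx n) = U at h1 h2
  generalize hA.eigenvalues = l at h2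
  rw [h2, Matrix.mul_assoc, h1, Matrix.mul_one]

theorem Kb_sp_sq (σ : Cfg n) (i : Fin n) : sp σ i * sp σ i = 1 := by
  unfold sp
  cases σ i <;> simp [spin]

theorem Kb_dot (S : Mx n) (v w : Fin n → ℝ) : (S *ᵥ v) ⬝ᵥ w = v ⬝ᵥ (Sᵀ *ᵥ w) := by
  rw [dotProduct_mulVec, vecMul_transpose]

theorem Kb_norm {O : Mx n} (h : Oᵀ * O = 1) (v : Fin n → ℝ) :
    (O *ᵥ v) ⬝ᵥ (O *ᵥ v) = v ⬝ᵥ v := by
  rw [Kb_dot, mulVec_mulVec, h, one_mulVec]

theorem Kb_spn (σ : Cfg n) : sp σ ⬝ᵥ sp σ = n := by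
  simp [dotProduct, Kb_sp_sq]

theorem Kb_Hm (x : Om n) (v : Fin n → ℝ) : Hm β x v = β / 2 * (v ⬝ᵥ (Sy x *ᵥ v)) := by
  have e1 : v ⬝ᵥ ((mat x)ᵀ *ᵥ v) = v ⬝ᵥ (mat x *ᵥ v) := by rw [← Kb_dot, dotProduct_comm]
  have e2 : v ⬝ᵥ (mat x *ᵥ v) = ∑ e : Fin n × Fin n, x e * (v e.1 * v e.2) := by
    simp only [dotProduct, mulVec, mat, of_apply, Fintype.sum_prod_type, mul_sum]
    exact sum_congr rfl fun i _ => sum_congr rfl fun j _ => by ring
  rw [Sy, smul_mulVec, dotProduct_smul, add_mulVec, dotProduct_add, e1, e2, Hm, smul_eq_mul,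
    ← two_mul]
  simp only [mul_sum, ep]
  exact sum_congr rfl fun e _ => by ring

/-- sign flips in an orthonormal basis -/
def KbS (U : Mx n) (ε : Cfg n) : Mx n := U * diagonal (sp ε) * Uᵀ

theorem Kb_cj {U : Mx n} (h : Uᵀ * U = 1) (l l' : Fin n → ℝ) :
    U * diagonal l * Uᵀ * (U * diagonal l' * Uᵀ) = U * diagonal (fun i => l i * l' i) * Uᵀ := by
  rw [← diagonal_mul_diagonal]
  calc _ = U * diagonal l * (Uᵀ * U) * diagonal l' * Uᵀ := by simp only [Matrix.mul_assoc]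
    _ = _ := by rw [h]; simp only [Matrix.mul_assoc, Matrix.one_mul]

theorem KbS_T (U : Mx n) (ε : Cfg n) : (KbS U ε)ᵀ = KbS U ε := by
  simp only [KbS, transpose_mul, transpose_transpose, diagonal_transpose, Matrix.mul_assoc]

theorem KbS_orth {U : Mx n} (h : Uᵀ * U = 1) (ε : Cfg n) : (KbS U ε)ᵀ * KbS U ε = 1 := by
  rw [KbS_T, KbS, Kb_cj h]
  simp only [Kb_sp_sq, diagonal_one, Matrix.mul_one]
  exact mul_eq_one_comm.1 h

theorem KbS_cj {U W : Mx n} {d : Fin n → ℝ} (h : Uᵀ * U = 1) (hW : W * U = U * diagonal d)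
    (ε : Cfg n) : (KbS U ε)ᵀ * W * KbS U ε = W := by
  have e : W = U * diagonal d * Uᵀ := by
    rw [← hW, Matrix.mul_assoc, mul_eq_one_comm.1 h, Matrix.mul_one]
  rw [KbS_T, KbS, e, Kb_cj h, Kb_cj h]
  have : (fun i => sp ε i * d i * sp ε i) = d := by
    funext i
    rw [mul_right_comm, Kb_sp_sq, one_mul]
  rw [this]

theorem Kb_gw {S : Mx n} {x : Om n} (h : Sᵀ * Sy x * S = Sy x) (O : Mx n) (σ : Cfg n) :
    gw β (act (S * O) x) σ = gw β (act O x) σ := by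
  have e : ∀ v, Hm β (act (S * O) x) v = Hm β (act O x) v := fun v => by
    rw [Hm_act, Hm_act, ← mulVec_mulVec, Kb_Hm, Kb_Hm, Kb_dot S, mulVec_mulVec, mulVec_mulVec,
      mulVec_mulVec, h, mulVec_mulVec]
  simp only [gw, Zf, e]

theorem Kb_core (p : ℕ) {D : ℝ} (hD : 0 ≤ D) (G : Mx n) (hG : ∀ i k, G i k ^ 2 ≤ D)
    (a c : Fin n → ℝ) (ha : a ⬝ᵥ a = n) (hc : c ⬝ᵥ c = n) :
    ∑ ε' : Cfg n, ∑ ε : Cfg n,
      ((∑ i, sp ε i * (a i * ∑ k, sp ε' k * (G i k * c k))) / n) ^ (2 * p) ≤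
      2 ^ n * (2 ^ n * ((2 * p : ℝ) ^ (2 * p) * D ^ p)) := by
  rcases Nat.eq_zero_or_pos n with rfl | hn
  · rcases Nat.eq_zero_or_pos p with rfl | hp
    · simp
    · have : 2 * p ≠ 0 := by omega
      simp only [Nat.cast_zero, div_zero, zero_pow this, sum_const_zero]
      positivity
  have hn' : (0 : ℝ) < n := by exact_mod_cast hn
  have hw : ∑ i, a i ^ 2 / n = 1 := by
    rw [← sum_div, div_eq_one_iff_eq hn'.ne', ← ha]
    simp only [dotProduct, sq]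
  have s1 : ∀ w : Fin n → ℝ, ∑ ε : Cfg n, ((∑ i, sp ε i * (a i * w i)) / n) ^ (2 * p) ≤
      2 ^ n * ((2 * p : ℝ) ^ p * ∑ i, a i ^ 2 / n * (w i ^ 2 / n) ^ p) := by
    intro w
    have k := khin (fun i => a i * w i / n) p
    have e : ∀ ε : Cfg n, (∑ i, sp ε i * (a i * w i)) / n = ∑ i, sp ε i * (a i * w i / n) :=
      fun ε => by rw [sum_div]; exact sum_congr rfl fun i _ => by ring
    simp only [e]
    refine k.trans (mul_le_mul_of_nonneg_left (mul_le_mul_of_nonneg_left ?_ (by positivity))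
      (by positivity))
    refine le_trans (le_of_eq ?_) (Real.pow_arith_mean_le_arith_mean_pow univ
      (fun i => a i ^ 2 / n) (fun i => w i ^ 2 / n) (fun i _ => by positivity) hw
      (fun i _ => by positivity) p)
    congr 1
    exact sum_congr rfl fun i _ => by ring
  have s2 : ∀ i, ∑ ε' : Cfg n, ((∑ k, sp ε' k * (G i k * c k)) ^ 2 / n) ^ p ≤
      2 ^ n * ((2 * p : ℝ) ^ p * D ^ p) := by
    intro i
    have k := khin (fun k => G i k * c k) p
    have b1 : ∑ k, (G i k * c k) ^ 2 ≤ D * n := by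
      rw [← hc, dotProduct, mul_sum]
      refine sum_le_sum fun k _ => ?_
      rw [mul_pow, ← sq]
      exact mul_le_mul_of_nonneg_right (hG i k) (sq_nonneg _)
    have b2 : (∑ k, (G i k * c k) ^ 2) ^ p ≤ (D * n) ^ p :=
      pow_le_pow_left₀ (sum_nonneg fun _ _ => sq_nonneg _) b1 p
    simp only [div_pow, ← pow_mul, ← sum_div]
    rw [div_le_iff₀ (by positivity)]
    refine k.trans ((mul_le_mul_of_nonneg_left (mul_le_mul_of_nonneg_left b2 (by positivity))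
      (by positivity)).trans (le_of_eq ?_))
    rw [mul_pow D]; ring
  refine (sum_le_sum fun ε' _ => s1 _).trans ?_
  rw [← mul_sum, ← mul_sum, sum_comm]
  refine mul_le_mul_of_nonneg_left ?_ (by positivity)
  have s3 : ∑ i, ∑ ε' : Cfg n, a i ^ 2 / n * ((∑ k, sp ε' k * (G i k * c k)) ^ 2 / n) ^ p ≤
      ∑ i, a i ^ 2 / n * (2 ^ n * ((2 * p : ℝ) ^ p * D ^ p)) :=
    sum_le_sum fun i _ => by
      rw [← mul_sum]
      exact mul_le_mul_of_nonneg_left (s2 i) (by positivity)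
  rw [← sum_mul, hw, one_mul] at s3
  refine (mul_le_mul_of_nonneg_left s3 (by positivity)).trans (le_of_eq ?_)
  rw [two_mul p, pow_add]; ring

theorem Kb_expand (U U' : Mx n) (ε ε' : Cfg n) (a b : Fin n → ℝ) :
    (KbS U ε *ᵥ a) ⬝ᵥ (KbS U' ε' *ᵥ b) =
      ∑ i, sp ε i * ((Uᵀ *ᵥ a) i * ∑ k, sp ε' k * ((Uᵀ * U') i k * (U'ᵀ *ᵥ b) k)) := by
  rw [KbS, KbS, ← mulVec_mulVec, ← mulVec_mulVec, Kb_dot U, ← mulVec_mulVec, ← mulVec_mulVec,
    mulVec_mulVec _ Uᵀ U']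
  generalize Uᵀ *ᵥ a = α
  generalize U'ᵀ *ᵥ b = γ
  generalize Uᵀ * U' = G
  rw [dotProduct]
  refine sum_congr rfl fun i _ => ?_
  rw [mulVec_diagonal, mul_assoc]
  congr 2
  rw [mulVec, dotProduct]
  refine sum_congr rfl fun k _ => ?_
  rw [mulVec_diagonal]; ring

theorem kr_cont (p : ℕ) : Continuous fun w : (Om n × Om n) × (Om n × Om n) =>
    Kr β p w.1.1 w.1.2 w.2.1 w.2.2 := by
  have ha : Continuous fun q : Om n × Om n => act (mat q.1) q.2 := by
    refine continuous_pi fun e => ?_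
    simp only [act, Matrix.mul_apply, transpose_apply, mat, of_apply]
    fun_prop
  unfold Kr
  refine continuous_finset_sum _ fun σ _ => continuous_finset_sum _ fun τ _ => ?_
  refine Continuous.mul (Continuous.mul ?_ ?_) ?_
  · exact (gw_diff σ).continuous.comp (ha.comp (f := fun w : (Om n × Om n) × (Om n × Om n) =>
      (w.2.1, w.1.1)) (by fun_prop))
  · exact (gw_diff τ).continuous.comp (ha.comp (f := fun w : (Om n × Om n) × (Om n × Om n) =>
      (w.2.2, w.1.2)) (by fun_prop))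
  · simp only [dotProduct, mulVec, mat, of_apply]
    fun_prop

theorem Kb_avg (y y' : Om n) {F : Cfg n → Cfg n → ℝ} {C : ℝ} (h : ∀ σ τ, F σ τ ≤ C) :
    ∑ σ, ∑ τ, gw β y σ * gw β y' τ * F σ τ ≤ C := by
  have : ∑ σ, ∑ τ, gw β y σ * gw β y' τ * C = C := by
    simp only [← sum_mul, ← mul_sum, gw_sum, mul_one, one_mul]
  rw [← this]
  exact sum_le_sum fun σ _ => sum_le_sum fun τ _ =>
    mul_le_mul_of_nonneg_left (h σ τ) (mul_pos (gw_pos _ _) (gw_pos _ _)).le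

theorem kr_mem (p : ℕ) (x x' : Om n) {o o' : Om n} (h : (mat o)ᵀ * mat o = 1)
    (h' : (mat o')ᵀ * mat o' = 1) : Kr β p x x' o o' ∈ Set.Icc (0 : ℝ) 1 := by
  refine ⟨sum_nonneg fun σ _ => sum_nonneg fun τ _ => mul_nonneg
    (mul_pos (gw_pos _ _) (gw_pos _ _)).le (by rw [pow_mul]; positivity), Kb_avg _ _ fun σ τ => ?_⟩
  have ha := (Kb_norm h (sp σ)).trans (Kb_spn σ)
  have hb := (Kb_norm h' (sp τ)).trans (Kb_spn τ)
  generalize mat o *ᵥ sp σ = a at ha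
  generalize mat o' *ᵥ sp τ = b at hb
  have h1 : (a ⬝ᵥ b) ^ 2 ≤ (n : ℝ) ^ 2 := by
    have := sum_mul_sq_le_sq_mul_sq univ a b
    simp only [sq] at this ⊢
    rw [dotProduct] at ha hb ⊢
    rwa [ha, hb] at this
  rw [pow_mul, div_pow]
  exact pow_le_one₀ (by positivity) (div_le_one_of_le₀ h1 (by positivity))

theorem kb_bound {ν : Measure (Om n)} (hν : Hr ν) (p : ℕ) {x x' : Om n} {D : ℝ} (hD : 0 ≤ D)
    (h : Del x x' D) :
    ∫ o, Kr β p x x' o.1 o.2 ∂ν.prod ν ≤ (2 * p : ℝ) ^ (2 * p) * D ^ p := by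
  obtain ⟨hP, hae, hmp⟩ := hν
  obtain ⟨U, d, hU, hW, hdel⟩ := h
  have hsym : (Sy x').IsHermitian := by
    rw [IsHermitian, conjTranspose_eq_transpose_of_trivial, Sy, transpose_smul, transpose_add,
      transpose_transpose, add_comm]
  obtain ⟨U', d', hU', hW'⟩ := Kb_spec hsym
  have hG : ∀ i k, (Uᵀ * U') i k ^ 2 ≤ D := fun i k => by
    refine hdel i (fun j => U' j k) (d' k) ⟨?_, ?_⟩
    · have := congrFun (congrFun hU' k) k
      rwa [Matrix.one_apply_eq] at this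
    · funext j
      have := congrFun (congrFun hW' j) k
      rw [mul_diagonal, mul_comm] at this
      exact this
  have hae2 : ∀ᵐ o ∂ν.prod ν, (mat o.1)ᵀ * mat o.1 = 1 ∧ (mat o.2)ᵀ * mat o.2 = 1 :=
    ((measurePreserving_fst (μ := ν) (ν := ν)).quasiMeasurePreserving.ae hae).and
      ((measurePreserving_snd (μ := ν) (ν := ν)).quasiMeasurePreserving.ae hae)
  have hc : Continuous fun o : Om n × Om n => Kr β p x x' o.1 o.2 :=
    (kr_cont p).comp (f := fun o : Om n × Om n => ((x, x'), o)) (by fun_prop)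
  have hint : Integrable (fun o : Om n × Om n => Kr β p x x' o.1 o.2) (ν.prod ν) := by
    refine Integrable.of_bound hc.aestronglyMeasurable 1 (hae2.mono fun o ho => ?_)
    have := kr_mem (β := β) p x x' ho.1 ho.2
    rw [Real.norm_eq_abs, abs_of_nonneg this.1]
    exact this.2
  let T : Cfg n → Cfg n → Om n × Om n → Om n × Om n := fun ε ε' =>
    Prod.map (fun (o : Om n) e => (KbS U ε * mat o) e.1 e.2)
      (fun (o : Om n) e => (KbS U' ε' * mat o) e.1 e.2)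
  have hT : ∀ ε ε', MeasurePreserving (T ε ε') (ν.prod ν) (ν.prod ν) := fun ε ε' =>
    (hmp _ (KbS_orth hU ε)).prod (hmp _ (KbS_orth hU' ε'))
  have hI : ∀ ε ε', ∫ o, Kr β p x x' (T ε ε' o).1 (T ε ε' o).2 ∂ν.prod ν =
      ∫ o, Kr β p x x' o.1 o.2 ∂ν.prod ν := fun ε ε' => by
    have := integral_map (μ := ν.prod ν) (hT ε ε').measurable.aemeasurable
      (f := fun o : Om n × Om n => Kr β p x x' o.1 o.2) hc.aestronglyMeasurable
    rw [(hT ε ε').map_eq] at this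
    exact this.symm
  have hint2 : ∀ ε ε', Integrable
      (fun o : Om n × Om n => Kr β p x x' (T ε ε' o).1 (T ε ε' o).2) (ν.prod ν) := fun ε ε' =>
    (hT ε ε').integrable_comp_of_integrable hint
  have hsum : ∫ o, ∑ ε', ∑ ε, Kr β p x x' (T ε ε' o).1 (T ε ε' o).2 ∂ν.prod ν =
      2 ^ n * (2 ^ n * ∫ o, Kr β p x x' o.1 o.2 ∂ν.prod ν) := by
    rw [integral_finset_sum _ fun ε' _ => integrable_finset_sum _ fun ε _ => hint2 ε ε']
    simp only [integral_finset_sum _ fun ε _ => hint2 ε _, hI]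
    simp
  have hle : ∫ o, ∑ ε', ∑ ε, Kr β p x x' (T ε ε' o).1 (T ε ε' o).2 ∂ν.prod ν ≤
      ∫ _o, 2 ^ n * (2 ^ n * ((2 * p : ℝ) ^ (2 * p) * D ^ p)) ∂ν.prod ν := by
    refine integral_mono_ae (integrable_finset_sum _ fun ε' _ =>
      integrable_finset_sum _ fun ε _ => hint2 ε ε') (integrable_const _)
      (hae2.mono fun o ho => ?_)
    have e : ∀ ε ε', Kr β p x x' (T ε ε' o).1 (T ε ε' o).2 =
        ∑ σ, ∑ τ, gw β (act (mat o.1) x) σ * gw β (act (mat o.2) x') τ *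
          ((KbS U ε *ᵥ (mat o.1 *ᵥ sp σ)) ⬝ᵥ (KbS U' ε' *ᵥ (mat o.2 *ᵥ sp τ)) / n) ^ (2 * p) := by
      intro ε ε'
      have m1 : mat (T ε ε' o).1 = KbS U ε * mat o.1 := rfl
      have m2 : mat (T ε ε' o).2 = KbS U' ε' * mat o.2 := rfl
      rw [Kr, m1, m2]
      simp only [Kb_gw (KbS_cj hU hW ε), Kb_gw (KbS_cj hU' hW' ε'), mulVec_mulVec]
    simp only [e]
    have e2 : ∀ F : Cfg n → Cfg n → Cfg n → Cfg n → ℝ, ∑ ε', ∑ ε, ∑ σ, ∑ τ, F ε' ε σ τ =
        ∑ σ, ∑ τ, ∑ ε', ∑ ε, F ε' ε σ τ := fun F => by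
      calc _ = ∑ ε', ∑ σ, ∑ τ, ∑ ε, F ε' ε σ τ := sum_congr rfl fun ε' _ => by
            rw [sum_comm]; exact sum_congr rfl fun σ _ => sum_comm
        _ = _ := by rw [sum_comm]; exact sum_congr rfl fun σ _ => sum_comm
    rw [e2]
    simp only [← mul_sum]
    refine Kb_avg _ _ fun σ τ => ?_
    simp only [Kb_expand]
    have t1 : (Uᵀ)ᵀ * Uᵀ = 1 := by rw [transpose_transpose]; exact mul_eq_one_comm.1 hU
    have t2 : (U'ᵀ)ᵀ * U'ᵀ = 1 := by rw [transpose_transpose]; exact mul_eq_one_comm.1 hU'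
    exact Kb_core p hD _ hG _ _ ((Kb_norm t1 _).trans ((Kb_norm ho.1 _).trans (Kb_spn σ)))
      ((Kb_norm t2 _).trans ((Kb_norm ho.2 _).trans (Kb_spn τ)))
  rw [hsum, integral_const, probReal_univ, one_smul] at hle
  have h2 : (0 : ℝ) < 2 ^ n := by positivity
  exact le_of_mul_le_mul_left (le_of_mul_le_mul_left hle h2) h2

end Vale.Agent.P146
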