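import Vale.Agent.P146.Ph

namespace Vale.Agent.P146

open MeasureTheory ProbabilityTheory Matrix Real Finset Filter Topology
open P150 (gm spin Cfg)

variable {ι : Type} [Fintype ι] [DecidableEq ι] {J : Type} [Fintype J] {n : ℕ} {β : ℝ}

/-- weighted sum of products -/
noncomputable def KerT (a b : Fin n) (g : Fin n → ℝ) (q : ℕ) (w : ℕ → ℝ) : ℝ :=
  ∑ j : Fin q → Fin n, w (cn a b j) * ∏ k, g (j k)

theorem Ker_cn {q : ℕ} (a b i : Fin n) (j : Fin q → Fin n) :
    cn a b (Fin.cons i j : Fin (q + 1) → Fin n) = cn a b j + if i = a ∨ i = b then 1 else 0 := by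
  simp only [cn, card_filter, Fin.sum_univ_succ, Fin.cons_zero, Fin.cons_succ]
  exact add_comm _ _

theorem Ker_zero (a b : Fin n) (g : Fin n → ℝ) (w : ℕ → ℝ) : KerT a b g 0 w = w 0 := by
  simp [KerT, cn]

theorem Ker_succ {a b : Fin n} (hab : a ≠ b) (g : Fin n → ℝ) (q : ℕ) (w : ℕ → ℝ) :
    KerT a b g (q + 1) w = (g a + g b) * KerT a b g q (fun c => w (c + 1)) +
      (∑ i, g i - (g a + g b)) * KerT a b g q w := by
  have h1 : KerT a b g (q + 1) w = ∑ i, g i *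
      if i = a ∨ i = b then KerT a b g q (fun c => w (c + 1)) else KerT a b g q w := by
    rw [KerT, ← (Fin.consEquiv fun _ => Fin n).sum_comp, Fintype.sum_prod_type]
    refine sum_congr rfl fun i _ => ?_
    change ∑ j : Fin q → Fin n, w (cn a b (Fin.cons i j : Fin (q + 1) → Fin n)) *
      ∏ k, g ((Fin.cons i j : Fin (q + 1) → Fin n) k) = _
    simp only [Ker_cn, Fin.prod_univ_succ, Fin.cons_zero, Fin.cons_succ]
    split_ifs
    · rw [KerT, mul_sum]
      exact sum_congr rfl fun j _ => by ring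
    · rw [KerT, mul_sum]
      exact sum_congr rfl fun j _ => by rw [add_zero]; ring
  have h2 : (univ.filter fun i => i = a ∨ i = b) = {a, b} := by
    ext i
    simp
  have h3 := sum_filter_add_sum_filter_not univ (fun i => i = a ∨ i = b) g
  rw [h2, sum_pair hab] at h3
  simp only [mul_ite] at h1
  rw [h1, sum_ite, ← sum_mul, ← sum_mul, h2, sum_pair hab, ← h3, add_sub_cancel_left]

theorem Ker_pw (M : ℝ) (q : ℕ) : (q : ℝ) * (M * M ^ (q - 1)) = q * M ^ q := by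
  cases q with
  | zero => simp
  | succ q => rw [Nat.add_sub_cancel, pow_succ']

theorem Ker_pw2 (M : ℝ) (q : ℕ) :
    (q : ℝ) * (q - 1) * (M * M ^ (q - 2)) = q * (q - 1) * M ^ (q - 1) := by
  rcases q with _ | _ | q
  · simp
  · simp
  · rw [Nat.add_sub_cancel, show q + 1 + 1 - 2 = q from rfl, pow_succ']

section
variable {a b : Fin n} (hab : a ≠ b) {g : Fin n → ℝ} {u M : ℝ} (hu : |g a + g b| ≤ u)
  (hr : |∑ i, g i - (g a + g b)| + u ≤ M)
include hab hu hr

theorem Ker_step (q : ℕ) (w : ℕ → ℝ) {x y : ℝ} (hx : |KerT a b g q fun c => w (c + 1)| ≤ x)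
    (hy : |KerT a b g q w| ≤ y) : |KerT a b g (q + 1) w| ≤ u * x + (M - u) * y := by
  have h0 := (abs_nonneg _).trans hu
  rw [Ker_succ hab]
  refine (abs_add_le _ _).trans (add_le_add ?_ ?_) <;> rw [abs_mul]
  · exact mul_le_mul hu hx (abs_nonneg _) h0
  · exact mul_le_mul (by linarith) hy (abs_nonneg _)
      (by linarith [abs_nonneg (∑ i, g i - (g a + g b))])

theorem Ker_b0 (q : ℕ) : ∀ w : ℕ → ℝ, (∀ c, |w c| ≤ 1) → |KerT a b g q w| ≤ M ^ q := by
  induction q with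
  | zero => intro w hw; rw [Ker_zero, pow_zero]; exact hw 0
  | succ q ih =>
    intro w hw
    refine (Ker_step hab hu hr q w (ih _ fun c => hw _) (ih w hw)).trans_eq (by ring)

theorem Ker_b1 (q : ℕ) : ∀ w : ℕ → ℝ, (∀ c, |w c| ≤ 1) → w 0 = 0 →
    |KerT a b g q w| ≤ u * (q * M ^ (q - 1)) := by
  have h0 := (abs_nonneg _).trans hu
  have h1 : u ≤ M := by linarith [abs_nonneg (∑ i, g i - (g a + g b))]
  have hM := h0.trans h1
  induction q with
  | zero => intro w _ h; rw [Ker_zero, h]; simp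
  | succ q ih =>
    intro w hw h
    refine (Ker_step hab hu hr q w (Ker_b0 hab hu hr q _ fun c => hw _) (ih w hw h)).trans ?_
    have h2 := Ker_pw M q
    have h3 : 0 ≤ u * (u * (q * M ^ (q - 1))) := by positivity
    rw [Nat.add_sub_cancel]
    push_cast
    have h4 : M * (u * (q * M ^ (q - 1))) = u * (q * M ^ q) := by rw [← h2]; ring
    nlinarith

theorem Ker_b2 (q : ℕ) : ∀ w : ℕ → ℝ, (∀ c, |w c| ≤ 1) → w 0 = 0 → w 1 = 0 →
    |KerT a b g q w| ≤ u ^ 2 * (q * (q - 1) * M ^ (q - 2)) := by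
  have h0 := (abs_nonneg _).trans hu
  have h1 : u ≤ M := by linarith [abs_nonneg (∑ i, g i - (g a + g b))]
  have hM := h0.trans h1
  induction q with
  | zero => intro w _ h _; rw [Ker_zero, h]; simp
  | succ q ih =>
    intro w hw h h'
    have h5 := ih w hw h h'
    refine (Ker_step hab hu hr q w (Ker_b1 hab hu hr q _ (fun c => hw _) h') h5).trans ?_
    have h2 := Ker_pw2 M q
    have h3 := mul_nonneg h0 ((abs_nonneg _).trans h5)
    have h6 : 0 ≤ u ^ 2 * (q * M ^ (q - 1)) := by positivity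
    rw [show q + 1 - 2 = q - 1 from rfl]
    push_cast
    have h4 : M * (u ^ 2 * (q * (q - 1) * M ^ (q - 2))) = u ^ 2 * (q * (q - 1) * M ^ (q - 1)) := by
      rw [← h2]; ring
    nlinarith
end

theorem Ker_abs (σ : Cfg n) (i : Fin n) : |sp σ i| = 1 := by
  unfold sp spin
  split_ifs <;> simp

theorem Ker_u (a b : Fin n) (σ τ : Cfg n) :
    |sp σ a * sp τ a / n + sp σ b * sp τ b / n| ≤ 2 / n := by
  refine (abs_add_le _ _).trans_eq ?_
  simp only [abs_div, abs_mul, Ker_abs, Nat.abs_cast]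
  ring

theorem Ker_r (a b : Fin n) (σ τ : Cfg n) :
    |∑ i, sp σ i * sp τ i / n - (sp σ a * sp τ a / n + sp σ b * sp τ b / n)| + 2 / n ≤
      Mv σ τ := by
  have h := abs_sub (ov σ τ) (sp σ a * sp τ a / n + sp σ b * sp τ b / n)
  have h2 := Ker_u a b σ τ
  have h3 : (4 : ℝ) / n = 2 / n + 2 / n := by ring
  rw [← sum_div]
  unfold Mv
  unfold ov at h ⊢
  linarith

theorem Ker_eq {q : ℕ} (a b : Fin n) (σ τ : Cfg n) (P : ℕ → Prop) [DecidablePred P] :
    ∑ j : Fin q → Fin n with P (cn a b j), tn j (sp σ) * tn j (sp τ) =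
      KerT a b (fun i => sp σ i * sp τ i / n) q fun c => if P c then 1 else 0 := by
  rw [KerT, sum_filter]
  refine sum_congr rfl fun j _ => ?_
  rw [boole_mul, tn, tn, ← prod_mul_distrib]
  simp only [div_mul_div_comm, mul_self_sqrt (Nat.cast_nonneg n)]

theorem Ker_w (P : ℕ → Prop) [DecidablePred P] (c : ℕ) : |(if P c then 1 else 0 : ℝ)| ≤ 1 := by
  split_ifs <;> simp

theorem ker0 {q : ℕ} {a b : Fin n} (hab : a ≠ b) (σ τ : Cfg n) :
    |∑ j : Fin q → Fin n with cn a b j = 0, tn j (sp σ) * tn j (sp τ)| ≤ Mv σ τ ^ q := by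
  rw [Ker_eq a b σ τ (· = 0)]
  exact Ker_b0 hab (Ker_u a b σ τ) (Ker_r a b σ τ) q _ (Ker_w _)
theorem dtn0 {q : ℕ} {a b : Fin n} {j : Fin q → Fin n} (h : cn a b j = 0) (v : Fin n → ℝ) :
    dtn j (Ea a b) v = 0 := by
  refine sum_eq_zero fun k _ => ?_
  have h1 : ¬(j k = a ∨ j k = b) := fun h1 =>
    card_ne_zero_of_mem (mem_filter.2 ⟨mem_univ k, h1⟩) h
  rw [not_or] at h1
  have h2 : (Ea a b *ᵥ v) (j k) = 0 := by
    simp [Ea, sub_mulVec, single_mulVec, Function.update_of_ne h1.1, Function.update_of_ne h1.2]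
  rw [h2, zero_div, zero_mul]
theorem ker1 {q : ℕ} {a b : Fin n} (hab : a ≠ b) (σ τ : Cfg n) :
    |∑ j : Fin q → Fin n with cn a b j = 1, tn j (sp σ) * tn j (sp τ)| ≤
      2 * q / n * Mv σ τ ^ (q - 1) := by
  rw [Ker_eq a b σ τ (· = 1)]
  exact (Ker_b1 hab (Ker_u a b σ τ) (Ker_r a b σ τ) q _ (Ker_w _) (by simp)).trans_eq (by ring)
theorem ker2 {q : ℕ} {a b : Fin n} (hab : a ≠ b) (σ τ : Cfg n) :
    |∑ j : Fin q → Fin n with 2 ≤ cn a b j, tn j (sp σ) * tn j (sp τ)| ≤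
      8 * q ^ 2 / n ^ 2 * Mv σ τ ^ (q - 2) := by
  rw [Ker_eq a b σ τ (2 ≤ ·)]
  refine (Ker_b2 hab (Ker_u a b σ τ) (Ker_r a b σ τ) q _ (Ker_w _) (by simp) (by simp)).trans ?_
  have h0 : 0 ≤ Mv σ τ ^ (q - 2) := by unfold Mv; positivity
  have h1 : (q : ℝ) * (q - 1) ≤ 2 * q ^ 2 := by nlinarith [Nat.cast_nonneg (α := ℝ) q]
  calc _ ≤ (2 / n : ℝ) ^ 2 * (2 * q ^ 2 * Mv σ τ ^ (q - 2)) := by gcongr
    _ = _ := by ring

end Vale.Agent.P146
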