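import Vale.Agent.P146.Ker

namespace Vale.Agent.P146

open MeasureTheory ProbabilityTheory Matrix Real Finset Filter Topology
open P150 (gm spin Cfg)

variable {ι : Type} [Fintype ι] [DecidableEq ι] {J : Type} [Fintype J] {n : ℕ} {β : ℝ}

theorem Ker2_ea {a b : Fin n} (hab : a ≠ b) (v : Fin n → ℝ) : (Ea a b *ᵥ v) a = v b ∧
    (Ea a b *ᵥ v) b = -v a ∧ ∀ i, i ≠ a ∧ i ≠ b → (Ea a b *ᵥ v) i = 0 := by
  refine ⟨?_, ?_, fun i hi => ?_⟩
  · simp [Ea, sub_mulVec, single_mulVec, hab]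
  · simp [Ea, sub_mulVec, single_mulVec, hab.symm]
  · simp [Ea, sub_mulVec, single_mulVec, hi.1, hi.2]

theorem Ker2_dtn {q : ℕ} (j : Fin q → Fin n) (A : Mx n) (v : Fin n → ℝ) : dtn j A v =
    ∑ k, ∏ l, if l = k then (A *ᵥ v) (j l) / √n else v (j l) / √n := by
  refine sum_congr rfl fun k _ => ?_
  rw [← mul_prod_erase _ _ (mem_univ k), if_pos rfl]
  congr 1
  exact prod_congr rfl fun l hl => (if_neg (ne_of_mem_erase hl)).symm

theorem Ker2_prod {q : ℕ} (k k' : Fin q) (A B C y : ℝ) :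
    (∏ l, if l = k then (if l = k' then A else B) else if l = k' then C else y) =
      if k = k' then A * y ^ (q - 1) else B * C * y ^ (q - 2) := by
  rw [← mul_prod_erase _ _ (mem_univ k), if_pos rfl]
  split_ifs with h
  · subst h
    rw [prod_congr rfl fun l hl => by rw [if_neg (ne_of_mem_erase hl), if_neg (ne_of_mem_erase hl)]]
    simp
  · have m : k' ∈ univ.erase k := mem_erase.2 ⟨Ne.symm h, mem_univ _⟩
    rw [← mul_prod_erase _ _ m, if_neg (Ne.symm h), if_pos rfl, prod_congr rfl fun l hl => by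
      rw [if_neg (ne_of_mem_erase (mem_of_mem_erase hl)), if_neg (ne_of_mem_erase hl)],
      prod_const, card_erase_of_mem m, mul_assoc]
    simp [Nat.sub_sub]

theorem Ker2_gen {q : ℕ} {a b : Fin n} (hab : a ≠ b) (v w : Fin n → ℝ) (x : ℝ) {u d R : ℝ}
    (hu : u = (v a * w a + v b * w b) / n) (hd : d = (v b * w a - v a * w b) / n)
    (hR : R = (∑ i, v i * w i) / n) :
    ∑ j : Fin q → Fin n, x ^ cn a b j * (dtn j (Ea a b) v * dtn j (Ea a b) w) =
      q * (x * u * (R - u + x * u) ^ (q - 1)) -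
        (q ^ 2 - q) * (x ^ 2 * d ^ 2 * (R - u + x * u) ^ (q - 2)) := by
  have sq : ∀ s t : ℝ, s / √n * (t / √n) = s * t / n := fun s t => by
    rw [div_mul_div_comm, mul_self_sqrt (Nat.cast_nonneg n)]
  obtain ⟨v1, v2, v3⟩ := Ker2_ea hab v
  obtain ⟨w1, w2, w3⟩ := Ker2_ea hab w
  have e1 : ∀ j : Fin q → Fin n, x ^ cn a b j * (dtn j (Ea a b) v * dtn j (Ea a b) w) =
      ∑ k, ∑ k', ∏ l, (if j l = a ∨ j l = b then x else 1) *
        ((if l = k then (Ea a b *ᵥ v) (j l) / √n else v (j l) / √n) *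
          if l = k' then (Ea a b *ᵥ w) (j l) / √n else w (j l) / √n) := fun j => by
    rw [Ker2_dtn, Ker2_dtn, sum_mul_sum, mul_sum]
    refine sum_congr rfl fun k _ => ?_
    rw [mul_sum]
    refine sum_congr rfl fun k' _ => ?_
    rw [prod_mul_distrib, prod_mul_distrib]
    congr 1
    rw [prod_ite, prod_const, prod_const_one, mul_one, cn]
  have e2 : ∀ k k' l : Fin q, ∑ i, (if i = a ∨ i = b then x else 1) *
      ((if l = k then (Ea a b *ᵥ v) i / √n else v i / √n) *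
        if l = k' then (Ea a b *ᵥ w) i / √n else w i / √n) =
      if l = k then (if l = k' then x * u else x * d) else
        if l = k' then -(x * d) else R - u + x * u := fun k k' l => by
    split_ifs <;> simp only [sq]
    · rw [Fintype.sum_eq_add a b hab fun i hi => by simp [v3 i hi]]
      simp only [true_or, or_true, if_true, v1, v2, w1, w2, hu]
      ring
    · rw [Fintype.sum_eq_add a b hab fun i hi => by simp [v3 i hi]]
      simp only [true_or, or_true, if_true, v1, v2, hd]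
      ring
    · rw [Fintype.sum_eq_add a b hab fun i hi => by simp [w3 i hi]]
      simp only [true_or, or_true, if_true, w1, w2, hd]
      ring
    · rw [hR, sum_div, sub_add, eq_sub_iff_add_eq, ← eq_sub_iff_add_eq', ← sum_sub_distrib,
        Fintype.sum_eq_add a b hab fun i hi => by simp [hi.1, hi.2]]
      simp only [true_or, or_true, if_true, hu]
      ring
  rw [sum_congr rfl fun j _ => e1 j, sum_comm]
  have e3 : ∀ k : Fin q, ∑ j : Fin q → Fin n, ∑ k', ∏ l, (if j l = a ∨ j l = b then x else 1) *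
        ((if l = k then (Ea a b *ᵥ v) (j l) / √n else v (j l) / √n) *
          if l = k' then (Ea a b *ᵥ w) (j l) / √n else w (j l) / √n) =
      x * u * (R - u + x * u) ^ (q - 1) -
        (q - 1) * (x ^ 2 * d ^ 2 * (R - u + x * u) ^ (q - 2)) := fun k => by
    rw [sum_comm, sum_congr rfl fun k' _ => by
      rw [← Fintype.piFinset_univ, ← prod_univ_sum (fun _ => univ) fun l i =>
        (if i = a ∨ i = b then x else 1) *
          ((if l = k then (Ea a b *ᵥ v) i / √n else v i / √n) *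
            if l = k' then (Ea a b *ᵥ w) i / √n else w i / √n),
        prod_congr rfl fun l _ => e2 k k' l, Ker2_prod],
      ← add_sum_erase _ _ (mem_univ k), if_pos rfl,
      sum_congr rfl fun l hl => if_neg (ne_of_mem_erase hl).symm, sum_const,
      card_erase_of_mem (mem_univ k), card_univ, Fintype.card_fin, nsmul_eq_mul,
      Nat.cast_pred k.pos]
    ring
  rw [sum_congr rfl fun k _ => e3 k, sum_const, card_univ, Fintype.card_fin, nsmul_eq_mul]
  ring

theorem Ker2_one {q : ℕ} {a b : Fin n} (hab : a ≠ b) (v w : Fin n → ℝ) {u R : ℝ}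
    (hu : u = (v a * w a + v b * w b) / n) (hR : R = (∑ i, v i * w i) / n) :
    ∑ j : Fin q → Fin n with cn a b j = 1, dtn j (Ea a b) v * dtn j (Ea a b) w =
      q * (u * (R - u) ^ (q - 1)) := by
  obtain ⟨d, hd⟩ : ∃ d, d = (v b * w a - v a * w b) / n := ⟨_, rfl⟩
  have h1 := HasDerivAt.fun_sum (u := univ) fun (j : Fin q → Fin n) _ =>
    (hasDerivAt_pow (cn a b j) (0 : ℝ)).mul_const (dtn j (Ea a b) v * dtn j (Ea a b) w)
  simp only [Ker2_gen hab v w _ hu hd hR] at h1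
  have y := ((hasDerivAt_id' (0 : ℝ)).mul_const u).const_add (R - u)
  have h2 := ((((hasDerivAt_id' (0 : ℝ)).mul_const u).mul (y.pow (q - 1))).const_mul (q : ℝ)).sub
    ((((hasDerivAt_pow 2 (0 : ℝ)).mul_const (d ^ 2)).mul (y.pow (q - 2))).const_mul
      ((q : ℝ) ^ 2 - q))
  have h3 := h1.unique h2
  simp only [zero_mul, add_zero, one_mul, Pi.pow_apply] at h3
  rw [sum_filter]
  refine Eq.trans (sum_congr rfl fun j _ => ?_) (h3.trans (by simp))
  rcases cn a b j with _ | _ | m <;> simp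

theorem Ker2_sp (σ : Cfg n) (i : Fin n) : |sp σ i| = 1 := by
  unfold sp spin
  split_ifs <;> simp

theorem Ker2_bd (a b : Fin n) (σ τ : Cfg n) :
    |(sp σ a * sp τ a + sp σ b * sp τ b) / n| ≤ 2 / n ∧
      |(sp σ b * sp τ a - sp σ a * sp τ b) / n| ≤ 2 / n := by
  constructor <;> rw [abs_div, Nat.abs_cast] <;> refine div_le_div_of_nonneg_right ?_ (by positivity)
  · refine (abs_add_le _ _).trans ?_
    norm_num [abs_mul, Ker2_sp]
  · refine (abs_sub _ _).trans ?_
    norm_num [abs_mul, Ker2_sp]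

theorem Ker2_M (σ τ : Cfg n) {u : ℝ} (hu : |u| ≤ 2 / n) :
    |ov σ τ| ≤ Mv σ τ ∧ |ov σ τ - u| ≤ Mv σ τ := by
  have h : (0 : ℝ) ≤ 2 / n := by positivity
  have e : (4 : ℝ) / n = 2 / n + 2 / n := by ring
  have := abs_sub (ov σ τ) u
  unfold Mv
  constructor <;> linarith

theorem ker1' {q : ℕ} {a b : Fin n} (hab : a ≠ b) (σ τ : Cfg n) :
    |∑ j : Fin q → Fin n with cn a b j = 1, dtn j (Ea a b) (sp σ) * dtn j (Ea a b) (sp τ)| ≤
      2 * q / n * Mv σ τ ^ (q - 1) := by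
  have h1 := (Ker2_bd a b σ τ).1
  rw [Ker2_one hab _ _ rfl (R := ov σ τ) rfl, abs_mul, abs_mul, abs_pow, Nat.abs_cast,
    show 2 * (q : ℝ) / n * Mv σ τ ^ (q - 1) = q * (2 / n * Mv σ τ ^ (q - 1)) by ring]
  gcongr
  exact (Ker2_M σ τ h1).2

theorem ker2' {q : ℕ} {a b : Fin n} (hab : a ≠ b) (σ τ : Cfg n) :
    |∑ j : Fin q → Fin n with 2 ≤ cn a b j, dtn j (Ea a b) (sp σ) * dtn j (Ea a b) (sp τ)| ≤
      8 * q ^ 2 / n ^ 2 * Mv σ τ ^ (q - 2) := by
  obtain ⟨h1, h2⟩ := Ker2_bd a b σ τ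
  have e1 := Ker2_gen (q := q) hab (sp σ) (sp τ) 1 rfl rfl (R := ov σ τ) rfl
  have e2 := Ker2_one (q := q) hab (sp σ) (sp τ) rfl (R := ov σ τ) rfl
  obtain ⟨m1, m2⟩ := Ker2_M σ τ h1
  generalize (sp σ a * sp τ a + sp σ b * sp τ b) / n = u at *
  generalize (sp σ b * sp τ a - sp σ a * sp τ b) / n = d at *
  have e3 : ∑ j : Fin q → Fin n with 2 ≤ cn a b j, dtn j (Ea a b) (sp σ) * dtn j (Ea a b) (sp τ) =
      q * (u * (ov σ τ ^ (q - 1) - (ov σ τ - u) ^ (q - 1))) -
        (q ^ 2 - q) * (d ^ 2 * ov σ τ ^ (q - 2)) := by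
    simp only [one_pow, one_mul, sub_add_cancel] at e1
    rw [mul_sub u, mul_sub, sub_right_comm, ← e1, ← e2, sum_filter, sum_filter, ← sum_sub_distrib]
    refine sum_congr rfl fun j _ => ?_
    by_cases h : cn a b j = 0
    · simp [dtn0 h]
    · split_ifs <;> first | omega | simp
  have M0 : 0 ≤ Mv σ τ := (abs_nonneg _).trans m1
  have b1 : |ov σ τ ^ (q - 1) - (ov σ τ - u) ^ (q - 1)| ≤ 2 / n * q * Mv σ τ ^ (q - 2) := by
    refine (abs_pow_sub_pow_le _ _ _).trans ?_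
    rw [sub_sub_cancel, Nat.sub_sub]
    gcongr
    · omega
    · exact max_le m1 m2
  have b2 : |(q : ℝ) ^ 2 - q| ≤ q ^ 2 := by
    have : (q : ℝ) ≤ q ^ 2 := by exact_mod_cast Nat.le_self_pow two_ne_zero q
    rw [abs_of_nonneg (by linarith)]
    linarith [Nat.cast_nonneg (α := ℝ) q]
  rw [e3]
  refine (abs_sub _ _).trans ?_
  rw [abs_mul, abs_mul, abs_mul, abs_mul, abs_pow, abs_pow, Nat.abs_cast,
    show 8 * (q : ℝ) ^ 2 / n ^ 2 * Mv σ τ ^ (q - 2) = q * (2 / n * (2 / n * q * Mv σ τ ^ (q - 2))) +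
      q ^ 2 * ((2 / n) ^ 2 * Mv σ τ ^ (q - 2)) by ring]
  gcongr

end Vale.Agent.P146
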