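import Vale.Agent.P146.Sym
import Vale.Agent.P146.ERot

namespace Vale.Agent.P146

open MeasureTheory ProbabilityTheory Matrix Real Finset Filter Topology
open P150 (gm spin Cfg)

variable {ι : Type} [Fintype ι] [DecidableEq ι] {J : Type} [Fintype J] {n : ℕ} {β : ℝ}

theorem vo_cn0 {q : ℕ} {a b : Fin n} {j : Fin q → Fin n} (hj : cn a b j = 0) (k : Fin q) :
    j k ≠ a ∧ j k ≠ b := by
  simp only [cn, card_eq_zero, filter_eq_empty_iff, mem_univ, true_imp_iff, not_or] at hj
  exact @hj k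

theorem vo_xo {q : ℕ} {a b : Fin n} (hab : a ≠ b) {j : Fin q → Fin n} (hj : cn a b j = 0) (θ : ℝ)
    (y : Om n) : xo β q (Gv a b θ) j y = xi β q j (act (Gv a b θ) y) := by
  unfold xo xi
  congr 1
  funext σ
  unfold tn
  refine prod_congr rfl fun k _ => ?_
  rw [er_mv hab, if_neg (vo_cn0 hj k).1, if_neg (vo_cn0 hj k).2]

theorem vo_sw {q : ℕ} {a b : Fin n} {j : Fin q → Fin n} (hj : cn a b j = 0) (y : Om n) :
    xi β q j (sw a b y) = xi β q j y := by
  rw [xi_sw]
  congr 1
  funext k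
  exact Equiv.swap_apply_of_ne_of_ne (vo_cn0 hj k).1 (vo_cn0 hj k).2

theorem vo_ee_sub (E : Finset ι) {f g : (ι → ℝ) → ℝ} (hf : PG f) (hg : PG g) (c d : ℝ)
    (x : ι → ℝ) : EE E (fun y => c * f y + d * g y) x = c * EE E f x + d * EE E g x := by
  unfold EE
  rw [integral_add ((pg_glue hf _ x).int.const_mul _) ((pg_glue hg _ x).int.const_mul _),
    integral_const_mul, integral_const_mul]

theorem v0off {q : ℕ} {a b : Fin n} (hab : a ≠ b) {j : Fin q → Fin n} (hj : cn a b j = 0)
    {e : Fin n × Fin n} (h : e = (a, b) ∨ e = (b, a)) (x : Om n) :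
    EE (ES a b) (pd e (Yg β q (Ea a b) j)) x = 0 := by
  have hY := al_Yg (β := β) q (Ea a b) j
  have hX := (al_xi (β := β) q j).pg
  have he : e ∈ ES a b := by rcases h with rfl | rfl <;> simp [ES]
  have hba := hab.symm
  rw [ee_stein he hY.diff hY.pg (hY.pd e).pg,
    er_key hab q j (h := fun y => y e) (p := fun z => z e * xi β q j z)
      (r := fun z => 1 * (z (b, b) * xi β q j z) + (-1) * (z (a, a) * xi β q j z))
      (t := fun z => (-1) * (z (e.2, e.1) * xi β q j z)) (PG.coord e) ((PG.coord e).mul hX)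
      (((PG.const _).mul ((PG.coord _).mul hX)).add ((PG.const _).mul ((PG.coord _).mul hX)))
      ((PG.const _).mul ((PG.coord _).mul hX)) 2,
    vo_ee_sub _ ((PG.coord _).mul hX) ((PG.coord _).mul hX),
    ← er_sw (a := a) (b := b) ((PG.coord (a, a)).mul hX)]
  · simp [vo_sw hj, sw]
  · intro θ y
    rw [vo_xo hab hj, er_inv hab θ y e]
    generalize act (Gv a b θ) y = z
    rcases h with rfl | rfl <;> simp [er_mv hab, hab, hba] <;> ring

end Vale.Agent.P146
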