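import Vale.Agent.P146.Sym
import Vale.Agent.P146.ERot
import Vale.Agent.P146.VOff

namespace Vale.Agent.P146

open MeasureTheory ProbabilityTheory Matrix Real Finset Filter Topology
open P150 (gm spin Cfg)

variable {ι : Type} [Fintype ι] [DecidableEq ι] {J : Type} [Fintype J] {n : ℕ} {β : ℝ}

/-- the swapped edge -/
def v2s (a b : Fin n) (e : Fin n × Fin n) : Fin n × Fin n := (Equiv.swap a b e.1, Equiv.swap a b e.2)

theorem v2s_s (a b : Fin n) (e : Fin n × Fin n) : v2s a b (v2s a b e) = e := by simp [v2s]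

theorem v2_sw (a b : Fin n) (y : Om n) (e : Fin n × Fin n) : sw a b y e = y (v2s a b e) := rfl

theorem v2_edge {a b : Fin n} (hab : a ≠ b) {e : Fin n × Fin n} (h : e ∈ ES a b \ BS a b) :
    (∀ θ (y : Om n), y e = cos θ * act (Gv a b θ) y e +
      -fl a e * sin θ * act (Gv a b θ) y (v2s a b e)) ∧
    (fl a e = 1 ∨ fl a e = -1) ∧ fl b e = -fl a e ∧ fl a (v2s a b e) = -fl a e := by
  obtain ⟨i, k⟩ := e
  have hba := hab.symm
  simp only [ES, BS, Finset.mem_sdiff, Finset.mem_filter, Finset.mem_univ, true_and] at h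
  have hc : ((i = a ∨ i = b) ∧ k ≠ a ∧ k ≠ b) ∨ ((k = a ∨ k = b) ∧ i ≠ a ∧ i ≠ b) := by tauto
  refine ⟨fun θ y => ?_, ?_⟩
  · rw [er_inv hab θ y (i, k)]
    generalize act (Gv a b θ) y = z
    rcases hc with ⟨rfl | rfl, h1, h2⟩ | ⟨rfl | rfl, h1, h2⟩ <;>
      simp [er_mv hab, hab, hba, h1, h2, fl, sg, v2s, Equiv.swap_apply_of_ne_of_ne] <;> ring
  · rcases hc with ⟨rfl | rfl, h1, h2⟩ | ⟨rfl | rfl, h1, h2⟩ <;>
      simp [hab, hba, h1, h2, fl, sg, v2s, Equiv.swap_apply_of_ne_of_ne]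

theorem v2_pd {f : Om n → ℝ} (hf : Differentiable ℝ f) (e e' : Fin n × Fin n) :
    pd e (fun y => y e' * f y) = fun y =>
      1 * (y e' * pd e f y) + (if e' = e then 1 else 0) * (1 * f y) := by
  funext y
  unfold pd
  have h1 : HasFDerivAt (fun y : Om n => y e') (ContinuousLinearMap.proj (R := ℝ) (φ := fun _ => ℝ) e') y :=
    hasFDerivAt_apply e' y
  rw [(h1.fun_mul (hf y).hasFDerivAt).fderiv]
  simp [Pi.single_apply]

theorem v02 {q : ℕ} {a b : Fin n} (hab : a ≠ b) {j : Fin q → Fin n} (hj : cn a b j = 0)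
    {e₁ e₂ : Fin n × Fin n} (h1 : e₁ ∈ ES a b \ BS a b) (h2 : e₂ ∈ ES a b \ BS a b) (x : Om n) :
    EE (ES a b) (pd e₂ (pd e₁ (Yg β q (Ea a b) j))) x = 0 := by
  have hY := al_Yg (β := β) q (Ea a b) j
  have hX := (al_xi (β := β) q j).pg
  obtain ⟨a1, a2, -, a4⟩ := v2_edge hab h1
  obtain ⟨b1, b2, -, -⟩ := v2_edge hab h2
  have hc : ∀ e e' : Fin n × Fin n, PG fun z : Om n => z e * z e' * xi β q j z := fun e e' =>
    ((PG.coord e).mul (PG.coord e')).mul hX
  have z0 : EE (ES a b) (fun y => 1 * Yg β q (Ea a b) j y) x = 0 := by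
    rw [er_key hab q j (h := fun _ => 1) (p := xi β q j) (r := fun _ => 0) (t := fun _ => 0)
      (PG.const _) hX (PG.const _) (PG.const _) 0]
    · simp [EE]
    · intro θ y
      simp [vo_xo hab hj]
  have z1 : EE (ES a b) (fun y => y e₁ * y e₂ * Yg β q (Ea a b) j y) x = 0 := by
    rw [er_key hab q j (h := fun y => y e₁ * y e₂) (p := fun z => z e₁ * z e₂ * xi β q j z)
      (r := fun z => -fl a e₂ * (z e₁ * z (v2s a b e₂) * xi β q j z) +
        -fl a e₁ * (z (v2s a b e₁) * z e₂ * xi β q j z))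
      (t := fun z => (fl a e₁ * fl a e₂) * (z (v2s a b e₁) * z (v2s a b e₂) * xi β q j z))
      ((PG.coord _).mul (PG.coord _)) (hc _ _)
      (((PG.const _).mul (hc _ _)).add ((PG.const _).mul (hc _ _))) ((PG.const _).mul (hc _ _)) 2,
      vo_ee_sub _ (hc _ _) (hc _ _), ← er_sw (a := a) (b := b) (hc e₁ _)]
    · simp only [v2_sw, v2s_s, vo_sw hj]
      by_cases hs : fl a e₁ = fl a e₂
      · rw [er_fl (Or.inl rfl) (hc _ _)]
        · simp
        · intro z
          rw [xi_fl, prod_eq_one fun k _ => by simp [sg, (vo_cn0 hj k).1]]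
          simp only [Pi.mul_apply, a4, ← hs]
          rcases a2 with h | h <;> rw [h] <;> ring
      · have : fl a e₂ = -fl a e₁ := by
          rcases a2 with h | h <;> rcases b2 with h' | h' <;> simp_all
        rw [this]; ring
    · intro θ y
      rw [vo_xo hab hj, a1 θ y, b1 θ y]
      ring
  have hP := hY.pd e₁
  have hQ : Al β fun y => y e₂ * Yg β q (Ea a b) j y := (Al.coord e₂).mul hY
  have s1 := ee_stein (Finset.mem_sdiff.1 h1).1 hQ.diff hQ.pg (hQ.pd e₁).pg x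
  rw [v2_pd hY.diff, vo_ee_sub _ ((PG.coord _).mul hP.pg) ((PG.const _).mul hY.pg), z0] at s1
  rw [ee_stein (Finset.mem_sdiff.1 h2).1 hP.diff hP.pg (hP.pd e₂).pg]
  simp only [← mul_assoc, z1] at s1
  simpa using s1

end Vale.Agent.P146
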