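import Vale.Agent.P146.Sym
import Vale.Agent.P146.Van

namespace Vale.Agent.P146

open MeasureTheory ProbabilityTheory Matrix Real Finset Filter Topology
open P150 (gm spin Cfg)

variable {ι : Type} [Fintype ι] [DecidableEq ι] {J : Type} [Fintype J] {n : ℕ} {β : ℝ}

theorem vp_pm (c : Fin n) (e : Fin n × Fin n) : fl c e = 1 ∨ fl c e = -1 := by
  unfold fl sg
  split_ifs <;> simp

theorem vp_out {a b c : Fin n} (hc : c = a ∨ c = b) (e : Fin n × Fin n) (he : e ∉ ES a b) :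
    fl c e = 1 := by
  simp only [ES, Finset.mem_filter, Finset.mem_univ, true_and, not_or] at he
  rcases hc with rfl | rfl <;> simp [fl, sg, he.1, he.2.1, he.2.2.1, he.2.2.2]

theorem vp_Y {q : ℕ} {a b c : Fin n} (hab : a ≠ b) (hc : c = a ∨ c = b) {j : Fin q → Fin n}
    (hj : ∀ k, j k ≠ c) (x : Om n) :
    Yg β q (Ea a b) j (fl c * x) = -1 * Yg β q (Ea a b) j x := by
  rw [Yg_fl, Ea_fl, Yg_smul, Finset.prod_eq_one fun k _ => by simp [sg, hj k], one_mul]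
  rcases hc with rfl | rfl <;> simp [sg, hab, hab.symm]

theorem vp_cn {q : ℕ} {a b c : Fin n} (hc : c = a ∨ c = b) {j : Fin q → Fin n}
    (hj : cn a b j = 0) (k : Fin q) : j k ≠ c := by
  intro h
  have := Finset.filter_eq_empty_iff.1 (Finset.card_eq_zero.1 hj) (Finset.mem_univ k)
  exact this (h ▸ hc)

theorem vp_two {a b : Fin n} (hab : a ≠ b) {e : Fin n × Fin n} (h : e ∈ ES a b \ BS a b) :
    fl a e * fl b e = -1 := by
  obtain ⟨u, v⟩ := e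
  simp only [ES, BS, Finset.mem_sdiff, Finset.mem_filter, Finset.mem_univ, true_and] at h
  obtain ⟨h1, h2⟩ := h
  by_cases c1 : u = a <;> by_cases c2 : u = b <;> by_cases c3 : v = a <;> by_cases c4 : v = b <;>
    simp_all [fl, sg]

theorem v00 {q : ℕ} {a b : Fin n} (hab : a ≠ b) {j : Fin q → Fin n} (hj : cn a b j ≤ 1)
    (x : Om n) : EE (ES a b) (Yg β q (Ea a b) j) x = 0 := by
  have : ∃ c, (c = a ∨ c = b) ∧ ∀ k, j k ≠ c := by
    by_contra h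
    push Not at h
    obtain ⟨k1, h1⟩ := h a (Or.inl rfl)
    obtain ⟨k2, h2⟩ := h b (Or.inr rfl)
    have := Finset.card_le_one.1 hj k1 (Finset.mem_filter.2 ⟨Finset.mem_univ _, Or.inl h1⟩)
      k2 (Finset.mem_filter.2 ⟨Finset.mem_univ _, Or.inr h2⟩)
    exact hab (by rw [← h1, ← h2, this])
  obtain ⟨c, hc, hk⟩ := this
  exact ee_sign (al_Yg q _ j).pg _ (vp_pm c) (vp_out hc)
    (fun x => by rw [vp_Y hab hc hk, neg_one_mul]) x

theorem v01 {q : ℕ} {a b : Fin n} (hab : a ≠ b) {j : Fin q → Fin n} (hj : cn a b j = 0)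
    {e : Fin n × Fin n} (h1 : e ≠ (a, b)) (h2 : e ≠ (b, a)) (x : Om n) :
    EE (ES a b) (pd e (Yg β q (Ea a b) j)) x = 0 := by
  have : ∃ c, (c = a ∨ c = b) ∧ fl c e = 1 := by
    obtain ⟨u, v⟩ := e
    by_cases ha : fl a (u, v) = 1
    · exact ⟨a, Or.inl rfl, ha⟩
    refine ⟨b, Or.inr rfl, ?_⟩
    by_cases c1 : u = a <;> by_cases c2 : u = b <;> by_cases c3 : v = a <;>
      by_cases c4 : v = b <;> simp_all [fl, sg]
  obtain ⟨c, hc, he⟩ := this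
  refine ee_sign ((al_Yg q _ j).pd e).pg _ (vp_pm c) (vp_out hc) (fun x => ?_) x
  rw [pd_sign (al_Yg q _ j).diff (vp_pm c) (vp_Y hab hc (vp_cn hc hj)), he]
  ring

theorem v03 {q : ℕ} {a b : Fin n} (hab : a ≠ b) {j : Fin q → Fin n} (hj : cn a b j = 0)
    {e₁ e₂ e₃ : Fin n × Fin n} (h1 : e₁ ∈ ES a b \ BS a b) (h2 : e₂ ∈ ES a b \ BS a b)
    (h3 : e₃ ∈ ES a b \ BS a b) (x : Om n) :
    EE (ES a b) (pd e₃ (pd e₂ (pd e₁ (Yg β q (Ea a b) j)))) x = 0 := by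
  have : ∃ c, (c = a ∨ c = b) ∧ fl c e₁ * fl c e₂ * fl c e₃ = 1 := by
    by_cases ha : fl a e₁ * fl a e₂ * fl a e₃ = 1
    · exact ⟨a, Or.inl rfl, ha⟩
    refine ⟨b, Or.inr rfl, ?_⟩
    have t1 := vp_two hab h1
    have t2 := vp_two hab h2
    have t3 := vp_two hab h3
    have t4 : fl a e₁ * fl a e₂ * fl a e₃ = -1 := by
      rcases vp_pm a e₁ with s1 | s1 <;> rcases vp_pm a e₂ with s2 | s2 <;>
        rcases vp_pm a e₃ with s3 | s3 <;> simp_all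
    have t5 : (fl a e₁ * fl a e₂ * fl a e₃) * (fl b e₁ * fl b e₂ * fl b e₃) =
        (fl a e₁ * fl b e₁) * (fl a e₂ * fl b e₂) * (fl a e₃ * fl b e₃) := by ring
    rw [t1, t2, t3, t4] at t5
    linarith
  obtain ⟨c, hc, he⟩ := this
  have A0 := al_Yg (β := β) q (Ea a b) j
  have s1 := pd_sign A0.diff (vp_pm c) (vp_Y hab hc (vp_cn hc hj)) e₁
  have s2 := pd_sign (A0.pd e₁).diff (vp_pm c) s1 e₂
  have s3 := pd_sign ((A0.pd e₁).pd e₂).diff (vp_pm c) s2 e₃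
  refine ee_sign (((A0.pd e₁).pd e₂).pd e₃).pg _ (vp_pm c) (vp_out hc) (fun x => ?_) x
  rw [s3, show -1 * fl c e₁ * fl c e₂ * fl c e₃ = -(fl c e₁ * fl c e₂ * fl c e₃) by ring, he]
  ring

end Vale.Agent.P146
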