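import Vale.Agent.P146.Tay
import Vale.Agent.P146.Van
import Vale.Agent.P146.Al

namespace Vale.Agent.P146

open MeasureTheory ProbabilityTheory Matrix Real Finset Filter Topology
open P150 (gm spin Cfg)

variable {ι : Type} [Fintype ι] [DecidableEq ι] {J : Type} [Fintype J] {n : ℕ} {β : ℝ}

lemma wd_eq {K : Type} {E B : Finset ι} (hB : B ⊆ E) (G : K → (ι → ℝ) → ℝ) {p : K × ι}
    (h : p.2 ∈ B) : dd E G p = dd B G p := by
  unfold dd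
  rw [if_pos h, if_pos (hB h)]

lemma wd_congr {K : Type} (E : Finset ι) {G G' : K → (ι → ℝ) → ℝ} {p : K × ι}
    (h : G p.1 = G' p.1) : dd E G p = dd E G' p := by
  unfold dd
  rw [h]

lemma wd_in {K : Type} {E : Finset ι} (G : K → (ι → ℝ) → ℝ) {p : K × ι}
    (h : p.2 ∈ E) : dd E G p = pd p.2 (G p.1) := by
  unfold dd
  rw [if_pos h]

lemma wd_out {K : Type} {E : Finset ι} (G : K → (ι → ℝ) → ℝ) {p : K × ι}
    (h : p.2 ∉ E) : dd E G p = 0 := by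
  unfold dd
  rw [if_neg h]

lemma wd_zero {K : Type} (E : Finset ι) {G : K → (ι → ℝ) → ℝ} {p : K × ι}
    (h : G p.1 = 0) : dd E G p = 0 := by
  unfold dd
  rw [h]
  split_ifs
  · funext x
    exact al_pd_const 0 _ x
  · rfl

lemma wd_bf0 (ρ : ι → ℝ) : Bf ρ (0 : (ι → ℝ) → ℝ) 0 = 0 := by
  simp [Bf]

theorem wd1 {E B : Finset (Fin n × Fin n)} (hB : B ⊆ E) {t : ℝ} (ht : t ∈ Set.Icc (0 : ℝ) 1)
    {F : J → Om n → ℝ} (hF : ∀ j, Al β (F j))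
    (h : ∀ j, ∀ e ∈ E \ B, ∀ x, EE E (pd e (F j)) x = 0) :
    Qb (rr E 0 t) (dd E F) (dd E F) = Qb (rr E 0 t) (dd B F) (dd B F) := by
  unfold Qb
  refine sum_congr rfl fun p _ => ?_
  by_cases h1 : p.2 ∈ B
  · rw [wd_eq hB F h1]
  · rw [wd_out F h1, wd_bf0]
    by_cases h2 : p.2 ∈ E
    · rw [wd_in F h2]
      exact bf_zero ((hF _).pd _).pg ((hF _).pd _).pg E ht (h _ _ (mem_sdiff.2 ⟨h2, h1⟩))
    · rw [wd_out F h2, wd_bf0]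
theorem wd2 {E B : Finset (Fin n × Fin n)} (hB : B ⊆ E) {t : ℝ} (ht : t ∈ Set.Icc (0 : ℝ) 1)
    {F : J → Om n → ℝ} (hF : ∀ j, Al β (F j))
    (h : ∀ j, ∀ e₁ ∈ E \ B, ∀ e₂ ∈ E \ B, ∀ x, EE E (pd e₂ (pd e₁ (F j))) x = 0) :
    Qb (rr E 0 t) (dd E (dd E F)) (dd E (dd E F)) ≤
      Qb (rr E 0 t) (dd B (dd E F)) (dd B (dd E F)) +
        Qb (rr E 0 t) (dd E (dd B F)) (dd E (dd B F)) := by
  have hu := u01_rr E (⟨le_rfl, zero_le_one⟩ : (0 : ℝ) ∈ Set.Icc (0 : ℝ) 1) ht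
  unfold Qb
  rw [← sum_add_distrib]
  refine sum_le_sum fun p _ => ?_
  have n1 := bf_nonneg (al_dd (al_dd hF E) B p).pg hu
  have n2 := bf_nonneg (al_dd (al_dd hF B) E p).pg hu
  by_cases h2 : p.2 ∈ B
  · rw [wd_eq hB _ h2]
    linarith
  by_cases h1 : p.1.2 ∈ B
  · rw [wd_congr E (wd_eq hB F h1)]
    linarith
  suffices hz : Bf (rr E 0 t) (dd E (dd E F) p) (dd E (dd E F) p) = 0 by linarith
  by_cases g2 : p.2 ∈ E
  · by_cases g1 : p.1.2 ∈ E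
    · rw [wd_in _ g2, wd_in _ g1]
      exact bf_zero (((hF _).pd _).pd _).pg (((hF _).pd _).pd _).pg E ht
        (h _ _ (mem_sdiff.2 ⟨g1, h1⟩) _ (mem_sdiff.2 ⟨g2, h2⟩))
    · rw [wd_zero E (wd_out F g1), wd_bf0]
  · rw [wd_out _ g2, wd_bf0]
theorem wd3 {E B : Finset (Fin n × Fin n)} (hB : B ⊆ E) {t : ℝ} (ht : t ∈ Set.Icc (0 : ℝ) 1)
    {F : J → Om n → ℝ} (hF : ∀ j, Al β (F j))
    (h : ∀ j, ∀ e₁ ∈ E \ B, ∀ e₂ ∈ E \ B, ∀ e₃ ∈ E \ B, ∀ x,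
      EE E (pd e₃ (pd e₂ (pd e₁ (F j)))) x = 0) :
    Qb (rr E 0 t) (dd E (dd E (dd E F))) (dd E (dd E (dd E F))) ≤
      Qb (rr E 0 t) (dd B (dd E (dd E F))) (dd B (dd E (dd E F))) +
        Qb (rr E 0 t) (dd E (dd B (dd E F))) (dd E (dd B (dd E F))) +
        Qb (rr E 0 t) (dd E (dd E (dd B F))) (dd E (dd E (dd B F))) := by
  have hu := u01_rr E (⟨le_rfl, zero_le_one⟩ : (0 : ℝ) ∈ Set.Icc (0 : ℝ) 1) ht
  unfold Qb
  rw [← sum_add_distrib, ← sum_add_distrib]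
  refine sum_le_sum fun p _ => ?_
  have n1 := bf_nonneg (al_dd (al_dd (al_dd hF E) E) B p).pg hu
  have n2 := bf_nonneg (al_dd (al_dd (al_dd hF E) B) E p).pg hu
  have n3 := bf_nonneg (al_dd (al_dd (al_dd hF B) E) E p).pg hu
  by_cases h3 : p.2 ∈ B
  · rw [wd_eq hB _ h3]
    linarith
  by_cases h2 : p.1.2 ∈ B
  · rw [wd_congr E (wd_eq hB (dd E F) h2)]
    linarith
  by_cases h1 : p.1.1.2 ∈ B
  · rw [wd_congr E (wd_congr E (wd_eq hB F h1))]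
    linarith
  suffices hz : Bf (rr E 0 t) (dd E (dd E (dd E F)) p) (dd E (dd E (dd E F)) p) = 0 by linarith
  by_cases g3 : p.2 ∈ E
  · by_cases g2 : p.1.2 ∈ E
    · by_cases g1 : p.1.1.2 ∈ E
      · rw [wd_in _ g3, wd_in _ g2, wd_in _ g1]
        exact bf_zero ((((hF _).pd _).pd _).pd _).pg ((((hF _).pd _).pd _).pd _).pg E ht
          (h _ _ (mem_sdiff.2 ⟨g1, h1⟩) _ (mem_sdiff.2 ⟨g2, h2⟩) _ (mem_sdiff.2 ⟨g3, h3⟩))
      · rw [wd_zero E (wd_zero E (wd_out F g1)), wd_bf0]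
    · rw [wd_zero E (wd_out _ g2), wd_bf0]
  · rw [wd_out _ g3, wd_bf0]

end Vale.Agent.P146
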