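import Vale.Agent.P146.ClB
import Vale.Agent.P146.ClY
import Vale.Agent.P146.Wd
import Vale.Agent.P146.VPar
import Vale.Agent.P146.VOff
import Vale.Agent.P146.V02

namespace Vale.Agent.P146

open MeasureTheory ProbabilityTheory Matrix Real Finset Filter Topology
open P150 (gm spin Cfg)

variable {ι : Type} [Fintype ι] [DecidableEq ι] {J : Type} [Fintype J] {n : ℕ} {β : ℝ}

theorem l0_pd0 (e : ι) : pd e (0 : (ι → ℝ) → ℝ) = 0 := by
  funext x; simp [pd]

theorem l0_ee0 (E : Finset ι) (x : ι → ℝ) : EE E (0 : (ι → ℝ) → ℝ) x = 0 := by simp [EE]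

theorem l0_mv {a b : Fin n} (hab : a ≠ b) (σ τ : Cfg n) : Mv σ τ ≤ 3 := by
  have h2 : (2 : ℝ) ≤ n := by
    have : 2 ≤ n := by have := a.2; have := b.2; have := Fin.val_ne_of_ne hab; omega
    exact_mod_cast this
  have := abs_ov σ τ
  have : (4 : ℝ) / n ≤ 2 := by rw [div_le_iff₀ (by linarith)]; linarith
  unfold Mv; linarith

theorem l0_e2 {a b : Fin n} (hab : a ≠ b) {t : ℝ} (ht : t ∈ Set.Icc (0 : ℝ) 1) (e : ℕ) :
    E2 β (fun _ => t) (fun σ τ : Cfg n => Mv σ τ ^ (e + 1)) ≤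
      3 * E2 β (fun _ => t) (fun σ τ : Cfg n => Mv σ τ ^ e) := by
  have hρ : U01 (fun _ : Fin n × Fin n => t) := fun _ => ht
  have e1 := e2_lin (β := β) hρ (fun σ τ : Cfg n => Mv σ τ ^ e) (fun σ τ : Cfg n => Mv σ τ ^ e) 0 3 0
  have e2 := e2_mono (β := β) hρ (K := fun σ τ : Cfg n => Mv σ τ ^ (e + 1))
    (K' := fun σ τ => 0 + 3 * Mv σ τ ^ e + 0 * Mv σ τ ^ e) fun σ τ => by
      have := mul_le_mul_of_nonneg_left (l0_mv hab σ τ) (pow_nonneg (cb_mv σ τ) e)
      rw [pow_succ]; linarith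
  linarith

theorem l0_BE (a b : Fin n) : BS a b ⊆ ES a b := fun e he => by
  simp only [ES, BS, mem_filter, mem_univ, true_and] at he ⊢
  tauto

theorem lam0 (β : ℝ) : ∃ C, 0 ≤ C ∧ ∀ (n q : ℕ) (a b : Fin n) (t : ℝ), a ≠ b →
    t ∈ Set.Icc (0 : ℝ) 1 →
    Qb (fun _ => t) (rs (fun j => cn a b j = 0) (Yg β q (Ea a b)))
      (rs (fun j => cn a b j = 0) (Yg β q (Ea a b))) ≤
      C * (E2 β (fun _ => t) (fun σ τ : Cfg n => Mv σ τ ^ (q + 4)) +
        E2 β (fun _ => t) (fun σ τ : Cfg n => Mv σ τ ^ (q + 1)) / n) := by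
  obtain ⟨C, hC, hb⟩ := cl_bound β
  refine ⟨C * (36 * 64 * 100 * 144 * 16 * β ^ 8 +
    (2 * 36 * 64 * 16 * β ^ 4 + 9 * 36 * 64 * 100 * 32 * β ^ 6)), by positivity, ?_⟩
  intro n q a b t hab ht
  set F := rs (fun j : Fin q → Fin n => cn a b j = 0) (Yg β q (Ea a b)) with hF
  have aF : ∀ j, Al β (F j) := al_rs (al_Yg q _) _
  have c0 : Cl β (Ea a b) 2 1 q 2 F := cl_Y _ _ zero_le_one
    (fun σ τ => by simpa using ker0 hab σ τ) fun σ τ => by
      rw [sum_eq_zero fun j hj => by rw [dtn0 (mem_filter.1 hj).2, zero_mul]]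
      simpa using pow_nonneg (cb_mv σ τ) q
  have pE := pr_ES (β := β) hab
  have pB := pr_BS (β := β) hab
  have wE : 0 ≤ 2 * β ^ 2 := by positivity
  have wB : 0 ≤ 8 * β ^ 2 / n := by positivity
  have cE := c0.der (by norm_num) (by positivity) wE pE
  have cB := c0.der (by norm_num) (by positivity) wB pB
  have cEE := cE.der (by norm_num) (by positivity) wE pE
  have cEB := cE.der (by norm_num) (by positivity) wB pB
  have cBE := cB.der (by norm_num) (by positivity) wE pE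
  have cEEE := cEE.der (by norm_num) (by positivity) wE pE
  have cEEB := cEE.der (by norm_num) (by positivity) wB pB
  have cEBE := cEB.der (by norm_num) (by positivity) wE pE
  have cBEE := cBE.der (by norm_num) (by positivity) wE pE
  have c4 := cEEE.der (by norm_num) (by positivity) wE pE
  have z01 : (0 : ℝ) ∈ Set.Icc (0 : ℝ) 1 := ⟨le_rfl, zero_le_one⟩
  have hE : ∀ e, 0 ≤ E2 β (fun _ => t) fun σ τ : Cfg n => Mv σ τ ^ e := fun e =>
    cb_e2 _ fun σ τ => pow_nonneg (cb_mv _ _) _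
  have b4 := fun r hr => hb n _ _ _ a b _ r t _ _ hab (by norm_num) (by norm_num) (by norm_num)
    (by positivity) hr ht c4
  have bEB := hb n _ _ _ a b _ 0 t _ _ hab (by norm_num) (by norm_num) (by norm_num)
    (by positivity) z01 ht cEB
  have bBE := hb n _ _ _ a b _ 0 t _ _ hab (by norm_num) (by norm_num) (by norm_num)
    (by positivity) z01 ht cBE
  have bEEB := hb n _ _ _ a b _ 0 t _ _ hab (by norm_num) (by norm_num) (by norm_num)
    (by positivity) z01 ht cEEB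
  have bEBE := hb n _ _ _ a b _ 0 t _ _ hab (by norm_num) (by norm_num) (by norm_num)
    (by positivity) z01 ht cEBE
  have bBEE := hb n _ _ _ a b _ 0 t _ _ hab (by norm_num) (by norm_num) (by norm_num)
    (by positivity) z01 ht cBEE
  have hc : ∀ (S : (Om n → ℝ) → Prop), S 0 → ∀ j, (cn a b j = 0 → S (Yg β q (Ea a b) j)) →
      S (F j) := fun S h0 j h => by
    simp only [hF, rs]
    split_ifs with hj
    exacts [h hj, h0]
  have q0 : Qb (rr (ES a b) 0 t) F F = 0 := sum_eq_zero fun j _ =>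
    bf_zero (aF j).pg (aF j).pg _ ht fun x => hc (fun f => EE (ES a b) f x = 0) (l0_ee0 _ x) j
      fun hj => v00 hab (by omega) x
  have q1 : Qb (rr (ES a b) 0 t) (dd (ES a b) F) (dd (ES a b) F) = 0 := by
    rw [qb_dd]
    refine sum_eq_zero fun j _ => sum_eq_zero fun e _ =>
      bf_zero ((aF j).pd e).pg ((aF j).pd e).pg _ ht fun x =>
        hc (fun f => EE (ES a b) (pd e f) x = 0) (by simp only [l0_pd0, l0_ee0]) j fun hj => ?_
    by_cases h : e = (a, b) ∨ e = (b, a)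
    · exact v0off hab hj h x
    · exact v01 hab hj (not_or.1 h).1 (not_or.1 h).2 x
  have q2 := wd2 (l0_BE a b) ht aF fun j e₁ h1 e₂ h2 x =>
    hc (fun f => EE (ES a b) (pd e₂ (pd e₁ f)) x = 0) (by simp only [l0_pd0, l0_ee0]) j
      fun hj => v02 hab hj h1 h2 x
  have q3 := wd3 (l0_BE a b) ht aF fun j e₁ h1 e₂ h2 e₃ h3 x =>
    hc (fun f => EE (ES a b) (pd e₃ (pd e₂ (pd e₁ f))) x = 0) (by simp only [l0_pd0, l0_ee0]) j
      fun hj => v03 hab hj h1 h2 h3 x
  have u0 := u01_rr (ES a b) z01 ht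
  have p4 := (qb_nonneg (fun j => (c4.al j).pg) u0).trans (b4 0 z01)
  have t3 := tay (fun j => (cEEE.al j).c2) _ ht p4 b4
  have p3 := add_nonneg (qb_nonneg (fun j => (cEEE.al j).pg) u0) p4
  have t2 := tay (fun j => (cEE.al j).c2) _ ht p3 t3
  have p2 := add_nonneg (qb_nonneg (fun j => (cEE.al j).pg) u0) p3
  have t1 := tay (fun j => (cE.al j).c2) _ ht p2 t2
  have p1 := add_nonneg (qb_nonneg (fun j => (cE.al j).pg) u0) p2
  have t0 := tay (fun j => (aF j).c2) _ ht p1 t1 t ht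
  rw [rr_self, q0, q1] at t0
  have h21 := l0_e2 (β := β) hab ht (q + 1)
  have h1 := hE (q + 1)
  have h4 := hE (q + 4)
  simp only [add_zero, add_assoc, Nat.reduceAdd] at *
  generalize (E2 β (fun _ => t) fun σ τ : Cfg n => Mv σ τ ^ (q + 1)) = E1 at *
  generalize (E2 β (fun _ => t) fun σ τ : Cfg n => Mv σ τ ^ (q + 2)) = E2' at *
  generalize (E2 β (fun _ => t) fun σ τ : Cfg n => Mv σ τ ^ (q + 4)) = E4 at *
  have k1 := mul_le_mul_of_nonneg_left h21
    (by positivity : 0 ≤ C * (3 * 36 * 64 * 100 * 32 * β ^ 6) / n)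
  have k2 : 0 ≤ C * (36 * 64 * 100 * 144 * 16 * β ^ 8) * (E1 / n) := by positivity
  have k3 : 0 ≤ C * (2 * 36 * 64 * 16 * β ^ 4 + 9 * 36 * 64 * 100 * 32 * β ^ 6) * E4 := by
    positivity
  push_cast at *
  simp only [div_eq_mul_inv] at *
  linear_combination t0 + q2 + q3 + bEB + bBE + bEEB + bEBE + bBEE + k1 + k2 + k3

end Vale.Agent.P146
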