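import Vale.Agent.P146.Sym
import Vale.Agent.P146.ERot
import Vale.Agent.P146.V02

namespace Vale.Agent.P146

open MeasureTheory ProbabilityTheory Matrix Real Finset Filter Topology
open P150 (gm spin Cfg)

variable {ι : Type} [Fintype ι] [DecidableEq ι] {J : Type} [Fintype J] {n : ℕ} {β : ℝ}

theorem v11 {q : ℕ} {a b : Fin n} (hab : a ≠ b) {j : Fin q → Fin n} (hj : cn a b j = 1)
    {e : Fin n × Fin n} (h1 : e ∈ ES a b \ BS a b) (x : Om n) :
    EE (ES a b) (pd e (Yg β q (Ea a b) j)) x = 0 := by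
  have hY := al_Yg (β := β) q (Ea a b) j
  have hX : ∀ j : Fin q → Fin n, PG (xi β q j) := fun j => (al_xi (β := β) q j).pg
  have hba := hab.symm
  obtain ⟨a1, a2, -, a4⟩ := v2_edge hab h1
  obtain ⟨k0, hk⟩ := card_eq_one.1 hj
  have hk' : ∀ k, (j k = a ∨ j k = b) ↔ k = k0 := fun k => by
    rw [← Finset.mem_singleton (b := k), ← hk]; simp
  have ho : ∀ k ∈ univ.erase k0, j k ≠ a ∧ j k ≠ b := fun k h =>
    not_or.1 fun h' => (mem_erase.1 h).1 ((hk' k).1 h')
  have h0 := (hk' k0).2 rfl
  set j' : Fin q → Fin n := fun k => Equiv.swap a b (j k) with hj'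
  have hs : sg a (j k0) = 1 ∨ sg a (j k0) = -1 := by unfold sg; split_ifs <;> simp
  have hxo : ∀ θ y, xo β q (Gv a b θ) j y = cos θ * xi β q j (act (Gv a b θ) y) +
      -sg a (j k0) * sin θ * xi β q j' (act (Gv a b θ) y) := by
    intro θ y
    unfold xo xi av
    rw [mul_sum, mul_sum, ← sum_add_distrib]
    refine sum_congr rfl fun σ _ => ?_
    unfold tn
    simp only [← mul_prod_erase univ _ (mem_univ k0)]
    have p1 : ∏ k ∈ univ.erase k0, (Gv a b θ *ᵥ sp σ) (j k) / √n =
        ∏ k ∈ univ.erase k0, sp σ (j k) / √n := prod_congr rfl fun k h => by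
      rw [er_mv hab, if_neg (ho k h).1, if_neg (ho k h).2]
    have p2 : ∏ k ∈ univ.erase k0, sp σ (j' k) / √n =
        ∏ k ∈ univ.erase k0, sp σ (j k) / √n := prod_congr rfl fun k h => by
      simp only [hj', Equiv.swap_apply_of_ne_of_ne (ho k h).1 (ho k h).2]
    rw [p1, p2, er_mv hab]
    rcases h0 with h | h <;> simp [hj', h, sg, hba] <;> ring
  have hc : ∀ e (j : Fin q → Fin n), PG fun z : Om n => z e * xi β q j z := fun e j =>
    (PG.coord e).mul (hX j)
  rw [ee_stein (Finset.mem_sdiff.1 h1).1 hY.diff hY.pg (hY.pd e).pg,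
    er_key hab q j (h := fun y => y e) (p := fun z => z e * xi β q j z)
      (r := fun z => -fl a e * (z (v2s a b e) * xi β q j z) + -sg a (j k0) * (z e * xi β q j' z))
      (t := fun z => (fl a e * sg a (j k0)) * (z (v2s a b e) * xi β q j' z))
      (PG.coord _) (hc _ _) (((PG.const _).mul (hc _ _)).add ((PG.const _).mul (hc _ _)))
      ((PG.const _).mul (hc _ _)) 2,
    vo_ee_sub _ (hc _ _) (hc _ _), ← er_sw (a := a) (b := b) (hc _ j)]
  · simp only [v2_sw, v2s_s, xi_sw, ← hj']
    by_cases hs' : fl a e = sg a (j k0)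
    · rw [er_fl (Or.inl rfl) (hc _ _)]
      · simp
      · intro z
        rw [xi_fl, ← mul_prod_erase univ _ (mem_univ k0), prod_eq_one fun k h => by
          simp [sg, hj', Equiv.swap_apply_of_ne_of_ne (ho k h).1 (ho k h).2, (ho k h).1]]
        simp only [Pi.mul_apply, hs']
        rcases h0 with h | h <;> simp [hj', h, sg, hba, hab]
    · have : sg a (j k0) = -fl a e := by
        rcases a2 with h | h <;> rcases hs with h' | h' <;> simp_all
      rw [this]; ring
  · intro θ y
    rw [hxo, a1 θ y]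
    ring

end Vale.Agent.P146
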