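import Vale.Agent.P146.L0
import Vale.Agent.P146.V11

namespace Vale.Agent.P146

open MeasureTheory ProbabilityTheory Matrix Real Finset Filter Topology
open P150 (gm spin Cfg)

variable {ι : Type} [Fintype ι] [DecidableEq ι] {J : Type} [Fintype J] {n : ℕ} {β : ℝ}

lemma L1_mv (σ τ : Cfg n) : 0 ≤ Mv σ τ := by unfold Mv; positivity

lemma L1_nn {ρ : Fin n × Fin n → ℝ} (hρ : U01 ρ) (e : ℕ) :
    0 ≤ E2 β ρ fun σ τ : Cfg n => Mv σ τ ^ e := by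
  have := e2_mono (β := β) hρ (K := fun _ _ => 0) fun σ τ => pow_nonneg (L1_mv σ τ) e
  simpa [E2] using this

lemma L1_succ (hn : 1 ≤ n) {ρ : Fin n × Fin n → ℝ} (hρ : U01 ρ) (e : ℕ) :
    (E2 β ρ fun σ τ : Cfg n => Mv σ τ ^ (e + 1)) ≤ 5 * E2 β ρ fun σ τ : Cfg n => Mv σ τ ^ e := by
  have h1 := e2_lin (β := β) hρ (fun σ τ : Cfg n => Mv σ τ ^ e) (fun σ τ : Cfg n => Mv σ τ ^ e)
    0 5 0
  simp only [zero_add, zero_mul, add_zero] at h1
  rw [← h1]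
  refine e2_mono hρ fun σ τ => ?_
  have h2 : (1 : ℝ) ≤ n := by exact_mod_cast hn
  have h3 : (4 : ℝ) / n ≤ 4 := div_le_self (by norm_num) h2
  have h4 : Mv σ τ ≤ 5 := by
    have := abs_ov σ τ
    unfold Mv
    linarith
  rw [pow_succ, mul_comm]
  exact mul_le_mul_of_nonneg_right h4 (pow_nonneg (L1_mv σ τ) e)

theorem lam1 (β : ℝ) : ∃ C, 0 ≤ C ∧ ∀ (n q : ℕ) (a b : Fin n) (t : ℝ), a ≠ b → 2 ≤ q →
    t ∈ Set.Icc (0 : ℝ) 1 →
    Qb (fun _ => t) (rs (fun j => cn a b j = 1) (Yg β q (Ea a b)))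
      (rs (fun j => cn a b j = 1) (Yg β q (Ea a b))) ≤
      C * q * (E2 β (fun _ => t) (fun σ τ : Cfg n => Mv σ τ ^ (q + 1)) / n +
        E2 β (fun _ => t) (fun σ τ : Cfg n => Mv σ τ ^ (q - 2)) / n ^ 2) := by
  obtain ⟨C, hC, hb⟩ := cl_bound β
  refine ⟨C * (18432 * β ^ 4 + 2880 * β ^ 2), by positivity, fun n q a b t hab hq ht => ?_⟩
  obtain ⟨q, rfl⟩ := Nat.exists_eq_add_of_le' hq
  have hn : 1 ≤ n := a.pos
  have hn' : (0 : ℝ) < n := by exact_mod_cast hn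
  have hρ : U01 fun _ : Fin n × Fin n => t := fun _ => ht
  have h0 : (0 : ℝ) ∈ Set.Icc (0 : ℝ) 1 := ⟨le_rfl, zero_le_one⟩
  have c0 := cl_Y (β := β) (Ea a b) (fun j : Fin (q + 2) → Fin n => cn a b j = 1)
    (by positivity) (ker1 hab) (ker1' hab)
  have hz : ∀ j, ∀ x, EE (ES a b) (rs (fun j => cn a b j = 1) (Yg β (q + 2) (Ea a b)) j) x = 0 := by
    intro j x
    by_cases h : cn a b j = 1
    · simp only [rs, h, if_true]
      exact v00 hab h.le x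
    · simp [rs, h, EE]
  have hz1 : ∀ j, ∀ e ∈ ES a b \ BS a b, ∀ x,
      EE (ES a b) (pd e (rs (fun j => cn a b j = 1) (Yg β (q + 2) (Ea a b)) j)) x = 0 := by
    intro j e he x
    by_cases h : cn a b j = 1
    · simp only [rs, h, if_true]
      exact v11 hab h he x
    · simp [rs, h, EE, pd]
  generalize rs (fun j => cn a b j = 1) (Yg β (q + 2) (Ea a b)) = F at c0 hz hz1 ⊢
  have c1 := c0.der (by norm_num) (by positivity) (by positivity) (pr_ES hab)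
  have c2 := c1.der (by norm_num) (by positivity) (by positivity) (pr_ES hab)
  have c3 := c0.der (by norm_num) (by positivity) (by positivity) (pr_BS hab)
  have b2 := fun r hr => hb n _ _ _ a b _ r t _ _ hab (by norm_num) (by norm_num) (by norm_num)
    (by positivity) hr ht c2
  have b3 := hb n _ _ _ a b _ 0 t _ _ hab (by norm_num) (by norm_num) (by norm_num)
    (by positivity) h0 ht c3
  have hBE : BS a b ⊆ ES a b := fun e he => by
    simp only [BS, ES, mem_filter, mem_univ, true_and] at he ⊢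
    tauto
  rw [← wd1 hBE ht c0.al hz1] at b3
  have x1 := L1_nn (β := β) hρ (q + 3)
  have x2 := L1_nn (β := β) hρ (q + 1)
  have x3 := L1_nn (β := β) hρ q
  have x4 := L1_succ (β := β) hn hρ q
  rw [show q + 2 - 1 + 1 + 1 = q + 3 from rfl] at b2
  rw [show q + 2 - 1 + 0 = q + 1 from rfl] at b3
  have t2 := tay (fun j => (c1.al j).c2) (ES a b) ht (by positivity) b2
  have t1 := tay (fun j => (c0.al j).c2) (ES a b) ht (by positivity)
    (fun r hr => (t2 r hr).trans (add_le_add_left b3 _)) t ht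
  have z0 : Qb (rr (ES a b) 0 t) F F = 0 :=
    sum_eq_zero fun j _ => bf_zero (c0.al j).pg (c0.al j).pg _ ht (hz j)
  rw [rr_self, z0, zero_add] at t1
  refine t1.trans ?_
  rw [show q + 2 + 1 = q + 3 from rfl, show q + 2 - 2 = q from rfl]
  generalize (E2 β (fun _ => t) fun σ τ : Cfg n => Mv σ τ ^ (q + 3)) = X at x1 ⊢
  generalize (E2 β (fun _ => t) fun σ τ : Cfg n => Mv σ τ ^ (q + 1)) = Y at x2 x4 ⊢
  generalize (E2 β (fun _ => t) fun σ τ : Cfg n => Mv σ τ ^ q) = Z at x3 x4 ⊢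
  have hp : (0 : ℝ) ≤ ((q + 2 : ℕ) : ℝ) := Nat.cast_nonneg _
  generalize ((q + 2 : ℕ) : ℝ) = p at hp ⊢
  have y1 : C * p * (576 * β ^ 2) * (Y / n ^ 2) ≤ C * p * (576 * β ^ 2) * (5 * Z / n ^ 2) := by
    gcongr
  have y2 : 0 ≤ C * p * (2880 * β ^ 2) * (X / n) := by positivity
  have y3 : 0 ≤ C * p * (18432 * β ^ 4) * (Z / n ^ 2) := by positivity
  calc _ = C * p * (576 * β ^ 2) * (Y / n ^ 2) + C * p * (18432 * β ^ 4) * (X / n) := by
        push_cast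
        ring
    _ ≤ C * p * (576 * β ^ 2) * (5 * Z / n ^ 2) + C * p * (18432 * β ^ 4) * (X / n) +
        C * p * (2880 * β ^ 2) * (X / n) + C * p * (18432 * β ^ 4) * (Z / n ^ 2) := by linarith
    _ = _ := by ring

theorem lam_all (β : ℝ) : ∃ C, 0 ≤ C ∧ ∀ (n q : ℕ) (a b : Fin n) (t : ℝ), a ≠ b → 2 ≤ q →
    t ∈ Set.Icc (0 : ℝ) 1 →
    Qb (fun _ => t) (Yg β q (Ea a b)) (Yg β q (Ea a b)) ≤
      E2 β (fun _ => t) fun σ τ : Cfg n => C * q ^ 2 *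
        (Mv σ τ ^ (q + 4) + Mv σ τ ^ (q + 1) / n + Mv σ τ ^ (q - 2) / n ^ 2) := by
  obtain ⟨C0, hC0, h0⟩ := lam0 β
  obtain ⟨C1, hC1, h1⟩ := lam1 β
  obtain ⟨C2, hC2, h2⟩ := cl_bound β
  refine ⟨C0 + C1 + 8 * C2, by positivity, fun n q a b t hab hq ht => ?_⟩
  have hρ : U01 fun _ : Fin n × Fin n => t := fun _ => ht
  have b0 := h0 n q a b t hab ht
  have b1 := h1 n q a b t hab hq ht
  have b2 := h2 n _ _ _ a b _ t t _ _ hab (by norm_num) (by norm_num) (by norm_num)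
    (by positivity) ht ht (cl_Y (β := β) (Ea a b) (fun j : Fin q → Fin n => 2 ≤ cn a b j)
      (by positivity) (ker2 hab) (ker2' hab))
  rw [rr_self] at b2
  have e1 := e2_lin (β := β) hρ (fun σ τ : Cfg n => Mv σ τ ^ (q + 1))
    (fun σ τ : Cfg n => Mv σ τ ^ (q - 2)) 0 (1 / n) (1 / n ^ 2)
  have e2 := e2_lin (β := β) hρ (fun σ τ : Cfg n => Mv σ τ ^ (q + 4))
    (fun σ τ : Cfg n => 0 + 1 / n * Mv σ τ ^ (q + 1) + 1 / n ^ 2 * Mv σ τ ^ (q - 2)) 0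
    ((C0 + C1 + 8 * C2) * q ^ 2) ((C0 + C1 + 8 * C2) * q ^ 2)
  have e3 : (fun σ τ : Cfg n => (C0 + C1 + 8 * C2) * q ^ 2 *
      (Mv σ τ ^ (q + 4) + Mv σ τ ^ (q + 1) / n + Mv σ τ ^ (q - 2) / n ^ 2)) = fun σ τ : Cfg n =>
      0 + (C0 + C1 + 8 * C2) * q ^ 2 * Mv σ τ ^ (q + 4) + (C0 + C1 + 8 * C2) * q ^ 2 *
        (0 + 1 / n * Mv σ τ ^ (q + 1) + 1 / n ^ 2 * Mv σ τ ^ (q - 2)) := by
    funext σ τ
    ring
  rw [qb_split a b, e3, e2, e1]
  have x1 := L1_nn (β := β) hρ (q + 4)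
  have x2 := div_nonneg (L1_nn (β := β) hρ (q + 1)) (Nat.cast_nonneg n)
  have x3 := div_nonneg (L1_nn (β := β) hρ (q - 2)) (sq_nonneg (n : ℝ))
  rw [one_div_mul_eq_div, one_div_mul_eq_div]
  rw [show ∀ Z : ℝ, C2 * (8 * q ^ 2 / n ^ 2) * Z = 8 * C2 * q ^ 2 * (Z / n ^ 2) from
    fun Z => by ring] at b2
  generalize (E2 β (fun _ => t) fun σ τ : Cfg n => Mv σ τ ^ (q + 4)) = X at x1 b0 ⊢
  generalize (E2 β (fun _ => t) fun σ τ : Cfg n => Mv σ τ ^ (q + 1)) / n = Y at x2 b0 b1 ⊢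
  generalize (E2 β (fun _ => t) fun σ τ : Cfg n => Mv σ τ ^ (q - 2)) / n ^ 2 = Z at x3 b1 b2 ⊢
  have hp : (2 : ℝ) ≤ q := by exact_mod_cast hq
  have p1 : (1 : ℝ) ≤ q ^ 2 := by nlinarith
  have p2 : (q : ℝ) ≤ q ^ 2 := by nlinarith
  have a0 : C0 * (X + Y) ≤ C0 * q ^ 2 * (X + Y + Z) := by
    rw [mul_assoc]
    gcongr
    nlinarith
  have a1 : C1 * q * (Y + Z) ≤ C1 * q ^ 2 * (X + Y + Z) := by
    gcongr
    linarith
  have a2 : 8 * C2 * q ^ 2 * Z ≤ 8 * C2 * q ^ 2 * (X + Y + Z) := by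
    gcongr
    linarith
  linarith

end Vale.Agent.P146
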