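import Vale.Agent.P146.Al

namespace Vale.Agent.P146

open MeasureTheory ProbabilityTheory Matrix Real Finset Filter Topology
open P150 (gm spin Cfg)

variable {ι : Type} [Fintype ι] [DecidableEq ι] {J : Type} [Fintype J] {n : ℕ} {β : ℝ}

theorem Model_split (F : Fin n × Fin n → ℝ) :
    ∑ e, F e = ∑ p : P150.Pair n, (F p.1 + F p.1.swap) + ∑ i, F (i, i) := by
  have h1 : ∀ e : Fin n × Fin n, F e = (if e.1 < e.2 then F e else 0) +
      (if e.2 < e.1 then F e else 0) + if e.1 = e.2 then F e else 0 := fun e => by
    rcases lt_trichotomy e.1 e.2 with h | h | h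
    · simp [h, h.ne, h.not_gt]
    · simp [h]
    · simp [h, h.ne', h.not_gt]
  have h2 := Equiv.sum_comp (Equiv.prodComm (Fin n) (Fin n)) fun e => if e.2 < e.1 then F e else 0
  rw [sum_congr rfl fun e _ => h1 e, sum_add_distrib, sum_add_distrib, ← h2, ← sum_add_distrib,
    ← sum_subtype (univ.filter fun e : Fin n × Fin n => e.1 < e.2) (by simp)
      fun e => F e + F e.swap, sum_filter]
  congr 1
  · refine sum_congr rfl fun e _ => ?_
    by_cases h : e.1 < e.2 <;> simp [h]
  · simp [Fintype.sum_prod_type]

theorem Model_id (x : Om n) : FE β n (fun p => P150.Sig n x p.1) =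
    log (Zf β x) - β / √(2 * n) * ∑ i, x (i, i) := by
  have h : ∀ σ : Cfg n, Hm β x (sp σ) =
      P150.energy β (fun p => P150.Sig n x p.1) σ + β / √(2 * n) * ∑ i, x (i, i) := fun σ => by
    rw [Hm, Model_split, P150.energy, mul_sum, mul_sum]
    congr 1
    · refine sum_congr rfl fun p _ => ?_
      rw [P150.Sig_apply, if_pos p.2, ep, ep, sqrt_mul (by norm_num)]
      simp only [sp, Prod.fst_swap, Prod.snd_swap]
      ring
    · refine sum_congr rfl fun i _ => ?_
      have : sp σ i * sp σ i = 1 := by
        unfold sp spin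
        split_ifs <;> norm_num
      rw [ep, this]
      ring
  have h0 : 0 < ∑ σ : Cfg n, exp (P150.energy β (fun p => P150.Sig n x p.1) σ) :=
    sum_pos (fun _ _ => exp_pos _) univ_nonempty
  simp only [Zf, h, exp_add, ← sum_mul]
  rw [log_mul h0.ne' (exp_pos _).ne', log_exp, FE]
  ring

theorem model (hn : 1 ≤ n) : MemLp (FE β n) 2 (P150.disorder n) ∧
    variance (FE β n) (P150.disorder n) ≤
      2 * variance (fun x : Om n => log (Zf β x)) (gm _) + β ^ 2 := by
  have mp : MeasurePreserving (fun (x : Om n) (p : P150.Pair n) => P150.Sig n x p.1) (gm _)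
      (P150.disorder n) :=
    (P150.mp_inj Subtype.val Subtype.val_injective).comp (P150.mp_iso (P150.Sig n) P150.Sig_iso)
  have hm : Measurable (FE β n) := by
    unfold FE P150.energy
    fun_prop
  have h1 : MemLp (fun x : Om n => log (Zf β x)) 2 (gm _) := logZ_c2.1.2.1.memLp
  have h2 : MemLp (fun x : Om n => β / √(2 * n) * ∑ i, x (i, i)) 2 (gm _) :=
    ((PG.const _).mul (PG.sum _ fun i _ => PG.coord (i, i))).memLp
  constructor
  · rw [← mp.map_eq, memLp_map_measure_iff hm.aestronglyMeasurable mp.aemeasurable]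
    simp only [Function.comp_def, Model_id]
    exact h1.sub h2
  · rw [← mp.variance_fun_comp hm.aemeasurable]
    simp only [Model_id]
    have a1 := variance_fun_sub h1 h2
    have a2 := variance_fun_add h1 h2
    have a3 := variance_nonneg (fun x : Om n => log (Zf β x) + β / √(2 * n) * ∑ i, x (i, i)) (gm _)
    have a4 : variance (fun x : Om n => ∑ i, x (i, i)) (gm _) = n := by
      rw [(P150.mp_inj (fun i : Fin n => (i, i)) fun i j h => congrArg Prod.fst h).variance_fun_comp
        (f := fun ω => ∑ i, ω i) (by fun_prop)]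
      have := variance_sum_pi (μ := fun _ : Fin n => gaussianReal 0 1) (X := fun _ => id)
        fun _ => memLp_id_gaussianReal 2
      simpa [Finset.sum_fn, ← Finset.sum_apply] using this
    have a5 : variance (fun x : Om n => β / √(2 * n) * ∑ i, x (i, i)) (gm _) = β ^ 2 / 2 := by
      have : (0 : ℝ) < n := by exact_mod_cast hn
      rw [variance_const_mul, a4, div_pow, sq_sqrt (by positivity)]
      field_simp
    linarith

end Vale.Agent.P146
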