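import Vale.Agent.P146.PhD

namespace Vale.Agent.P146

open MeasureTheory ProbabilityTheory Matrix Real Finset Filter Topology
open P150 (gm spin Cfg)

variable {ι : Type} [Fintype ι] [DecidableEq ι] {J : Type} [Fintype J] {n : ℕ} {β : ℝ}

lemma var_ker (hn : 1 ≤ n) (σ τ : Cfg n) :
    ∑ e, ep β (sp σ) (sp σ) e * ep β (sp τ) (sp τ) e
      = 0 + β ^ 2 * n / 2 * ov σ τ ^ (2 * 1) + 0 * ov σ τ ^ (2 * 1) := by
  have h0 : (0 : ℝ) < n := by exact_mod_cast hn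
  have h1 : √(2 * (n : ℝ)) ^ 2 = 2 * n := Real.sq_sqrt (by positivity)
  have h2 : ∀ e : Fin n × Fin n, ep β (sp σ) (sp σ) e * ep β (sp τ) (sp τ) e
      = β ^ 2 / (2 * n) * ((sp σ e.1 * sp τ e.1) * (sp σ e.2 * sp τ e.2)) := by
    intro e
    unfold ep
    have : β ^ 2 / (2 * (n : ℝ)) = (β / √(2 * (n : ℝ))) ^ 2 := by rw [div_pow, h1]
    rw [this]
    ring
  simp only [h2]
  rw [← Finset.mul_sum, Fintype.sum_prod_type]
  simp only []
  rw [← Finset.sum_mul_sum]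
  unfold ov
  rw [div_pow]
  field_simp
  ring

lemma var_deriv (hn : 1 ≤ n) {r : ℝ} (hr : r ∈ Set.Ioo (0 : ℝ) 1) :
    HasDerivAt (fun r => Bf (rr univ r 0) (fun x : Om n => log (Zf β x))
      (fun x : Om n => log (Zf β x))) (β ^ 2 * n / 2 * ph β n 1 r) r := by
  have hr' : r ∈ Set.Icc (0 : ℝ) 1 := ⟨hr.1.le, hr.2.le⟩
  have h := price (logZ_c2 (β := β) (n := n)).1 (logZ_c2 (β := β) (n := n)).1 univ
    (t := 0) ⟨le_rfl, zero_le_one⟩ hr
  have hU : U01 (fun _ : Fin n × Fin n => r) := fun _ => hr'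
  have h1 : ∀ e, pd e (fun x : Om n => log (Zf β x))
      = fun x => av β x fun σ => ep β (sp σ) (sp σ) e := fun e =>
    funext fun x => (logZ_c2 (β := β) (n := n)).2 e x
  have h2 := qb_av (β := β) hU (fun e σ => ep β (sp σ) (sp σ) e) (fun e σ => ep β (sp σ) (sp σ) e)
  simp only [var_ker hn] at h2
  rw [e2_lin hU, ← ph_eq 1 hr', zero_add, zero_mul, add_zero] at h2
  rw [← h2]
  refine h.congr_deriv ?_
  simp only [h1, rr_univ]
  rfl

theorem var_le (hn : 1 ≤ n) {t : ℝ} (ht : t ∈ Set.Icc (0 : ℝ) 1) :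
    variance (fun x : Om n => log (Zf β x)) (gm _) ≤ β ^ 2 * n * (ph β n 1 t + (1 - t)) := by
  have hF : PG (fun x : Om n => log (Zf β x)) := (logZ_c2 (β := β) (n := n)).1.2.1
  obtain ⟨ψ, hψ⟩ : ∃ ψ : ℝ → ℝ, ψ = fun r => Bf (rr univ r 0) (fun x : Om n => log (Zf β x))
    (fun x : Om n => log (Zf β x)) := ⟨_, rfl⟩
  have hc : ContinuousOn ψ (Set.Icc 0 1) :=
    hψ ▸ price_cont hF hF univ (t := 0) ⟨le_rfl, zero_le_one⟩
  have hd : ∀ r ∈ Set.Ioo (0 : ℝ) 1, HasDerivAt ψ (β ^ 2 * n / 2 * ph β n 1 r) r :=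
    fun r hr => hψ ▸ var_deriv hn hr
  have hK : 0 ≤ β ^ 2 * n / 2 := by positivity
  have mv : ∀ a b C : ℝ, 0 ≤ a → a ≤ b → b ≤ 1 → (∀ r ∈ Set.Ioo a b, ph β n 1 r ≤ C) →
      ψ b - ψ a ≤ β ^ 2 * n / 2 * C * (b - a) := by
    intro a b C ha hab hb h
    have hs : ∀ r ∈ interior (Set.Icc a b), r ∈ Set.Ioo a b ∧ r ∈ Set.Ioo (0 : ℝ) 1 := by
      intro r hr
      rw [interior_Icc] at hr
      exact ⟨hr, ha.trans_lt hr.1, hr.2.trans_le hb⟩
    refine (convex_Icc a b).image_sub_le_mul_sub_of_deriv_le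
      (hc.mono (Set.Icc_subset_Icc ha hb))
      (fun r hr => (hd r (hs r hr).2).differentiableAt.differentiableWithinAt)
      (fun r hr => ?_) a ⟨le_rfl, hab⟩ b ⟨hab, le_rfl⟩ hab
    rw [(hd r (hs r hr).2).deriv]
    exact mul_le_mul_of_nonneg_left (h r (hs r hr).1) hK
  have m1 := mv 0 t (ph β n 1 t) le_rfl ht.1 ht.2 fun r hr =>
    ph_mono 1 ⟨hr.1.le, hr.2.le.trans ht.2⟩ ht hr.2.le
  have m2 := mv t 1 1 ht.1 ht.2 le_rfl fun r hr => (ph_mem 1 ⟨ht.1.trans hr.1.le, hr.2.le⟩).2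
  have e0 : ψ 0 = (∫ x : Om n, log (Zf β x) ∂gm _) ^ 2 := by
    have : ∀ q : Om n × Om n, mix (rr univ 0 0) q = q.2 := fun q => by
      funext e; simp [mix, rr]
    rw [hψ]
    simp only [Bf, this]
    rw [integral_prod_mul (fun x : Om n => log (Zf β x)) (fun x : Om n => log (Zf β x)), sq]
  have e1 : ψ 1 = ∫ x : Om n, log (Zf β x) ^ 2 ∂gm _ := by
    have : ∀ q : Om n × Om n, mix (rr univ 1 0) q = q.1 := fun q => by
      funext e; simp [mix, rr]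
    rw [hψ]
    simp only [Bf, this, ← sq]
    rw [integral_fun_fst (fun x : Om n => log (Zf β x) ^ 2)]
    simp
  rw [variance_eq_sub hF.memLp]
  have e2 : ∫ x : Om n, ((fun x : Om n => log (Zf β x)) ^ 2) x ∂gm _ = ψ 1 := by
    rw [e1]; rfl
  rw [e2, ← e0]
  have p0 := (ph_mem (β := β) (n := n) 1 ht).1
  have a1 := mul_nonneg hK p0
  have a2 := mul_nonneg hK (sub_nonneg.2 ht.2)
  have a3 := mul_le_mul_of_nonneg_left ht.2 a1
  nlinarith

end Vale.Agent.P146
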