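import Vale.Agent.P146.Rec
import Vale.Agent.P146.Fin1
import Vale.Agent.P146.Base
import Vale.Agent.P146.Var
import Vale.Agent.P146.Model

namespace Vale.Agent.P146

open MeasureTheory ProbabilityTheory Real Finset Filter Topology
open P150 (gm)

theorem main_ev {β : ℝ} (hβ : 0 < β) : ∃ C : ℝ, ∀ᶠ n : ℕ in atTop,
    variance (FE β n) (P150.disorder n) ≤ C * (n : ℝ) ^ (1 - 1 / 35000 : ℝ) := by
  obtain ⟨t₀, h0, hb⟩ := base hβ
  obtain ⟨C, hf⟩ := fin1 h0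
  refine ⟨2 * β ^ 2 * C + β ^ 2, ?_⟩
  filter_upwards [hf, recur β, eventually_ge_atTop 1] with n hn hr h1
  obtain ⟨t, ht, hle⟩ := hn (ph β n) (fun p t ht => (ph_mem p ht).1)
    (fun p p' h t ht => ph_anti h ht) (fun p t ht => ph_lc p ht) (fun p hp => hb n p h1 hp) hr
  have hv := var_le (β := β) h1 ht
  have hm := (model (β := β) h1).2
  have hn1 : (1 : ℝ) ≤ n := by exact_mod_cast h1
  have hn0 : (0 : ℝ) < n := by linarith
  have e2 : (n : ℝ) ^ (1 - 1 / 35000 : ℝ) = n * (n : ℝ) ^ (-(0.001 / 35 : ℝ)) := by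
    rw [sub_eq_add_neg, rpow_add hn0, rpow_one]; norm_num
  have e3 : 1 ≤ (n : ℝ) ^ (1 - 1 / 35000 : ℝ) := one_le_rpow hn1 (by norm_num)
  have e6 : β ^ 2 * n * (ph β n 1 t + (1 - t)) ≤
      β ^ 2 * n * (C * (n : ℝ) ^ (-(0.001 / 35 : ℝ))) :=
    mul_le_mul_of_nonneg_left hle (by positivity)
  have e7 : β ^ 2 * 1 ≤ β ^ 2 * (n : ℝ) ^ (1 - 1 / 35000 : ℝ) :=
    mul_le_mul_of_nonneg_left e3 (by positivity)
  have e8 : (2 * β ^ 2 * C + β ^ 2) * (n : ℝ) ^ (1 - 1 / 35000 : ℝ) =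
      2 * (β ^ 2 * n * (C * (n : ℝ) ^ (-(0.001 / 35 : ℝ)))) +
        β ^ 2 * (n : ℝ) ^ (1 - 1 / 35000 : ℝ) := by
    rw [add_mul]; congr 1; rw [e2]; ring
  rw [e8]; linarith

theorem main {β : ℝ} (hβ : 0 < β) : ∃ C : ℝ, ∀ n : ℕ, 1 ≤ n →
    MemLp (FE β n) 2 (P150.disorder n) ∧
      variance (FE β n) (P150.disorder n) ≤ C * (n : ℝ) ^ (1 - 1 / 35000 : ℝ) := by
  obtain ⟨C, hf⟩ := main_ev hβ
  obtain ⟨N, hN⟩ := eventually_atTop.1 hf
  refine ⟨|C| + ∑ m ∈ range N, variance (FE β m) (P150.disorder m), fun n h1 =>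
    ⟨(model h1).1, ?_⟩⟩
  have hn1 : (1 : ℝ) ≤ n := by exact_mod_cast h1
  have e3 : 1 ≤ (n : ℝ) ^ (1 - 1 / 35000 : ℝ) := one_le_rpow hn1 (by norm_num)
  have hs : 0 ≤ ∑ m ∈ range N, variance (FE β m) (P150.disorder m) :=
    sum_nonneg fun m _ => variance_nonneg _ _
  rcases le_or_gt N n with h | h
  · refine (hN n h).trans (mul_le_mul_of_nonneg_right ?_ (by linarith))
    linarith [le_abs_self C]
  · have : variance (FE β n) (P150.disorder n) ≤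
        ∑ m ∈ range N, variance (FE β m) (P150.disorder m) :=
      single_le_sum (f := fun m => variance (FE β m) (P150.disorder m))
        (fun m _ => variance_nonneg _ _) (mem_range.2 h)
    nlinarith [abs_nonneg C]

end Vale.Agent.P146
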