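import Vale.Agent.P146.Sym
import Vale.Agent.P146.CS

namespace Vale.Agent.P146

open MeasureTheory ProbabilityTheory Matrix Real Finset Filter Topology
open P150 (gm spin Cfg)

variable {ι : Type} [Fintype ι] [DecidableEq ι] {J : Type} [Fintype J] {n : ℕ} {β : ℝ}

lemma orth_bf {f g : (ι → ℝ) → ℝ} (hf : PG f) (hg : PG g) {ρ : ι → ℝ} (hρ : U01 ρ)
    {s : ι → ℝ} (hs : ∀ e, s e ^ 2 = 1) {χ χ' : ℝ} (h1 : ∀ x, f (s * x) = χ * f x)
    (h2 : ∀ x, g (s * x) = χ' * g x) (h : χ * χ' = -1) : Bf ρ f g = 0 := by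
  have m1 : MeasurePreserving (fun x : ι → ℝ => s * x) (gm ι) (gm ι) :=
    P150.mp_iso (LinearMap.mulLeft ℝ s) fun x => Finset.sum_congr rfl fun e _ => by
      rw [LinearMap.mulLeft_apply, Pi.mul_apply, mul_pow, hs, one_mul]
  have m2 := m1.prod m1
  have hi := hf.int2 hg hρ
  have e1 := integral_map m2.measurable.aemeasurable (f := fun q => f q.1 * g (mix ρ q))
    (by rw [m2.map_eq]; exact hi.aestronglyMeasurable)
  rw [m2.map_eq] at e1
  have e2 : ∀ q : (ι → ℝ) × (ι → ℝ),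
      f (Prod.map (fun x : ι → ℝ => s * x) (fun x : ι → ℝ => s * x) q).1 *
        g (mix ρ (Prod.map (fun x : ι → ℝ => s * x) (fun x : ι → ℝ => s * x) q))
      = -(f q.1 * g (mix ρ q)) := by
    intro q
    have : mix ρ (Prod.map (fun x : ι → ℝ => s * x) (fun x : ι → ℝ => s * x) q)
        = s * mix ρ q := by
      funext e
      simp only [mix, Prod.map_fst, Prod.map_snd, Pi.mul_apply]
      ring
    rw [this, Prod.map_fst, h1, h2]
    linear_combination (f q.1 * g (mix ρ q)) * h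
  simp only [e2, integral_neg] at e1
  unfold Bf
  linarith

lemma orth_sg (c i : Fin n) : sg c i ^ 2 = 1 := by
  unfold sg
  split_ifs <;> norm_num

lemma orth_cross (q : ℕ) {t : ℝ} (ht : t ∈ Set.Icc (0 : ℝ) 1) {a b a' b' : Fin n} (h : a < b)
    (h' : a' < b') (hne : (a, b) ≠ (a', b')) :
    Qb (fun _ => t) (Yg β q (Ea a b)) (Yg β q (Ea a' b')) = 0 := by
  obtain ⟨c, hc⟩ : ∃ c, sg c a * sg c b * (sg c a' * sg c b') = -1 := by
    by_cases h1 : a' ≠ a ∧ b' ≠ a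
    · exact ⟨a, by simp [sg, h1.1, h1.2, h.ne']⟩
    by_cases h2 : a' ≠ b ∧ b' ≠ b
    · exact ⟨b, by simp [sg, h2.1, h2.2, h.ne]⟩
    exfalso
    simp only [ne_eq, Prod.mk.injEq, Fin.ext_iff, Fin.lt_def] at h h' hne h1 h2
    omega
  refine Finset.sum_eq_zero fun j _ => ?_
  refine orth_bf (al_Yg q _ j).pg (al_Yg q _ j).pg (fun _ => ht) (s := fl c)
    (χ := (∏ k, sg c (j k)) * (sg c a * sg c b)) (χ' := (∏ k, sg c (j k)) * (sg c a' * sg c b'))
    (fun e => by rw [fl, mul_pow, orth_sg, orth_sg, one_mul])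
    (fun x => by rw [Yg_fl, Ea_fl, Yg_smul]; ring)
    (fun x => by rw [Yg_fl, Ea_fl, Yg_smul]; ring) ?_
  have : (∏ k, sg c (j k)) ^ 2 = 1 := by
    rw [← Finset.prod_pow]
    exact Finset.prod_eq_one fun k _ => orth_sg _ _
  linear_combination (sg c a * sg c b * (sg c a' * sg c b')) * this + hc

lemma orth_dec {A : Mx n} (hA : Aᵀ = -A) :
    A = ∑ p ∈ univ.filter (fun p : Fin n × Fin n => p.1 < p.2), A p.1 p.2 • Ea p.1 p.2 := by
  have hs : ∀ i j, A j i = -A i j := fun i j => congrFun (congrFun hA i) j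
  ext i j
  simp only [Matrix.sum_apply, Matrix.smul_apply, Ea, Matrix.sub_apply, Matrix.single_apply,
    smul_eq_mul, mul_sub, Finset.sum_sub_distrib, mul_ite, mul_one, mul_zero]
  have e1 : ∑ p ∈ univ.filter (fun p : Fin n × Fin n => p.1 < p.2),
      (if p.1 = i ∧ p.2 = j then A p.1 p.2 else 0) = if i < j then A i j else 0 := by
    rw [Finset.sum_filter, Finset.sum_eq_single (i, j) (fun p _ hp => ?_) (by simp)]
    · simp
    · rw [if_neg (fun h : p.1 = i ∧ p.2 = j => hp (Prod.ext h.1 h.2)), ite_self]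
  have e2 : ∑ p ∈ univ.filter (fun p : Fin n × Fin n => p.1 < p.2),
      (if p.2 = i ∧ p.1 = j then A p.1 p.2 else 0) = if j < i then A j i else 0 := by
    rw [Finset.sum_filter, Finset.sum_eq_single (j, i) (fun p _ hp => ?_) (by simp)]
    · simp
    · rw [if_neg (fun h : p.2 = i ∧ p.1 = j => hp (Prod.ext h.2 h.1)), ite_self]
  rw [e1, e2]
  rcases lt_trichotomy i j with h | h | h
  · rw [if_pos h, if_neg h.not_gt, sub_zero]
  · subst h
    have := hs i i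
    rw [if_neg (lt_irrefl _)]
    linarith
  · rw [if_neg h.not_gt, if_pos h, hs i j]
    ring

theorem orth (q : ℕ) {A : Mx n} (hA : Aᵀ = -A) {t Λ : ℝ} (ht : t ∈ Set.Icc (0 : ℝ) 1)
    (h0 : 0 ≤ Λ) (h : ∀ a b : Fin n, a ≠ b →
      Qb (fun _ => t) (Yg β q (Ea a b)) (Yg β q (Ea a b)) ≤ Λ) :
    Qb (fun _ => t) (Yg β q A) (Yg β q A) ≤ (∑ a, ∑ b, A a b ^ 2) * Λ := by
  obtain ⟨S, hS⟩ : ∃ S, S = univ.filter (fun p : Fin n × Fin n => p.1 < p.2) := ⟨_, rfl⟩
  have hm : ∀ p ∈ S, p.1 < p.2 := fun p hp => by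
    rw [hS] at hp
    exact (Finset.mem_filter.1 hp).2
  have hU : U01 (fun _ : Fin n × Fin n => t) := fun _ => ht
  have e1 : Yg β q A = fun j x => ∑ p ∈ S, A p.1 p.2 * Yg β q (Ea p.1 p.2) j x := by
    funext j x
    rw [← Yg_lin S (fun p => A p.1 p.2) (fun p => Ea p.1 p.2), hS, ← orth_dec hA]
  have e2 : ∀ G : (Fin q → Fin n) → Om n → ℝ, (∀ j, PG (G j)) →
      Qb (fun _ => t) (Yg β q A) G
        = ∑ p ∈ S, A p.1 p.2 * Qb (fun _ => t) (Yg β q (Ea p.1 p.2)) G := by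
    intro G hG
    rw [e1]
    exact qb_sum_left S (fun p => A p.1 p.2) (F := fun p => Yg β q (Ea p.1 p.2))
      (fun p j => (al_Yg q _ j).pg) hG hU
  rw [e2 _ fun j => (al_Yg q _ j).pg]
  have e3 : ∀ p ∈ S, A p.1 p.2 * Qb (fun _ => t) (Yg β q (Ea p.1 p.2)) (Yg β q A)
      ≤ A p.1 p.2 ^ 2 * Λ := by
    intro p hp
    rw [qb_symm (fun j => (al_Yg q _ j).pg) (fun j => (al_Yg q _ j).pg) hU,
      e2 _ fun j => (al_Yg q _ j).pg, Finset.sum_eq_single p (fun p' hp' hne => by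
        rw [orth_cross q ht (hm p' hp') (hm p hp) hne, mul_zero]) (fun h' => absurd hp h'),
      ← mul_assoc, ← sq]
    exact mul_le_mul_of_nonneg_left (h _ _ (hm p hp).ne) (sq_nonneg _)
  refine (Finset.sum_le_sum e3).trans ?_
  rw [← Finset.sum_mul, ← Fintype.sum_prod_type' (f := fun a b => A a b ^ 2)]
  exact mul_le_mul_of_nonneg_right (Finset.sum_le_sum_of_subset_of_nonneg (Finset.subset_univ _)
    fun _ _ _ => sq_nonneg _) h0

end Vale.Agent.P146
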