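import Vale.Agent.P146.Defs

namespace Vale.Agent.P146

open MeasureTheory ProbabilityTheory Matrix Real Finset Filter Topology
open P150 (gm spin Cfg)

variable {ι : Type} [Fintype ι] [DecidableEq ι] {J : Type} [Fintype J] {n : ℕ} {β : ℝ}

omit [DecidableEq ι] in
lemma PG_one (x : ι → ℝ) : 1 ≤ 1 + ‖x‖ := le_add_of_nonneg_right (norm_nonneg x)

omit [DecidableEq ι] in
lemma PG_bd {f : (ι → ℝ) → ℝ} (hf : PG f) :
    ∃ (C : ℝ) (k : ℕ), 0 ≤ C ∧ ∀ x, |f x| ≤ C * (1 + ‖x‖) ^ k := by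
  obtain ⟨C, k, h⟩ := hf.2
  refine ⟨|C|, k, abs_nonneg C, fun x => (h x).trans ?_⟩
  exact mul_le_mul_of_nonneg_right (le_abs_self C) (by positivity)

theorem PG.const (c : ℝ) : PG (fun _ : ι → ℝ => c) :=
  ⟨continuous_const, |c|, 0, fun x => by simp⟩
theorem PG.coord (e : ι) : PG (fun x : ι → ℝ => x e) :=
  ⟨continuous_apply e, 1, 1, fun x => by
    have := norm_le_pi_norm x e
    rw [Real.norm_eq_abs] at this
    rw [one_mul, pow_one]
    linarith⟩
theorem PG.add {f g : (ι → ℝ) → ℝ} (hf : PG f) (hg : PG g) : PG fun x => f x + g x := by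
  obtain ⟨C, k, hC, h⟩ := PG_bd hf
  obtain ⟨D, l, hD, h'⟩ := PG_bd hg
  refine ⟨hf.1.add hg.1, C + D, k + l, fun x => (abs_add_le _ _).trans ?_⟩
  rw [add_mul]
  exact add_le_add ((h x).trans (mul_le_mul_of_nonneg_left
    (pow_le_pow_right₀ (PG_one x) (Nat.le_add_right _ _)) hC)) ((h' x).trans
    (mul_le_mul_of_nonneg_left (pow_le_pow_right₀ (PG_one x) (Nat.le_add_left _ _)) hD))
theorem PG.mul {f g : (ι → ℝ) → ℝ} (hf : PG f) (hg : PG g) : PG fun x => f x * g x := by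
  obtain ⟨C, k, hC, h⟩ := PG_bd hf
  obtain ⟨D, l, hD, h'⟩ := PG_bd hg
  refine ⟨hf.1.mul hg.1, C * D, k + l, fun x => ?_⟩
  rw [abs_mul, pow_add, mul_mul_mul_comm]
  exact mul_le_mul (h x) (h' x) (abs_nonneg _) (by positivity)
theorem PG.sub {f g : (ι → ℝ) → ℝ} (hf : PG f) (hg : PG g) : PG fun x => f x - g x := by
  have := hf.add ((PG.const (-1)).mul hg)
  simpa only [neg_mul, one_mul, ← sub_eq_add_neg] using this
theorem PG.sum {κ : Type} (s : Finset κ) {f : κ → (ι → ℝ) → ℝ} (hf : ∀ i ∈ s, PG (f i)) :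
    PG fun x => ∑ i ∈ s, f i x := by
  classical
  induction s using Finset.induction_on with
  | empty => simpa using PG.const (ι := ι) 0
  | insert a s ha ih =>
    simp only [Finset.sum_insert ha]
    exact (hf a (Finset.mem_insert_self _ _)).add
      (ih fun i hi => hf i (Finset.mem_insert_of_mem hi))
theorem PG.comp {κ : Type} [Fintype κ] [DecidableEq κ] {f : (ι → ℝ) → ℝ} (hf : PG f)
    {T : (κ → ℝ) → ι → ℝ} (hT : Continuous T) {C : ℝ} (hb : ∀ y, ‖T y‖ ≤ C * (1 + ‖y‖)) :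
    PG fun y => f (T y) := by
  obtain ⟨D, l, hD, h⟩ := PG_bd hf
  refine ⟨hf.1.comp hT, D * (1 + |C|) ^ l, l, fun y => (h _).trans ?_⟩
  rw [mul_assoc, ← mul_pow]
  refine mul_le_mul_of_nonneg_left (pow_le_pow_left₀ (by positivity) ?_ l) hD
  have h1 := PG_one y
  have h2 : C * (1 + ‖y‖) ≤ |C| * (1 + ‖y‖) :=
    mul_le_mul_of_nonneg_right (le_abs_self C) (by positivity)
  have := hb y
  nlinarith
theorem int_pow (k : ℕ) : Integrable (fun x : ι → ℝ => (1 + ‖x‖) ^ k) (gm ι) := by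
  have h0 : ∀ e, MemLp (fun x : ι → ℝ => x e) k (gm ι) := fun e =>
    (memLp_id_gaussianReal' (μ := 0) (v := 1) k (by simp)).comp_measurePreserving
      (measurePreserving_eval (fun _ : ι => gaussianReal 0 1) e)
  have h1 : MemLp (fun x : ι → ℝ => 1 + ∑ e, ‖x e‖) k (gm ι) :=
    (memLp_const (1 : ℝ)).add (memLp_finset_sum _ fun e _ => (h0 e).norm)
  rcases Nat.eq_zero_or_pos k with rfl | hk
  · simp only [pow_zero]
    exact integrable_const _
  · refine (h1.integrable_norm_pow hk.ne').mono'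
      (Continuous.aestronglyMeasurable (by fun_prop)) (Eventually.of_forall fun x => ?_)
    have h2 : ‖x‖ ≤ ∑ e, ‖x e‖ := (pi_norm_le_iff_of_nonneg (by positivity)).mpr fun e =>
      Finset.single_le_sum (f := fun e => ‖x e‖) (fun _ _ => norm_nonneg _) (Finset.mem_univ e)
    rw [Real.norm_of_nonneg (by positivity), Real.norm_of_nonneg (by positivity)]
    gcongr
theorem PG.int {f : (ι → ℝ) → ℝ} (hf : PG f) : Integrable f (gm ι) := by
  obtain ⟨C, k, -, h⟩ := PG_bd hf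
  exact ((int_pow k).const_mul C).mono' hf.1.aestronglyMeasurable (Eventually.of_forall h)
theorem PG.memLp {f : (ι → ℝ) → ℝ} (hf : PG f) : MemLp f 2 (gm ι) := by
  rw [memLp_two_iff_integrable_sq hf.1.aestronglyMeasurable]
  simpa only [sq] using (hf.mul hf).int

omit [DecidableEq ι] in
lemma PG_mixc (ρ : ι → ℝ) : Continuous (mix ρ) := by
  unfold mix
  fun_prop

omit [DecidableEq ι] in
lemma PG_mix {ρ : ι → ℝ} (hρ : U01 ρ) (q : (ι → ℝ) × (ι → ℝ)) :
    1 + ‖mix ρ q‖ ≤ (1 + ‖q.1‖) * (1 + ‖q.2‖) := by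
  have h : ‖mix ρ q‖ ≤ ‖q.1‖ + ‖q.2‖ := by
    refine (pi_norm_le_iff_of_nonneg (by positivity)).mpr fun e => ?_
    refine (norm_add_le _ _).trans (add_le_add ?_ ?_)
    · rw [norm_mul]
      refine (mul_le_of_le_one_left (norm_nonneg _) ?_).trans (norm_le_pi_norm _ e)
      rw [Real.norm_eq_abs, abs_of_nonneg (hρ e).1]
      exact (hρ e).2
    · rw [norm_mul]
      refine (mul_le_of_le_one_left (norm_nonneg _) ?_).trans (norm_le_pi_norm _ e)
      rw [Real.norm_eq_abs, abs_of_nonneg (Real.sqrt_nonneg _)]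
      exact Real.sqrt_le_one.mpr (by nlinarith [sq_nonneg (ρ e)])
  nlinarith [mul_nonneg (norm_nonneg q.1) (norm_nonneg q.2)]

omit [DecidableEq ι] in
lemma PG_mixb {g : (ι → ℝ) → ℝ} {D : ℝ} {l : ℕ} (hD : 0 ≤ D) (h : ∀ x, |g x| ≤ D * (1 + ‖x‖) ^ l)
    {ρ : ι → ℝ} (hρ : U01 ρ) (q : (ι → ℝ) × (ι → ℝ)) :
    |g (mix ρ q)| ≤ D * (1 + ‖q.1‖) ^ l * (1 + ‖q.2‖) ^ l := by
  refine (h _).trans ?_
  rw [mul_assoc, ← mul_pow]
  exact mul_le_mul_of_nonneg_left (pow_le_pow_left₀ (by positivity) (PG_mix hρ q) l) hD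

theorem PG.int2 {f g : (ι → ℝ) → ℝ} (hf : PG f) (hg : PG g) {ρ : ι → ℝ} (hρ : U01 ρ) :
    Integrable (fun q => f q.1 * g (mix ρ q)) ((gm ι).prod (gm ι)) := by
  obtain ⟨C, k, hC, h⟩ := PG_bd hf
  obtain ⟨D, l, hD, h'⟩ := PG_bd hg
  refine (((int_pow (ι := ι) (k + l)).const_mul (C * D)).mul_prod (int_pow (ι := ι) l)).mono'
    ((hf.1.comp continuous_fst).mul (hg.1.comp (PG_mixc ρ))).aestronglyMeasurable
    (Eventually.of_forall fun q => ?_)
  rw [Real.norm_eq_abs, abs_mul]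
  refine (mul_le_mul (h q.1) (PG_mixb hD h' hρ q) (abs_nonneg _) (by positivity)).trans
    (le_of_eq ?_)
  ring
theorem PG.pt {f : (ι → ℝ) → ℝ} (hf : PG f) {ρ : ι → ℝ} (hρ : U01 ρ) : PG (Pt ρ f) := by
  obtain ⟨D, l, hD, h⟩ := PG_bd hf
  have hc : ∀ x : ι → ℝ, Continuous fun y => f (mix ρ (x, y)) := fun x =>
    hf.1.comp ((PG_mixc ρ).comp (Continuous.prodMk_right x))
  refine ⟨continuous_iff_continuousAt.mpr fun x0 => ?_, D * ∫ y, (1 + ‖y‖) ^ l ∂gm ι, l,
    fun x => ?_⟩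
  · refine continuousAt_of_dominated (bound := fun y => D * (1 + (‖x0‖ + 1)) ^ l * (1 + ‖y‖) ^ l)
      (Eventually.of_forall fun x => (hc x).aestronglyMeasurable) ?_ ((int_pow l).const_mul _)
      (Eventually.of_forall fun y =>
        (hf.1.comp ((PG_mixc ρ).comp (Continuous.prodMk_left y))).continuousAt)
    have : ∀ᶠ x in 𝓝 x0, ‖x‖ < ‖x0‖ + 1 :=
      continuous_norm.continuousAt.eventually (gt_mem_nhds (lt_add_one _))
    filter_upwards [this] with x hx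
    refine Eventually.of_forall fun y => (PG_mixb hD h hρ (x, y)).trans ?_
    gcongr
  · refine (norm_integral_le_of_norm_le (f := fun y => f (mix ρ (x, y))) ((int_pow l).const_mul
      (D * (1 + ‖x‖) ^ l)) (Eventually.of_forall fun y => PG_mixb hD h hρ (x, y))).trans (le_of_eq ?_)
    rw [integral_const_mul]
    ring
theorem u01_rr (E : Finset ι) {r t : ℝ} (hr : r ∈ Set.Icc (0 : ℝ) 1) (ht : t ∈ Set.Icc (0 : ℝ) 1) :
    U01 (rr E r t) := fun e => by
  unfold rr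
  split_ifs
  · exact hr
  · exact ht
theorem rr_self (E : Finset ι) (t : ℝ) : rr E t t = fun _ => t := by
  funext e; simp [rr]
theorem rr_univ (r t : ℝ) : rr (univ : Finset ι) r t = fun _ => r := by
  funext e; simp [rr]

end Vale.Agent.P146
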