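import Vale.Agent.P146.Defs

namespace Vale.Agent.P146

open MeasureTheory ProbabilityTheory Matrix Real Finset Filter Topology
open P150 (gm spin Cfg)

variable {ι : Type} [Fintype ι] [DecidableEq ι] {J : Type} [Fintype J] {n : ℕ} {β : ℝ}

theorem sign_det (O : Mx n) : ∃ d : Fin n → ℝ, (∀ i, d i = 1 ∨ d i = -1) ∧
    (1 + O * diagonal d).det ≠ 0 := by
  by_contra h
  have h0 : ∀ d : Fin n → ℝ, (∀ i, d i = 1 ∨ d i = -1) → (1 + O * diagonal d).det = 0 :=
    fun d hd => by
      by_contra h1
      exact h ⟨d, hd, h1⟩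
  have key : ∀ s : Finset (Fin n), ∀ d : Fin n → ℝ, (∀ i ∈ s, d i = 0) →
      (∀ i ∉ s, d i = 1 ∨ d i = -1) → (1 + O * diagonal d).det = 0 := by
    intro s
    induction s using Finset.induction_on with
    | empty => exact fun d _ hd => h0 d fun i => hd i (by simp)
    | insert a s ha ih =>
      intro d h1 h2
      have e : ∀ t : ℝ, 1 + O * diagonal (Function.update d a t) = updateCol (1 + O * diagonal d) a
          ((fun i => (1 : Mx n) i a) + t • fun i => O i a) := fun t => by
        ext i j
        by_cases hj : j = a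
        · subst hj
          simp [mul_comm]
        · simp [updateCol_ne hj, Function.update_of_ne hj]
      have f : ∀ t : ℝ, t = 1 ∨ t = -1 → (1 + O * diagonal (Function.update d a t)).det = 0 :=
        fun t ht => ih _ (fun i hi => by
          rw [Function.update_of_ne (ne_of_mem_of_not_mem hi ha)]
          exact h1 i (mem_insert_of_mem hi)) fun i hi => by
            by_cases hi' : i = a
            · rw [hi', Function.update_self]
              exact ht
            · rw [Function.update_of_ne hi']
              exact h2 i (by simp [hi, hi'])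
      have f1 := f 1 (Or.inl rfl)
      have f2 := f (-1) (Or.inr rfl)
      have f0 : d = Function.update d a 0 := by
        rw [← h1 a (mem_insert_self _ _), Function.update_eq_self]
      rw [f0, e]
      rw [e] at f1 f2
      rw [det_updateCol_add, det_updateCol_smul] at f1 f2 ⊢
      linarith
  have := key univ 0 (fun _ _ => rfl) fun i hi => absurd (mem_univ i) hi
  simp at this

/-- the commutative algebra generated by `S` and diagonal matrices -/
def pathT (S : Mx n) (a b : Fin n → ℝ) : Mx n := diagonal a + S * diagonal b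

theorem path_mul {S : Mx n} {σ a b : Fin n → ℝ} (a' b' : Fin n → ℝ) (h : S * S = -diagonal σ)
    (ha : diagonal a * S = S * diagonal a) (hb : diagonal b * S = S * diagonal b) :
    pathT S a b * pathT S a' b' =
      pathT S (fun i => a i * a' i - σ i * (b i * b' i)) fun i => a i * b' i + b i * a' i := by
  have e1 : diagonal a * (S * diagonal b') = S * diagonal fun i => a i * b' i := by
    rw [← mul_assoc, ha, mul_assoc, diagonal_mul_diagonal]
  have e2 : S * diagonal b * (S * diagonal b') = -diagonal fun i => σ i * (b i * b' i) := by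
    rw [mul_assoc, ← mul_assoc (diagonal b), hb, mul_assoc, ← mul_assoc S, h,
      diagonal_mul_diagonal, neg_mul, diagonal_mul_diagonal]
  rw [pathT, pathT, pathT, add_mul, mul_add, mul_add, e1, e2, mul_assoc, diagonal_mul_diagonal,
    diagonal_mul_diagonal, ← diagonal_sub, ← diagonal_add, mul_add]
  abel

theorem path_tr {S : Mx n} (hS : Sᵀ = -S) (a : Fin n → ℝ) {b : Fin n → ℝ}
    (hb : diagonal b * S = S * diagonal b) : (pathT S a b)ᵀ = pathT S a fun i => -b i := by
  rw [pathT, pathT, transpose_add, transpose_mul, diagonal_transpose, diagonal_transpose, hS,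
    mul_neg, hb, ← diagonal_neg, mul_neg]

theorem path_core {S : Mx n} {c : Fin n → ℝ} (hS : Sᵀ = -S)
    (hO : (diagonal c + S)ᵀ * (diagonal c + S) = 1) (hd : (1 + (diagonal c + S)).det ≠ 0) :
    ∃ (P : ℝ → Mx n) (A : Mx n), Aᵀ = -A ∧ (Aᵀ * A).trace ≤ 10 * n ∧ P 0 = 1 ∧
      P 1 = diagonal c + S ∧ (∀ s, (P s)ᵀ * P s = 1) ∧
      ∀ s a b, HasDerivAt (fun s => P s a b) ((P s * A) a b) s := by
  have hO' := mul_eq_one_comm.1 hO
  rw [transpose_add, diagonal_transpose, hS] at hO hO'
  have h1 : diagonal c * S = S * diagonal c := by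
    have : (2 : ℝ) • (diagonal c * S) = (2 : ℝ) • (S * diagonal c) := by
      rw [← sub_eq_zero, ← sub_self (1 : Mx n)]
      nth_rewrite 1 [← hO]
      rw [← hO', two_smul, two_smul]
      noncomm_ring
    exact smul_right_injective _ two_ne_zero this
  have h2 : S * S = -diagonal fun i => 1 - c i ^ 2 := by
    have : S * S = -(1 - diagonal c * diagonal c) := by
      rw [← hO, add_mul, mul_add, mul_add, neg_mul, neg_mul, h1]
      abel
    rw [this, diagonal_mul_diagonal, ← diagonal_one, diagonal_sub]
    simp only [sq]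
  have cm : ∀ w : ℝ → ℝ, (diagonal fun i => w (c i)) * S = S * diagonal fun i => w (c i) :=
    fun w => by
      ext i j
      have := congrFun (congrFun h1 i) j
      rw [diagonal_mul, mul_diagonal] at this ⊢
      by_cases h : S i j = 0
      · simp [h]
      · rw [mul_right_cancel₀ h (this.trans (mul_comm _ _)), mul_comm]
  have h3 : ∀ j, ∑ i, S i j ^ 2 = 1 - c j ^ 2 := fun j => by
    have := congrFun (congrFun h2 j) j
    rw [mul_apply, Matrix.neg_apply, diagonal_apply_eq] at this
    rw [← neg_inj, ← this, ← sum_neg_distrib]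
    refine sum_congr rfl fun i _ => ?_
    have : S j i = -S i j := congrFun (congrFun hS i) j
    rw [this]
    ring
  have h4 : ∀ j, c j ^ 2 ≤ 1 := fun j => by
    have := sum_nonneg fun i (_ : i ∈ univ) => sq_nonneg (S i j)
    rw [h3] at this
    linarith
  have h5 : ∀ i j, 1 - c j ^ 2 = 0 → S i j = 0 := fun i j h =>
    pow_eq_zero_iff two_ne_zero |>.1
      ((sum_eq_zero_iff_of_nonneg fun i _ => sq_nonneg (S i j)).1 ((h3 j).trans h) i (mem_univ i))
  have h6 : ∀ j, c j ≠ -1 := fun j h => hd (det_eq_zero_of_column_eq_zero j fun i => by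
    have := h5 i j (by rw [h]; norm_num)
    by_cases hij : i = j
    · subst hij
      simp [this, h]
    · simp [this, hij])
  have b1 : ∀ j, -1 ≤ c j ∧ c j ≤ 1 := fun j => abs_le.1 (sq_le_one_iff_abs_le_one _ |>.1 (h4 j))
  have s2 : ∀ j, 1 - c j ^ 2 = sin (arccos (c j)) ^ 2 := fun j => by
    rw [sin_arccos, sq_sqrt (by linarith [h4 j])]
  have s0 : ∀ j, sin (arccos (c j)) = 0 → arccos (c j) = 0 := fun j h => by
    have := s2 j
    rw [h] at this
    have e : (c j - 1) * (c j + 1) = 0 := by linarith
    rcases mul_eq_zero.1 e with e | e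
    · rw [show c j = 1 by linarith, arccos_one]
    · exact absurd (by linarith) (h6 j)
  refine ⟨fun s => pathT S (fun j => cos (s * arccos (c j)))
    fun j => sin (s * arccos (c j)) / sin (arccos (c j)),
    pathT S (fun _ => 0) fun j => arccos (c j) / sin (arccos (c j)), ?_, ?_, ?_, ?_, fun s => ?_,
    fun s a b => ?_⟩
  · rw [path_tr hS _ (cm fun t => arccos t / sin (arccos t))]
    simp [pathT, ← diagonal_neg]
  · rw [path_tr hS _ (cm fun t => arccos t / sin (arccos t)), path_mul _ _ h2 (cm fun _ => 0)
      (cm fun t => -(arccos t / sin (arccos t)))]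
    simp only [pathT, zero_mul, mul_zero, add_zero, diagonal_zero, trace_diagonal]
    refine (sum_le_card_nsmul _ _ 10 fun j _ => ?_).trans (by simp [mul_comm])
    have a1 := arccos_nonneg (c j)
    have a2 := arccos_le_pi (c j)
    have a3 := pi_lt_d2
    rw [s2]
    by_cases h : sin (arccos (c j)) = 0
    · simp [h]
    · have : 0 - sin (arccos (c j)) ^ 2 * (-(arccos (c j) / sin (arccos (c j))) *
          (arccos (c j) / sin (arccos (c j)))) = arccos (c j) ^ 2 := by
        field_simp
        ring
      rw [this]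
      nlinarith
  · simp [pathT]
  · ext i j
    simp only [pathT, one_mul, Matrix.add_apply, mul_diagonal, fun j => cos_arccos (b1 j).1 (b1 j).2]
    by_cases h : sin (arccos (c j)) = 0
    · rw [h5 i j (by rw [s2, h]; norm_num), zero_mul]
    · rw [div_self h, mul_one]
  · rw [path_tr hS _ (cm fun t => sin (s * arccos t) / sin (arccos t)),
      path_mul _ _ h2 (cm fun t => cos (s * arccos t))
      (cm fun t => -(sin (s * arccos t) / sin (arccos t))), pathT]
    have e1 : (fun j => cos (s * arccos (c j)) * cos (s * arccos (c j)) - (1 - c j ^ 2) *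
        (-(sin (s * arccos (c j)) / sin (arccos (c j))) *
          (sin (s * arccos (c j)) / sin (arccos (c j))))) = fun _ => 1 := funext fun j => by
      rw [s2]
      by_cases h : sin (arccos (c j)) = 0
      · simp [s0 j h]
      · rw [← sin_sq_add_cos_sq (s * arccos (c j))]
        field_simp
        ring
    have e2 : (fun j => cos (s * arccos (c j)) * (sin (s * arccos (c j)) / sin (arccos (c j))) +
        -(sin (s * arccos (c j)) / sin (arccos (c j))) * cos (s * arccos (c j))) = fun _ => 0 :=
      funext fun j => by ring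
    rw [e1, e2]
    simp
  · rw [path_mul _ _ h2 (cm fun t => cos (s * arccos t))
      (cm fun t => sin (s * arccos t) / sin (arccos t))]
    simp only [pathT, Matrix.add_apply, mul_diagonal]
    have d0 : ∀ j, HasDerivAt (fun s : ℝ => s * arccos (c j)) (arccos (c j)) s := fun j => by
      simpa using (hasDerivAt_id s).mul_const (arccos (c j))
    refine HasDerivAt.add ?_ (HasDerivAt.const_mul _ (((d0 b).sin.div_const _).congr_deriv
      (by ring)))
    by_cases hab : a = b
    · subst hab
      simp only [diagonal_apply_eq]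
      refine (d0 a).cos.congr_deriv ?_
      rw [s2]
      by_cases h : sin (arccos (c a)) = 0
      · simp [s0 a h]
      · field_simp
        ring
    · simp only [diagonal_apply_ne _ hab]
      exact hasDerivAt_const _ _

theorem path {O : Mx n} (hO : Oᵀ * O = 1) (hd : (1 + O).det ≠ 0) :
    ∃ (P : ℝ → Mx n) (A : Mx n), Aᵀ = -A ∧ ∑ a, ∑ b, A a b ^ 2 ≤ 10 * n ∧ P 0 = 1 ∧ P 1 = O ∧
      (∀ s, (P s)ᵀ * P s = 1) ∧ ∀ s a b, HasDerivAt (fun s => P s a b) ((P s * A) a b) s := by
  have hH : ((1 / 2 : ℝ) • (O + Oᵀ)).IsHermitian := by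
    rw [IsHermitian, conjTranspose_eq_transpose_of_trivial, transpose_smul, transpose_add,
      transpose_transpose, add_comm]
  obtain ⟨U, c, u1, u2⟩ : ∃ (U : Mx n) (c : Fin n → ℝ), Uᵀ * U = 1 ∧
      Uᵀ * ((1 / 2 : ℝ) • (O + Oᵀ)) * U = diagonal c := by
    refine ⟨hH.eigenvectorUnitary, hH.eigenvalues, ?_, ?_⟩
    · have := hH.eigenvectorUnitary.2.1
      rwa [star_eq_conjTranspose, conjTranspose_eq_transpose_of_trivial] at this
    · have := hH.conjStarAlgAut_star_eigenvectorUnitary
      rw [Unitary.conjStarAlgAut_apply] at this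
      simpa [star_eq_conjTranspose, conjTranspose_eq_transpose_of_trivial] using this
  have u3 := mul_eq_one_comm.1 u1
  have c1 : ∀ X Y : Mx n, U * X * Uᵀ * (U * Y * Uᵀ) = U * (X * Y) * Uᵀ := fun X Y => by
    simp only [mul_assoc]
    rw [← mul_assoc Uᵀ, u1, one_mul]
  have c2 : ∀ X : Mx n, (U * X * Uᵀ)ᵀ = U * Xᵀ * Uᵀ := fun X => by
    simp only [transpose_mul, transpose_transpose, mul_assoc]
  have e : diagonal c + Uᵀ * ((1 / 2 : ℝ) • (O - Oᵀ)) * U = Uᵀ * O * U := by
    rw [← u2, ← add_mul, ← mul_add, ← smul_add]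
    congr 2
    module
  obtain ⟨P, A, a1, a2, a3, a4, a5, a6⟩ := path_core (c := c)
    (S := Uᵀ * ((1 / 2 : ℝ) • (O - Oᵀ)) * U) (by
      rw [transpose_mul, transpose_mul, transpose_transpose, transpose_smul, transpose_sub,
        transpose_transpose, ← neg_sub O, smul_neg, neg_mul, mul_neg, mul_assoc]) (by
      rw [e, transpose_mul, transpose_mul, transpose_transpose]
      simp only [mul_assoc]
      rw [← mul_assoc U, u3, one_mul, ← mul_assoc Oᵀ, hO, one_mul, u1]) (by
      rw [e, show 1 + Uᵀ * O * U = Uᵀ * (1 + O) * U by rw [mul_add, add_mul, mul_one, u1],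
        det_mul_comm, ← mul_assoc, u3, one_mul]
      exact hd)
  refine ⟨fun s => U * P s * Uᵀ, U * A * Uᵀ, by rw [c2, a1, mul_neg, neg_mul], ?_,
    by simp only [a3, mul_one, u3], ?_, fun s => by rw [c2, c1, a5, mul_one, u3],
    fun s a b => ?_⟩
  · refine le_trans (le_of_eq ?_) a2
    have : ((U * A * Uᵀ)ᵀ * (U * A * Uᵀ)).trace = (Aᵀ * A).trace := by
      rw [c2, c1, trace_mul_comm, ← mul_assoc, u1, one_mul]
    rw [← this, sum_comm]
    simp only [trace, diag_apply, mul_apply (M := (U * A * Uᵀ)ᵀ), transpose_apply, sq]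
  · simp only [a4, e, ← mul_assoc, u3, one_mul]
    rw [mul_assoc, u3, mul_one]
  · rw [c1]
    simp only [mul_apply (M := U * _), mul_apply (M := U)]
    exact HasDerivAt.fun_sum fun k _ =>
      (HasDerivAt.fun_sum fun l _ => (a6 s l k).const_mul _).mul_const _

end Vale.Agent.P146
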