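import Vale.Agent.P146.Price
import Vale.Agent.P146.CS

namespace Vale.Agent.P146

open MeasureTheory ProbabilityTheory Matrix Real Finset Filter Topology
open P150 (gm spin Cfg)

variable {ι : Type} [Fintype ι] [DecidableEq ι] {J : Type} [Fintype J] {n : ℕ} {β : ℝ}

theorem qb_dd (E : Finset ι) (ρ : ι → ℝ) (F G : J → (ι → ℝ) → ℝ) :
    Qb ρ (dd E F) (dd E G) = ∑ j, ∑ e ∈ E, Bf ρ (pd e (F j)) (pd e (G j)) := by
  rw [Qb, Fintype.sum_prod_type]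
  refine sum_congr rfl fun j _ => ?_
  rw [← Finset.sum_ite_mem_eq E]
  refine sum_congr rfl fun e _ => ?_
  simp only [dd]
  split_ifs
  · rfl
  · simp [Bf]

theorem qb_price {F : J → (ι → ℝ) → ℝ} (hF : ∀ j, C2 (F j)) (E : Finset ι) {r t : ℝ}
    (ht : t ∈ Set.Icc (0 : ℝ) 1) (hr : r ∈ Set.Ioo (0 : ℝ) 1) :
    HasDerivAt (fun r => Qb (rr E r t) F F) (Qb (rr E r t) (dd E F) (dd E F)) r := by
  rw [qb_dd]
  exact HasDerivAt.fun_sum fun j _ => price (hF j) (hF j) E ht hr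

theorem qb_cont {F : J → (ι → ℝ) → ℝ} (hF : ∀ j, PG (F j)) (E : Finset ι) {t : ℝ}
    (ht : t ∈ Set.Icc (0 : ℝ) 1) : ContinuousOn (fun r => Qb (rr E r t) F F) (Set.Icc 0 1) :=
  continuousOn_finset_sum _ fun j _ => price_cont (hF j) (hF j) E ht

theorem tay {F : J → (ι → ℝ) → ℝ} (hF : ∀ j, C2 (F j)) (E : Finset ι) {t B : ℝ}
    (ht : t ∈ Set.Icc (0 : ℝ) 1) (hB : 0 ≤ B)
    (h : ∀ r ∈ Set.Icc (0 : ℝ) 1, Qb (rr E r t) (dd E F) (dd E F) ≤ B) :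
    ∀ r ∈ Set.Icc (0 : ℝ) 1, Qb (rr E r t) F F ≤ Qb (rr E 0 t) F F + B := by
  intro r hr
  rcases hr.1.eq_or_lt with h0 | h0
  · rw [← h0]; linarith
  obtain ⟨c, hc, e⟩ := exists_hasDerivAt_eq_slope (fun r => Qb (rr E r t) F F)
    (fun r => Qb (rr E r t) (dd E F) (dd E F)) h0
    ((qb_cont (fun j => (hF j).2.1) E ht).mono (Set.Icc_subset_Icc le_rfl hr.2))
    fun x hx => qb_price hF E ht ⟨hx.1, hx.2.trans_le hr.2⟩
  have h1 := h c ⟨hc.1.le, hc.2.le.trans hr.2⟩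
  rw [e, sub_zero, div_le_iff₀ h0] at h1
  have h2 : B * r ≤ B := mul_le_of_le_one_right hB hr.2
  linarith

end Vale.Agent.P146
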