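import Vale.Agent.P146.Ph
import Vale.Agent.P146.Tay

namespace Vale.Agent.P146

open MeasureTheory ProbabilityTheory Matrix Real Finset Filter Topology
open P150 (gm spin Cfg)

variable {ι : Type} [Fintype ι] [DecidableEq ι] {J : Type} [Fintype J] {n : ℕ} {β : ℝ}

lemma phd_ep (σ τ : Cfg n) : ∑ e, ep β (sp σ) (sp σ) e * ep β (sp τ) (sp τ) e =
    β ^ 2 * n / 2 * ov σ τ ^ 2 := by
  rcases Nat.eq_zero_or_pos n with h | h
  · subst h
    simp
  have hn : (0 : ℝ) < n := by exact_mod_cast h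
  have hs : (β / √(2 * n)) ^ 2 = β ^ 2 / (2 * n) := by
    rw [div_pow, Real.sq_sqrt (by positivity)]
  have h1 : ∀ e : Fin n × Fin n, ep β (sp σ) (sp σ) e * ep β (sp τ) (sp τ) e =
      β ^ 2 / (2 * n) * ((sp σ e.1 * sp τ e.1) * (sp σ e.2 * sp τ e.2)) := fun e => by
    rw [← hs]
    unfold ep
    ring
  simp only [h1]
  rw [← Finset.mul_sum, Fintype.sum_prod_type]
  dsimp only
  rw [← Finset.sum_mul_sum, ov]
  field_simp

lemma phd_abs {S E : Type} [Fintype S] [Fintype E] {w w' : S → ℝ} (hw : ∀ s, 0 ≤ w s)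
    (hw' : ∀ s, 0 ≤ w' s) (a : S → E → ℝ) {K : S → S → ℝ} (hK : ∀ s t, ∑ e, a s e * a t e = K s t)
    (K0 : ∀ s t, 0 ≤ K s t) (σ τ : S) :
    ∑ e, (a σ e - ∑ s, w s * a s e) * (a τ e - ∑ t, w' t * a t e) ≤
      K σ τ + ∑ s, ∑ t, w s * w' t * K s t := by
  have h1 : ∑ e, a σ e * ∑ t, w' t * a t e = ∑ t, w' t * K σ t := by
    simp only [← hK, Finset.mul_sum]
    rw [Finset.sum_comm]
    exact sum_congr rfl fun _ _ => sum_congr rfl fun _ _ => by ring
  have h2 : ∑ e, (∑ s, w s * a s e) * a τ e = ∑ s, w s * K s τ := by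
    simp only [← hK, Finset.mul_sum, Finset.sum_mul]
    rw [Finset.sum_comm]
    exact sum_congr rfl fun _ _ => sum_congr rfl fun _ _ => by ring
  have h3 : ∑ e, (∑ s, w s * a s e) * (∑ t, w' t * a t e) = ∑ s, ∑ t, w s * w' t * K s t := by
    simp only [Finset.sum_mul_sum]
    rw [Finset.sum_comm]
    refine sum_congr rfl fun _ _ => ?_
    rw [Finset.sum_comm]
    refine sum_congr rfl fun _ _ => ?_
    rw [← hK, Finset.mul_sum]
    exact sum_congr rfl fun _ _ => by ring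
  have h4 : 0 ≤ ∑ t, w' t * K σ t := sum_nonneg fun t _ => mul_nonneg (hw' t) (K0 _ _)
  have h5 : 0 ≤ ∑ s, w s * K s τ := sum_nonneg fun s _ => mul_nonneg (hw s) (K0 _ _)
  simp only [sub_mul, mul_sub, Finset.sum_sub_distrib]
  rw [hK, h1, h2, h3]
  linarith

lemma phd_young {a b : ℝ} (ha : 0 ≤ a) (hb : 0 ≤ b) (p : ℕ) :
    a ^ p * b ≤ a ^ (p + 1) + b ^ (p + 1) := by
  have h1 := pow_nonneg ha (p + 1)
  have h2 := pow_nonneg hb (p + 1)
  rcases le_total a b with h | h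
  · have := mul_le_mul_of_nonneg_right (pow_le_pow_left₀ ha h p) hb
    rw [← pow_succ] at this
    linarith
  · have := mul_le_mul_of_nonneg_left h (pow_nonneg ha p)
    rw [← pow_succ] at this
    linarith

lemma phd_jen {P : Type} [Fintype P] {W z : P → ℝ} (hW : ∀ q, 0 ≤ W q) (h1 : ∑ q, W q = 1)
    (hz : ∀ q, 0 ≤ z q) (p : ℕ) :
    ∑ q, W q * (z q ^ p * (z q + ∑ r, W r * z r)) ≤ 4 * ∑ q, W q * z q ^ (p + 1) := by
  obtain ⟨m, hm⟩ : ∃ m, m = ∑ r, W r * z r := ⟨_, rfl⟩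
  have m0 : 0 ≤ m := hm ▸ sum_nonneg fun r _ => mul_nonneg (hW r) (hz r)
  have hj : m ^ (p + 1) ≤ ∑ q, W q * z q ^ (p + 1) := hm ▸
    Real.pow_arith_mean_le_arith_mean_pow univ W z (fun q _ => hW q) h1 (fun q _ => hz q) (p + 1)
  rw [← hm]
  have h2 : ∑ q, W q * (z q ^ p * (z q + m)) ≤
      ∑ q, (2 * (W q * z q ^ (p + 1)) + W q * m ^ (p + 1)) := by
    refine sum_le_sum fun q _ => ?_
    have := mul_le_mul_of_nonneg_left (phd_young (hz q) m0 p) (hW q)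
    rw [pow_succ] at *
    nlinarith
  rw [Finset.sum_add_distrib, ← Finset.mul_sum, ← Finset.sum_mul, h1] at h2
  have := pow_nonneg m0 (p + 1)
  linarith

lemma phd_pd {q : ℕ} (j : Fin q → Fin n) (e : Fin n × Fin n) (x : Om n) :
    pd e (xi β q j) x = ∑ σ, gw β x σ * tn j (sp σ) *
      (ep β (sp σ) (sp σ) e - ∑ s, gw β x s * ep β (sp s) (sp s) e) := by
  have h := al_pd_sum (univ : Finset (Cfg n))
    (f := fun σ (x : Om n) => gw β x σ * tn j (sp σ)) (fun σ => (gw_diff σ).mul_const _) e x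
  refine h.trans (sum_congr rfl fun σ _ => ?_)
  rw [al_pd_mul (gw_diff σ) (differentiable_const _), al_pd_const, pd_gw, av]
  ring

lemma phd_pt (p : ℕ) (x y : Om n) :
    ∑ k : (Fin (2 * p) → Fin n) × (Fin n × Fin n),
      dd univ (xi β (2 * p)) k x * dd univ (xi β (2 * p)) k y ≤
      2 * β ^ 2 * n * ∑ σ, ∑ τ, gw β x σ * gw β y τ * ov σ τ ^ (2 * (p + 1)) := by
  obtain ⟨c, hc⟩ : ∃ c : ℝ, c = β ^ 2 * n / 2 := ⟨_, rfl⟩
  have c0 : 0 ≤ c := by rw [hc]; positivity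
  obtain ⟨u, hu⟩ : ∃ u : Om n → Cfg n → Fin n × Fin n → ℝ, u = fun x σ e =>
    ep β (sp σ) (sp σ) e - ∑ s, gw β x s * ep β (sp s) (sp s) e := ⟨_, rfl⟩
  have h1 : ∀ (k : (Fin (2 * p) → Fin n) × (Fin n × Fin n)) x, dd univ (xi β (2 * p)) k x =
      ∑ σ, gw β x σ * tn k.1 (sp σ) * u x σ k.2 := fun k x => by
    rw [dd, if_pos (mem_univ _), phd_pd, hu]
  have h2 : ∑ k : (Fin (2 * p) → Fin n) × (Fin n × Fin n),
      dd univ (xi β (2 * p)) k x * dd univ (xi β (2 * p)) k y =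
      ∑ σ, ∑ τ, gw β x σ * gw β y τ * ((ov σ τ ^ 2) ^ p * ∑ e, u x σ e * u y τ e) := by
    simp only [h1, Finset.sum_mul_sum]
    rw [Finset.sum_comm]
    refine sum_congr rfl fun σ _ => ?_
    rw [Finset.sum_comm]
    refine sum_congr rfl fun τ _ => ?_
    have h3 : (ov σ τ ^ 2) ^ p = ∑ j : Fin (2 * p) → Fin n, tn j (sp σ) * tn j (sp τ) := by
      rw [sum_tn, ← pow_mul]
      rfl
    rw [h3, Finset.sum_mul_sum, Fintype.sum_prod_type, Finset.mul_sum]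
    refine sum_congr rfl fun j _ => ?_
    rw [Finset.mul_sum]
    exact sum_congr rfl fun e _ => by ring
  have h4 : ∀ σ τ, ∑ e, u x σ e * u y τ e ≤
      c * (ov σ τ ^ 2 + ∑ r : Cfg n × Cfg n, gw β x r.1 * gw β y r.2 * ov r.1 r.2 ^ 2) := by
    intro σ τ
    have := phd_abs (fun s => (gw_pos (β := β) x s).le) (fun s => (gw_pos (β := β) y s).le)
      (fun s e => ep β (sp s) (sp s) e) (K := fun s t => c * ov s t ^ 2)
      (fun s t => hc ▸ phd_ep s t) (fun s t => mul_nonneg c0 (sq_nonneg _)) σ τ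
    rw [hu]
    refine this.trans_eq ?_
    rw [mul_add, Fintype.sum_prod_type, Finset.mul_sum]
    congr 1
    refine sum_congr rfl fun s _ => ?_
    rw [Finset.mul_sum]
    exact sum_congr rfl fun t _ => by ring
  have h5 := phd_jen (W := fun r : Cfg n × Cfg n => gw β x r.1 * gw β y r.2)
    (z := fun r => ov r.1 r.2 ^ 2) (fun r => (mul_pos (gw_pos _ _) (gw_pos _ _)).le)
    (by rw [Fintype.sum_prod_type, ← Finset.sum_mul_sum, gw_sum, gw_sum, mul_one])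
    (fun r => sq_nonneg _) p
  have h6 := mul_le_mul_of_nonneg_left h5 c0
  rw [h2, ← Fintype.sum_prod_type' (f := fun σ τ => gw β x σ * gw β y τ * ov σ τ ^ (2 * (p + 1))),
    ← Fintype.sum_prod_type' (f := fun σ τ => gw β x σ * gw β y τ *
      ((ov σ τ ^ 2) ^ p * ∑ e, u x σ e * u y τ e))]
  have h7 : 2 * β ^ 2 * n = c * 4 := by rw [hc]; ring
  simp only [h7, pow_mul, mul_assoc c]
  refine le_trans ?_ h6
  rw [Finset.mul_sum]
  refine sum_le_sum fun r _ => ?_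
  have := mul_le_mul_of_nonneg_left (mul_le_mul_of_nonneg_left (h4 r.1 r.2)
    (pow_nonneg (sq_nonneg (ov r.1 r.2)) p)) (mul_pos (gw_pos (β := β) x r.1)
      (gw_pos (β := β) y r.2)).le
  refine this.trans_eq ?_
  ring

lemma phd_eq (p : ℕ) : ph β n p = fun r => Qb (rr univ r 0) (xi (n := n) β (2 * p))
    (xi (n := n) β (2 * p)) := by
  funext r
  rw [rr_univ, ph]

theorem ph_deriv (p : ℕ) {t : ℝ} (ht : t ∈ Set.Ioo (0 : ℝ) 1) :
    ∃ d, HasDerivAt (ph β n p) d t ∧ 0 ≤ d ∧ d ≤ 2 * β ^ 2 * n * ph β n (p + 1) t := by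
  have h0 : (0 : ℝ) ∈ Set.Icc (0 : ℝ) 1 := ⟨le_rfl, zero_le_one⟩
  have ht' : t ∈ Set.Icc (0 : ℝ) 1 := ⟨ht.1.le, ht.2.le⟩
  have hρ : U01 (fun _ : Fin n × Fin n => t) := fun _ => ht'
  have hD := fun k => (al_dd (al_xi (β := β) (n := n) (2 * p)) univ k).pg
  have h1 := qb_price (fun j => (al_xi (β := β) (n := n) (2 * p) j).c2) univ h0 ht
  rw [← phd_eq, rr_univ] at h1
  refine ⟨_, h1, qb_nonneg hD hρ, ?_⟩
  rw [ph_eq _ ht', E2, ← integral_const_mul, Qb]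
  unfold Bf
  rw [← integral_finset_sum _ fun k _ => (hD k).int2 (hD k) hρ]
  exact integral_mono (integrable_finset_sum _ fun k _ => (hD k).int2 (hD k) hρ)
    ((e2_int hρ _).const_mul _) fun q => phd_pt p _ _
theorem ph_cont (p : ℕ) : ContinuousOn (ph β n p) (Set.Icc 0 1) := by
  rw [phd_eq]
  exact qb_cont (fun j => (al_xi (2 * p) j).pg) univ ⟨le_rfl, zero_le_one⟩
theorem ph_mono (p : ℕ) : MonotoneOn (ph β n p) (Set.Icc 0 1) := by
  refine monotoneOn_of_deriv_nonneg (convex_Icc 0 1) (ph_cont p) ?_ ?_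
  · rw [interior_Icc]
    intro t ht
    obtain ⟨d, h, -⟩ := ph_deriv (β := β) (n := n) p ht
    exact h.differentiableAt.differentiableWithinAt
  · rw [interior_Icc]
    intro t ht
    obtain ⟨d, h, h0, -⟩ := ph_deriv (β := β) (n := n) p ht
    rwa [h.deriv]

end Vale.Agent.P146
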