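import Vale.Agent.P146.Stein
import Vale.Agent.P146.Semi

namespace Vale.Agent.P146

open MeasureTheory ProbabilityTheory Matrix Real Finset Filter Topology
open P150 (gm spin Cfg)

variable {ι : Type} [Fintype ι] [DecidableEq ι] {J : Type} [Fintype J] {n : ℕ} {β : ℝ}

theorem price_pow (k : ℕ) : PG fun x : ι → ℝ => (1 + ‖x‖) ^ k :=
  ⟨by fun_prop, 1, k, fun x => by rw [one_mul, abs_of_nonneg (by positivity)]⟩

theorem price_abs {f : (ι → ℝ) → ℝ} (hf : PG f) : PG fun x => |f x| := by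
  obtain ⟨hc, C, k, h⟩ := hf
  exact ⟨hc.abs, C, k, fun x => by rw [abs_abs]; exact h x⟩

theorem price_sq {x : ℝ} : 0 ≤ √(1 - x ^ 2) ∧ √(1 - x ^ 2) ≤ 1 :=
  ⟨Real.sqrt_nonneg _, Real.sqrt_le_one.2 (by nlinarith [sq_nonneg x])⟩

theorem price_norm {ρ : ι → ℝ} (hρ : U01 ρ) (q : (ι → ℝ) × (ι → ℝ)) :
    ‖mix ρ q‖ ≤ ‖q.1‖ + ‖q.2‖ := by
  refine (pi_norm_le_iff_of_nonneg (by positivity)).2 fun e => ?_
  have h1 := norm_le_pi_norm q.1 e
  have h2 := norm_le_pi_norm q.2 e
  refine (norm_add_le _ _).trans (add_le_add ?_ ?_)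
  · rw [norm_mul, Real.norm_of_nonneg (hρ e).1]
    exact (mul_le_of_le_one_left (norm_nonneg _) (hρ e).2).trans h1
  · rw [norm_mul, Real.norm_of_nonneg price_sq.1]
    exact (mul_le_of_le_one_left (norm_nonneg _) price_sq.2).trans h2

theorem price_cm (ρ : ι → ℝ) : Continuous (mix ρ) := by
  unfold mix
  fun_prop

theorem price_dom {g : (ι → ℝ) → ℝ} (hg : PG g) : ∃ (C : ℝ) (k : ℕ), 0 ≤ C ∧ ∀ ρ, U01 ρ →
    ∀ q : (ι → ℝ) × (ι → ℝ), |g (mix ρ q)| ≤ C * ((1 + ‖q.1‖) ^ k * (1 + ‖q.2‖) ^ k) := by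
  obtain ⟨-, C, k, h⟩ := hg
  refine ⟨|C|, k, abs_nonneg _, fun ρ hρ q => (h _).trans ?_⟩
  have h1 := price_norm hρ q
  have h2 : 1 + ‖mix ρ q‖ ≤ (1 + ‖q.1‖) * (1 + ‖q.2‖) := by
    nlinarith [mul_nonneg (norm_nonneg q.1) (norm_nonneg q.2)]
  rw [← mul_pow]
  exact mul_le_mul (le_abs_self _) (pow_le_pow_left₀ (by positivity) h2 _) (by positivity)
    (abs_nonneg _)

theorem price_bd {u v : (ι → ℝ) → ℝ} (hu : PG u) (hv : PG v) (C : ℝ) (k : ℕ) :
    Integrable (fun q : (ι → ℝ) × (ι → ℝ) =>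
      |u q.1| * |v q.2| * (C * ((1 + ‖q.1‖) ^ k * (1 + ‖q.2‖) ^ k))) ((gm ι).prod (gm ι)) := by
  have h := ((((price_abs hu).mul (price_pow k)).int.mul_prod
    ((price_abs hv).mul (price_pow k)).int)).const_mul C
  refine h.congr (Eventually.of_forall fun q => ?_)
  simp only
  ring

theorem price_int {u v g : (ι → ℝ) → ℝ} (hu : PG u) (hv : PG v) (hg : PG g) {ρ : ι → ℝ}
    (hρ : U01 ρ) : Integrable (fun q : (ι → ℝ) × (ι → ℝ) => u q.1 * v q.2 * g (mix ρ q))
      ((gm ι).prod (gm ι)) := by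
  obtain ⟨C, k, -, h⟩ := price_dom hg
  refine (price_bd hu hv C k).mono' (((hu.1.comp continuous_fst).mul
    (hv.1.comp continuous_snd)).mul (hg.1.comp (price_cm ρ))).aestronglyMeasurable
    (Eventually.of_forall fun q => ?_)
  rw [Real.norm_eq_abs, abs_mul, abs_mul]
  exact mul_le_mul_of_nonneg_left (h ρ hρ q) (by positivity)

theorem price_cont {f g : (ι → ℝ) → ℝ} (hf : PG f) (hg : PG g) (E : Finset ι) {t : ℝ}
    (ht : t ∈ Set.Icc (0 : ℝ) 1) :
    ContinuousOn (fun r => Bf (rr E r t) f g) (Set.Icc 0 1) := by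
  obtain ⟨C, k, -, h⟩ := price_dom hg
  refine continuousOn_of_dominated (fun r hr => (hf.int2 hg (u01_rr E hr ht)).1)
    (fun r hr => Eventually.of_forall fun q => ?_) (price_bd hf (PG.const 1) C k)
    (Eventually.of_forall fun q => Continuous.continuousOn ?_)
  · rw [Real.norm_eq_abs, abs_mul, abs_one, mul_one]
    exact mul_le_mul_of_nonneg_left (h _ (u01_rr E hr ht) q) (abs_nonneg _)
  · refine continuous_const.mul (hg.1.comp (continuous_pi fun e => ?_))
    unfold mix rr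
    split_ifs <;> fun_prop

theorem price_fd (g : (ι → ℝ) → ℝ) (x v : ι → ℝ) : fderiv ℝ g x v = ∑ e, v e * pd e g x := by
  conv_lhs => rw [pi_eq_sum_univ' v]
  rw [map_sum]
  exact Finset.sum_congr rfl fun e _ => by rw [map_smul]; rfl

theorem price_lin (a b : ι → ℝ) {h : (ι → ℝ) → ℝ} (hd : Differentiable ℝ h) :
    Differentiable ℝ (fun x : ι → ℝ => h fun e => a e * x e + b e) ∧ ∀ e x,
      pd e (fun x : ι → ℝ => h fun e => a e * x e + b e) x =
        a e * pd e h fun e => a e * x e + b e := by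
  have hT : ∀ x : ι → ℝ, HasFDerivAt (fun (x : ι → ℝ) e => a e * x e + b e)
      (ContinuousLinearMap.pi fun e => a e • ContinuousLinearMap.proj (R := ℝ)
        (φ := fun _ : ι => ℝ) e) x := fun x =>
    hasFDerivAt_pi.2 fun e => ((hasFDerivAt_apply e x).const_mul (a e)).add_const (b e)
  have hc := fun x => (hd _).hasFDerivAt.comp x (hT x)
  refine ⟨fun x => (hc x).differentiableAt, fun e x => ?_⟩
  have e1 : fderiv ℝ (fun x : ι → ℝ => h fun e => a e * x e + b e) x = _ := (hc x).fderiv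
  unfold pd
  rw [e1, ContinuousLinearMap.comp_apply, ← smul_eq_mul, ← map_smul]
  congr 1
  ext i
  by_cases hi : i = e
  · subst hi; simp
  · simp [Pi.single_eq_of_ne hi]

theorem price_st (a b : ι → ℝ) {C : ℝ} (hb : ∀ y : ι → ℝ, ‖fun e => a e * y e + b e‖ ≤ C * (1 + ‖y‖))
    {f h : (ι → ℝ) → ℝ} (e : ι) (fd : Differentiable ℝ f) (fp : PG f) (fp' : PG (pd e f))
    (hd : Differentiable ℝ h) (hp : PG h) (hp' : PG (pd e h)) :
    ∫ x, x e * (f x * h fun e => a e * x e + b e) ∂gm ι =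
      ∫ x, pd e f x * (h fun e => a e * x e + b e) +
        a e * (f x * pd e h fun e => a e * x e + b e) ∂gm ι := by
  obtain ⟨l1, l2⟩ := price_lin a b hd
  have hT : Continuous fun (x : ι → ℝ) e => a e * x e + b e := by fun_prop
  have p1 := hp.comp hT hb
  have p2 := hp'.comp hT hb
  have e1 : pd e (fun x => f x * h fun e => a e * x e + b e) = fun x =>
      pd e f x * (h fun e => a e * x e + b e) +
        a e * (f x * pd e h fun e => a e * x e + b e) := by
    funext x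
    have := l2 e x
    unfold pd at this ⊢
    rw [fderiv_fun_mul (fd x) (l1 x)]
    simp only [_root_.add_apply, _root_.smul_apply, smul_eq_mul]
    rw [this]
    ring
  rw [stein e (fd.fun_mul l1) (fp.mul p1), e1]
  rw [e1]
  exact (fp'.mul p1).add ((PG.const _).mul (fp.mul p2))

theorem price_one {f h : (ι → ℝ) → ℝ} (e : ι) (fd : Differentiable ℝ f) (fp : PG f)
    (fp' : PG (pd e f)) (hd : Differentiable ℝ h) (hp : PG h) (hp' : PG (pd e h)) {ρ : ι → ℝ}
    (hρ : U01 ρ) {c : ℝ} (hc : c * √(1 - ρ e ^ 2) = ρ e) :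
    ∫ q, f q.1 * ((q.1 e - c * q.2 e) * h (mix ρ q)) ∂(gm ι).prod (gm ι) = Bf ρ (pd e f) h := by
  have i1 := ((PG.coord e).mul fp).int2 hp hρ
  have i2 := price_int fp (PG.coord e) hp hρ
  have i3 := fp'.int2 hp hρ
  have i4 := fp.int2 hp' hρ
  have hA : ∫ q, q.1 e * f q.1 * h (mix ρ q) ∂(gm ι).prod (gm ι) =
      Bf ρ (pd e f) h + ρ e * Bf ρ f (pd e h) := by
    have i5 : Integrable (fun q : (ι → ℝ) × (ι → ℝ) => pd e f q.1 * h (mix ρ q) +
        ρ e * (f q.1 * pd e h (mix ρ q))) ((gm ι).prod (gm ι)) := i3.add (i4.const_mul _)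
    unfold Bf
    rw [← integral_const_mul, ← integral_add i3 (i4.const_mul _), integral_prod_symm _ i1,
      integral_prod_symm _ i5]
    refine integral_congr_ae (Eventually.of_forall fun y => ?_)
    have := price_st ρ (fun e => √(1 - ρ e ^ 2) * y e) (C := 1 + ‖y‖) (fun x => by
      have := price_norm hρ (x, y)
      have h2 := mul_nonneg (norm_nonneg x) (norm_nonneg y)
      exact this.trans (by simp only; nlinarith)) e fd fp fp' hd hp hp'
    simp only [mul_assoc]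
    exact this
  have hB : ∫ q, f q.1 * q.2 e * h (mix ρ q) ∂(gm ι).prod (gm ι) =
      √(1 - ρ e ^ 2) * Bf ρ f (pd e h) := by
    unfold Bf
    rw [← integral_const_mul, integral_prod _ i2, integral_prod _ (i4.const_mul _)]
    refine integral_congr_ae (Eventually.of_forall fun x => ?_)
    have em : ∀ y, (fun e => √(1 - ρ e ^ 2) * y e + ρ e * x e) = mix ρ (x, y) := fun y =>
      funext fun e => add_comm _ _
    have p0 : pd e (fun _ : ι → ℝ => f x) = fun _ => 0 := by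
      funext y; simp [pd]
    have := price_st (fun e => √(1 - ρ e ^ 2)) (fun e => ρ e * x e) (C := 1 + ‖x‖) (fun y => by
      have := price_norm hρ (x, y)
      have h2 := mul_nonneg (norm_nonneg x) (norm_nonneg y)
      rw [em]
      exact this.trans (by simp only; nlinarith)) (f := fun _ => f x) e
      (differentiable_const _) (PG.const _) (by rw [p0]; exact PG.const _) hd hp hp'
    simp only [em, p0, zero_mul, zero_add] at this
    simp only
    rw [← this]
    exact integral_congr_ae (Eventually.of_forall fun y => by simp only; ring)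
  have e1 : ∀ q : (ι → ℝ) × (ι → ℝ), f q.1 * ((q.1 e - c * q.2 e) * h (mix ρ q)) =
      q.1 e * f q.1 * h (mix ρ q) - c * (f q.1 * q.2 e * h (mix ρ q)) := fun q => by ring
  simp only [e1]
  rw [integral_sub i1 (i2.const_mul c), integral_const_mul, hA, hB, ← mul_assoc, hc]
  ring

theorem price {f g : (ι → ℝ) → ℝ} (hf : C2 f) (hg : C2 g) (E : Finset ι) {r t : ℝ}
    (ht : t ∈ Set.Icc (0 : ℝ) 1) (hr : r ∈ Set.Ioo (0 : ℝ) 1) :
    HasDerivAt (fun r => Bf (rr E r t) f g) (∑ e ∈ E, Bf (rr E r t) (pd e f) (pd e g)) r := by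
  obtain ⟨fd, fp, f2⟩ := hf
  obtain ⟨gd, gp, g2⟩ := hg
  choose C k hC hk using fun e => price_dom (g2 e).2.1
  set R := (1 + r) / 2 with hR
  have hR1 : R < 1 := by rw [hR]; linarith [hr.2]
  have hR0 : r < R := by rw [hR]; linarith [hr.2]
  have hRp : 0 < 1 - R ^ 2 := by nlinarith [hr.1]
  set K := 1 / √(1 - R ^ 2) with hK
  have hU : ∀ s ∈ Set.Ioo (0 : ℝ) R, U01 (rr E s t) := fun s hs =>
    u01_rr E ⟨hs.1.le, (hs.2.trans hR1).le⟩ ht
  have hp : ∀ s ∈ Set.Ioo (0 : ℝ) R, 1 - R ^ 2 ≤ 1 - s ^ 2 := fun s hs => by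
    nlinarith [hs.1, hs.2]
  let F' : ℝ → (ι → ℝ) × (ι → ℝ) → ℝ := fun s q => ∑ e ∈ E,
    f q.1 * ((q.1 e - s / √(1 - s ^ 2) * q.2 e) * pd e g (mix (rr E s t) q))
  have hi : ∀ e ∈ E, Integrable (fun q : (ι → ℝ) × (ι → ℝ) =>
      f q.1 * ((q.1 e - r / √(1 - r ^ 2) * q.2 e) * pd e g (mix (rr E r t) q)))
      ((gm ι).prod (gm ι)) := fun e _ => by
    have i1 := ((PG.coord e).mul fp).int2 (g2 e).2.1 (hU r ⟨hr.1, hR0⟩)
    have i2 := price_int fp (PG.coord e) (g2 e).2.1 (hU r ⟨hr.1, hR0⟩)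
    refine (i1.sub (i2.const_mul (r / √(1 - r ^ 2)))).congr (Eventually.of_forall fun q => ?_)
    simp only [Pi.sub_apply]
    ring
  have key := hasDerivAt_integral_of_dominated_loc_of_deriv_le (μ := (gm ι).prod (gm ι))
    (F := fun s q => f q.1 * g (mix (rr E s t) q)) (F' := F') (x₀ := r) (s := Set.Ioo 0 R)
    (bound := fun q => ∑ e ∈ E, (|q.1 e * f q.1| * |(1 : ℝ)| *
      (C e * ((1 + ‖q.1‖) ^ k e * (1 + ‖q.2‖) ^ k e)) + K * (|f q.1| * |q.2 e| *
      (C e * ((1 + ‖q.1‖) ^ k e * (1 + ‖q.2‖) ^ k e)))))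
    (Ioo_mem_nhds hr.1 hR0)
    (Eventually.of_forall fun s => ((fp.1.comp continuous_fst).mul
      (gp.1.comp (price_cm _))).aestronglyMeasurable)
    (fp.int2 gp (hU r ⟨hr.1, hR0⟩)) (integrable_finsetSum _ hi).1
    (Eventually.of_forall fun q s hs => ?_)
    (integrable_finsetSum _ fun e _ => (price_bd ((PG.coord e).mul fp) (PG.const 1) _ _).add
      ((price_bd fp (PG.coord e) _ _).const_mul K))
    (Eventually.of_forall fun q s hs => ?_)
  · have h2 := key.2
    simp only [F'] at h2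
    rw [integral_finsetSum _ hi] at h2
    rw [← Finset.sum_congr rfl fun e he => price_one e fd fp (f2 e).2.1 (g2 e).1 (g2 e).2.1
      ((g2 e).2.2 e) (hU r ⟨hr.1, hR0⟩) (c := r / √(1 - r ^ 2)) ?_]
    · exact h2
    · simp only [rr, if_pos he]
      exact div_mul_cancel₀ _ (Real.sqrt_pos.2 (hRp.trans_le (hp r ⟨hr.1, hR0⟩))).ne'
  · rw [Real.norm_eq_abs]
    refine (Finset.abs_sum_le_sum_abs _ _).trans (Finset.sum_le_sum fun e _ => ?_)
    have h1 := hk e _ (hU s hs) q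
    have hs0 : 0 ≤ s / √(1 - s ^ 2) := div_nonneg hs.1.le (Real.sqrt_nonneg _)
    have hsK : s / √(1 - s ^ 2) ≤ K :=
      div_le_div₀ zero_le_one (hs.2.trans hR1).le (Real.sqrt_pos.2 hRp)
        (Real.sqrt_le_sqrt (hp s hs))
    have h2 : |q.1 e - s / √(1 - s ^ 2) * q.2 e| ≤ |q.1 e| + K * |q.2 e| := by
      refine (abs_sub _ _).trans (add_le_add le_rfl ?_)
      rw [abs_mul, abs_of_nonneg hs0]
      exact mul_le_mul_of_nonneg_right hsK (abs_nonneg _)
    rw [abs_mul, abs_mul, abs_mul, abs_one]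
    refine (mul_le_mul_of_nonneg_left (mul_le_mul h2 h1 (abs_nonneg _)
      ((abs_nonneg _).trans h2)) (abs_nonneg _)).trans (le_of_eq ?_)
    ring
  · have hs1 : 1 - s ^ 2 ≠ 0 := (hRp.trans_le (hp s hs)).ne'
    have hv : HasDerivAt (fun s => mix (rr E s t) q)
        (fun e => if e ∈ E then q.1 e - s / √(1 - s ^ 2) * q.2 e else 0) s := by
      refine hasDerivAt_pi.2 fun e => ?_
      unfold mix rr
      by_cases he : e ∈ E
      · simp only [if_pos he]
        have d1 : HasDerivAt (fun s : ℝ => 1 - s ^ 2) (-(2 * s)) s := by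
          simpa using (hasDerivAt_pow 2 s).const_sub 1
        refine (((hasDerivAt_id' s).mul_const (q.1 e)).add
          ((d1.sqrt hs1).mul_const (q.2 e))).congr_deriv ?_
        field_simp
        ring
      · simp only [if_neg he]
        exact hasDerivAt_const _ _
    refine (((gd _).hasFDerivAt.comp_hasDerivAt s hv).const_mul (f q.1)).congr_deriv ?_
    rw [price_fd]
    simp only [F', ite_mul, zero_mul, Finset.sum_ite_mem, Finset.univ_inter, Finset.mul_sum]

end Vale.Agent.P146
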