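import Vale.Agent.P146.Defs

namespace Vale.Agent.P146

open MeasureTheory ProbabilityTheory Matrix Real Finset Filter Topology
open P150 (gm spin Cfg)

variable {ι : Type} [Fintype ι] [DecidableEq ι] {J : Type} [Fintype J] {n : ℕ} {β : ℝ}

theorem Pw_ev (Y : ℝ) : ∀ᶠ n : ℕ in atTop, Y ≤ (n : ℝ) ^ (0.001 : ℝ) :=
  ((tendsto_rpow_atTop (by norm_num)).comp tendsto_natCast_atTop_atTop).eventually_ge_atTop Y

theorem Pw_pow (n k : ℕ) {c : ℝ} (h : c = 0.001 * k) :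
    (n : ℝ) ^ c = ((n : ℝ) ^ (0.001 : ℝ)) ^ k := by
  rw [h, Real.rpow_mul (Nat.cast_nonneg n), Real.rpow_natCast]

theorem Pw_neg (n k : ℕ) {c : ℝ} (h : c = -(0.001 * k)) :
    (n : ℝ) ^ c = (((n : ℝ) ^ (0.001 : ℝ)) ^ k)⁻¹ := by
  rw [h, Real.rpow_neg (Nat.cast_nonneg n), Pw_pow n k rfl]

theorem Pw_three {M M' N : ℝ} {p : ℕ} (hp : 1 ≤ p) (h0 : 0 ≤ M) (h1 : M ≤ M') (hN : 0 < N)
    (h3 : 1 ≤ M' ^ 3 * N) :
    M ^ (2 * p + 4) + M ^ (2 * p + 1) / N + M ^ (2 * p - 2) / N ^ 2 ≤ 3 * M' ^ (2 * p + 4) := by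
  have h0' : 0 ≤ M' := h0.trans h1
  have a1 := pow_le_pow_left₀ h0 h1 (2 * p + 4)
  have a2 : M ^ (2 * p + 1) / N ≤ M' ^ (2 * p + 4) := by
    rw [div_le_iff₀ hN, show 2 * p + 4 = 2 * p + 1 + 3 by ring, pow_add M' _ 3, mul_assoc]
    exact (pow_le_pow_left₀ h0 h1 _).trans (le_mul_of_one_le_right (by positivity) h3)
  have a3 : M ^ (2 * p - 2) / N ^ 2 ≤ M' ^ (2 * p + 4) := by
    rw [div_le_iff₀ (by positivity), show 2 * p + 4 = 2 * p - 2 + 3 * 2 by omega, pow_add M',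
      pow_mul M' 3 2, mul_assoc, ← mul_pow]
    exact (pow_le_pow_left₀ h0 h1 _).trans
      (le_mul_of_one_le_right (by positivity) (one_le_pow₀ h3))
  linarith

theorem Pw_core {C y R : ℝ} {p : ℕ} (hC : 0 ≤ C) (hy : 24 ≤ y) (hyC : 7680 * C ≤ y) (hp : 1 ≤ p)
    (hpy : (p : ℝ) ≤ y) :
    40 * y ^ 1000 * (C * ((2 * p : ℕ) : ℝ) ^ 2 * ((|R| + 4 / y ^ 1000) ^ (2 * p + 4) +
      (|R| + 4 / y ^ 1000) ^ (2 * p + 1) / y ^ 1000 +
      (|R| + 4 / y ^ 1000) ^ (2 * p - 2) / (y ^ 1000) ^ 2)) ≤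
      (y ^ (550 * p))⁻¹ + y ^ 1020 * R ^ (2 * (p + 2)) := by
  have y0 : 0 < y := by linarith
  have y1 : 1 ≤ y := by linarith
  have yk : ∀ k : ℕ, k ≠ 0 → y ≤ y ^ k := fun k hk => le_self_pow₀ y1 hk
  have hp1 : (1 : ℝ) ≤ p := by exact_mod_cast hp
  have hM : 0 ≤ |R| + 4 / y ^ 1000 := by positivity
  have hR : 0 ≤ R ^ (2 * (p + 2)) := by rw [pow_mul]; positivity
  have hpp : ((2 * p : ℕ) : ℝ) ^ 2 ≤ 4 * y ^ 2 := by
    push_cast
    nlinarith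
  have key : ∀ M' : ℝ, |R| + 4 / y ^ 1000 ≤ M' → (y ^ 300)⁻¹ ≤ M' →
      40 * y ^ 1000 * (C * ((2 * p : ℕ) : ℝ) ^ 2 * ((|R| + 4 / y ^ 1000) ^ (2 * p + 4) +
      (|R| + 4 / y ^ 1000) ^ (2 * p + 1) / y ^ 1000 +
      (|R| + 4 / y ^ 1000) ^ (2 * p - 2) / (y ^ 1000) ^ 2)) ≤
      480 * C * y ^ 1002 * M' ^ (2 * p + 4) := by
    intro M' a1 a2
    have a3 : 1 ≤ M' ^ 3 * y ^ 1000 := by
      refine le_trans ?_ (mul_le_mul_of_nonneg_right (pow_le_pow_left₀ (by positivity) a2 3)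
        (by positivity))
      have : (y ^ 300)⁻¹ ^ 3 * y ^ 1000 = y ^ 100 := by field_simp
      rw [this]
      exact one_le_pow₀ y1
    have a4 := Pw_three hp hM a1 (by positivity : 0 < y ^ 1000) a3
    calc _ ≤ 40 * y ^ 1000 * (C * (4 * y ^ 2) * (3 * M' ^ (2 * p + 4))) := by gcongr
      _ = _ := by ring
  have h4 : 4 / y ^ 1000 = (y ^ 300)⁻¹ * (4 / y ^ 700) := by field_simp
  have h5 : 4 / y ^ 700 ≤ 1 := by
    rw [div_le_one (by positivity)]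
    linarith [yk 700 (by norm_num)]
  have hu : 0 < (y ^ 300)⁻¹ := by positivity
  by_cases hc : |R| ≤ (y ^ 300)⁻¹
  · have b1 : |R| + 4 / y ^ 1000 ≤ 2 * (y ^ 300)⁻¹ := by
      have := mul_le_mul_of_nonneg_left h5 hu.le
      rw [h4]
      linarith
    refine (key _ b1 (by linarith)).trans (le_add_of_le_of_nonneg ?_ (by positivity))
    have b2 : (2 * (y ^ 300)⁻¹) ^ (2 * p) ≤ (y ^ (550 * p))⁻¹ := by
      rw [pow_mul, pow_mul, ← inv_pow (y ^ 550)]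
      refine pow_le_pow_left₀ (by positivity) ?_ p
      have : (2 * (y ^ 300)⁻¹) ^ 2 = (y ^ 550)⁻¹ * (4 / y ^ 50) := by field_simp; norm_num
      rw [this]
      refine mul_le_of_le_one_right (by positivity) ?_
      rw [div_le_one (by positivity)]
      linarith [yk 50 (by norm_num)]
    have b3 : 480 * C * y ^ 1002 * (2 * (y ^ 300)⁻¹) ^ 4 ≤ 1 := by
      have : 480 * C * y ^ 1002 * (2 * (y ^ 300)⁻¹) ^ 4 = 7680 * C / y ^ 198 := by
        field_simp; ring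
      rw [this, div_le_one (by positivity)]
      linarith [yk 198 (by norm_num)]
    rw [pow_add _ (2 * p), mul_comm (_ ^ (2 * p)), ← mul_assoc]
    exact (mul_le_of_le_one_left (by positivity) b3).trans b2
  · push Not at hc
    have hv : 0 ≤ 4 / y ^ 700 := by positivity
    have b1 : |R| + 4 / y ^ 1000 ≤ |R| * (1 + 4 / y ^ 700) := by
      have := mul_le_mul_of_nonneg_right hc.le hv
      rw [h4]
      linarith
    have b1' : (y ^ 300)⁻¹ ≤ |R| * (1 + 4 / y ^ 700) :=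
      hc.le.trans (le_mul_of_one_le_right (abs_nonneg R) (by linarith))
    refine (key _ b1 b1').trans (le_add_of_nonneg_of_le (by positivity) ?_)
    have b2 : (1 + 4 / y ^ 700) ^ (2 * p + 4) ≤ 3 := by
      have c1 : 1 + 4 / y ^ 700 ≤ exp (4 / y ^ 700) := by
        linarith [Real.add_one_le_exp (4 / y ^ 700)]
      refine (pow_le_pow_left₀ (by positivity) c1 _).trans ?_
      rw [← Real.exp_nat_mul]
      refine (Real.exp_le_exp.2 (show _ ≤ (1 : ℝ) from ?_)).trans Real.exp_one_lt_three.le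
      rw [← mul_div_assoc, div_le_one (by positivity), show y ^ 700 = y * y ^ 699 by ring]
      push_cast
      nlinarith [yk 699 (by norm_num)]
    have b3 : |R| ^ (2 * p + 4) = R ^ (2 * (p + 2)) := by
      rw [show 2 * p + 4 = 2 * (p + 2) by ring, pow_mul, sq_abs, ← pow_mul]
    have b4 : 1440 * C ≤ y ^ 18 := by linarith [yk 18 (by norm_num)]
    rw [mul_pow, b3]
    calc _ ≤ 480 * C * y ^ 1002 * (R ^ (2 * (p + 2)) * 3) := by gcongr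
      _ = 1440 * C * (y ^ 1002 * R ^ (2 * (p + 2))) := by ring
      _ ≤ y ^ 18 * (y ^ 1002 * R ^ (2 * (p + 2))) := by gcongr
      _ = _ := by ring

theorem pw_bound {C : ℝ} (hC : 0 ≤ C) : ∀ᶠ n : ℕ in atTop, ∀ (p : ℕ) (R : ℝ), 1 ≤ p →
    (p : ℝ) ≤ (n : ℝ) ^ (0.001 : ℝ) → |R| ≤ 1 →
    40 * n * (C * ((2 * p : ℕ) : ℝ) ^ 2 * ((|R| + 4 / n) ^ (2 * p + 4) + (|R| + 4 / n) ^ (2 * p + 1) / n +
      (|R| + 4 / n) ^ (2 * p - 2) / n ^ 2)) ≤
      (n : ℝ) ^ (-(0.55 * p : ℝ)) + (n : ℝ) ^ (1.02 : ℝ) * R ^ (2 * (p + 2)) := by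
  filter_upwards [Pw_ev 24, Pw_ev (7680 * C)] with n h1 h2 p R hp hpy _
  have e1 : (n : ℝ) = ((n : ℝ) ^ (0.001 : ℝ)) ^ 1000 := by
    rw [← Pw_pow n 1000 (c := 1) (by norm_num), Real.rpow_one]
  have := Pw_core (R := R) hC h1 h2 hp hpy
  rw [← e1] at this
  rw [Pw_neg n (550 * p) (c := -(0.55 * p : ℝ)) (by push_cast; ring),
    Pw_pow n 1020 (c := 1.02) (by norm_num)]
  exact this

theorem Pw_small {y : ℝ} {p : ℕ} (hy : 9 ≤ y) (hp : 1 ≤ p) (hpy : (p : ℝ) ≤ y) :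
    2 * ((2 * p : ℝ) ^ (2 * p) * (y ^ 550)⁻¹ ^ p + exp (-y ^ 5)) + (y ^ (550 * p))⁻¹ ≤
      (y ^ (540 * p))⁻¹ / 2 := by
  have y0 : 0 < y := by linarith
  have y1 : 1 ≤ y := by linarith
  have hp0 : p ≠ 0 := by omega
  have y2 : 81 ≤ y ^ 2 := by nlinarith
  have yk : ∀ k : ℕ, 2 ≤ k → 81 ≤ y ^ k := fun k hk => y2.trans (pow_le_pow_right₀ y1 hk)
  have gen : ∀ s : ℝ, 0 ≤ s → s ≤ 1 / 16 →
      ((y ^ 540)⁻¹ * s) ^ p ≤ (y ^ (540 * p))⁻¹ / 16 := by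
    intro s s0 s1
    rw [mul_pow, pow_mul, inv_pow, div_eq_mul_one_div]
    exact mul_le_mul_of_nonneg_left ((pow_le_of_le_one s0 (by linarith) hp0).trans s1)
      (by positivity)
  have a1 : (2 * p : ℝ) ^ (2 * p) * (y ^ 550)⁻¹ ^ p ≤ (y ^ (540 * p))⁻¹ / 16 := by
    refine le_trans ?_ (gen (4 / y ^ 8) (by positivity) ?_)
    · rw [pow_mul, ← mul_pow]
      refine pow_le_pow_left₀ (by positivity) ?_ p
      have : (y ^ 540)⁻¹ * (4 / y ^ 8) = (2 * y) ^ 2 * (y ^ 550)⁻¹ := by field_simp; norm_num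
      rw [this]
      gcongr
    · rw [div_le_div_iff₀ (by positivity) (by norm_num)]
      linarith [yk 8 (by norm_num)]
  have a2 : (y ^ (550 * p))⁻¹ ≤ (y ^ (540 * p))⁻¹ / 16 := by
    refine le_trans (le_of_eq ?_) (gen (1 / y ^ 10) (by positivity) ?_)
    · rw [pow_mul, ← inv_pow]
      congr 1
      field_simp
    · rw [div_le_div_iff₀ (by positivity) (by norm_num)]
      linarith [yk 10 (by norm_num)]
  have a3 : exp (-y ^ 5) ≤ (y ^ (540 * p))⁻¹ / 16 := by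
    rw [Real.exp_neg, div_eq_mul_inv, ← mul_inv]
    refine inv_anti₀ (by positivity) ?_
    have b1 : y ^ (540 * p) ≤ exp (((540 * p : ℕ) : ℝ) * y) := by
      rw [Real.exp_nat_mul]
      exact pow_le_pow_left₀ y0.le (by linarith [Real.add_one_le_exp y]) _
    have b2 : (16 : ℝ) ≤ exp (y ^ 2) := by linarith [Real.add_one_le_exp (y ^ 2)]
    refine (mul_le_mul b1 b2 (by norm_num) (Real.exp_pos _).le).trans ?_
    rw [← Real.exp_add]
    refine Real.exp_le_exp.2 ?_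
    push_cast
    have b3 : 729 ≤ y ^ 3 := by nlinarith
    have b4 := mul_le_mul_of_nonneg_right b3 (sq_nonneg y)
    have b5 := mul_le_mul_of_nonneg_right hpy y0.le
    nlinarith
  have a4 : 0 ≤ (y ^ (540 * p))⁻¹ := by positivity
  linarith

theorem main_small : ∀ᶠ n : ℕ in atTop, ∀ p : ℕ, 1 ≤ p → (p : ℝ) ≤ (n : ℝ) ^ (0.001 : ℝ) →
    2 * ((2 * p : ℝ) ^ (2 * p) * ((n : ℝ) ^ (-0.55 : ℝ)) ^ p + exp (-(n : ℝ) ^ (0.005 : ℝ))) +
      (n : ℝ) ^ (-(0.55 * p : ℝ)) ≤ (n : ℝ) ^ (-(0.54 * p : ℝ)) / 2 := by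
  filter_upwards [Pw_ev 9] with n h1 p hp hpy
  rw [Pw_neg n (550 * p) (c := -(0.55 * p : ℝ)) (by push_cast; ring),
    Pw_neg n (540 * p) (c := -(0.54 * p : ℝ)) (by push_cast; ring),
    Pw_neg n 550 (c := -0.55) (by norm_num), Pw_pow n 5 (c := 0.005) (by norm_num)]
  exact Pw_small h1 hp hpy

end Vale.Agent.P146
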