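import Vale.Agent.P146.Rec0
import Vale.Agent.P146.Inv
import Vale.Agent.P146.L1
import Vale.Agent.P146.Pw
import Vale.Agent.P146.Del2

namespace Vale.Agent.P146

open MeasureTheory ProbabilityTheory Matrix Real Finset Filter Topology
open P150 (gm spin Cfg)

variable {ι : Type} [Fintype ι] [DecidableEq ι] {J : Type} [Fintype J] {n : ℕ} {β : ℝ}

theorem recur (β : ℝ) : ∀ᶠ n : ℕ in atTop, ∀ t ∈ Set.Icc (0 : ℝ) 1,
    (n : ℝ) ^ (-0.005 : ℝ) ≤ 1 - t → ∀ p : ℕ, 1 ≤ p → (p : ℝ) ≤ (n : ℝ) ^ (0.001 : ℝ) →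
    ph β n p t ≤ (n : ℝ) ^ (-(0.54 * p : ℝ)) / 2 + (n : ℝ) ^ (1.02 : ℝ) * ph β n (p + 2) t := by
  obtain ⟨C, hC, hl⟩ := lam_all β
  filter_upwards [pw_bound hC, main_small, del2] with n hpw hms hd t ht h1 p hp hp'
  obtain ⟨w, hw, hε, h⟩ := hd t ht h1
  obtain ⟨O, O', hO, hO', hΦ⟩ := inv_bound (β := β) p ht (by positivity) hw hε h
  have hρ : U01 (fun _ : Fin n × Fin n => t) := fun _ => ht
  set K : Cfg n → Cfg n → ℝ := fun σ τ => C * ((2 * p : ℕ) : ℝ) ^ 2 * (Mv σ τ ^ (2 * p + 4) +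
    Mv σ τ ^ (2 * p + 1) / n + Mv σ τ ^ (2 * p - 2) / n ^ 2) with hK
  have h0 : 0 ≤ E2 β (fun _ => t) K := by
    have e1 := e2_lin (β := β) hρ K K 0 0 0
    have e2 := e2_mono (β := β) hρ (K := fun σ τ => 0 + 0 * K σ τ + 0 * K σ τ) (K' := K)
      fun σ τ => by
        have : 0 ≤ Mv σ τ := by unfold Mv; positivity
        have : 0 ≤ K σ τ := by simp only [hK]; positivity
        linarith
    linarith
  have hr := rec0 p ht h0 (fun a b hab => hl n (2 * p) a b t hab (by omega) ht) hO hO' hΦ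
  have e1 := e2_lin (β := β) hρ K K 0 (40 * n) 0
  have e2 := e2_lin (β := β) hρ (fun σ τ : Cfg n => ov σ τ ^ (2 * (p + 2))) K
    ((n : ℝ) ^ (-(0.55 * p : ℝ))) ((n : ℝ) ^ (1.02 : ℝ)) 0
  have e3 := e2_mono (β := β) hρ (K := fun σ τ => 0 + 40 * n * K σ τ + 0 * K σ τ)
    (K' := fun σ τ => (n : ℝ) ^ (-(0.55 * p : ℝ)) + (n : ℝ) ^ (1.02 : ℝ) * ov σ τ ^ (2 * (p + 2)) +
      0 * K σ τ) fun σ τ => by
        have := hpw p (ov σ τ) hp hp' (abs_ov σ τ)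
        simp only [hK, Mv]
        linarith
  rw [← ph_eq (p + 2) ht] at e2
  have := hms p hp hp'
  linarith

end Vale.Agent.P146
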