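import Vale.Agent.P146.Gen
import Vale.Agent.P146.Orth
import Vale.Agent.P146.Path

namespace Vale.Agent.P146

open MeasureTheory ProbabilityTheory Matrix Real Finset Filter Topology
open P150 (gm spin Cfg)

variable {ι : Type} [Fintype ι] [DecidableEq ι] {J : Type} [Fintype J] {n : ℕ} {β : ℝ}

theorem rec0_del (q : ℕ) {t Λ : ℝ} (ht : t ∈ Set.Icc (0 : ℝ) 1) (h0 : 0 ≤ Λ)
    (h : ∀ a b : Fin n, a ≠ b → Qb (fun _ => t) (Yg β q (Ea a b)) (Yg β q (Ea a b)) ≤ Λ)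
    {O : Mx n} (hO : Oᵀ * O = 1) :
    Qb (fun _ => t) (xo β q O - xi β q) (xo β q O - xi β q) ≤ 10 * n * Λ := by
  obtain ⟨d, hd, hdet⟩ := sign_det O
  have hO1 : (O * diagonal d)ᵀ * (O * diagonal d) = 1 := by
    rw [transpose_mul, diagonal_transpose, mul_assoc, ← mul_assoc Oᵀ, hO, one_mul,
      diagonal_mul_diagonal, ← diagonal_one]
    congr 1
    funext i
    rcases hd i with h | h <;> simp [h]
  obtain ⟨P, A, hA, hs, hP0, hP1, hPO, hP⟩ := path hO1 hdet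
  have h1 := gen_bound (β := β) q hP0 hPO hP ht
  rw [hP1, xo_diag q O hd] at h1
  exact h1.trans ((orth q hA ht h0 h).trans (mul_le_mul_of_nonneg_right hs h0))

theorem rec0 (p : ℕ) {t Λ Φ : ℝ} (ht : t ∈ Set.Icc (0 : ℝ) 1) (h0 : 0 ≤ Λ)
    (h : ∀ a b : Fin n, a ≠ b →
      Qb (fun _ => t) (Yg β (2 * p) (Ea a b)) (Yg β (2 * p) (Ea a b)) ≤ Λ)
    {O O' : Mx n} (hO : Oᵀ * O = 1) (hO' : O'ᵀ * O' = 1)
    (hΦ : Qb (fun _ => t) (xo β (2 * p) O) (xo β (2 * p) O') ≤ Φ) :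
    ph β n p t ≤ 2 * Φ + 40 * n * Λ := by
  have hρ : U01 (fun _ : Fin n × Fin n => t) := fun _ => ht
  have hx : ∀ j, PG (xi (n := n) β (2 * p) j) := fun j => (al_xi _ j).pg
  have hX := pg_xo (β := β) (2 * p) hO
  have hX' := pg_xo (β := β) (2 * p) hO'
  have hD : ∀ j, PG ((xo β (2 * p) O - xi β (2 * p) : (Fin (2 * p) → Fin n) → Om n → ℝ) j) := fun j => (hX j).sub (hx j)
  have hD' : ∀ j, PG ((xo β (2 * p) O' - xi β (2 * p) : (Fin (2 * p) → Fin n) → Om n → ℝ) j) := fun j => (hX' j).sub (hx j)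
  have d1 := rec0_del (2 * p) ht h0 h hO
  have d2 := rec0_del (2 * p) ht h0 h hO'
  have e1 := qb_sub_left hX hx hX' hρ
  have e2 := qb_sub_right hx hX' hx hρ
  have c1 := qb_cs hD hX' hρ
  have c2 := qb_cs hx hD' hρ
  have e3 : Qb (fun _ => t) (xo β (2 * p) O') (xo β (2 * p) O') =
      Qb (fun _ => t) (xi (n := n) β (2 * p)) (xi β (2 * p)) := by
    rw [xo_eq]; exact qb_To hO' hx hx ht
  have hN := qb_nonneg hx hρ
  rw [e3] at c1
  unfold ph
  set N := Qb (fun _ => t) (xi (n := n) β (2 * p)) (xi β (2 * p))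
  have hD0 : 0 ≤ 10 * n * Λ := by positivity
  have key : ∀ u : ℝ, u ^ 2 ≤ 10 * n * Λ * N → -u ≤ 10 * n * Λ + N / 4 := fun u hu => by
    have : |u| ≤ 10 * n * Λ + N / 4 :=
      abs_le_of_sq_le_sq' (by nlinarith [sq_nonneg (10 * n * Λ - N / 4)]) (by positivity) |> abs_le.2
    linarith [neg_abs_le u]
  have k1 := key _ (c1.trans (mul_le_mul_of_nonneg_right d1 hN))
  have k2 := key _ (c2.trans ((mul_le_mul_of_nonneg_left d2 hN).trans_eq (mul_comm _ _)))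
  linarith

end Vale.Agent.P146
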