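import Vale.Agent.P146.Al

namespace Vale.Agent.P146

open MeasureTheory ProbabilityTheory Matrix Real Finset Filter Topology
open P150 (gm spin Cfg)

variable {ι : Type} [Fintype ι] [DecidableEq ι] {J : Type} [Fintype J] {n : ℕ} {β : ℝ}

theorem Rot_bil (x : Om n) (v w : Fin n → ℝ) :
    ∑ e, x e * ep β v w e = β / √(2 * n) * (v ⬝ᵥ mat x *ᵥ w) := by
  simp only [ep, dotProduct, mulVec, mat, of_apply, Fintype.sum_prod_type, mul_sum]
  exact sum_congr rfl fun i _ => sum_congr rfl fun j _ => by ring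

theorem Rot_mat (O : Mx n) (x : Om n) : mat (act O x) = Oᵀ * mat x * O := rfl

theorem Rot_act (O : Mx n) (x : Om n) (v w : Fin n → ℝ) :
    ∑ e, act O x e * ep β v w e = ∑ e, x e * ep β (O *ᵥ v) (O *ᵥ w) e := by
  rw [Rot_bil, Rot_bil, Rot_mat, ← mulVec_mulVec, ← mulVec_mulVec, dotProduct_mulVec v,
    vecMul_transpose]

theorem Hm_act (O : Mx n) (x : Om n) (v : Fin n → ℝ) : Hm β (act O x) v = Hm β x (O *ᵥ v) :=
  Rot_act O x v v

theorem act_mul (O O' : Mx n) (x : Om n) : act (O * O') x = act O' (act O x) := by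
  funext e
  simp only [act]
  rw [Rot_mat, transpose_mul]
  simp only [Matrix.mul_assoc]

theorem Rot_prod {q : ℕ} (O : Mx n) (j : Fin q → Fin n) (z : Fin q → Fin n → ℝ) :
    ∏ k, (O *ᵥ z k) (j k) / √n =
      ∑ j' : Fin q → Fin n, (∏ k, O (j k) (j' k)) * ∏ k, z k (j' k) / √n := by
  simp only [mulVec, dotProduct, sum_div]
  rw [Fintype.prod_sum]
  refine sum_congr rfl fun j' _ => ?_
  rw [← prod_mul_distrib]
  exact prod_congr rfl fun k _ => mul_div_assoc _ _ _

theorem Rot_tn {q : ℕ} (O : Mx n) (j : Fin q → Fin n) (v : Fin n → ℝ) :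
    tn j (O *ᵥ v) = ∑ j' : Fin q → Fin n, (∏ k, O (j k) (j' k)) * tn j' v :=
  Rot_prod O j fun _ => v

theorem Rot_erase {q : ℕ} (k : Fin q) (j : Fin q → Fin n) (v w : Fin n → ℝ) :
    w (j k) / √n * ∏ k' ∈ univ.erase k, v (j k') / √n =
      ∏ k', (if k' = k then w else v) (j k') / √n := by
  rw [← mul_prod_erase univ _ (mem_univ k), if_pos rfl]
  congr 1
  exact prod_congr rfl fun k' hk => by rw [if_neg (ne_of_mem_erase hk)]

theorem Rot_dtn {q : ℕ} (O A : Mx n) (j : Fin q → Fin n) (v : Fin n → ℝ) :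
    ∑ k, (O *ᵥ A *ᵥ v) (j k) / √n * ∏ k' ∈ univ.erase k, (O *ᵥ v) (j k') / √n =
      ∑ j' : Fin q → Fin n, (∏ k, O (j k) (j' k)) * dtn j' A v := by
  simp only [dtn, mul_sum, Rot_erase]
  rw [sum_comm]
  refine sum_congr rfl fun k _ => ?_
  rw [← Rot_prod O j fun k' => if k' = k then A *ᵥ v else v]
  exact prod_congr rfl fun k' _ => by rw [apply_ite (O *ᵥ ·)]

theorem xo_eq (q : ℕ) (O : Mx n) : xo β q O = To O (xi β q) := by
  funext j x
  simp only [xo, To, xi, av, Rot_tn, mul_sum]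
  rw [sum_comm]
  exact sum_congr rfl fun _ _ => sum_congr rfl fun _ _ => by ring

theorem Rot_one (x : Om n) : act 1 x = x := by
  funext e
  simp [act, mat]

theorem xo_one (q : ℕ) : xo β q (1 : Mx n) = xi β q := by
  funext j x
  simp only [xo, xi, Rot_one, one_mulVec]

theorem To_one {q : ℕ} (F : (Fin q → Fin n) → Om n → ℝ) : To 1 F = F := by
  funext j x
  rw [To, Rot_one, sum_eq_single j]
  · simp
  · intro j' _ h
    obtain ⟨k, hk⟩ := Function.ne_iff.1 h
    refine mul_eq_zero_of_left (prod_eq_zero (mem_univ k) ?_) _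
    exact one_apply_ne hk.symm
  · simp

theorem xo_deriv (q : ℕ) {P : ℝ → Mx n} {A : Mx n} {s : ℝ}
    (hP : ∀ a b, HasDerivAt (fun s => P s a b) ((P s * A) a b) s) (j : Fin q → Fin n) (x : Om n) :
    HasDerivAt (fun s => xo β q (P s) j x) (To (P s) (Yg β q A) j x) s := by
  have h1 : ∀ (v : Fin n → ℝ) i, HasDerivAt (fun s => (P s *ᵥ v) i) ((P s *ᵥ A *ᵥ v) i) s := by
    intro v i
    rw [mulVec_mulVec]
    exact HasDerivAt.fun_sum (u := univ) fun b _ => (hP i b).mul_const (v b)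
  have h2 : ∀ v : Fin n → ℝ,
      HasDerivAt (fun s => Hm β (act (P s) x) v) (dH β A (act (P s) x) v) s := by
    intro v
    have e : dH β A (act (P s) x) v = ∑ e, x e * (β / √(2 * n) *
        ((P s *ᵥ A *ᵥ v) e.1 * (P s *ᵥ v) e.2 + (P s *ᵥ v) e.1 * (P s *ᵥ A *ᵥ v) e.2)) := by
      simp only [dH, lam, mul_add, sum_add_distrib, Rot_act]
      rfl
    simp only [Hm_act]
    rw [e]
    exact HasDerivAt.fun_sum fun e _ => (((h1 v e.1).fun_mul (h1 v e.2)).const_mul _).const_mul _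
  have hZ : 0 < Zf β (act (P s) x) := sum_pos (fun _ _ => exp_pos _) univ_nonempty
  have h3 : ∀ σ, HasDerivAt (fun s => gw β (act (P s) x) σ) (gw β (act (P s) x) σ *
      (dH β A (act (P s) x) (sp σ) - av β (act (P s) x) fun τ => dH β A (act (P s) x) (sp τ)))
      s := by
    intro σ
    have a : HasDerivAt (fun s => Zf β (act (P s) x))
        (∑ τ : Cfg n, exp (Hm β (act (P s) x) (sp τ)) * dH β A (act (P s) x) (sp τ)) s :=
      HasDerivAt.fun_sum fun τ _ => (h2 (sp τ)).exp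
    refine ((h2 (sp σ)).exp.fun_div a hZ.ne').congr_deriv ?_
    simp only [av, gw, div_mul_eq_mul_div, ← sum_div]
    field_simp
  have h4 : ∀ v : Fin n → ℝ, HasDerivAt (fun s => tn j (P s *ᵥ v))
      (∑ j' : Fin q → Fin n, (∏ k, P s (j k) (j' k)) * dtn j' A v) s := by
    intro v
    rw [← Rot_dtn]
    refine (HasDerivAt.fun_finset_prod (u := univ) fun k _ =>
      (h1 v (j k)).div_const √n).congr_deriv ?_
    exact sum_congr rfl fun k _ => by rw [smul_eq_mul, mul_comm]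
  refine (HasDerivAt.fun_sum (u := univ) fun σ _ => (h3 σ).fun_mul (h4 (sp σ))).congr_deriv ?_
  rw [To]
  generalize act (P s) x = y
  simp only [Yg]
  generalize (av β y fun τ => dH β A y (sp τ)) = D
  simp only [av, Rot_tn, mul_sum, sum_mul, ← sum_add_distrib, ← sum_sub_distrib]
  rw [sum_comm]
  exact sum_congr rfl fun _ _ => sum_congr rfl fun _ _ => by ring

end Vale.Agent.P146
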