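import Vale.Agent.P146.PG

namespace Vale.Agent.P146

open MeasureTheory ProbabilityTheory Matrix Real Finset Filter Topology
open P150 (gm spin Cfg)

variable {ι : Type} [Fintype ι] [DecidableEq ι] {J : Type} [Fintype J] {n : ℕ} {β : ℝ}

theorem stein_one {g g' : ℝ → ℝ} (hg : ∀ t, HasDerivAt g (g' t) t)
    (h1 : Integrable g (gaussianReal 0 1)) (h2 : Integrable g' (gaussianReal 0 1))
    (h3 : Integrable (fun t => t * g t) (gaussianReal 0 1)) :
    ∫ t, t * g t ∂gaussianReal 0 1 = ∫ t, g' t ∂gaussianReal 0 1 := by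
  have hi : ∀ u : ℝ → ℝ, Integrable u (gaussianReal 0 1) →
      Integrable fun t => gaussianPDFReal 0 1 t * u t := fun u hu => by
    rw [gaussianReal_of_var_ne_zero _ one_ne_zero, integrable_withDensity_iff_integrable_smul'
      (measurable_gaussianPDF 0 1) (ae_of_all _ fun _ => gaussianPDF_lt_top)] at hu
    simpa only [toReal_gaussianPDF, smul_eq_mul] using hu
  have hp : ∀ t, HasDerivAt (gaussianPDFReal 0 1) (-(gaussianPDFReal 0 1 t * t)) t := fun t => by
    have := ((((hasDerivAt_id t).sub_const 0).fun_pow 2).fun_neg.div_const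
      (2 * ((1 : NNReal) : ℝ))).exp.const_mul (√(2 * π * ((1 : NNReal) : ℝ)))⁻¹
    refine this.congr_deriv ?_
    simp only [gaussianPDFReal, id, NNReal.coe_one]
    ring
  have e : ((fun t => -(gaussianPDFReal 0 1 t * t)) * g) =
      fun t => -(gaussianPDFReal 0 1 t * (t * g t)) := by
    funext t
    simp only [Pi.mul_apply]
    ring
  have := integral_mul_deriv_eq_deriv_mul_of_integrable (fun t _ => hp t) (fun t _ => hg t)
    (hi _ h2) (by rw [e]; exact (hi _ h3).neg) (hi _ h1)
  rw [integral_gaussianReal_eq_integral_smul one_ne_zero,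
    integral_gaussianReal_eq_integral_smul one_ne_zero]
  simp only [smul_eq_mul]
  rw [this, ← integral_neg]
  exact integral_congr_ae (ae_of_all _ fun t => by ring)

theorem stein_mp (e : ι) : MeasurePreserving
    (fun q : (ι → ℝ) × ℝ => Function.update q.1 e q.2) ((gm ι).prod (gaussianReal 0 1)) (gm ι) := by
  have h1 := P150.mp_inj (fun a : ι => if a = e then (Sum.inr () : ι ⊕ Unit) else Sum.inl a)
    fun a b h => by
      by_cases ha : a = e <;> by_cases hb : b = e <;> simp_all
  have h2 := (measurePreserving_sumPiEquivProdPi (X := fun _ : ι ⊕ Unit => ℝ)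
    fun _ => gaussianReal 0 1).symm _
  have h3 := (MeasurePreserving.id (gm ι)).prod
    ((measurePreserving_funUnique (gaussianReal 0 1) Unit).symm _)
  have h4 := h1.comp (h2.comp h3)
  refine ⟨by fun_prop, Eq.trans (congrArg (fun F => Measure.map F _) ?_) h4.map_eq⟩
  funext q a
  by_cases h : a = e
  · simp [h]; rfl
  · simp [h]; rfl

theorem stein {f : (ι → ℝ) → ℝ} (e : ι) (hd : Differentiable ℝ f) (hf : PG f)
    (hf' : PG (pd e f)) : ∫ x, x e * f x ∂gm ι = ∫ x, pd e f x ∂gm ι := by
  have mp := stein_mp e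
  have i1 := (mp.integrable_comp_of_integrable hf.int)
  have i2 := (mp.integrable_comp_of_integrable hf'.int)
  have i3 := (mp.integrable_comp_of_integrable ((PG.coord e).mul hf).int)
  have tr : ∀ {F : (ι → ℝ) → ℝ}, PG F → ∫ x, F x ∂gm ι =
      ∫ x, ∫ t, F (Function.update x e t) ∂gaussianReal 0 1 ∂gm ι := fun {F} hF =>
    (congrArg (fun μ => ∫ x, F x ∂μ) mp.map_eq.symm).trans
      ((integral_map mp.measurable.aemeasurable hF.1.aestronglyMeasurable).trans
        (integral_prod _ (mp.integrable_comp_of_integrable hF.int)))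
  rw [tr ((PG.coord e).mul hf), tr hf']
  refine integral_congr_ae ?_
  filter_upwards [i1.prod_right_ae, i2.prod_right_ae, i3.prod_right_ae] with x a1 a2 a3
  simp only [Function.comp, Function.update_self] at a1 a2 a3 ⊢
  exact stein_one (fun t => (hd _).hasFDerivAt.comp_hasDerivAt t (hasDerivAt_update x e t)) a1 a2 a3

end Vale.Agent.P146
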