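import Vale.Agent.P146.Al

namespace Vale.Agent.P146

open MeasureTheory ProbabilityTheory Matrix Real Finset Filter Topology
open P150 (gm spin Cfg)

variable {ι : Type} [Fintype ι] [DecidableEq ι] {J : Type} [Fintype J] {n : ℕ} {β : ℝ}

lemma TmD_cons {m : ℕ} {α : Type} [Fintype α] (f : (Fin (m + 1) → α) → ℝ) :
    ∑ s, f s = ∑ σ, ∑ t : Fin m → α, f (Fin.cons σ t) := by
  rw [← Fintype.sum_prod_type', ← (Fin.consEquiv fun _ => α).sum_comp]
  rfl

lemma TmD_pw {m : ℕ} (x : Om n) (σ : Cfg n) (t : Fin m → Cfg n) :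
    pw β x (Fin.cons σ t : Fin (m + 1) → Cfg n) = gw β x σ * pw β x t := by
  simp [pw, Fin.prod_univ_succ]

theorem Tm.pad {A : Mx n} {m a : ℕ} {c : ℝ} {F : J → Om n → ℝ} (h : Tm β A m c a F) :
    Tm β A (m + 1) c a F := by
  obtain ⟨Φ, u0, u, h1, h2, h3⟩ := h
  refine ⟨fun s => Φ (Fin.tail s), u0, Fin.cons 0 u, by simpa [Fin.sum_univ_succ] using h1,
    fun j x => ?_, fun s s' M hM => h3 _ _ M fun l l' => hM _ _⟩
  rw [h2, TmD_cons]
  simp only [TmD_pw, Fin.tail_cons, Fin.sum_univ_succ, Fin.cons_zero, Fin.cons_succ, zero_mul,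
    zero_add, mul_assoc, ← mul_sum]
  rw [← sum_mul, gw_sum, one_mul]

/-- directional derivative -/
def TmD_H (e : ι) (f : (ι → ℝ) → ℝ) (x : ι → ℝ) (d : ℝ) : Prop :=
  DifferentiableAt ℝ f x ∧ pd e f x = d

lemma TmD_const (e : ι) (c : ℝ) (x : ι → ℝ) : TmD_H e (fun _ => c) x 0 :=
  ⟨differentiableAt_const _, by simp [pd]⟩

lemma TmD_coord (e e' : ι) (x : ι → ℝ) : TmD_H e (fun x => x e') x (if e' = e then 1 else 0) :=
  ⟨differentiableAt_apply _ _, by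
    rw [pd, (hasFDerivAt_apply e' x).fderiv]
    simp [Pi.single_apply]⟩

lemma TmD_H.add {e : ι} {f g : (ι → ℝ) → ℝ} {x : ι → ℝ} {d d' : ℝ} (h : TmD_H e f x d)
    (h' : TmD_H e g x d') : TmD_H e (fun x => f x + g x) x (d + d') :=
  ⟨h.1.add h'.1, by rw [pd, fderiv_fun_add h.1 h'.1, ← h.2, ← h'.2]; rfl⟩

lemma TmD_H.mul {e : ι} {f g : (ι → ℝ) → ℝ} {x : ι → ℝ} {d d' : ℝ} (h : TmD_H e f x d)
    (h' : TmD_H e g x d') : TmD_H e (fun x => f x * g x) x (f x * d' + g x * d) :=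
  ⟨h.1.mul h'.1, by rw [pd, fderiv_fun_mul h.1 h'.1, ← h.2, ← h'.2]; rfl⟩

lemma TmD_sum {κ : Type} [Fintype κ] {e : ι} {f : κ → (ι → ℝ) → ℝ} {x : ι → ℝ} {d : κ → ℝ}
    (h : ∀ k, TmD_H e (f k) x (d k)) : TmD_H e (fun x => ∑ k, f k x) x (∑ k, d k) :=
  ⟨DifferentiableAt.fun_sum fun k _ => (h k).1, by
    rw [pd, fderiv_fun_sum fun k _ => (h k).1, ContinuousLinearMap.sum_apply]
    exact sum_congr rfl fun k _ => (h k).2⟩

lemma TmD_dH (A : Mx n) (v : Fin n → ℝ) (e : Fin n × Fin n) (x : Om n) :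
    TmD_H e (fun x => dH β A x v) x (lam β A v e) := by
  have h := TmD_sum fun e' => (TmD_coord e e' x).mul (TmD_const e (lam β A v e') x)
  simp only [mul_zero, zero_add, mul_ite, mul_one, sum_ite_eq', mem_univ, if_true] at h
  exact h

lemma TmD_dpw (m : ℕ) (s : Fin m → Cfg n) (e : Fin n × Fin n) (x : Om n) :
    TmD_H e (fun x => pw β x s) x (pw β x s * (∑ l, ep β (sp (s l)) (sp (s l)) e -
      m * av β x fun τ => ep β (sp τ) (sp τ) e)) := by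
  induction m with
  | zero => simpa [pw] using TmD_const e 1 x
  | succ m ih =>
    have h := TmD_H.mul ⟨gw_diff (β := β) (s 0) x, pd_gw (s 0) e x⟩ (ih (Fin.tail s))
    have e1 : ∀ x, pw β x s = gw β x (s 0) * pw β x (Fin.tail s) := fun x => by
      rw [← TmD_pw, Fin.cons_self_tail]
    simp only [e1, Fin.sum_univ_succ]
    refine ⟨h.1, h.2.trans ?_⟩
    simp only [Fin.tail]
    push_cast
    ring

lemma TmD_ker {m b : ℕ} (hm : 1 ≤ m) {w K M : ℝ} (hw : 0 ≤ w) {E : Finset (Fin n × Fin n)}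
    {f : Cfg n → Fin n × Fin n → ℝ} (hf : ∀ σ τ, |∑ e ∈ E, f σ e * f τ e| ≤ w * Mv σ τ ^ b)
    (κ : Fin m → ℝ) (hκ : ∑ l, |κ l| ≤ K) {s s' : Fin m → Cfg n}
    (hM : ∀ l l', Mv (s l) (s' l') ≤ M) :
    |∑ e, (if e ∈ E then ∑ l, κ l * f (s l) e else 0) *
      (if e ∈ E then ∑ l, κ l * f (s' l) e else 0)| ≤ K ^ 2 * w * M ^ b := by
  have h0 : ∀ σ τ : Cfg n, 0 ≤ Mv σ τ := fun σ τ => by unfold Mv; positivity
  have h1 : 0 ≤ M := (h0 _ _).trans (hM ⟨0, hm⟩ ⟨0, hm⟩)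
  have e1 : ∑ e, (if e ∈ E then ∑ l, κ l * f (s l) e else 0) *
      (if e ∈ E then ∑ l, κ l * f (s' l) e else 0) =
      ∑ l, ∑ l', κ l * κ l' * ∑ e ∈ E, f (s l) e * f (s' l') e := by
    simp only [ite_zero_mul_ite_zero, and_self, sum_ite_mem, univ_inter, sum_mul_sum]
    simp only [mul_sum]
    rw [sum_comm]
    refine sum_congr rfl fun l _ => ?_
    rw [sum_comm]
    exact sum_congr rfl fun l' _ => sum_congr rfl fun e _ => by ring
  rw [e1]
  calc _ ≤ ∑ l, ∑ l', |κ l| * |κ l'| * (w * M ^ b) := by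
        refine (abs_sum_le_sum_abs _ _).trans (sum_le_sum fun l _ =>
          (abs_sum_le_sum_abs _ _).trans (sum_le_sum fun l' _ => ?_))
        rw [abs_mul, abs_mul]
        gcongr
        exact (hf _ _).trans (mul_le_mul_of_nonneg_left (pow_le_pow_left₀ (h0 _ _) (hM l l') b) hw)
    _ = (∑ l, |κ l|) ^ 2 * (w * M ^ b) := by
        rw [sq, sum_mul_sum, sum_mul]
        simp only [sum_mul]
    _ ≤ _ := by
        rw [mul_assoc]
        gcongr

lemma TmD_prod {Φ Φ' : J → ℝ} {g g' : ι → ℝ} {c K M : ℝ} {a b : ℕ}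
    (h1 : |∑ j, Φ j * Φ' j| ≤ c * M ^ a) (h2 : |∑ e, g e * g' e| ≤ K * M ^ b) :
    |∑ p : J × ι, Φ p.1 * g p.2 * (Φ' p.1 * g' p.2)| ≤ c * K * M ^ (a + b) := by
  have e : ∑ p : J × ι, Φ p.1 * g p.2 * (Φ' p.1 * g' p.2) =
      (∑ j, Φ j * Φ' j) * ∑ e, g e * g' e := by
    rw [sum_mul_sum, Fintype.sum_prod_type]
    exact sum_congr rfl fun j _ => sum_congr rfl fun e _ => by ring
  rw [e, abs_mul, pow_add, mul_mul_mul_comm]
  exact mul_le_mul h1 h2 (abs_nonneg _) ((abs_nonneg _).trans h1)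

theorem Tm.der {A : Mx n} {m a b : ℕ} {c w : ℝ} {F : J → Om n → ℝ} (hm : 1 ≤ m) (hc : 0 ≤ c)
    (hw : 0 ≤ w) {E : Finset (Fin n × Fin n)} (hE : Pr β A E w b) (h : Tm β A m c a F) :
    ∃ F₁ F₂, dd E F = F₁ + F₂ ∧ Tm β A (m + 1) (c * ((2 * m + 2) ^ 2 * w)) (a + b) F₁ ∧
      Tm β A (m + 1) (c * ((2 * m + 2) ^ 2 * w)) (a + b) F₂ := by
  obtain ⟨Φ, u0, u, h1, h2, h3⟩ := h
  have hm0 : (0 : ℝ) ≤ m := Nat.cast_nonneg m
  let κ : Fin (m + 1) → ℝ := Fin.cons (-m) fun _ => 1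
  let u' : Fin (m + 1) → ℝ := Fin.cons 0 u
  refine ⟨fun p x => ∑ s : Fin (m + 1) → Cfg n, pw β x s * (Φ (Fin.tail s) p.1 *
      (if p.2 ∈ E then ∑ l, κ l * ep β (sp (s l)) (sp (s l)) p.2 else 0) *
        (u0 + ∑ l, u' l * dH β A x (sp (s l)))),
    fun p x => ∑ s : Fin m → Cfg n, pw β x s * (Φ s p.1 *
      (if p.2 ∈ E then ∑ l, u l * lam β A (sp (s l)) p.2 else 0) *
        (1 + ∑ l, 0 * dH β A x (sp (s l)))), ?_,
    ⟨_, u0, u', by simpa [u', Fin.sum_univ_succ] using h1, fun _ _ => rfl, fun s s' M hM => ?_⟩,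
    Tm.pad ⟨_, 1, fun _ => 0, by simp, fun _ _ => rfl, fun s s' M hM => ?_⟩⟩
  · funext ⟨j, e⟩ x
    by_cases he : e ∈ E
    · have hF : F j = _ := funext (h2 j)
      have h4 := (TmD_sum fun s : Fin m → Cfg n => (TmD_dpw (β := β) m s e x).mul
        ((TmD_const e (Φ s j) x).mul ((TmD_const e u0 x).add (TmD_sum fun l =>
          (TmD_const e (u l) x).mul (TmD_dH (β := β) A (sp (s l)) e x))))).2
      simp only [dd, he, if_true, Pi.add_apply]
      rw [hF, h4, TmD_cons, sum_comm, ← sum_add_distrib]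
      refine sum_congr rfl fun s _ => ?_
      simp only [TmD_pw, Fin.tail_cons, Fin.sum_univ_succ, Fin.cons_zero, Fin.cons_succ, κ, u',
        zero_mul, zero_add, one_mul, mul_zero, add_zero, sum_const_zero, mul_one]
      generalize u0 + ∑ l, u l * dH β A x (sp (s l)) = G
      generalize ∑ l, ep β (sp (s l)) (sp (s l)) e = S
      have e1 : ∀ σ, gw β x σ * pw β x s * (Φ s j * (-m * ep β (sp σ) (sp σ) e + S) * G) =
          pw β x s * Φ s j * G * S * gw β x σ -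
            pw β x s * Φ s j * G * m * (gw β x σ * ep β (sp σ) (sp σ) e) := fun σ => by ring
      simp only [e1, sum_sub_distrib, ← mul_sum, gw_sum, av]
      ring
    · simp [dd, he]
  · refine TmD_prod (h3 _ _ M fun l l' => hM _ _) (TmD_ker (by omega) hw
      (f := fun σ => ep β (sp σ) (sp σ)) (fun σ τ => (hE σ τ).1) κ ?_ hM)
    simp [κ, Fin.sum_univ_succ]
    linarith
  · refine TmD_prod (h3 _ _ M hM) (TmD_ker hm hw
      (f := fun σ => lam β A (sp σ)) (fun σ τ => (hE σ τ).2) u ?_ hM)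
    linarith [abs_nonneg u0]

end Vale.Agent.P146
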